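import Mathlib
import Crest.Prelude.Def_AsymptoticConvexity

set_option autoImplicit false

namespace Crest.Agent.Lib.AUC

open Filter Topology

variable {X : Type*} [NormedAddCommGroup X] [NormedSpace ℝ X]

/-- closed finite-codimensional subspace as a set. -/
def Cof (F : Set X) : Prop :=
  ∃ S : Submodule ℝ X, (S : Set X) = F ∧ IsClosed F ∧ FiniteDimensional ℝ (X ⧸ S)

lemma isCof_iff (E : Crest.AnalysisR.RealBanach) (F : Set E.X) :
    E.IsCof F ↔ @Cof E.X E.normed E.space F := Iff.rfl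

/-- A closed finite codimensional subspace is the zero set of a continuous linear map into a
Euclidean space, with a uniform distance bound. -/
lemma Cof.exists_map {F : Set X} (hF : Cof F) :
    ∃ (n : ℕ) (T : X →L[ℝ] EuclideanSpace ℝ (Fin n)) (C : ℝ), 0 ≤ C ∧
      (∀ y ∈ F, T y = 0) ∧ ∀ y : X, ∃ w ∈ F, ‖y - w‖ ≤ C * ‖T y‖ := by
  obtain ⟨S, rfl, hcl, hfin⟩ := hF
  have hclS : IsClosed (S : Set X) := hcl
  have := hfin
  let Q := X ⧸ S
  let n := Module.finrank ℝ Q
  let L0 : Q ≃ₗ[ℝ] EuclideanSpace ℝ (Fin n) :=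
    LinearEquiv.ofFinrankEq _ _ (by simp [n])
  let L : Q ≃L[ℝ] EuclideanSpace ℝ (Fin n) := L0.toContinuousLinearEquiv
  let π : X →L[ℝ] Q := S.mkQL
  refine ⟨n, (L : Q →L[ℝ] EuclideanSpace ℝ (Fin n)).comp π, ‖(L.symm : EuclideanSpace ℝ (Fin n) →L[ℝ] Q)‖ + 1,
    by positivity, ?_, ?_⟩
  · intro y hy
    have : π y = 0 := (Submodule.Quotient.mk_eq_zero S).2 hy
    simp [this]
  · intro y
    set Ty := ((L : Q →L[ℝ] EuclideanSpace ℝ (Fin n)).comp π) y with hTy
    have hπ : π y = L.symm Ty := by simp [hTy]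
    have hbound : ‖π y‖ ≤ ‖(L.symm : EuclideanSpace ℝ (Fin n) →L[ℝ] Q)‖ * ‖Ty‖ := by
      rw [hπ]
      exact ContinuousLinearMap.le_opNorm (L.symm : EuclideanSpace ℝ (Fin n) →L[ℝ] Q) Ty
    by_cases h0 : Ty = 0
    · have hπ0 : π y = 0 := by simp [hπ, h0]
      have hyS : y ∈ S := (Submodule.Quotient.mk_eq_zero S).1 hπ0
      exact ⟨y, hyS, by simp [h0]⟩
    · have hpos : 0 < ‖Ty‖ := norm_pos_iff.mpr h0
      -- choose an approximate minimiser
      obtain ⟨m, hm, hm2⟩ := Submodule.Quotient.norm_mk_lt (S := S) (π y) hpos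
      have hmem : y - m ∈ S := by
        have h1 : (Submodule.Quotient.mk (y - m) : X ⧸ S) = 0 := by
          rw [Submodule.Quotient.mk_sub, hm]
          exact sub_self _
        exact (Submodule.Quotient.mk_eq_zero S).1 h1
      refine ⟨y - m, hmem, ?_⟩
      have : y - (y - m) = m := by abel
      rw [this]
      nlinarith

/-- If all continuous linear functionals tend to zero along a sequence then it approaches any
closed finite codimensional subspace. -/
lemma Cof.exists_close_of_weakNull {F : Set X} (hF : Cof F) {z : ℕ → X}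
    (hz : ∀ φ : X →L[ℝ] ℝ, Tendsto (fun n => φ (z n)) atTop (𝓝 0)) {ε : ℝ} (hε : 0 < ε) :
    ∀ N : ℕ, ∃ n ≥ N, ∃ w ∈ F, ‖z n - w‖ ≤ ε := by
  obtain ⟨d, T, C, hC, hT0, hT⟩ := hF.exists_map
  have hlim : Tendsto (fun n => T (z n)) atTop (𝓝 0) := by
    have h1 : Tendsto (fun n => (WithLp.ofLp (T (z n)) : Fin d → ℝ)) atTop (𝓝 0) := by
      rw [tendsto_pi_nhds]
      intro i
      have := hz ((EuclideanSpace.proj i : EuclideanSpace ℝ (Fin d) →L[ℝ] ℝ).comp T)
      simpa using this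
    have h2 := (PiLp.continuous_toLp 2 (fun _ : Fin d => ℝ)).tendsto _ |>.comp h1
    have h3 : (WithLp.toLp 2 (0 : Fin d → ℝ) : EuclideanSpace ℝ (Fin d)) = 0 := rfl
    rw [h3] at h2
    exact h2
  have hlim2 : Tendsto (fun n => C * ‖T (z n)‖) atTop (𝓝 0) := by
    have := (hlim.norm).const_mul C
    simpa using this
  intro N
  have hev : ∀ᶠ n in atTop, C * ‖T (z n)‖ < ε := hlim2.eventually (gt_mem_nhds hε)
  obtain ⟨n, hn1, hn2⟩ := (hev.and (eventually_ge_atTop N)).exists
  obtain ⟨w, hw, hw2⟩ := hT (z n)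
  exact ⟨n, hn2, w, hw, hw2.trans hn1.le⟩

lemma seg_identity (u w : X) {lam τ t : ℝ} (h : lam * τ = t) :
    u + t • w = (1 - lam) • u + lam • (u + τ • w) := by
  rw [← h, smul_add, smul_smul, sub_smul, one_smul]
  abel

/-- The game lemma: a bounded "tree" whose moves approach every closed finite codimensional
subspace, with moves of size bounded below, rules out asymptotic uniform convexity. -/
theorem not_auc_of_game (N : X → ℝ)
    (hsub : ∀ x y : X, N (x + y) ≤ N x + N y)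
    (hhom : ∀ (a : ℝ) (x : X), N (a • x) = |a| * N x)
    {a b : ℝ} (ha : 0 < a) (hab : ∀ x : X, a * ‖x‖ ≤ N x ∧ N x ≤ b * ‖x‖)
    {M κ κ₀ : ℝ} (hκ : 0 < κ) (hκ₀ : 0 < κ₀) (P : ℕ → X → Prop)
    (h₀ : ∀ k, ∃ x, P k x ∧ κ₀ ≤ ‖x‖)
    (hbd : ∀ k x, P k x → ‖x‖ ≤ M)
    (hstep : ∀ k x, P (k + 1) x → x ≠ 0 → ∀ F : Set X, Cof F → ∀ ε : ℝ, 0 < ε →
      ∃ y z, z ∈ F ∧ ‖y - z‖ ≤ ε ∧ κ ≤ ‖y‖ ∧ P k (x + y))
    (hAUC : ∀ t : ℝ, 0 < t → ∃ c : ℝ, 0 < c ∧ ∀ x : X, N x = 1 → ∃ F : Set X, Cof F ∧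
      ∀ y ∈ F, N y = 1 → c ≤ N (x + t • y) - 1) : False := by
  obtain ⟨x₀, hx₀P, hx₀⟩ := h₀ 0
  have hM : 0 < M := lt_of_lt_of_le (lt_of_lt_of_le hκ₀ hx₀) (hbd 0 x₀ hx₀P)
  have hb : 0 < b := by
    have h1 := hab x₀
    have hx0 : 0 < ‖x₀‖ := lt_of_lt_of_le hκ₀ hx₀
    have : 0 < a * ‖x₀‖ := by positivity
    have h2 : a * ‖x₀‖ ≤ b * ‖x₀‖ := h1.1.trans h1.2
    by_contra hneg
    push Not at hneg
    nlinarith
  set t₀ : ℝ := a * κ / (2 * b * M) with ht₀
  have ht₀pos : 0 < t₀ := by positivity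
  obtain ⟨c, hc, hauc⟩ := hAUC t₀ ht₀pos
  set N₀ : ℝ := a * κ₀ with hN₀
  have hN₀pos : 0 < N₀ := by positivity
  set ε : ℝ := min (κ / 2) (N₀ * c / (2 * b)) with hε
  have hεpos : 0 < ε := by
    apply lt_min <;> positivity
  have hNzero : ∀ x : X, N 0 = 0 := by
    intro _
    have := hhom 0 (0 : X)
    simpa using this
  -- one step of growth
  have hgrow : ∀ k x, P (k + 1) x → N₀ ≤ N x → ∃ x', P k x' ∧ (1 + c / 2) * N x ≤ N x' := by
    intro k x hPx hNx
    have hNxpos : 0 < N x := lt_of_lt_of_le hN₀pos hNx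
    have hx0 : x ≠ 0 := by
      rintro rfl
      rw [hNzero 0] at hNxpos
      exact lt_irrefl _ hNxpos
    set u : X := (N x)⁻¹ • x with hu
    have hNu : N u = 1 := by
      rw [hu, hhom, abs_of_pos (inv_pos.mpr hNxpos)]
      field_simp
    obtain ⟨F, hFcof, hF⟩ := hauc u hNu
    obtain ⟨y, z, hzF, hyz, hyκ, hP'⟩ := hstep k x hPx hx0 F hFcof ε hεpos
    refine ⟨x + y, hP', ?_⟩
    obtain ⟨S, rfl, -, -⟩ := hFcof
    have hεκ : ε ≤ κ / 2 := min_le_left _ _
    have hzκ : κ / 2 ≤ ‖z‖ := by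
      have : ‖y‖ ≤ ‖z‖ + ‖y - z‖ := by
        have := norm_add_le z (y - z)
        simpa using this
      linarith
    have hNz : a * (κ / 2) ≤ N z := by
      have := (hab z).1
      nlinarith
    have hNzpos : 0 < N z := lt_of_lt_of_le (by positivity) hNz
    set w : X := (N z)⁻¹ • z with hw
    have hwF : w ∈ S := S.smul_mem _ hzF
    have hNw : N w = 1 := by
      rw [hw, hhom, abs_of_pos (inv_pos.mpr hNzpos)]
      field_simp
    have hcw := hF w hwF hNw
    set τ : ℝ := N z / N x with hτ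
    have hNxM : N x ≤ b * M := by
      have h1 := (hab x).2
      have h2 := hbd _ _ hPx
      nlinarith
    have hτpos : 0 < τ := by positivity
    have ht₀τ : t₀ ≤ τ := by
      rw [ht₀, hτ, div_le_div_iff₀ (by positivity) hNxpos]
      have h1 : a * κ * N x ≤ a * κ * (b * M) := by
        apply mul_le_mul_of_nonneg_left hNxM (by positivity)
      have h2 : a * (κ / 2) * (2 * b * M) ≤ N z * (2 * b * M) := by
        apply mul_le_mul_of_nonneg_right hNz (by positivity)
      nlinarith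
    -- convexity along the segment
    set lam : ℝ := t₀ / τ with hlam
    have hlampos : 0 < lam := by positivity
    have hlam1 : lam ≤ 1 := by
      rw [hlam, div_le_one hτpos]; exact ht₀τ
    have hseg : u + t₀ • w = (1 - lam) • u + lam • (u + τ • w) := by
      apply seg_identity
      rw [hlam]; field_simp
    have hconv : N (u + t₀ • w) ≤ (1 - lam) * 1 + lam * N (u + τ • w) := by
      rw [hseg]
      refine (hsub _ _).trans ?_
      have h1 : N ((1 - lam) • u) = (1 - lam) * 1 := by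
        rw [hhom, hNu, abs_of_nonneg (by linarith)]
      have h2 : N (lam • (u + τ • w)) = lam * N (u + τ • w) := by
        rw [hhom, abs_of_pos hlampos]
      rw [h1, h2]
    have hge : 1 + c ≤ N (u + τ • w) := by
      have h1 : 1 + c ≤ (1 - lam) * 1 + lam * N (u + τ • w) := by linarith
      have h2 : lam * (1 + c) ≤ lam * N (u + τ • w) := by
        nlinarith
      have h3 := le_of_mul_le_mul_left h2 hlampos
      linarith
    have hscale : N (x + z) = N x * N (u + τ • w) := by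
      have : x + z = N x • (u + τ • w) := by
        have e1 : N x • u = x := by
          rw [hu, smul_smul, mul_inv_cancel₀ hNxpos.ne', one_smul]
        have e2 : N x • τ • w = z := by
          rw [hw, smul_smul, smul_smul]
          have : N x * τ * (N z)⁻¹ = 1 := by
            rw [hτ]; field_simp
          rw [this, one_smul]
        rw [smul_add, e1, e2]
      rw [this, hhom, abs_of_pos hNxpos]
    have hxz : (1 + c) * N x ≤ N (x + z) := by
      rw [hscale]
      nlinarith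
    have hyz' : N (y - z) ≤ b * ε := by
      have h1 := (hab (y - z)).2
      have h2 : b * ‖y - z‖ ≤ b * ε := mul_le_mul_of_nonneg_left hyz hb.le
      linarith
    have hεc : b * ε ≤ N₀ * c / 2 := by
      have h1 : ε ≤ N₀ * c / (2 * b) := min_le_right _ _
      calc b * ε ≤ b * (N₀ * c / (2 * b)) := mul_le_mul_of_nonneg_left h1 hb.le
        _ = N₀ * c / 2 := by field_simp
    have hfinal : N (x + z) ≤ N (x + y) + N (-(y - z)) := by
      have := hsub (x + y) (-(y - z))
      have h2 : x + y + -(y - z) = x + z := by abel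
      rwa [h2] at this
    have hneg : N (-(y - z)) = N (y - z) := by
      have := hhom (-1) (y - z)
      simpa using this
    nlinarith
  -- iterate
  have hiter : ∀ K i, i ≤ K → ∀ x, P K x → N₀ ≤ N x →
      ∃ x', P (K - i) x' ∧ (1 + c / 2) ^ i * N x ≤ N x' := by
    intro K i
    induction i with
    | zero =>
      intro _ x hx _
      exact ⟨x, by simpa using hx, by simp⟩
    | succ i ih =>
      intro hi x hx hNx
      obtain ⟨x', hx', hgr⟩ := ih (by omega) x hx hNx
      have hK : K - i = (K - (i + 1)) + 1 := by omega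
      rw [hK] at hx'
      have hpow1 : 1 ≤ (1 + c / 2) ^ i := one_le_pow₀ (by linarith)
      have hNx' : N₀ ≤ N x' := by
        have hNxnn : 0 ≤ N x := le_trans hN₀pos.le hNx
        nlinarith
      obtain ⟨x'', hx'', hgr'⟩ := hgrow _ _ hx' hNx'
      refine ⟨x'', hx'', ?_⟩
      rw [pow_succ]
      have hcc : 0 < 1 + c / 2 := by positivity
      calc (1 + c / 2) ^ i * (1 + c / 2) * N x = (1 + c / 2) * ((1 + c / 2) ^ i * N x) := by ring
        _ ≤ (1 + c / 2) * N x' := mul_le_mul_of_nonneg_left hgr hcc.le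
        _ ≤ N x'' := hgr'
  have hbig : ∃ K : ℕ, b * M / N₀ < (1 + c / 2) ^ K :=
    pow_unbounded_of_one_lt _ (by linarith)
  obtain ⟨K, hK⟩ := hbig
  obtain ⟨x, hxP, hxκ⟩ := h₀ K
  have hNx : N₀ ≤ N x := by
    have := (hab x).1
    have h2 : a * κ₀ ≤ a * ‖x‖ := mul_le_mul_of_nonneg_left hxκ ha.le
    linarith
  obtain ⟨x', hx', hgr⟩ := hiter K K le_rfl x hxP hNx
  have hub : N x' ≤ b * M := by
    have h1 := (hab x').2
    have h2 := hbd _ _ hx'
    nlinarith
  have hlow : (1 + c / 2) ^ K * N₀ ≤ N x' := by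
    have : (1 + c / 2) ^ K * N₀ ≤ (1 + c / 2) ^ K * N x :=
      mul_le_mul_of_nonneg_left hNx (by positivity)
    linarith
  rw [div_lt_iff₀ hN₀pos] at hK
  linarith

/-- The common kernel of finitely many functionals is a closed finite codimensional subspace. -/
lemma cof_of_functionals {ι : Type*} [Fintype ι] (φ : ι → X →L[ℝ] ℝ) :
    Cof {u : X | ∀ i, φ i u = 0} := by
  classical
  let L : X →ₗ[ℝ] (ι → ℝ) := LinearMap.pi (fun i => (φ i : X →ₗ[ℝ] ℝ))
  refine ⟨LinearMap.ker L, ?_, ?_, ?_⟩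
  · ext u
    simp [L, funext_iff]
  · have : {u : X | ∀ i, φ i u = 0} = ⋂ i, {u : X | φ i u = 0} := by
      ext u; simp
    rw [this]
    exact isClosed_iInter fun i => isClosed_eq (φ i).continuous continuous_const
  · exact Module.Finite.equiv (LinearMap.quotKerEquivRange L).symm

/-- An `ℓ²` upper estimate gives weak nullity. -/
lemma weakNull_of_ell2 {z : ℕ → X} {C : ℝ} (hC : 0 ≤ C)
    (hz : ∀ (K : ℕ) (a : ℕ → ℝ),
      ‖∑ n ∈ Finset.range K, a n • z n‖ ≤ C * Real.sqrt (∑ n ∈ Finset.range K, a n ^ 2))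
    (φ : X →L[ℝ] ℝ) : Tendsto (fun n => φ (z n)) atTop (𝓝 0) := by
  set a : ℕ → ℝ := fun n => φ (z n) with ha
  have hbound : ∀ K : ℕ, ∑ n ∈ Finset.range K, a n ^ 2 ≤ (‖φ‖ * C) ^ 2 := by
    intro K
    set S : ℝ := ∑ n ∈ Finset.range K, a n ^ 2 with hS
    have hS0 : 0 ≤ S := Finset.sum_nonneg fun _ _ => sq_nonneg _
    have h1 : φ (∑ n ∈ Finset.range K, a n • z n) = S := by
      rw [map_sum]
      apply Finset.sum_congr rfl
      intro n _
      rw [map_smul, smul_eq_mul, sq]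
    have h2 : S ≤ ‖φ‖ * (C * Real.sqrt S) := by
      have h5 : φ (∑ n ∈ Finset.range K, a n • z n) ≤ ‖φ‖ * ‖∑ n ∈ Finset.range K, a n • z n‖ :=
        (le_abs_self _).trans (φ.le_opNorm _)
      have h6 := mul_le_mul_of_nonneg_left (hz K a) (norm_nonneg φ)
      rw [h1] at h5
      exact h5.trans h6
    have hsq : Real.sqrt S ^ 2 = S := Real.sq_sqrt hS0
    have hsq0 : 0 ≤ Real.sqrt S := Real.sqrt_nonneg _
    by_cases h0 : Real.sqrt S = 0
    · rw [h0] at hsq
      have : S = 0 := by nlinarith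
      rw [this]
      positivity
    · have hpos : 0 < Real.sqrt S := lt_of_le_of_ne hsq0 (Ne.symm h0)
      have h3 : Real.sqrt S ≤ ‖φ‖ * C := by
        have h4 : Real.sqrt S * Real.sqrt S ≤ (‖φ‖ * C) * Real.sqrt S := by
          nlinarith
        exact le_of_mul_le_mul_right h4 hpos
      calc S = Real.sqrt S ^ 2 := hsq.symm
        _ ≤ (‖φ‖ * C) ^ 2 := pow_le_pow_left₀ hsq0 h3 2
  have hsum : Summable fun n => a n ^ 2 :=
    summable_of_sum_range_le (fun _ => sq_nonneg _) hbound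
  have hlim := hsum.tendsto_atTop_zero
  have hsqrt : Tendsto (fun n => Real.sqrt (a n ^ 2)) atTop (𝓝 0) := by
    have := (Real.continuous_sqrt.tendsto 0).comp hlim
    rw [Real.sqrt_zero] at this
    exact this
  have habs : Tendsto (fun n => |a n|) atTop (𝓝 0) := by
    refine hsqrt.congr fun n => ?_
    exact Real.sqrt_sq_eq_abs _
  exact (tendsto_zero_iff_abs_tendsto_zero _).2 habs

end Crest.Agent.Lib.AUC
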