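import Mathlib
import Crest.Prelude.Def_DaugavetL1
import Crest.Agent.Lib.AUCGame

set_option autoImplicit false

namespace Crest.Agent.Lib.AUC

open Filter Topology Crest.AnalysisR.L1Subspace
open scoped InnerProductSpace

variable {V : Type*} [NormedAddCommGroup V] [NormedSpace ℝ V]

/-- Spikes in slices. -/
lemma exists_spike (hD : HasDaugavetProperty V) {v : V} (hv : ‖v‖ = 1) (ψ : V →L[ℝ] ℝ) {ε : ℝ}
    (hε : 0 < ε) : ∃ y : V, ‖y‖ ≤ 1 ∧ ‖ψ‖ - ε ≤ ψ y ∧ 2 - ε ≤ ‖v + y‖ := by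
  have hv0 : v ≠ 0 := by
    intro h
    rw [h, norm_zero] at hv
    exact zero_ne_one hv
  -- a norm one functional in the direction of ψ
  obtain ⟨χ, hχ1, hχ⟩ : ∃ χ : V →L[ℝ] ℝ, ‖χ‖ = 1 ∧ ψ = ‖ψ‖ • χ := by
    by_cases hψ : ψ = 0
    · obtain ⟨g, hg1, _⟩ := exists_dual_vector ℝ v (norm_ne_zero_iff.mpr hv0)
      exact ⟨g, hg1, by simp [hψ]⟩
    · have hpos : 0 < ‖ψ‖ := norm_pos_iff.mpr hψ
      refine ⟨‖ψ‖⁻¹ • ψ, ?_, ?_⟩
      · rw [norm_smul, norm_inv, norm_norm, inv_mul_cancel₀ hpos.ne']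
      · rw [smul_smul, mul_inv_cancel₀ hpos.ne', one_smul]
  set δ : ℝ := min (ε / 2) (ε / (‖ψ‖ + 1)) with hδ
  have hδpos : 0 < δ := by
    apply lt_min <;> positivity
  have hδ1 : δ ≤ ε / 2 := min_le_left _ _
  have hδ2 : δ * ‖ψ‖ ≤ ε := by
    have h1 : δ ≤ ε / (‖ψ‖ + 1) := min_le_right _ _
    have h2 : δ * (‖ψ‖ + 1) ≤ ε := by
      rwa [le_div_iff₀ (by positivity)] at h1
    nlinarith
  have hDP := hD χ v
  have hnorm : ‖χ.smulRight v‖ = 1 := by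
    rw [ContinuousLinearMap.norm_smulRight_apply, hχ1, hv, one_mul]
  rw [hnorm] at hDP
  have hlt : 2 - δ < ‖ContinuousLinearMap.id ℝ V + χ.smulRight v‖ := by
    rw [hDP]; linarith
  obtain ⟨z, hz1, hz2⟩ := (ContinuousLinearMap.id ℝ V + χ.smulRight v).exists_lt_apply_of_lt_opNorm hlt
  have hz3 : ‖z + χ z • v‖ = ‖(ContinuousLinearMap.id ℝ V + χ.smulRight v) z‖ := by
    simp
  rw [← hz3] at hz2
  have hχz : |χ z| ≤ 1 := by
    have := χ.le_opNorm z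
    rw [hχ1, Real.norm_eq_abs, one_mul] at this
    linarith
  have hlow : 1 - δ < |χ z| := by
    have h1 : ‖z + χ z • v‖ ≤ ‖z‖ + |χ z| := by
      refine (norm_add_le _ _).trans ?_
      rw [norm_smul, hv, Real.norm_eq_abs, mul_one]
    linarith
  -- adjust the sign
  obtain ⟨y, hy1, hy2, hy3⟩ : ∃ y : V, ‖y‖ ≤ 1 ∧ χ y = |χ z| ∧ ‖y + χ y • v‖ = ‖z + χ z • v‖ := by
    rcases abs_cases (χ z) with ⟨h1, _⟩ | ⟨h1, _⟩
    · exact ⟨z, hz1.le, h1.symm, rfl⟩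
    · refine ⟨-z, by simpa using hz1.le, by simp [h1], ?_⟩
      have : -z + χ (-z) • v = -(z + χ z • v) := by
        simp [add_comm]
      rw [this, norm_neg]
  refine ⟨y, hy1, ?_, ?_⟩
  · have h1 : ψ y = ‖ψ‖ * χ y := by
      conv_lhs => rw [hχ]
      rfl
    rw [h1, hy2]
    nlinarith [norm_nonneg ψ]
  · have e : v + y = (y + χ y • v) + (1 - χ y) • v := by
      rw [sub_smul, one_smul]
      abel
    have h2 : ‖y + χ y • v‖ ≤ ‖v + y‖ + ‖(1 - χ y) • v‖ := by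
      have := norm_sub_le (v + y) ((1 - χ y) • v)
      have e2 : v + y - (1 - χ y) • v = y + χ y • v := by
        rw [e]; abel
      rwa [e2] at this
    rw [norm_smul, hv, Real.norm_eq_abs, mul_one, abs_of_nonneg (by rw [hy2]; linarith)] at h2
    rw [hy3, hy2] at h2
    linarith

/-- Additivity with a spike. -/
lemma norm_add_spike {v y : V} (hv : v ≠ 0) (hy : ‖y‖ ≤ 1) {ε : ℝ}
    (hspike : 2 - ε ≤ ‖‖v‖⁻¹ • v + y‖) {r : ℝ} (hr : 0 ≤ r) :
    ‖v‖ + r - ε * max ‖v‖ r ≤ ‖v + r • y‖ := by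
  have hρ : 0 < ‖v‖ := norm_pos_iff.mpr hv
  set ρ : ℝ := ‖v‖ with hρdef
  set u : V := ρ⁻¹ • v with hu
  have hvu : v = ρ • u := by
    rw [hu, smul_smul, mul_inv_cancel₀ hρ.ne', one_smul]
  have hunorm : ‖u‖ = 1 := by
    rw [hu, norm_smul, norm_inv, norm_norm, ← hρdef, inv_mul_cancel₀ hρ.ne']
  rcases le_total r ρ with hle | hle
  · rw [max_eq_left hle]
    have e : v + r • y = ρ • (u + y) - (ρ - r) • y := by
      rw [smul_add, ← hvu, sub_smul]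
      abel
    rw [e]
    have h1 : ‖ρ • (u + y)‖ ≤ ‖ρ • (u + y) - (ρ - r) • y‖ + ‖(ρ - r) • y‖ := by
      have := norm_add_le (ρ • (u + y) - (ρ - r) • y) ((ρ - r) • y)
      rwa [sub_add_cancel] at this
    rw [norm_smul, norm_smul, Real.norm_eq_abs, Real.norm_eq_abs, abs_of_pos hρ,
      abs_of_nonneg (by linarith)] at h1
    have h2 : ρ * (2 - ε) ≤ ρ * ‖u + y‖ := mul_le_mul_of_nonneg_left hspike hρ.le
    have h3 : (ρ - r) * ‖y‖ ≤ (ρ - r) * 1 := mul_le_mul_of_nonneg_left hy (by linarith)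
    nlinarith
  · rw [max_eq_right hle]
    have e : v + r • y = r • (u + y) - (r - ρ) • u := by
      rw [smul_add, sub_smul, ← hvu]
      abel
    rw [e]
    have h1 : ‖r • (u + y)‖ ≤ ‖r • (u + y) - (r - ρ) • u‖ + ‖(r - ρ) • u‖ := by
      have := norm_add_le (r • (u + y) - (r - ρ) • u) ((r - ρ) • u)
      rwa [sub_add_cancel] at this
    rw [norm_smul, norm_smul, Real.norm_eq_abs, Real.norm_eq_abs, abs_of_nonneg hr,
      abs_of_nonneg (by linarith), hunorm] at h1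
    have h2 : r * (2 - ε) ≤ r * ‖u + y‖ := mul_le_mul_of_nonneg_left hspike hr
    nlinarith

/-- The approachability step. -/
lemma approach (hD : HasDaugavetProperty V) {n : ℕ} (T : V →L[ℝ] EuclideanSpace ℝ (Fin n)) {x : V}
    (hx : ‖x‖ = 1) {m : ℕ} (hm : 0 < m) {ε : ℝ} (hε : 0 < ε) (hmε : 2 * (m : ℝ) * ε < 1) (k : ℕ) (hk : k ≤ m) :
    ∃ S : V, ‖S‖ ≤ k ∧ ‖T ((k : ℝ) • x - S)‖ ^ 2 ≤ k * (4 * ‖T‖ ^ 2 + 2) ∧
      1 + (k : ℝ) / m - 2 * k * ε ≤ ‖-x + (m : ℝ)⁻¹ • S‖ := by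
  have hmpos : (0:ℝ) < m := by exact_mod_cast hm
  have hm1 : (1:ℝ) ≤ m := by exact_mod_cast hm
  induction k with
  | zero =>
    refine ⟨0, by simp, by simp, ?_⟩
    simp [hx]
  | succ k ih =>
    obtain ⟨S, hS1, hS2, hS3⟩ := ih (by omega)
    have hkm : (k:ℝ) + 1 ≤ m := by exact_mod_cast hk
    set v : V := -x + (m : ℝ)⁻¹ • S with hv
    have hk2 : 2 * (k : ℝ) * ε ≤ 2 * m * ε := by
      have : (k:ℝ) ≤ m := by linarith
      have h2 : (k:ℝ) * ε ≤ m * ε := mul_le_mul_of_nonneg_right this hε.le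
      linarith
    have hkdiv : 0 ≤ (k:ℝ) / m := by positivity
    have hvpos : 0 < ‖v‖ := by
      linarith
    have hv0 : v ≠ 0 := norm_pos_iff.mp hvpos
    have hvle : ‖v‖ ≤ 2 := by
      have h1 : ‖(m:ℝ)⁻¹ • S‖ ≤ 1 := by
        rw [norm_smul, norm_inv, Real.norm_eq_abs, abs_of_pos hmpos]
        rw [inv_mul_le_iff₀ hmpos, mul_one]
        linarith
      have h2 := norm_add_le (-x) ((m:ℝ)⁻¹ • S)
      rw [norm_neg, hx] at h2
      linarith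
    -- the functional
    set e : EuclideanSpace ℝ (Fin n) := T ((k : ℝ) • x - S) with he
    let ψ : V →L[ℝ] ℝ := (innerSL ℝ e).comp T
    have hψ : ∀ u, ψ u = ⟪e, T u⟫_ℝ := fun u => rfl
    have hunit : ‖‖v‖⁻¹ • v‖ = 1 := by
      rw [norm_smul, norm_inv, norm_norm, inv_mul_cancel₀ hvpos.ne']
    obtain ⟨y, hy1, hy2, hy3⟩ := exists_spike hD hunit ψ (show 0 < min ε 1 from lt_min hε one_pos)
    have hε1 : min ε 1 ≤ ε := min_le_left _ _
    have hε2 : min ε 1 ≤ 1 := min_le_right _ _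
    refine ⟨S + y, ?_, ?_, ?_⟩
    · push_cast
      exact (norm_add_le _ _).trans (by linarith)
    · have e1 : T (((k + 1 : ℕ) : ℝ) • x - (S + y)) = e + T (x - y) := by
        rw [he, ← map_add]
        congr 1
        push_cast
        rw [add_smul, one_smul]
        abel
      rw [e1, norm_add_sq_real]
      have h1 : ⟪e, T (x - y)⟫_ℝ ≤ 1 := by
        rw [← hψ, map_sub]
        have h2 : ψ x ≤ ‖ψ‖ := by
          have := ψ.le_opNorm x
          rw [hx, mul_one, Real.norm_eq_abs] at this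
          exact (le_abs_self _).trans this
        linarith
      have h2 : ‖T (x - y)‖ ^ 2 ≤ 4 * ‖T‖ ^ 2 := by
        have h3 : ‖T (x - y)‖ ≤ ‖T‖ * 2 := by
          refine (T.le_opNorm _).trans (mul_le_mul_of_nonneg_left ?_ (norm_nonneg _))
          refine (norm_sub_le _ _).trans ?_
          rw [hx]
          linarith
        calc ‖T (x - y)‖ ^ 2 ≤ (‖T‖ * 2) ^ 2 := pow_le_pow_left₀ (norm_nonneg _) h3 2
          _ = 4 * ‖T‖ ^ 2 := by ring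
      push_cast
      nlinarith
    · have e2 : -x + (m : ℝ)⁻¹ • (S + y) = v + (m : ℝ)⁻¹ • y := by
        rw [smul_add, hv]
        abel
      rw [e2]
      have hr : 0 ≤ (m : ℝ)⁻¹ := by positivity
      have h3 := norm_add_spike hv0 hy1 hy3 hr
      have hr1 : (m : ℝ)⁻¹ ≤ 1 := by
        rw [inv_le_one₀ hmpos]
        exact hm1
      have hmax : max ‖v‖ (m : ℝ)⁻¹ ≤ 2 := max_le hvle (by linarith)
      have hmaxnn : 0 ≤ max ‖v‖ (m : ℝ)⁻¹ := le_max_of_le_left (norm_nonneg _)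
      have h4 : min ε 1 * max ‖v‖ (m : ℝ)⁻¹ ≤ ε * 2 :=
        mul_le_mul hε1 hmax hmaxnn hε.le
      have e3 : (((k + 1 : ℕ) : ℝ)) / m = (k:ℝ) / m + (m : ℝ)⁻¹ := by
        push_cast
        field_simp
      rw [e3]
      push_cast
      nlinarith

/-- The main consequence of the Daugavet property: in every closed finite codimensional subspace
there is a unit vector close to `s - x / 2` with `‖s‖ ≤ 1 / 2`. -/
theorem exists_upper (hD : HasDaugavetProperty V) {F : Set V} (hF : Cof F) {x : V} (hx : ‖x‖ = 1)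
    {η : ℝ} (hη : 0 < η) :
    ∃ y ∈ F, ‖y‖ = 1 ∧ ∃ s : V, ‖s‖ ≤ 1 / 2 ∧ ‖y - (s - (1 / 2 : ℝ) • x)‖ ≤ η := by
  obtain ⟨n, T, C, hC, hT0, hT⟩ := hF.exists_map
  obtain ⟨S₀, rfl, -, -⟩ := hF
  set η₁ : ℝ := min (η / 3) (1 / 4) with hη₁
  have hη₁pos : 0 < η₁ := lt_min (by positivity) (by norm_num)
  have hη₁1 : η₁ ≤ η / 3 := min_le_left _ _
  have hη₁2 : η₁ ≤ 1 / 4 := min_le_right _ _
  set C₀ : ℝ := 4 * ‖T‖ ^ 2 + 2 with hC₀
  have hC₀pos : 0 < C₀ := by positivity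
  -- the number of steps
  obtain ⟨m₀, hm₀⟩ := exists_nat_gt (C ^ 2 * C₀ / η₁ ^ 2)
  set m : ℕ := m₀ + 1 with hm
  have hmpos : 0 < m := Nat.succ_pos _
  have hmR : (0:ℝ) < m := by exact_mod_cast hmpos
  have hmgt : C ^ 2 * C₀ / η₁ ^ 2 < m := by
    have : (m₀ : ℝ) < m := by
      rw [hm]; push_cast; linarith
    linarith
  have hmbound : C ^ 2 * (C₀ / m) ≤ η₁ ^ 2 := by
    rw [div_lt_iff₀ (by positivity)] at hmgt
    rw [mul_div_assoc', div_le_iff₀ hmR]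
    nlinarith
  set ε : ℝ := η₁ / (4 * m) with hε
  have hεpos : 0 < ε := by positivity
  have hmε : 2 * (m : ℝ) * ε = η₁ / 2 := by
    rw [hε]; field_simp; ring
  obtain ⟨S, hS1, hS2, hS3⟩ := approach hD T hx hmpos hεpos (by rw [hmε]; linarith) m le_rfl
  rw [div_self hmR.ne'] at hS3
  set z : V := (m : ℝ)⁻¹ • S with hz
  have hznorm : ‖z‖ ≤ 1 := by
    rw [hz, norm_smul, norm_inv, Real.norm_eq_abs, abs_of_pos hmR, inv_mul_le_iff₀ hmR, mul_one]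
    exact hS1
  have hzx : 2 - η₁ / 2 ≤ ‖z - x‖ := by
    have e : z - x = -x + (m : ℝ)⁻¹ • S := by rw [hz]; abel
    rw [e]
    linarith
  have hTzx : ‖T (z - x)‖ ^ 2 ≤ C₀ / m := by
    have e : z - x = -(m : ℝ)⁻¹ • ((m : ℝ) • x - S) := by
      rw [hz, smul_sub, smul_smul, neg_mul, inv_mul_cancel₀ hmR.ne', neg_smul, one_smul, neg_smul]
      abel
    rw [e, map_smul, norm_smul, mul_pow]
    have h1 : ‖-(m : ℝ)⁻¹‖ ^ 2 = ((m : ℝ)⁻¹) ^ 2 := by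
      rw [norm_neg, norm_inv, Real.norm_eq_abs, abs_of_pos hmR]
    rw [h1]
    have h2 : ((m : ℝ)⁻¹) ^ 2 * ‖T ((m : ℝ) • x - S)‖ ^ 2 ≤ ((m : ℝ)⁻¹) ^ 2 * (m * C₀) :=
      mul_le_mul_of_nonneg_left hS2 (by positivity)
    refine h2.trans (le_of_eq ?_)
    field_simp
  have hCT : C * ‖T (z - x)‖ ≤ η₁ := by
    have h1 : (C * ‖T (z - x)‖) ^ 2 ≤ η₁ ^ 2 := by
      rw [mul_pow]
      refine le_trans ?_ hmbound
      exact mul_le_mul_of_nonneg_left hTzx (by positivity)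
    exact (pow_le_pow_iff_left₀ (by positivity) hη₁pos.le two_ne_zero).mp h1
  -- the vector
  set y₀ : V := (1 / 2 : ℝ) • (z - x) with hy₀
  have hn2 : ‖(1 / 2 : ℝ)‖ = 1 / 2 := by norm_num
  have hy₀low : 1 - η₁ / 4 ≤ ‖y₀‖ := by
    rw [hy₀, norm_smul, hn2]
    linarith
  have hy₀up : ‖y₀‖ ≤ 1 := by
    rw [hy₀, norm_smul, hn2]
    have := norm_sub_le z x
    rw [hx] at this
    linarith
  obtain ⟨w, hw, hw2⟩ := hT y₀
  have hw3 : ‖y₀ - w‖ ≤ η₁ := by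
    refine hw2.trans ?_
    have e : T y₀ = (1 / 2 : ℝ) • T (z - x) := by rw [hy₀, map_smul]
    rw [e, norm_smul]
    have hn : ‖(1 / 2 : ℝ)‖ = 1 / 2 := by norm_num
    rw [hn]
    nlinarith [norm_nonneg (T (z - x))]
  have hwlow : 1 - 2 * η₁ ≤ ‖w‖ := by
    have := norm_add_le w (y₀ - w)
    rw [add_sub_cancel] at this
    linarith
  have hwup : ‖w‖ ≤ 1 + η₁ := by
    have := norm_sub_le y₀ (y₀ - w)
    rw [sub_sub_cancel] at this
    linarith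
  have hwpos : 0 < ‖w‖ := by linarith
  refine ⟨‖w‖⁻¹ • w, S₀.smul_mem _ hw, ?_, (1 / 2 : ℝ) • z, ?_, ?_⟩
  · rw [norm_smul, norm_inv, norm_norm, inv_mul_cancel₀ hwpos.ne']
  · rw [norm_smul, hn2]
    linarith
  · have e : (1 / 2 : ℝ) • z - (1 / 2 : ℝ) • x = y₀ := by
      rw [hy₀, smul_sub]
    rw [e]
    have h1 : ‖‖w‖⁻¹ • w - w‖ ≤ 2 * η₁ := by
      have e2 : ‖w‖⁻¹ • w - w = (‖w‖⁻¹ - 1) • w := by
        rw [sub_smul, one_smul]
      rw [e2, norm_smul, Real.norm_eq_abs]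
      have e3 : |‖w‖⁻¹ - 1| * ‖w‖ = |1 - ‖w‖| := by
        rw [← abs_of_pos hwpos, ← abs_mul, abs_of_pos hwpos, sub_mul, inv_mul_cancel₀ hwpos.ne', one_mul]
      rw [e3, abs_le]
      constructor <;> linarith
    have h2 : ‖‖w‖⁻¹ • w - y₀‖ ≤ ‖‖w‖⁻¹ • w - w‖ + ‖w - y₀‖ := norm_sub_le_norm_sub_add_norm_sub _ _ _
    rw [norm_sub_rev w y₀] at h2
    linarith

end Crest.Agent.Lib.AUC
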