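import Mathlib
import Crest.Prelude.Def_Diamond

set_option autoImplicit false

namespace Crest.Agent.Lib.AUC

open Crest.AnalysisR

/-- old vertices of the next diamond -/
def vOld {k : ℕ} (u : DiamondVertex k) : DiamondVertex (k + 1) := Sum.inl u

/-- middle vertices of the next diamond -/
def vMid {k : ℕ} (e : DiamondEdge k) (i : ℕ) : DiamondVertex (k + 1) := Sum.inr (e, i)

lemma vOld_injective {k : ℕ} : Function.Injective (vOld (k := k)) := by
  intro a b h
  exact Sum.inl.inj h

lemma vMid_ne_vOld {k : ℕ} (e : DiamondEdge k) (i : ℕ) (u : DiamondVertex k) :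
    vMid e i ≠ vOld u := by
  intro h
  exact Sum.inr_ne_inl h

lemma vMid_inj {k : ℕ} {e : DiamondEdge k} {i j : ℕ} (h : vMid e i = vMid e j) : i = j := by
  have := Sum.inr.inj h
  exact (Prod.mk.inj this).2

lemma diamondSrc_false {k : ℕ} (e : DiamondEdge k) (i : ℕ) :
    diamondSrc (k + 1) (e, i, false) = vOld (diamondSrc k e) := rfl

lemma diamondTgt_false {k : ℕ} (e : DiamondEdge k) (i : ℕ) :
    diamondTgt (k + 1) (e, i, false) = vMid e i := rfl

lemma diamondSrc_true {k : ℕ} (e : DiamondEdge k) (i : ℕ) :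
    diamondSrc (k + 1) (e, i, true) = vMid e i := rfl

lemma diamondTgt_true {k : ℕ} (e : DiamondEdge k) (i : ℕ) :
    diamondTgt (k + 1) (e, i, true) = vOld (diamondTgt k e) := rfl

lemma adj_iff (k : ℕ) (u v : DiamondVertex k) :
    (diamondGraph k).Adj u v ↔ u ≠ v ∧
      ((∃ e, diamondSrc k e = u ∧ diamondTgt k e = v) ∨ (∃ e, diamondSrc k e = v ∧ diamondTgt k e = u)) :=
  SimpleGraph.fromRel_adj _ _ _

lemma adj_old_mid {k : ℕ} (e : DiamondEdge k) (i : ℕ) :
    (diamondGraph (k + 1)).Adj (vOld (diamondSrc k e)) (vMid e i) := by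
  rw [adj_iff]
  exact ⟨(vMid_ne_vOld e i _).symm, Or.inl ⟨(e, i, false), rfl, rfl⟩⟩

lemma adj_mid_old {k : ℕ} (e : DiamondEdge k) (i : ℕ) :
    (diamondGraph (k + 1)).Adj (vMid e i) (vOld (diamondTgt k e)) := by
  rw [adj_iff]
  exact ⟨vMid_ne_vOld e i _, Or.inl ⟨(e, i, true), rfl, rfl⟩⟩

/-- Every edge of the next diamond joins an old vertex and a middle vertex. -/
lemma adj_cases {k : ℕ} {x y : DiamondVertex (k + 1)} (h : (diamondGraph (k + 1)).Adj x y) :
    ∃ (e : DiamondEdge k) (i : ℕ), (x = vOld (diamondSrc k e) ∧ y = vMid e i) ∨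
      (x = vMid e i ∧ y = vOld (diamondTgt k e)) ∨
      (y = vOld (diamondSrc k e) ∧ x = vMid e i) ∨
      (y = vMid e i ∧ x = vOld (diamondTgt k e)) := by
  rw [adj_iff] at h
  rcases h.2 with ⟨⟨e, i, b⟩, h1, h2⟩ | ⟨⟨e, i, b⟩, h1, h2⟩
  · cases b
    · exact ⟨e, i, Or.inl ⟨h1.symm, h2.symm⟩⟩
    · exact ⟨e, i, Or.inr (Or.inl ⟨h1.symm, h2.symm⟩)⟩
  · cases b
    · exact ⟨e, i, Or.inr (Or.inr (Or.inl ⟨h1.symm, h2.symm⟩))⟩
    · exact ⟨e, i, Or.inr (Or.inr (Or.inr ⟨h1.symm, h2.symm⟩))⟩

lemma not_adj_mid_mid {k : ℕ} (e e' : DiamondEdge k) (i j : ℕ) :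
    ¬ (diamondGraph (k + 1)).Adj (vMid e i) (vMid e' j) := by
  intro h
  obtain ⟨e₀, i₀, h0⟩ := adj_cases h
  rcases h0 with ⟨h1, _⟩ | ⟨_, h2⟩ | ⟨h1, _⟩ | ⟨_, h2⟩
  · exact vMid_ne_vOld _ _ _ h1
  · exact vMid_ne_vOld _ _ _ h2
  · exact vMid_ne_vOld _ _ _ h1
  · exact vMid_ne_vOld _ _ _ h2

/-- A base edge in every diamond. -/
def edge0 : (k : ℕ) → DiamondEdge k
  | 0 => ()
  | k + 1 => (edge0 k, 0, false)

lemma vertex_cases {k : ℕ} (x : DiamondVertex (k + 1)) :
    (∃ u, x = vOld u) ∨ ∃ e i, x = vMid e i := by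
  rcases x with u | ⟨e, i⟩
  · exact Or.inl ⟨u, rfl⟩
  · exact Or.inr ⟨e, i, rfl⟩

lemma reachable_old {k : ℕ} {u v : DiamondVertex k} (h : (diamondGraph k).Reachable u v) :
    (diamondGraph (k + 1)).Reachable (vOld u) (vOld v) := by
  rw [SimpleGraph.reachable_iff_reflTransGen] at h ⊢
  induction h with
  | refl => exact Relation.ReflTransGen.refl
  | tail _ hadj ih =>
    refine ih.trans ?_
    rename_i b c
    rw [adj_iff] at hadj
    rcases hadj.2 with ⟨e, h1, h2⟩ | ⟨e, h1, h2⟩
    · subst h1 h2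
      exact (Relation.ReflTransGen.single (adj_old_mid e 0)).tail (adj_mid_old e 0)
    · subst h1 h2
      exact (Relation.ReflTransGen.single (adj_mid_old e 0).symm).tail (adj_old_mid e 0).symm

/-- Diamonds are connected. -/
theorem diamond_connected : ∀ k : ℕ, (diamondGraph k).Connected
  | 0 => by
    haveI : Nonempty (DiamondVertex 0) := ⟨(false : Bool)⟩
    refine ⟨?_⟩
    have hadj : (diamondGraph 0).Adj (false : Bool) (true : Bool) := by
      rw [adj_iff]
      exact ⟨by simp, Or.inl ⟨(), rfl, rfl⟩⟩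
    have hall : ∀ x : DiamondVertex 0, (diamondGraph 0).Reachable (false : Bool) x := by
      intro x
      cases x with
      | false => exact SimpleGraph.Reachable.refl _
      | true => exact hadj.reachable
    intro x y
    exact (hall x).symm.trans (hall y)
  | k + 1 => by
    have hconn := diamond_connected k
    haveI : Nonempty (DiamondVertex (k + 1)) := ⟨vMid (edge0 k) 0⟩
    refine ⟨?_⟩
    have hall : ∀ x : DiamondVertex (k + 1),
        (diamondGraph (k + 1)).Reachable (vOld (diamondSrc k (edge0 k))) x := by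
      intro x
      rcases vertex_cases x with ⟨u, rfl⟩ | ⟨e, i, rfl⟩
      · exact reachable_old (hconn.preconnected _ _)
      · exact (reachable_old (hconn.preconnected _ _)).trans (adj_old_mid e i).reachable
    intro x y
    exact (hall x).symm.trans (hall y)

lemma dist_adj {k : ℕ} {x y : DiamondVertex k} (h : (diamondGraph k).Adj x y) :
    diamondDist k x y = 1 := by
  unfold diamondDist
  exact SimpleGraph.dist_eq_one_iff_adj.mpr h

/-- One-Lipschitz functions along walks. -/
lemma lip_walk {V : Type*} {G : SimpleGraph V} (g : V → ℝ)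
    (hg : ∀ x y, G.Adj x y → g x ≤ g y + 1) {x y : V} (p : G.Walk x y) :
    g x ≤ g y + p.length := by
  induction p with
  | nil => simp
  | cons hadj _ ih =>
    have := hg _ _ hadj
    simp only [SimpleGraph.Walk.length_cons, Nat.cast_add, Nat.cast_one]
    linarith

lemma lip_dist {V : Type*} {G : SimpleGraph V} (hG : G.Connected) (g : V → ℝ)
    (hg : ∀ x y, G.Adj x y → g x ≤ g y + 1) (x y : V) :
    g x ≤ g y + G.dist x y := by
  obtain ⟨p, hp⟩ := (hG.preconnected x y).exists_walk_length_eq_dist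
  rw [← hp]
  exact lip_walk g hg p

/-- The distances in the diamond at least double. -/
theorem two_dist_le (k : ℕ) (u v : DiamondVertex k) :
    2 * diamondDist k u v ≤ diamondDist (k + 1) (vOld u) (vOld v) := by
  have hconn := diamond_connected k
  have hconn' := diamond_connected (k + 1)
  -- the potential
  let g : DiamondVertex (k + 1) → ℝ := fun x =>
    Sum.elim (fun w : DiamondVertex k => 2 * (diamondDist k w v : ℝ))
      (fun p : DiamondEdge k × ℕ => (diamondDist k (diamondSrc k p.1) v : ℝ)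
        + diamondDist k (diamondTgt k p.1) v) x
  have hgold : ∀ w, g (vOld w) = 2 * (diamondDist k w v : ℝ) := fun w => rfl
  have hgmid : ∀ e i, g (vMid e i) =
      (diamondDist k (diamondSrc k e) v : ℝ) + diamondDist k (diamondTgt k e) v := fun e i => rfl
  -- the endpoints of an edge have almost the same distance
  have hedge : ∀ e : DiamondEdge k, |(diamondDist k (diamondSrc k e) v : ℝ)
      - diamondDist k (diamondTgt k e) v| ≤ 1 := by
    intro e
    by_cases hst : diamondSrc k e = diamondTgt k e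
    · rw [hst]; simp
    · have hadj : (diamondGraph k).Adj (diamondSrc k e) (diamondTgt k e) := by
        rw [adj_iff]
        exact ⟨hst, Or.inl ⟨e, rfl, rfl⟩⟩
      have h1 : diamondDist k (diamondSrc k e) v ≤ 1 + diamondDist k (diamondTgt k e) v := by
        have := hconn.dist_triangle (u := diamondSrc k e) (v := diamondTgt k e) (w := v)
        rw [SimpleGraph.dist_eq_one_iff_adj.mpr hadj] at this
        exact this
      have h2 : diamondDist k (diamondTgt k e) v ≤ 1 + diamondDist k (diamondSrc k e) v := by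
        have := hconn.dist_triangle (u := diamondTgt k e) (v := diamondSrc k e) (w := v)
        rw [SimpleGraph.dist_eq_one_iff_adj.mpr hadj.symm] at this
        exact this
      rw [abs_le]
      constructor
      · have : (diamondDist k (diamondTgt k e) v : ℝ) ≤ 1 + diamondDist k (diamondSrc k e) v := by
          exact_mod_cast h2
        linarith
      · have : (diamondDist k (diamondSrc k e) v : ℝ) ≤ 1 + diamondDist k (diamondTgt k e) v := by
          exact_mod_cast h1
        linarith
  have hlip : ∀ x y, (diamondGraph (k + 1)).Adj x y → g x ≤ g y + 1 := by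
    intro x y hadj
    obtain ⟨e, i, h0⟩ := adj_cases hadj
    have h1 := abs_le.mp (hedge e)
    rcases h0 with ⟨rfl, rfl⟩ | ⟨rfl, rfl⟩ | ⟨rfl, rfl⟩ | ⟨rfl, rfl⟩
    · rw [hgold, hgmid]; linarith [h1.1, h1.2]
    · rw [hgold, hgmid]; linarith [h1.1, h1.2]
    · rw [hgold, hgmid]; linarith [h1.1, h1.2]
    · rw [hgold, hgmid]; linarith [h1.1, h1.2]
  have := lip_dist hconn' g hlip (vOld u) (vOld v)
  rw [hgold, hgold] at this
  have hvv : diamondDist k v v = 0 := by simp [diamondDist]
  rw [hvv] at this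
  have h3 : (2 * diamondDist k u v : ℝ) ≤ diamondDist (k + 1) (vOld u) (vOld v) := by
    have h4 : ((diamondGraph (k + 1)).dist (vOld u) (vOld v) : ℝ)
        = diamondDist (k + 1) (vOld u) (vOld v) := rfl
    rw [h4] at this
    simpa using this
  exact_mod_cast h3

/-- Two distinct middle vertices of an edge are at distance at least two. -/
theorem two_le_dist_mid {k : ℕ} (e : DiamondEdge k) {i j : ℕ} (hij : i ≠ j) :
    2 ≤ diamondDist (k + 1) (vMid e i) (vMid e j) := by
  have hconn := diamond_connected (k + 1)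
  have h0 : diamondDist (k + 1) (vMid e i) (vMid e j) ≠ 0 := by
    intro h
    have := (hconn.preconnected (vMid e i) (vMid e j)).dist_eq_zero_iff.mp h
    exact hij (vMid_inj this)
  have h1 : diamondDist (k + 1) (vMid e i) (vMid e j) ≠ 1 := by
    intro h
    exact not_adj_mid_mid e e i j (SimpleGraph.dist_eq_one_iff_adj.mp h)
  omega

/-- An abstract bound along walks for maps into a normed space. -/
lemma norm_walk_le {V X : Type*} [NormedAddCommGroup X] {G : SimpleGraph V} (F : V → X) {C : ℝ}
    (hF : ∀ x y, G.Adj x y → ‖F x - F y‖ ≤ C) {x y : V} (p : G.Walk x y) :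
    ‖F x - F y‖ ≤ C * p.length := by
  induction p with
  | nil => simp
  | @cons u v w hadj _ ih =>
    have h1 := hF _ _ hadj
    have h2 : ‖F u - F w‖ ≤ ‖F u - F v‖ + ‖F v - F w‖ := norm_sub_le_norm_sub_add_norm_sub _ _ _
    simp only [SimpleGraph.Walk.length_cons, Nat.cast_add, Nat.cast_one]
    linarith

/-- The distortion bound from a midpoint inequality. -/
theorem distortion_bound {X : Type*} [NormedAddCommGroup X]
    (hmid : ∀ (a b : X) (w : ℕ → X) (L σ : ℝ), 0 ≤ σ → (∀ i, ‖a - w i‖ ≤ L) → (∀ i, ‖b - w i‖ ≤ L) →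
      (∀ i j, i ≠ j → σ ≤ ‖w i - w j‖) → ‖a - b‖ ^ 2 / 4 + σ ^ 2 / 16 ≤ L ^ 2) :
    ∀ (k : ℕ) (f : DiamondVertex k → X) (D s : ℝ), 0 < s →
      (∀ u v, s * (diamondDist k u v : ℝ) ≤ ‖f u - f v‖ ∧ ‖f u - f v‖ ≤ D * s * (diamondDist k u v : ℝ)) →
      1 + (k : ℝ) / 4 ≤ D ^ 2 := by
  intro k
  induction k with
  | zero =>
    intro f D s hs hf
    have hadj : (diamondGraph 0).Adj (false : Bool) (true : Bool) := by
      rw [adj_iff]
      exact ⟨by simp, Or.inl ⟨(), rfl, rfl⟩⟩
    have h := hf (false : Bool) (true : Bool)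
    rw [dist_adj hadj] at h
    simp only [Nat.cast_one, mul_one] at h
    have h1 : s ≤ D * s := h.1.trans h.2
    have h2 : 1 ≤ D := by
      by_contra hcon
      push Not at hcon
      nlinarith
    simp only [Nat.cast_zero, zero_div, add_zero]
    nlinarith
  | succ k ih =>
    intro f D s hs hf
    -- the edge estimate
    have hedge : ∀ e : DiamondEdge k,
        ‖f (vOld (diamondSrc k e)) - f (vOld (diamondTgt k e))‖ ^ 2 ≤ (2 * s) ^ 2 * (D ^ 2 - 1 / 4) := by
      intro e
      have h := hmid (f (vOld (diamondSrc k e))) (f (vOld (diamondTgt k e))) (fun i => f (vMid e i))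
        (D * s) (2 * s) (by positivity) ?_ ?_ ?_
      · have h2 : (2 * s) ^ 2 * (D ^ 2 - 1 / 4)
            = 4 * ((D * s) ^ 2 - (2 * s) ^ 2 / 16) := by ring
        rw [h2]
        linarith
      · intro i
        have := (hf (vOld (diamondSrc k e)) (vMid e i)).2
        rwa [dist_adj (adj_old_mid e i), Nat.cast_one, mul_one] at this
      · intro i
        have := (hf (vMid e i) (vOld (diamondTgt k e))).2
        rw [dist_adj (adj_mid_old e i), Nat.cast_one, mul_one, norm_sub_rev] at this
        exact this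
      · intro i j hij
        have h1 := (hf (vMid e i) (vMid e j)).1
        have h2 : (2:ℝ) ≤ diamondDist (k + 1) (vMid e i) (vMid e j) := by
          exact_mod_cast two_le_dist_mid e hij
        show 2 * s ≤ ‖f (vMid e i) - f (vMid e j)‖
        nlinarith
    have hpos : 0 ≤ D ^ 2 - 1 / 4 := by
      have h := hedge (edge0 k)
      have h2 : 0 ≤ (2 * s) ^ 2 * (D ^ 2 - 1 / 4) := le_trans (by positivity) h
      have h3 : 0 < (2 * s) ^ 2 := by positivity
      exact nonneg_of_mul_nonneg_right h2 h3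
    set D' : ℝ := Real.sqrt (D ^ 2 - 1 / 4) with hD'
    have hD'sq : D' ^ 2 = D ^ 2 - 1 / 4 := Real.sq_sqrt hpos
    have hD'0 : 0 ≤ D' := Real.sqrt_nonneg _
    have hadjbd : ∀ x y, (diamondGraph k).Adj x y → ‖f (vOld x) - f (vOld y)‖ ≤ D' * (2 * s) := by
      intro x y hadj
      have key : ∀ e : DiamondEdge k,
          ‖f (vOld (diamondSrc k e)) - f (vOld (diamondTgt k e))‖ ≤ D' * (2 * s) := by
        intro e
        have h := hedge e
        rw [← hD'sq] at h
        have h2 : (2 * s) ^ 2 * D' ^ 2 = (D' * (2 * s)) ^ 2 := by ring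
        rw [h2] at h
        exact (pow_le_pow_iff_left₀ (norm_nonneg _) (by positivity) two_ne_zero).mp h
      rw [adj_iff] at hadj
      rcases hadj.2 with ⟨e, rfl, rfl⟩ | ⟨e, rfl, rfl⟩
      · exact key e
      · rw [norm_sub_rev]
        exact key e
    refine ?_
    have hih := ih (fun u => f (vOld u)) D' (2 * s) (by positivity) ?_
    · rw [hD'sq] at hih
      push_cast
      linarith
    · intro u v
      constructor
      · have h1 := (hf (vOld u) (vOld v)).1
        have h2 : (2 * diamondDist k u v : ℝ) ≤ diamondDist (k + 1) (vOld u) (vOld v) := by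
          exact_mod_cast two_dist_le k u v
        calc 2 * s * (diamondDist k u v : ℝ) = s * (2 * diamondDist k u v) := by ring
          _ ≤ s * diamondDist (k + 1) (vOld u) (vOld v) := mul_le_mul_of_nonneg_left h2 hs.le
          _ ≤ _ := h1
      · obtain ⟨p, hp⟩ := ((diamond_connected k).preconnected u v).exists_walk_length_eq_dist
        have := norm_walk_le (G := diamondGraph k) (fun u => f (vOld u)) hadjbd p
        rw [hp] at this
        exact this

end Crest.Agent.Lib.AUC
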