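import Mathlib
import Crest.Prelude.Def_DaugavetL1
import Crest.Agent.Lib.AUCGame

set_option autoImplicit false

namespace Crest.Agent.Lib.AUC

open MeasureTheory Filter Topology Crest.AnalysisR.L1Subspace

variable {Ω : Type} [MeasurableSpace Ω] {P : Measure Ω}

/-- A Brezis--Lieb type lemma for a.e. vanishing sequences. -/
lemma brezis_lieb {u : Ω → ℝ} (hu : Integrable u P) {s : ℕ → Ω → ℝ} (hs : ∀ n, Integrable (s n) P)
    (hlim : ∀ᵐ ω ∂P, Tendsto (fun n => s n ω) atTop (𝓝 0)) :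
    Tendsto (fun n => ∫ ω, |u ω + s n ω| ∂P - ∫ ω, |s n ω| ∂P) atTop (𝓝 (∫ ω, |u ω| ∂P)) := by
  have hint1 : ∀ n, Integrable (fun ω => |u ω + s n ω|) P := fun n => (hu.add (hs n)).abs
  have hint2 : ∀ n, Integrable (fun ω => |s n ω|) P := fun n => (hs n).abs
  have e : ∀ n, ∫ ω, |u ω + s n ω| ∂P - ∫ ω, |s n ω| ∂P = ∫ ω, (|u ω + s n ω| - |s n ω|) ∂P :=
    fun n => (integral_sub (hint1 n) (hint2 n)).symm
  simp_rw [e]
  apply tendsto_integral_of_dominated_convergence (fun ω => |u ω|)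
  · intro n
    exact ((hint1 n).sub (hint2 n)).aestronglyMeasurable
  · exact hu.abs
  · intro n
    refine Eventually.of_forall fun ω => ?_
    rw [Real.norm_eq_abs]
    have := abs_abs_sub_abs_le_abs_sub (u ω + s n ω) (s n ω)
    simpa using this
  · filter_upwards [hlim] with ω hω
    have h1 : Tendsto (fun n => |u ω + s n ω|) atTop (𝓝 |u ω + 0|) :=
      ((tendsto_const_nhds).add hω).abs
    have h2 : Tendsto (fun n => |s n ω|) atTop (𝓝 |(0:ℝ)|) := hω.abs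
    have := h1.sub h2
    simpa using this

variable [IsProbabilityMeasure P]

lemma measure_gt_lt_of_dist_lt {f g : Lp ℝ 1 P} {ε : ℝ} (h : measureDist P f g < ε) :
    P {z | ε < |(f : Ω → ℝ) z - (g : Ω → ℝ) z|} < ENNReal.ofReal ε := by
  have hne : {a : ℝ | 0 < a ∧ P {z | a < |(f : Ω → ℝ) z - (g : Ω → ℝ) z|} < ENNReal.ofReal a}.Nonempty := by
    refine ⟨2, by norm_num, ?_⟩
    refine lt_of_le_of_lt prob_le_one ?_
    rw [show (1 : ENNReal) = ENNReal.ofReal 1 by simp]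
    exact (ENNReal.ofReal_lt_ofReal_iff (by norm_num)).mpr (by norm_num)
  obtain ⟨a, ⟨ha0, ha⟩, hlt⟩ := exists_lt_of_csInf_lt hne h
  have hsub : {z | ε < |(f : Ω → ℝ) z - (g : Ω → ℝ) z|} ⊆ {z | a < |(f : Ω → ℝ) z - (g : Ω → ℝ) z|} := by
    intro z hz
    exact lt_trans hlt hz
  exact lt_of_le_of_lt (measure_mono hsub) (ha.trans_le (ENNReal.ofReal_le_ofReal hlt.le))

/-- Extraction of an a.e. convergent subsequence from a totally bounded (in measure) ball. -/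
theorem exists_ae_subseq {E : Submodule ℝ (Lp ℝ 1 P)} (htb : UnitBallTotallyBoundedInMeasure P E)
    (y : ℕ → Lp ℝ 1 P) (hy : ∀ n, y n ∈ E ∧ ‖y n‖ ≤ 1) :
    ∃ ψ : ℕ → ℕ, StrictMono ψ ∧ ∃ h : Ω → ℝ, StronglyMeasurable h ∧
      ∀ᵐ ω ∂P, Tendsto (fun k => (y (ψ k) : Ω → ℝ) ω) atTop (𝓝 (h ω)) := by
  classical
  set ε : ℕ → ℝ := fun k => (1 / 2) ^ (k + 2) with hε
  have hεpos : ∀ k, 0 < ε k := fun k => by positivity
  have hg : ∀ k, ∃ g : Lp ℝ 1 P, ∀ᶠ n in (hyperfilter ℕ : Filter ℕ), measureDist P (y n) g < ε k := by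
    intro k
    obtain ⟨s, -, hs⟩ := htb (ε k) (hεpos k)
    have h1 : ∀ᶠ n in (hyperfilter ℕ : Filter ℕ), ∃ g ∈ (s : Set (Lp ℝ 1 P)), measureDist P (y n) g < ε k :=
      Eventually.of_forall fun n => by
        obtain ⟨g, hg, hd⟩ := hs (y n) (hy n).1 (hy n).2
        exact ⟨g, hg, hd⟩
    have h2 := (Ultrafilter.eventually_exists_mem_iff (f := hyperfilter ℕ) s.finite_toSet).mp h1
    obtain ⟨g, _, hg⟩ := h2
    exact ⟨g, hg⟩
  choose g hg using hg
  -- extract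
  have hfreq : ∀ k, ∃ᶠ n in atTop, ∀ j ∈ Finset.range (k + 1), measureDist P (y n) (g j) < ε j := by
    intro k
    have h1 : ∀ᶠ n in (hyperfilter ℕ : Filter ℕ), ∀ j ∈ Finset.range (k + 1), measureDist P (y n) (g j) < ε j :=
      (Filter.eventually_all_finset _).2 fun j _ => hg j
    exact (h1.frequently).filter_mono Nat.hyperfilter_le_atTop
  obtain ⟨ψ, hψ, hψ2⟩ := extraction_forall_of_frequently hfreq
  refine ⟨ψ, hψ, ?_⟩
  -- Borel--Cantelli
  set A : ℕ → Set Ω := fun k => {ω | (1 / 2) ^ (k + 1) < |(y (ψ k) : Ω → ℝ) ω - (y (ψ (k + 1)) : Ω → ℝ) ω|} with hA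
  have hAbound : ∀ k, P (A k) ≤ ENNReal.ofReal ((1 / 2) ^ (k + 1)) := by
    intro k
    have h1 := measure_gt_lt_of_dist_lt (hψ2 k k (by simp))
    have h2 := measure_gt_lt_of_dist_lt (hψ2 (k + 1) k (by simp))
    have hsub : A k ⊆ {z | ε k < |(y (ψ k) : Ω → ℝ) z - (g k : Ω → ℝ) z|} ∪
        {z | ε k < |(y (ψ (k + 1)) : Ω → ℝ) z - (g k : Ω → ℝ) z|} := by
      intro z hz
      by_contra hcon
      simp only [Set.mem_union, Set.mem_setOf_eq, not_or, not_lt] at hcon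
      have h3 : |(y (ψ k) : Ω → ℝ) z - (y (ψ (k + 1)) : Ω → ℝ) z| ≤ ε k + ε k := by
        have := abs_sub_le ((y (ψ k) : Ω → ℝ) z) ((g k : Ω → ℝ) z) ((y (ψ (k + 1)) : Ω → ℝ) z)
        rw [abs_sub_comm ((g k : Ω → ℝ) z)] at this
        linarith [hcon.1, hcon.2]
      have h4 : ε k + ε k = (1 / 2) ^ (k + 1) := by
        simp only [hε]
        ring
      have hz' : (1 / 2 : ℝ) ^ (k + 1) < |(y (ψ k) : Ω → ℝ) z - (y (ψ (k + 1)) : Ω → ℝ) z| := hz
      linarith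
    calc P (A k) ≤ _ := measure_mono hsub
      _ ≤ _ := measure_union_le _ _
      _ ≤ ENNReal.ofReal (ε k) + ENNReal.ofReal (ε k) := add_le_add h1.le h2.le
      _ = ENNReal.ofReal ((1 / 2) ^ (k + 1)) := by
        rw [← ENNReal.ofReal_add (hεpos k).le (hεpos k).le]
        congr 1
        simp only [hε]
        ring
  have hsummable : Summable fun k : ℕ => ((1 / 2 : ℝ)) ^ (k + 1) := by
    have := (summable_geometric_of_lt_one (r := (1 / 2 : ℝ)) (by norm_num) (by norm_num))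
    exact (summable_nat_add_iff 1).mpr this
  have hsumtop : ∑' k, P (A k) ≠ ⊤ := by
    apply ne_top_of_le_ne_top _ (ENNReal.tsum_le_tsum hAbound)
    rw [← ENNReal.ofReal_tsum_of_nonneg (fun k => by positivity) hsummable]
    exact ENNReal.ofReal_ne_top
  have hae := ae_eventually_notMem hsumtop
  have hae2 : ∀ᵐ ω ∂P, ∃ l, Tendsto (fun k => (y (ψ k) : Ω → ℝ) ω) atTop (𝓝 l) := by
    filter_upwards [hae] with ω hω
    have hsumdist : Summable fun k => dist ((y (ψ k) : Ω → ℝ) ω) ((y (ψ (k + 1)) : Ω → ℝ) ω) := by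
      apply Summable.of_norm_bounded_eventually_nat hsummable
      filter_upwards [hω] with k hk
      rw [Real.norm_eq_abs, abs_of_nonneg dist_nonneg, Real.dist_eq]
      have : ¬ (1 / 2 : ℝ) ^ (k + 1) < |(y (ψ k) : Ω → ℝ) ω - (y (ψ (k + 1)) : Ω → ℝ) ω| := hk
      linarith
    have hC := cauchySeq_of_summable_dist hsumdist
    exact cauchySeq_tendsto_of_complete hC
  obtain ⟨h, hh, hlim⟩ := exists_stronglyMeasurable_limit_of_tendsto_ae
    (fun k => Lp.aestronglyMeasurable (y (ψ k))) hae2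
  exact ⟨h, hh, hlim⟩

lemma norm_comb (X Y : Lp ℝ 1 P) (t : ℝ) :
    ‖X + t • Y‖ = ∫ ω, |(X : Ω → ℝ) ω + t * (Y : Ω → ℝ) ω| ∂P := by
  rw [L1.norm_eq_integral_norm]
  apply integral_congr_ae
  filter_upwards [Lp.coeFn_add X (t • Y), Lp.coeFn_smul t Y] with ω h1 h2
  rw [h1, Pi.add_apply, h2, Real.norm_eq_abs]
  rfl

lemma norm_eq_integral_abs (X : Lp ℝ 1 P) : ‖X‖ = ∫ ω, |(X : Ω → ℝ) ω| ∂P := by
  rw [L1.norm_eq_integral_norm]
  rfl

/-- The lower estimate. -/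
theorem exists_cof_avg {E : Submodule ℝ (Lp ℝ 1 P)} (htb : UnitBallTotallyBoundedInMeasure P E)
    (x : E) (hx : ‖x‖ = 1) {t : ℝ} (ht : 0 < t) {η : ℝ} (hη : 0 < η) :
    ∃ F : Set E, Cof F ∧ ∀ y ∈ F, ‖y‖ = 1 → 1 + t / 2 - η ≤ (‖x + t • y‖ + ‖x - t • y‖) / 2 := by
  classical
  by_contra hcon
  push Not at hcon
  -- the sequence
  let Pp : E × (E →L[ℝ] ℝ) → Prop := fun p => ‖p.1‖ = 1 ∧
    (‖x + t • p.1‖ + ‖x - t • p.1‖) / 2 < 1 + t / 2 - η ∧ ‖p.2‖ ≤ 1 ∧ p.2 p.1 = 1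
  let r : E × (E →L[ℝ] ℝ) → E × (E →L[ℝ] ℝ) → Prop := fun p q => p.2 q.1 = 0
  obtain ⟨f, hf, hf2⟩ := exists_seq_of_forall_finset_exists Pp r (by
    intro s _
    have hF : Cof {u : E | ∀ i : s, i.1.2 u = 0} := cof_of_functionals _
    obtain ⟨y, hyF, hy1, hyb⟩ := hcon _ hF
    obtain ⟨g, hg1, hg2⟩ := exists_dual_vector'' ℝ y
    refine ⟨(y, g), ⟨hy1, hyb, hg1, ?_⟩, ?_⟩
    · show g y = 1
      rw [hg2, hy1]
      rfl
    · intro p hp
      exact hyF ⟨p, hp⟩)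
  set y : ℕ → E := fun n => (f n).1 with hy
  have hy1 : ∀ n, ‖y n‖ = 1 := fun n => (hf n).1
  have hybad : ∀ n, (‖x + t • y n‖ + ‖x - t • y n‖) / 2 < 1 + t / 2 - η := fun n => (hf n).2.1
  have hsep' : ∀ m n, m < n → 1 ≤ ‖y m - y n‖ := by
    intro m n hmn
    have h1 : (f m).2 (y m - y n) = 1 := by
      rw [map_sub, (hf m).2.2.2]
      have : (f m).2 (y n) = 0 := hf2 m n hmn
      rw [this, sub_zero]
    have h2 := (f m).2.le_opNorm (y m - y n)
    rw [h1] at h2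
    have h3 := (hf m).2.2.1
    have h4 : ‖(f m).2‖ * ‖y m - y n‖ ≤ 1 * ‖y m - y n‖ :=
      mul_le_mul_of_nonneg_right h3 (norm_nonneg _)
    simp only [norm_one] at h2
    linarith
  have hsep : ∀ m n, m ≠ n → 1 ≤ ‖y m - y n‖ := by
    intro m n hmn
    rcases lt_or_gt_of_ne hmn with h | h
    · exact hsep' m n h
    · rw [norm_sub_rev]
      exact hsep' n m h
  -- subsequence
  obtain ⟨ψ, hψ, h, hh, hlim⟩ := exists_ae_subseq htb (fun n => ((y n : E) : Lp ℝ 1 P))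
    (fun n => ⟨(y n).2, (hy1 n).le⟩)
  set F : ℕ → Ω → ℝ := fun k => ((y (ψ k) : E) : Lp ℝ 1 P) with hF
  have hFint : ∀ k, Integrable (F k) P := fun k => L1.integrable_coeFn _
  have hFnorm : ∀ k, ∫ ω, |F k ω| ∂P = 1 := by
    intro k
    have := norm_eq_integral_abs ((y (ψ k) : E) : Lp ℝ 1 P)
    rw [← this]
    exact hy1 (ψ k)
  -- integrability of the limit
  have hhint : Integrable h P := by
    have h1 := Lp.eLpNorm_lim_le_liminf_eLpNorm (p := 1)
      (fun k => Lp.aestronglyMeasurable ((y (ψ k) : E) : Lp ℝ 1 P)) h hlim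
    have h2 : ∀ k, eLpNorm (((y (ψ k) : E) : Lp ℝ 1 P) : Ω → ℝ) 1 P = 1 := by
      intro k
      have h3 : ‖((y (ψ k) : E) : Lp ℝ 1 P)‖ = 1 := hy1 (ψ k)
      rw [Lp.norm_def] at h3
      have h4 := Lp.eLpNorm_ne_top ((y (ψ k) : E) : Lp ℝ 1 P)
      rw [← ENNReal.ofReal_toReal h4, h3]
      simp
    simp only [h2] at h1
    have h3 : atTop.liminf (fun _ : ℕ => (1 : ENNReal)) = 1 := by
      exact liminf_const 1
    rw [h3] at h1
    exact memLp_one_iff_integrable.mp ⟨hh.aestronglyMeasurable, lt_of_le_of_lt h1 ENNReal.one_lt_top⟩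
  -- the increments
  set s : ℕ → Ω → ℝ := fun k ω => F k ω - h ω with hs
  have hsint : ∀ k, Integrable (s k) P := fun k => (hFint k).sub hhint
  have hslim : ∀ᵐ ω ∂P, Tendsto (fun k => s k ω) atTop (𝓝 0) := by
    filter_upwards [hlim] with ω hω
    have := hω.sub_const (h ω)
    simpa using this
  set L : ℕ → ℝ := fun k => ∫ ω, |s k ω| ∂P with hL
  set A : ℝ := ∫ ω, |h ω| ∂P with hA
  -- first use of Brezis--Lieb
  have hLlim : Tendsto L atTop (𝓝 (1 - A)) := by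
    have h1 := brezis_lieb hhint hsint hslim
    have h2 : ∀ k, ∫ ω, |h ω + s k ω| ∂P - ∫ ω, |s k ω| ∂P = 1 - L k := by
      intro k
      have e : (fun ω => |h ω + s k ω|) = fun ω => |F k ω| := by
        funext ω
        simp only [hs]
        congr 1
        ring
      rw [e, hFnorm]
    simp_rw [h2] at h1
    have h3 := (tendsto_const_nhds (x := (1:ℝ))).sub h1
    simpa using h3
  -- second use of Brezis--Lieb
  have hsepL : ∀ k, 1 - (1 - A) ≤ L k := by
    intro k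
    have hnegint : ∀ l, Integrable (fun ω => -s l ω) P := fun l => (hsint l).neg
    have hneglim : ∀ᵐ ω ∂P, Tendsto (fun l => -s l ω) atTop (𝓝 0) := by
      filter_upwards [hslim] with ω hω
      have := hω.neg
      simpa using this
    have h1 := brezis_lieb (hsint k) hnegint hneglim
    have h2 : ∀ l, ∫ ω, |-s l ω| ∂P = L l := by
      intro l
      simp only [abs_neg, hL]
    simp_rw [h2] at h1
    have h3 : Tendsto (fun l => 1 - L l) atTop (𝓝 (1 - (1 - A))) :=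
      (tendsto_const_nhds).sub hLlim
    refine le_of_tendsto_of_tendsto h3 h1 ?_
    filter_upwards [eventually_gt_atTop k] with l hl
    have hne : ψ k ≠ ψ l := (hψ hl).ne
    have h4 : 1 ≤ ‖y (ψ k) - y (ψ l)‖ := hsep _ _ hne
    have h5 : ‖y (ψ k) - y (ψ l)‖ = ∫ ω, |s k ω + -s l ω| ∂P := by
      have h6 : ‖y (ψ k) - y (ψ l)‖ = ‖((y (ψ k) : E) : Lp ℝ 1 P) + (-1 : ℝ) • ((y (ψ l) : E) : Lp ℝ 1 P)‖ := by
        rw [neg_one_smul, ← sub_eq_add_neg]
        rfl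
      rw [h6, norm_comb]
      apply integral_congr_ae
      refine Eventually.of_forall fun ω => ?_
      show |F k ω + -1 * F l ω| = |F k ω - h ω + -(F l ω - h ω)|
      congr 1
      ring
    rw [h5] at h4
    linarith
  have hB : 1 / 2 ≤ 1 - A := by
    have h1 : 1 - (1 - A) ≤ 1 - A := ge_of_tendsto' hLlim hsepL
    linarith
  -- third use of Brezis--Lieb
  set X : Ω → ℝ := (((x : E) : Lp ℝ 1 P) : Ω → ℝ) with hX
  have hXint : Integrable X P := L1.integrable_coeFn _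
  have hXnorm : ∫ ω, |X ω| ∂P = 1 := by
    rw [← norm_eq_integral_abs]
    exact hx
  have hbl3 : ∀ σ : ℝ, |σ| = t → Tendsto (fun k => ∫ ω, |X ω + σ * F k ω| ∂P) atTop
      (𝓝 (∫ ω, |X ω + σ * h ω| ∂P + t * (1 - A))) := by
    intro σ hσ
    have hu : Integrable (fun ω => X ω + σ * h ω) P := hXint.add (hhint.const_mul σ)
    have h1 := brezis_lieb hu (s := fun k ω => σ * s k ω) (fun k => (hsint k).const_mul σ) (by
      filter_upwards [hslim] with ω hω
      have := hω.const_mul σ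
      simpa using this)
    have e1 : ∀ k, ∫ ω, |σ * s k ω| ∂P = t * L k := by
      intro k
      simp only [abs_mul, hσ, hL]
      exact integral_const_mul _ _
    have e2 : ∀ k, (fun ω => |X ω + σ * h ω + σ * s k ω|) = fun ω => |X ω + σ * F k ω| := by
      intro k
      funext ω
      congr 1
      simp only [hs]
      ring
    simp_rw [e1, e2] at h1
    have h3 := h1.add (hLlim.const_mul t)
    refine h3.congr fun k => ?_
    simp
  have hnorm : ∀ k, ‖x + t • y (ψ k)‖ + ‖x - t • y (ψ k)‖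
      = ∫ ω, |X ω + t * F k ω| ∂P + ∫ ω, |X ω + (-t) * F k ω| ∂P := by
    intro k
    have h1 : ‖x + t • y (ψ k)‖ = ‖((x : E) : Lp ℝ 1 P) + t • ((y (ψ k) : E) : Lp ℝ 1 P)‖ := rfl
    have h2 : ‖x - t • y (ψ k)‖ = ‖((x : E) : Lp ℝ 1 P) + (-t) • ((y (ψ k) : E) : Lp ℝ 1 P)‖ := by
      rw [neg_smul, ← sub_eq_add_neg]
      rfl
    rw [h1, h2, norm_comb, norm_comb]
  have hsumlim := (hbl3 t (abs_of_pos ht)).add (hbl3 (-t) (by rw [abs_neg, abs_of_pos ht]))
  have hlow : 2 + t ≤ (∫ ω, |X ω + t * h ω| ∂P + t * (1 - A))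
      + (∫ ω, |X ω + (-t) * h ω| ∂P + t * (1 - A)) := by
    have h1 : 2 ≤ ∫ ω, |X ω + t * h ω| ∂P + ∫ ω, |X ω + (-t) * h ω| ∂P := by
      have hi1 : Integrable (fun ω => |X ω + t * h ω|) P := (hXint.add (hhint.const_mul t)).abs
      have hi2 : Integrable (fun ω => |X ω + (-t) * h ω|) P := (hXint.add (hhint.const_mul (-t))).abs
      rw [← integral_add hi1 hi2]
      have h2 : ∫ ω, 2 * |X ω| ∂P = 2 := by
        rw [integral_const_mul, hXnorm]
        norm_num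
      rw [← h2]
      apply integral_mono (hXint.abs.const_mul 2) (hi1.add hi2)
      intro ω
      have h3 : |2 * X ω| ≤ |X ω + t * h ω| + |X ω + (-t) * h ω| := by
        have e : 2 * X ω = (X ω + t * h ω) + (X ω + (-t) * h ω) := by ring
        rw [e]
        exact abs_add_le _ _
      rw [abs_mul] at h3
      simpa using h3
    nlinarith
  have hup : (∫ ω, |X ω + t * h ω| ∂P + t * (1 - A))
      + (∫ ω, |X ω + (-t) * h ω| ∂P + t * (1 - A)) ≤ 2 + t - 2 * η := by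
    refine le_of_tendsto' hsumlim fun k => ?_
    rw [← hnorm]
    have := hybad (ψ k)
    linarith
  linarith

end Crest.Agent.Lib.AUC
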