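import Crest.Prelude.Def_ModularData

/-! Basic facts on line calculi: contractivity, the unitary group, strong continuity,
and integral representation of functions of `D`. -/

set_option autoImplicit false

namespace Crest.Agent.Lib.MR

open Crest.OpAlg Filter MeasureTheory
open scoped Topology InnerProductSpace ComplexConjugate

variable {H : Type*} [NormedAddCommGroup H] [InnerProductSpace ℂ H] [CompleteSpace H]

local notation "BCF" => BoundedContinuousFunction ℝ ℂ

section Calculus
variable (D : LineCalculus H)

lemma apply_norm_le (f : BCF) : ‖D.apply f‖ ≤ ‖f‖ :=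
  NonUnitalStarAlgHom.norm_apply_le D.apply f

lemma apply_vec_norm_le (f : BCF) (x : H) : ‖D.apply f x‖ ≤ ‖f‖ * ‖x‖ :=
  ((D.apply f).le_opNorm x).trans (mul_le_mul_of_nonneg_right (apply_norm_le D f) (norm_nonneg _))

lemma apply_mul_apply (f g : BCF) (x : H) : D.apply f (D.apply g x) = D.apply (f * g) x := by
  rw [map_mul]; rfl

lemma apply_one_vec (x : H) : D.apply 1 x = x := by rw [map_one]; rfl

lemma apply_zero_vec (x : H) : D.apply 0 x = 0 := by rw [map_zero]; rfl

lemma apply_sub_vec (f g : BCF) (x : H) : D.apply (f - g) x = D.apply f x - D.apply g x := by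
  rw [map_sub]; rfl

lemma apply_add_vec (f g : BCF) (x : H) : D.apply (f + g) x = D.apply f x + D.apply g x := by
  rw [map_add]; rfl

lemma apply_star_eq (f : BCF) : D.apply (star f) = star (D.apply f) := map_star _ _

lemma inner_apply_right (f : BCF) (x y : H) :
    ⟪x, D.apply f y⟫_ℂ = ⟪D.apply (star f) x, y⟫_ℂ := by
  rw [apply_star_eq, ContinuousLinearMap.star_eq_adjoint,
    ContinuousLinearMap.adjoint_inner_left]

/-- A vector killed by all compactly supported functions of `D` vanishes. -/
lemma eq_zero_of_window (x : H)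
    (h : ∀ w : BCF, HasCompactSupport (w : ℝ → ℂ) → D.apply w x = 0) : x = 0 := by
  by_contra hx
  have hpos : 0 < ‖x‖ := norm_pos_iff.mpr hx
  obtain ⟨w, hw, hlt⟩ := D.window x ‖x‖ hpos
  rw [h w hw, zero_sub, norm_neg] at hlt
  exact lt_irrefl _ hlt

lemma eq_of_window (x y : H)
    (h : ∀ w : BCF, HasCompactSupport (w : ℝ → ℂ) → D.apply w x = D.apply w y) : x = y := by
  have := eq_zero_of_window D (x - y) (fun w hw => by rw [map_sub, h w hw, sub_self])
  exact sub_eq_zero.mp this

/-! The character functions. -/

lemma character_apply (t u : ℝ) :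
    LineCalculus.character t u = Complex.exp (Complex.I * ((t * u : ℝ) : ℂ)) := rfl

lemma character_add (t r : ℝ) :
    LineCalculus.character (t + r) = LineCalculus.character t * LineCalculus.character r := by
  ext u
  simp only [character_apply, BoundedContinuousFunction.mul_apply]
  rw [← Complex.exp_add]
  congr 1
  push_cast
  ring

lemma character_zero : LineCalculus.character 0 = 1 := by
  ext u
  simp [character_apply]

lemma star_character (t : ℝ) : star (LineCalculus.character t) = LineCalculus.character (-t) := by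
  ext u
  simp only [BoundedContinuousFunction.star_apply, character_apply]
  rw [Complex.star_def, ← Complex.exp_conj]
  congr 1
  simp

lemma wave_add (t r : ℝ) : D.wave (t + r) = D.wave t * D.wave r := by
  simp only [LineCalculus.wave, character_add, map_mul]

lemma wave_add_vec (t r : ℝ) (x : H) : D.wave (t + r) x = D.wave t (D.wave r x) := by
  rw [wave_add]; rfl

lemma wave_zero : D.wave 0 = 1 := by
  simp only [LineCalculus.wave, character_zero, map_one]

lemma wave_zero_vec (x : H) : D.wave 0 x = x := by rw [wave_zero]; rfl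

lemma star_wave (t : ℝ) : star (D.wave t) = D.wave (-t) := by
  simp only [LineCalculus.wave]
  rw [← apply_star_eq, star_character]

lemma wave_neg_wave (t : ℝ) (x : H) : D.wave (-t) (D.wave t x) = x := by
  rw [← wave_add_vec, neg_add_cancel, wave_zero_vec]

lemma wave_wave_neg (t : ℝ) (x : H) : D.wave t (D.wave (-t) x) = x := by
  rw [← wave_add_vec, add_neg_cancel, wave_zero_vec]

lemma inner_wave_right (t : ℝ) (x y : H) : ⟪x, D.wave t y⟫_ℂ = ⟪D.wave (-t) x, y⟫_ℂ := by
  rw [← star_wave, ContinuousLinearMap.star_eq_adjoint, ContinuousLinearMap.adjoint_inner_left]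

lemma inner_wave_left (t : ℝ) (x y : H) : ⟪D.wave t x, y⟫_ℂ = ⟪x, D.wave (-t) y⟫_ℂ := by
  rw [inner_wave_right, neg_neg]

lemma inner_wave_wave (t : ℝ) (x y : H) : ⟪D.wave t x, D.wave t y⟫_ℂ = ⟪x, y⟫_ℂ := by
  rw [inner_wave_left, wave_neg_wave]

lemma norm_wave (t : ℝ) (x : H) : ‖D.wave t x‖ = ‖x‖ := by
  have h := inner_wave_wave D t x x
  rw [inner_self_eq_norm_sq_to_K, inner_self_eq_norm_sq_to_K] at h
  have h2 : ‖D.wave t x‖ ^ 2 = ‖x‖ ^ 2 := by exact_mod_cast h
  exact (sq_eq_sq₀ (norm_nonneg _) (norm_nonneg _)).mp h2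

lemma wave_opNorm_le (t : ℝ) : ‖D.wave t‖ ≤ 1 :=
  ContinuousLinearMap.opNorm_le_bound _ zero_le_one (fun x => by rw [norm_wave, one_mul])

lemma wave_apply_comm (t : ℝ) (f : BCF) (x : H) :
    D.wave t (D.apply f x) = D.apply (LineCalculus.character t * f) x := by
  simp only [LineCalculus.wave]
  rw [apply_mul_apply]

/-- Norm continuity of `t ↦ e^{itu} w(u)` for compactly supported `w`. -/
lemma character_mul_continuous (w : BCF) (hw : HasCompactSupport (w : ℝ → ℂ)) :
    Continuous (fun t : ℝ => LineCalculus.character t * w) := by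
  obtain ⟨R, hR⟩ := hw.isCompact.isBounded.subset_closedBall (0 : ℝ)
  have hbd : ∀ t t' : ℝ, ‖LineCalculus.character t * w - LineCalculus.character t' * w‖
      ≤ |t - t'| * (max R 0) * ‖w‖ := by
    intro t t'
    refine (BoundedContinuousFunction.norm_le (by positivity)).mpr (fun u => ?_)
    simp only [BoundedContinuousFunction.coe_sub, BoundedContinuousFunction.coe_mul, Pi.sub_apply,
      Pi.mul_apply]
    by_cases hu : u ∈ tsupport (w : ℝ → ℂ)
    · have hu' : |u| ≤ max R 0 := by
        have := hR hu
        simp only [Metric.mem_closedBall, dist_zero_right, Real.norm_eq_abs] at this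
        exact this.trans (le_max_left _ _)
      rw [← sub_mul, norm_mul]
      refine mul_le_mul ?_ (w.norm_coe_le_norm u) (norm_nonneg _) (by positivity)
      have : LineCalculus.character t u - LineCalculus.character t' u
          = LineCalculus.character t' u * (Complex.exp (Complex.I * (((t - t') * u : ℝ) : ℂ)) - 1) := by
        simp only [character_apply]
        rw [mul_sub, mul_one, ← Complex.exp_add]
        congr 2
        push_cast
        ring
      rw [this, norm_mul]
      have h1 : ‖LineCalculus.character t' u‖ = 1 := by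
        rw [character_apply, mul_comm]
        exact Complex.norm_exp_ofReal_mul_I _
      rw [h1, one_mul]
      refine (Real.norm_exp_I_mul_ofReal_sub_one_le).trans ?_
      rw [Real.norm_eq_abs, abs_mul]
      exact mul_le_mul_of_nonneg_left hu' (abs_nonneg _)
    · have : w u = 0 := image_eq_zero_of_notMem_tsupport hu
      simp only [this, mul_zero, sub_zero, norm_zero]
      positivity
  refine continuous_iff_continuousAt.mpr (fun t₀ => ?_)
  have hlim : Tendsto (fun t : ℝ => |t - t₀| * (max R 0) * ‖w‖) (𝓝 t₀) (𝓝 0) := by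
    have : Continuous (fun t : ℝ => |t - t₀| * (max R 0) * ‖w‖) := by fun_prop
    simpa using this.tendsto t₀
  refine tendsto_iff_norm_sub_tendsto_zero.mpr ?_
  exact squeeze_zero (fun _ => norm_nonneg _) (fun t => hbd t t₀) hlim

/-- Evaluation of the calculus at a vector as a continuous linear map. -/
noncomputable def applyCLM (x : H) : BCF →L[ℂ] H :=
  LinearMap.mkContinuous
    { toFun := fun f => D.apply f x
      map_add' := fun f g => by rw [map_add]; rfl
      map_smul' := fun c f => by rw [map_smul]; rfl }
    ‖x‖ (fun f => by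
      simp only [LinearMap.coe_mk, AddHom.coe_mk]
      rw [mul_comm]; exact apply_vec_norm_le D f x)

@[simp] lemma applyCLM_apply (x : H) (f : BCF) : applyCLM D x f = D.apply f x := rfl

/-- Strong continuity of the unitary group. -/
lemma wave_continuous (x : H) : Continuous (fun t : ℝ => D.wave t x) := by
  refine continuous_of_uniform_approx_of_continuous (fun u hu => ?_)
  obtain ⟨ε, hε, hu'⟩ := Metric.mem_uniformity_dist.mp hu
  obtain ⟨w, hw, hlt⟩ := D.window x ε hε
  refine ⟨fun t => D.apply (LineCalculus.character t * w) x, ?_, fun t => ?_⟩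
  · exact (applyCLM D x).continuous.comp (character_mul_continuous w hw)
  · refine hu' ?_
    rw [dist_eq_norm]
    show ‖D.wave t x - D.apply (LineCalculus.character t * w) x‖ < ε
    rw [← wave_apply_comm, ← map_sub, norm_wave, norm_sub_rev]
    exact hlt

lemma wave_comp_continuous {z : ℝ → H} (hz : Continuous z) :
    Continuous (fun t : ℝ => D.wave t (z t)) := by
  refine continuous_iff_continuousAt.mpr (fun t₀ => ?_)
  refine tendsto_iff_norm_sub_tendsto_zero.mpr ?_
  have h1 : Tendsto (fun t : ℝ => ‖z t - z t₀‖ + ‖D.wave t (z t₀) - D.wave t₀ (z t₀)‖)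
      (𝓝 t₀) (𝓝 0) := by
    have hc : Continuous (fun t : ℝ => ‖z t - z t₀‖ + ‖D.wave t (z t₀) - D.wave t₀ (z t₀)‖) := by
      have := wave_continuous D (z t₀)
      fun_prop
    simpa using hc.tendsto t₀
  refine squeeze_zero (fun _ => norm_nonneg _) (fun t => ?_) h1
  have : D.wave t (z t) - D.wave t₀ (z t₀)
      = D.wave t (z t - z t₀) + (D.wave t (z t₀) - D.wave t₀ (z t₀)) := by
    rw [map_sub]; abel
  rw [this]
  refine (norm_add_le _ _).trans ?_
  rw [norm_wave]

lemma apply_wave_comm (f : BCF) (t : ℝ) (x : H) :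
    D.apply f (D.wave t x) = D.wave t (D.apply f x) := by
  simp only [LineCalculus.wave]
  rw [apply_mul_apply, apply_mul_apply, mul_comm]

/-! Integral representation. -/

omit [CompleteSpace H] in
lemma integrable_smul_bdd {F : ℝ → ℂ} (hF : Integrable F) {G : ℝ → H} (hG : Continuous G)
    {K : ℝ} (hK : ∀ t, ‖G t‖ ≤ K) : Integrable (fun t => F t • G t) := by
  refine Integrable.mono' (hF.norm.mul_const K)
    (hF.aestronglyMeasurable.smul hG.aestronglyMeasurable) (Eventually.of_forall fun t => ?_)
  rw [norm_smul]
  exact mul_le_mul_of_nonneg_left (hK t) (norm_nonneg _)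

/-- If `g(u) = ∫ F(t) e^{i κ t u} dt` then `g(D) x = ∫ F(t) e^{i κ t D} x dt`. -/
lemma integral_wave_eq {F : ℝ → ℂ} (hF : Integrable F) (κ : ℝ) (g : BCF)
    (hg : ∀ u : ℝ, g u = ∫ t, F t * Complex.exp (Complex.I * (((κ * t) * u : ℝ) : ℂ))) (x : H) :
    ∫ t, F t • D.wave (κ * t) x = D.apply g x := by
  have hcontw : ∀ y : H, Continuous (fun t : ℝ => D.wave (κ * t) y) := fun y =>
    (wave_continuous D y).comp (continuous_const.mul continuous_id)
  have hint : ∀ y : H, Integrable (fun t => F t • D.wave (κ * t) y) := fun y =>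
    integrable_smul_bdd hF (hcontw y) (fun t => (norm_wave D _ _).le)
  refine eq_of_window D _ _ (fun w hw => ?_)
  -- the `BCF`-valued integral
  have hcont : Continuous (fun t : ℝ => LineCalculus.character (κ * t) * w) :=
    (character_mul_continuous w hw).comp (continuous_const.mul continuous_id)
  have hbd : ∀ t : ℝ, ‖LineCalculus.character (κ * t) * w‖ ≤ ‖w‖ := by
    intro t
    refine (BoundedContinuousFunction.norm_le (norm_nonneg _)).mpr (fun u => ?_)
    rw [BoundedContinuousFunction.mul_apply, norm_mul, character_apply, mul_comm Complex.I,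
      Complex.norm_exp_ofReal_mul_I, one_mul]
    exact w.norm_coe_le_norm u
  have hΩ : Integrable (fun t : ℝ => F t • (LineCalculus.character (κ * t) * w)) := by
    refine Integrable.mono' (hF.norm.mul_const ‖w‖)
      (hF.aestronglyMeasurable.smul hcont.aestronglyMeasurable) (Eventually.of_forall fun t => ?_)
    rw [norm_smul]
    exact mul_le_mul_of_nonneg_left (hbd t) (norm_nonneg _)
  have hI : ∫ t : ℝ, F t • (LineCalculus.character (κ * t) * w) = g * w := by
    ext u
    have := ContinuousLinearMap.integral_comp_comm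
      (BoundedContinuousFunction.evalCLM ℂ u : BCF →L[ℂ] ℂ) hΩ
    simp only [BoundedContinuousFunction.evalCLM_apply] at this
    rw [← this, BoundedContinuousFunction.mul_apply, hg u, ← integral_mul_const]
    refine integral_congr_ae (Eventually.of_forall fun t => ?_)
    simp only [BoundedContinuousFunction.coe_smul, BoundedContinuousFunction.mul_apply,
      character_apply, smul_eq_mul]
    ring
  have h1 := ContinuousLinearMap.integral_comp_comm (applyCLM D x) hΩ
  rw [hI] at h1
  simp only [applyCLM_apply, map_smul] at h1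
  -- now assemble
  have h2 : D.apply w (∫ t, F t • D.wave (κ * t) x)
      = ∫ t, D.apply w (F t • D.wave (κ * t) x) :=
    (ContinuousLinearMap.integral_comp_comm (D.apply w) (hint x)).symm
  rw [h2, apply_mul_apply, mul_comm w g, ← h1]
  refine integral_congr_ae (Eventually.of_forall fun t => ?_)
  simp only [map_smul]
  rw [← wave_apply_comm, apply_wave_comm]

end Calculus

/-! ## Smoothing of bounded strongly continuous families -/

section Smooth

/-- `y ↦ ∫ F(t) R(t) y dt` as a bounded operator. -/
noncomputable def smoothOp (F : ℝ → ℂ) (hF : Integrable F) (R : ℝ → H →L[ℂ] H) (K : ℝ)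
    (hR : ∀ x, Continuous fun t => R t x) (hK : ∀ t, ‖R t‖ ≤ K) : H →L[ℂ] H :=
  LinearMap.mkContinuous
    { toFun := fun y => ∫ t, F t • R t y
      map_add' := fun x y => by
        have hx : Integrable (fun t => F t • R t x) :=
          integrable_smul_bdd hF (hR x) (fun t => ((R t).le_opNorm x).trans
            (mul_le_mul_of_nonneg_right (hK t) (norm_nonneg _)))
        have hy : Integrable (fun t => F t • R t y) :=
          integrable_smul_bdd hF (hR y) (fun t => ((R t).le_opNorm y).trans
            (mul_le_mul_of_nonneg_right (hK t) (norm_nonneg _)))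
        simp only [map_add, smul_add]
        exact integral_add hx hy
      map_smul' := fun c y => by
        simp only [map_smul, RingHom.id_apply]
        rw [← integral_smul]
        refine integral_congr_ae (Eventually.of_forall fun t => ?_)
        simp only [smul_smul, mul_comm] }
    ((∫ t, ‖F t‖) * K) (fun y => by
      simp only [LinearMap.coe_mk, AddHom.coe_mk]
      refine (norm_integral_le_integral_norm _).trans ?_
      have hnn : (0 : ℝ) ≤ K := (norm_nonneg _).trans (hK 0)
      calc ∫ t, ‖F t • R t y‖ ≤ ∫ t, ‖F t‖ * (K * ‖y‖) := by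
            refine integral_mono_of_nonneg (Eventually.of_forall fun t => norm_nonneg _)
              (hF.norm.mul_const _) (Eventually.of_forall fun t => ?_)
            simp only [norm_smul]
            refine mul_le_mul_of_nonneg_left ?_ (norm_nonneg _)
            exact ((R t).le_opNorm y).trans (mul_le_mul_of_nonneg_right (hK t) (norm_nonneg _))
        _ = (∫ t, ‖F t‖) * K * ‖y‖ := by
            rw [integral_mul_const]; ring)

lemma smoothOp_apply (F : ℝ → ℂ) (hF : Integrable F) (R : ℝ → H →L[ℂ] H) (K : ℝ)
    (hR : ∀ x, Continuous fun t => R t x) (hK : ∀ t, ‖R t‖ ≤ K) (y : H) :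
    smoothOp F hF R K hR hK y = ∫ t, F t • R t y := rfl

lemma smoothOp_norm_le (F : ℝ → ℂ) (hF : Integrable F) (R : ℝ → H →L[ℂ] H) (K : ℝ)
    (hR : ∀ x, Continuous fun t => R t x) (hK : ∀ t, ‖R t‖ ≤ K) :
    ‖smoothOp F hF R K hR hK‖ ≤ (∫ t, ‖F t‖) * K := by
  have hnn : (0 : ℝ) ≤ K := (norm_nonneg _).trans (hK 0)
  exact LinearMap.mkContinuous_norm_le _ (mul_nonneg (integral_nonneg fun _ => norm_nonneg _) hnn) _

lemma smoothOp_commute (F : ℝ → ℂ) (hF : Integrable F) (R : ℝ → H →L[ℂ] H) (K : ℝ)
    (hR : ∀ x, Continuous fun t => R t x) (hK : ∀ t, ‖R t‖ ≤ K) (m : H →L[ℂ] H)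
    (hm : ∀ t, m * R t = R t * m) :
    m * smoothOp F hF R K hR hK = smoothOp F hF R K hR hK * m := by
  ext y
  show m (smoothOp F hF R K hR hK y) = smoothOp F hF R K hR hK (m y)
  simp only [smoothOp_apply]
  have hy : Integrable (fun t => F t • R t y) :=
    integrable_smul_bdd hF (hR y) (fun t => ((R t).le_opNorm y).trans
      (mul_le_mul_of_nonneg_right (hK t) (norm_nonneg _)))
  rw [← ContinuousLinearMap.integral_comp_comm m hy]
  refine integral_congr_ae (Eventually.of_forall fun t => ?_)
  simp only [map_smul]
  congr 1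
  exact congrArg (fun L : H →L[ℂ] H => L y) (hm t)

end Smooth

end Crest.Agent.Lib.MR
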