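import Crest.Agent.Lib.MR1

/-! Band functions, their Schwartz kernels, band projections in the calculus. -/

set_option autoImplicit false

namespace Crest.Agent.Lib.MR

open Crest.OpAlg Filter MeasureTheory
open scoped Topology InnerProductSpace ComplexConjugate FourierTransform SchwartzMap ContDiff

variable {H : Type*} [NormedAddCommGroup H] [InnerProductSpace ℂ H] [CompleteSpace H]

local notation "BCF" => BoundedContinuousFunction ℝ ℂ

/-- A fixed bump: `1` on `[-1,1]`, `0` off `(-2,2)`. -/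
noncomputable def bump0 : ContDiffBump (0 : ℝ) := ⟨1, 2, one_pos, one_lt_two⟩

/-- The bump as a complex function. -/
noncomputable def bumpC (u : ℝ) : ℂ := ((bump0 u : ℝ) : ℂ)

lemma bumpC_contDiff : ContDiff ℝ ∞ bumpC :=
  Complex.ofRealCLM.contDiff.comp bump0.contDiff

lemma bumpC_compact : HasCompactSupport bumpC := by
  have h : HasCompactSupport (bump0 : ℝ → ℝ) := bump0.hasCompactSupport
  exact h.comp_left (g := fun r : ℝ => (r : ℂ)) (by simp)

lemma bumpC_norm_le (u : ℝ) : ‖bumpC u‖ ≤ 1 := by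
  simp only [bumpC, Complex.norm_real, Real.norm_eq_abs]
  rw [abs_of_nonneg bump0.nonneg]
  exact bump0.le_one

lemma bumpC_one {u : ℝ} (h : |u| ≤ 1) : bumpC u = 1 := by
  have : bump0 u = 1 := bump0.one_of_mem_closedBall (by
    simpa [Metric.mem_closedBall, dist_zero_right, bump0] using h)
  simp [bumpC, this]

lemma bumpC_zero {u : ℝ} (h : 2 ≤ |u|) : bumpC u = 0 := by
  have : bump0 u = 0 := bump0.zero_of_le_dist (by
    simpa [dist_zero_right, bump0] using h)
  simp [bumpC, this]

/-- The bump as a Schwartz function. -/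
noncomputable def bumpS : 𝓢(ℝ, ℂ) := bumpC_compact.toSchwartzMap bumpC_contDiff

/-- The kernel: inverse Fourier transform of the bump. -/
noncomputable def kernel0 : 𝓢(ℝ, ℂ) := 𝓕⁻ bumpS

lemma kernel0_integrable : Integrable (kernel0 : ℝ → ℂ) := kernel0.integrable

lemma kernel0_fourier (ξ : ℝ) :
    ∫ t, Complex.exp (((-2 * Real.pi * (ξ * t) : ℝ) : ℂ) * Complex.I) * kernel0 t = bumpC ξ := by
  have h : 𝓕 kernel0 = bumpS := FourierTransform.fourier_fourierInv_eq bumpS
  have h2 : (𝓕 (kernel0 : ℝ → ℂ)) ξ = bumpS ξ := by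
    rw [← SchwartzMap.fourier_coe, h]
  rw [Real.fourier_eq'] at h2
  have h3 : bumpS ξ = bumpC ξ := rfl
  rw [← h3, ← h2]
  refine integral_congr_ae (Eventually.of_forall fun t => ?_)
  simp [mul_comm]

/-- The `L¹` norm of the kernel. -/
noncomputable def kerNorm : ℝ := ∫ t, ‖kernel0 t‖

lemma kerNorm_nonneg : 0 ≤ kerNorm := integral_nonneg fun _ => norm_nonneg _

/-- The band function `u ↦ bump((u - s)/δ)`. -/
noncomputable def bandFn (s δ : ℝ) : BCF :=
  BoundedContinuousFunction.ofNormedAddCommGroup (fun u : ℝ => bumpC ((u - s) / δ))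
    (bumpC_contDiff.continuous.comp (by fun_prop)) 1 (fun _ => bumpC_norm_le _)

lemma bandFn_apply (s δ u : ℝ) : bandFn s δ u = bumpC ((u - s) / δ) := rfl

lemma bandFn_norm_le (s δ : ℝ) : ‖bandFn s δ‖ ≤ 1 :=
  (BoundedContinuousFunction.norm_le zero_le_one).mpr (fun _ => bumpC_norm_le _)

lemma star_bandFn (s δ : ℝ) : star (bandFn s δ) = bandFn s δ := by
  ext u
  simp [bandFn_apply, bumpC]

lemma bandFn_one {s δ u : ℝ} (hδ : 0 < δ) (h : u ∈ Set.Icc (s - δ) (s + δ)) : bandFn s δ u = 1 := by
  rw [bandFn_apply]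
  apply bumpC_one
  rw [abs_div, abs_of_pos hδ, div_le_one hδ, abs_le]
  constructor <;> linarith [h.1, h.2]

lemma bandFn_zero {s δ u : ℝ} (hδ : 0 < δ) (h : 2 * δ ≤ |u - s|) : bandFn s δ u = 0 := by
  rw [bandFn_apply]
  apply bumpC_zero
  rw [abs_div, abs_of_pos hδ, le_div_iff₀ hδ]
  exact h

lemma bandFn_compact {s δ : ℝ} (hδ : 0 < δ) : HasCompactSupport (bandFn s δ : ℝ → ℂ) := by
  refine HasCompactSupport.of_support_subset_isCompact (isCompact_closedBall s (2 * δ)) ?_
  intro u hu
  by_contra hu'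
  simp only [Metric.mem_closedBall, Real.dist_eq, not_le] at hu'
  exact hu (bandFn_zero hδ hu'.le)

/-- The kernel of the band function, with exponential centering. -/
noncomputable def bandKer (s δ : ℝ) (t : ℝ) : ℂ :=
  kernel0 t * Complex.exp (Complex.I * ((2 * Real.pi * s / δ * t : ℝ) : ℂ))

lemma norm_bandKer (s δ t : ℝ) : ‖bandKer s δ t‖ = ‖kernel0 t‖ := by
  rw [bandKer, norm_mul, mul_comm Complex.I, Complex.norm_exp_ofReal_mul_I, mul_one]

lemma bandKer_integrable (s δ : ℝ) : Integrable (bandKer s δ) := by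
  refine (kernel0_integrable.norm).mono' ?_ (Eventually.of_forall fun t => (norm_bandKer s δ t).le)
  refine kernel0_integrable.aestronglyMeasurable.mul ?_
  exact (Continuous.aestronglyMeasurable (by fun_prop))

lemma integral_norm_bandKer (s δ : ℝ) : ∫ t, ‖bandKer s δ t‖ = kerNorm := by
  simp only [norm_bandKer, kerNorm]

/-- The fundamental relation between kernel and band function. -/
lemma bandKer_fourier (s : ℝ) {δ : ℝ} (hδ : 0 < δ) (u : ℝ) :
    bandFn s δ u = ∫ t, bandKer s δ t *
      Complex.exp (Complex.I * (((-2 * Real.pi / δ * t) * u : ℝ) : ℂ)) := by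
  rw [bandFn_apply, ← kernel0_fourier]
  refine integral_congr_ae (Eventually.of_forall fun t => ?_)
  simp only [bandKer]
  have hδ' : (δ : ℂ) ≠ 0 := by exact_mod_cast hδ.ne'
  have : Complex.exp (((-2 * Real.pi * ((u - s) / δ * t) : ℝ) : ℂ) * Complex.I)
      = Complex.exp (Complex.I * ((2 * Real.pi * s / δ * t : ℝ) : ℂ))
        * Complex.exp (Complex.I * (((-2 * Real.pi / δ * t) * u : ℝ) : ℂ)) := by
    rw [← Complex.exp_add]
    congr 1
    push_cast
    field_simp
    ring
  rw [this]
  ring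

section Calculus
variable (D : LineCalculus H)

/-- `g(D)` as an integral of waves. -/
lemma band_integral (s : ℝ) {δ : ℝ} (hδ : 0 < δ) (x : H) :
    ∫ t, bandKer s δ t • D.wave (-2 * Real.pi / δ * t) x = D.apply (bandFn s δ) x :=
  integral_wave_eq D (bandKer_integrable s δ) _ _ (bandKer_fourier s hδ) x

lemma apply_band_of_supported {s δ : ℝ} (hδ : 0 < δ) {x : H}
    (hx : D.SupportedIn (Set.Icc (s - δ) (s + δ)) x) : D.apply (bandFn s δ) x = x := by
  have := hx (bandFn s δ - 1) (fun u hu => by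
    simp [bandFn_one hδ hu])
  rw [apply_sub_vec, apply_one_vec, sub_eq_zero] at this
  exact this

lemma supported_apply_band {s δ : ℝ} (hδ : 0 < δ) (x : H) :
    D.SupportedIn (Set.Icc (s - 2 * δ) (s + 2 * δ)) (D.apply (bandFn s δ) x) := by
  intro f hf
  rw [apply_mul_apply]
  have : f * bandFn s δ = 0 := by
    ext u
    show f u * bandFn s δ u = 0
    by_cases hu : u ∈ Set.Icc (s - 2 * δ) (s + 2 * δ)
    · rw [hf u hu, zero_mul]
    · have : 2 * δ ≤ |u - s| := by
        rw [Set.mem_Icc, not_and_or, not_le, not_le] at hu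
        rcases hu with hu | hu
        · rw [abs_of_neg (by linarith)]; linarith
        · rw [abs_of_pos (by linarith)]; linarith
      rw [bandFn_zero hδ this, mul_zero]
  rw [this, apply_zero_vec]

lemma supported_wave {K : Set ℝ} {x : H} (hx : D.SupportedIn K x) (t : ℝ) :
    D.SupportedIn K (D.wave t x) := by
  intro f hf
  rw [apply_wave_comm, hx f hf, map_zero]

lemma supported_mono {K L : Set ℝ} (hKL : K ⊆ L) {x : H} (hx : D.SupportedIn K x) :
    D.SupportedIn L x := fun f hf => hx f (fun u hu => hf u (hKL hu))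

/-- A vector killed by all `f` vanishing on `K`, fixed by the band projection. -/
lemma inner_band_left {s δ : ℝ} (x y : H) :
    ⟪D.apply (bandFn s δ) x, y⟫_ℂ = ⟪x, D.apply (bandFn s δ) y⟫_ℂ := by
  rw [inner_apply_right, star_bandFn]

end Calculus

end Crest.Agent.Lib.MR
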