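import Crest.Agent.Lib.MR2

/-! Consequences of the Tomita relation: the vacuum is fixed by the unitary group, and the
bound `‖a⋆ξ‖ ≤ e^{(s+4δ)/2} ‖aξ‖` on spectral bands. -/

set_option autoImplicit false

namespace Crest.Agent.Lib.MR

open Crest.OpAlg Filter MeasureTheory
open scoped Topology InnerProductSpace ComplexConjugate

variable {H : Type*} [NormedAddCommGroup H] [InnerProductSpace ℂ H] [CompleteSpace H]

local notation "BCF" => BoundedContinuousFunction ℝ ℂ

/-- The exponential weight. -/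
noncomputable def expFn (a u : ℝ) : ℂ := ((Real.exp (a * u) : ℝ) : ℂ)

lemma expFn_continuous (a : ℝ) : Continuous (expFn a) := by
  unfold expFn
  fun_prop

/-- Compactly supported function times an exponential weight. -/
noncomputable def cmul (w : BCF) (hw : HasCompactSupport (w : ℝ → ℂ)) (a : ℝ) : BCF :=
  ofCompactSupport (fun u => w u * expFn a u)
    (w.continuous.mul (expFn_continuous a)) hw.mul_right

lemma cmul_apply (w : BCF) (hw : HasCompactSupport (w : ℝ → ℂ)) (a u : ℝ) :
    cmul w hw a u = w u * expFn a u := rfl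

lemma cmul_compact (w : BCF) (hw : HasCompactSupport (w : ℝ → ℂ)) (a : ℝ) :
    HasCompactSupport (cmul w hw a : ℝ → ℂ) :=
  HasCompactSupport.mul_right (f := (w : ℝ → ℂ)) (f' := expFn a) hw

lemma star_compact (w : BCF) (hw : HasCompactSupport (w : ℝ → ℂ)) :
    HasCompactSupport ((star w : BCF) : ℝ → ℂ) := by
  have : ((star w : BCF) : ℝ → ℂ) = fun u => star (w u) := rfl
  rw [this]
  exact hw.comp_left (g := fun z : ℂ => star z) (by simp)

lemma star_cmul (w : BCF) (hw : HasCompactSupport (w : ℝ → ℂ)) (a : ℝ) :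
    star (cmul w hw a) = cmul (star w) (star_compact w hw) a := by
  ext u
  simp only [BoundedContinuousFunction.star_apply, cmul_apply, star_mul', expFn]
  congr 1
  exact Complex.conj_ofReal _

lemma cmul_cmul (w : BCF) (hw : HasCompactSupport (w : ℝ → ℂ)) (a b : ℝ) :
    cmul (cmul w hw a) (cmul_compact w hw a) b = cmul w hw (a + b) := by
  ext u
  simp only [cmul_apply, expFn]
  rw [mul_assoc, ← Complex.ofReal_mul, ← Real.exp_add]
  congr 3
  ring

section Datum

variable (S : ModularDatum H)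

/-- The modular conjugation is antiunitary. -/
lemma J_inner (x y : H) : ⟪S.J x, S.J y⟫_ℂ = ⟪y, x⟫_ℂ := by
  have hre : ∀ x y : H, (⟪S.J x, S.J y⟫_ℂ).re = (⟪x, y⟫_ℂ).re := by
    intro x y
    have h1 := norm_add_sq (𝕜 := ℂ) (S.J x) (S.J y)
    have h2 := norm_add_sq (𝕜 := ℂ) x y
    have h3 : ‖S.J x + S.J y‖ = ‖x + y‖ := by rw [← map_add, S.J.norm_map]
    rw [S.J.norm_map, S.J.norm_map, h3, h2] at h1
    simp only [RCLike.re_eq_complex_re] at h1
    linarith
  have him : ∀ x y : H, (⟪S.J x, S.J y⟫_ℂ).im = -(⟪x, y⟫_ℂ).im := by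
    intro x y
    have h := hre x (Complex.I • y)
    have h1 : S.J (Complex.I • y) = (-Complex.I) • S.J y := by
      rw [S.J.map_smulₛₗ]
      simp
    rw [h1, inner_smul_right, inner_smul_right] at h
    simp only [Complex.mul_re, Complex.neg_re, Complex.I_re, Complex.neg_im, Complex.I_im] at h
    linarith
  apply Complex.ext
  · rw [hre]
    exact inner_re_symm (𝕜 := ℂ) x y
  · rw [him]
    have := inner_im_symm (𝕜 := ℂ) x y
    simp only [RCLike.im_eq_complex_im] at this
    rw [this]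
    ring

lemma tomita_mem (a : H →L[ℂ] H) (ha : a ∈ S.M) : S.D.HalfExp (a S.vac) (S.J (star a S.vac)) := by
  have : ((a S.vac, star a S.vac) : H × H) ∈ {p : H × H | S.D.HalfExp p.1 (S.J p.2)} := by
    rw [← S.tomita]
    exact subset_closure ⟨⟨a, ha⟩, rfl⟩
  exact this

lemma tomita_vac : S.D.HalfExp S.vac (S.J S.vac) := by
  have := tomita_mem S 1 (one_mem _)
  simpa using this

lemma tomita_inner (p : H × H) (hp : S.D.HalfExp p.1 (S.J p.2)) :
    ⟪p.1, S.vac⟫_ℂ = ⟪S.vac, p.2⟫_ℂ := by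
  have hmem : p ∈ closure (Set.range fun a : S.M =>
      ((a : H →L[ℂ] H) S.vac, star (a : H →L[ℂ] H) S.vac)) := by
    rw [S.tomita]; exact hp
  have hclosed : IsClosed {p : H × H | ⟪p.1, S.vac⟫_ℂ = ⟪S.vac, p.2⟫_ℂ} :=
    isClosed_eq (by fun_prop) (by fun_prop)
  refine closure_minimal ?_ hclosed hmem
  rintro _ ⟨a, rfl⟩
  show ⟪(a : H →L[ℂ] H) S.vac, S.vac⟫_ℂ = ⟪S.vac, star (a : H →L[ℂ] H) S.vac⟫_ℂ
  rw [ContinuousLinearMap.star_eq_adjoint, ContinuousLinearMap.adjoint_inner_right]

lemma halfExp_apply (f : BCF) (hf : HasCompactSupport (f : ℝ → ℂ)) (z : H) :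
    S.D.HalfExp (S.D.apply f z) (S.D.apply (cmul f hf (1 / 2)) z) := by
  intro f' g' hfg
  rw [apply_mul_apply, apply_mul_apply]
  congr 2
  ext u
  simp only [BoundedContinuousFunction.mul_apply, cmul_apply, hfg u, expFn]
  have : (1 / 2 : ℝ) * u = u / 2 := by ring
  rw [this]
  ring

lemma tomita_apply (f : BCF) (hf : HasCompactSupport (f : ℝ → ℂ)) (z : H) :
    ⟪S.D.apply f z, S.vac⟫_ℂ = ⟪S.D.apply (cmul f hf (1 / 2)) z, S.J S.vac⟫_ℂ := by
  have hp : S.D.HalfExp (S.D.apply f z) (S.J (S.J (S.D.apply (cmul f hf (1 / 2)) z))) := by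
    rw [S.J_J]
    exact halfExp_apply S f hf z
  have := tomita_inner S (S.D.apply f z, S.J (S.D.apply (cmul f hf (1 / 2)) z)) hp
  simp only at this
  rw [this]
  have h2 := J_inner S (S.J S.vac) (S.D.apply (cmul f hf (1 / 2)) z)
  rw [S.J_J] at h2
  exact h2

/-- `H1`. -/
lemma vac_h1 (k : BCF) (hk : HasCompactSupport (k : ℝ → ℂ)) :
    S.D.apply k (S.J S.vac) = S.D.apply (cmul k hk (1 / 2)) S.vac := by
  refine tomita_vac S k (cmul k hk (1 / 2)) (fun u => ?_)
  simp only [cmul_apply, expFn]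
  have : (1 / 2 : ℝ) * u = u / 2 := by ring
  rw [this]

/-- `H3`. -/
lemma vac_h3 (f : BCF) (hf : HasCompactSupport (f : ℝ → ℂ)) :
    S.D.apply f S.vac = S.D.apply (cmul f hf (1 / 2)) (S.J S.vac) := by
  refine ext_inner_left ℂ (fun z => ?_)
  rw [inner_apply_right, inner_apply_right]
  have h := tomita_apply S (star f) (star_compact f hf) z
  rw [h, star_cmul]

/-- `H5`. -/
lemma vac_h5 (k : BCF) (hk : HasCompactSupport (k : ℝ → ℂ)) :
    S.D.apply k (S.J S.vac) = S.D.apply (cmul k hk 1) (S.J S.vac) := by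
  rw [vac_h1 S k hk, vac_h3 S _ (cmul_compact k hk (1 / 2)), cmul_cmul]
  norm_num

/-- `H6`: functions vanishing near `0` kill `Jξ`. -/
lemma vac_h6 (w : BCF) (hw : HasCompactSupport (w : ℝ → ℂ)) (h0 : ∀ᶠ u in 𝓝 (0 : ℝ), w u = 0) :
    S.D.apply w (S.J S.vac) = 0 := by
  -- the quotient
  let q : ℝ → ℂ := fun u => w u / ((Real.exp u - 1 : ℝ) : ℂ)
  have hq0 : ∀ᶠ u in 𝓝 (0 : ℝ), q u = 0 := by
    filter_upwards [h0] with u hu
    simp [q, hu]
  have hqc : Continuous q := by
    refine continuous_iff_continuousAt.mpr (fun u => ?_)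
    by_cases hu : u = 0
    · subst hu
      refine (continuousAt_const (y := (0 : ℂ))).congr ?_
      filter_upwards [hq0] with v hv using hv.symm
    · refine w.continuous.continuousAt.div (by fun_prop) ?_
      have : Real.exp u ≠ 1 := by
        rw [Ne, Real.exp_eq_one_iff]; exact hu
      exact_mod_cast sub_ne_zero.mpr this
  have hqs : HasCompactSupport q := by
    refine hw.mono (fun u hu => ?_)
    intro hwu
    apply hu
    simp [q, hwu]
  let k : BCF := ofCompactSupport q hqc hqs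
  have hk : HasCompactSupport (k : ℝ → ℂ) := hqs
  have hwk : w = cmul k hk 1 - k := by
    ext u
    show w u = q u * expFn 1 u - q u
    by_cases hu : u = 0
    · subst hu
      have h00 : w 0 = 0 := h0.self_of_nhds
      simp [q, h00]
    · have hne : ((Real.exp u - 1 : ℝ) : ℂ) ≠ 0 := by
        have : Real.exp u ≠ 1 := by
          rw [Ne, Real.exp_eq_one_iff]; exact hu
        exact_mod_cast sub_ne_zero.mpr this
      simp only [q, expFn, one_mul]
      push_cast at hne ⊢
      field_simp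
  rw [hwk, apply_sub_vec, ← vac_h5, sub_self]

/-- `H7`. -/
lemma vac_h7 (w : BCF) (hw : HasCompactSupport (w : ℝ → ℂ)) (h0 : ∀ᶠ u in 𝓝 (0 : ℝ), w u = 0) :
    S.D.apply w S.vac = 0 := by
  have h1 := vac_h1 S (cmul w hw (-(1 / 2))) (cmul_compact w hw _)
  have h2 : S.D.apply (cmul w hw (-(1 / 2))) (S.J S.vac) = 0 := by
    refine vac_h6 S _ (cmul_compact w hw _) ?_
    filter_upwards [h0] with u hu
    simp [cmul_apply, hu]
  rw [h2, cmul_cmul] at h1
  have h3 : cmul w hw (-(1 / 2) + 1 / 2) = w := by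
    ext u
    simp [cmul_apply, expFn]
  rw [h3] at h1
  exact h1.symm

/-- `H8`. -/
lemma apply_vac_eq_zero (f : BCF) (hf : f 0 = 0) : S.D.apply f S.vac = 0 := by
  have key : ∀ ε > 0, ‖S.D.apply f S.vac‖ ≤ ε := by
    intro ε hε
    have hcont : ContinuousAt (f : ℝ → ℂ) 0 := f.continuous.continuousAt
    obtain ⟨r₀, hr₀, hr⟩ := Metric.continuousAt_iff.mp hcont ε hε
    let r : ℝ := r₀ / 2
    have hr1 : 0 < r := by positivity
    have hf1 : S.D.apply (f * (1 - bandFn 0 r)) S.vac = 0 := by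
      refine eq_zero_of_window S.D _ (fun w' hw' => ?_)
      rw [apply_mul_apply]
      have hcs : HasCompactSupport ((w' * (f * (1 - bandFn 0 r)) : BCF) : ℝ → ℂ) := by
        have : ((w' * (f * (1 - bandFn 0 r)) : BCF) : ℝ → ℂ)
            = (w' : ℝ → ℂ) * ((f * (1 - bandFn 0 r) : BCF) : ℝ → ℂ) := rfl
        rw [this]
        exact hw'.mul_right
      refine vac_h7 S _ hcs ?_
      have : Set.Ioo (-r) r ∈ 𝓝 (0 : ℝ) := Ioo_mem_nhds (by linarith) hr1
      filter_upwards [this] with u hu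
      have h1 : bandFn 0 r u = 1 := bandFn_one hr1 (by
        constructor <;> linarith [hu.1, hu.2])
      show w' u * (f u * (1 - bandFn 0 r u)) = 0
      rw [h1]
      simp
    have hsplit : S.D.apply f S.vac = S.D.apply (f * bandFn 0 r) S.vac := by
      have : f = f * bandFn 0 r + f * (1 - bandFn 0 r) := by ring
      conv_lhs => rw [this]
      rw [apply_add_vec, hf1, add_zero]
    rw [hsplit]
    have hn : ‖f * bandFn 0 r‖ ≤ ε := by
      refine (BoundedContinuousFunction.norm_le hε.le).mpr (fun u => ?_)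
      rw [BoundedContinuousFunction.mul_apply, norm_mul]
      by_cases hu : |u| < r₀
      · have h2 : dist u 0 < r₀ := by simpa [Real.dist_eq] using hu
        have h3 := hr h2
        rw [hf, dist_zero_right] at h3
        have h4 : ‖bandFn 0 r u‖ ≤ 1 := bumpC_norm_le _
        nlinarith [norm_nonneg (f u), norm_nonneg (bandFn 0 r u)]
      · have h5 : 2 * r ≤ |u - 0| := by
          simp only [sub_zero, r]
          have hu' := not_lt.mp hu
          linarith
        rw [bandFn_zero hr1 h5]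
        simp [hε.le]
    calc ‖S.D.apply (f * bandFn 0 r) S.vac‖ ≤ ‖f * bandFn 0 r‖ * ‖S.vac‖ :=
          apply_vec_norm_le S.D _ _
      _ ≤ ε := by rw [S.norm_vac, mul_one]; exact hn
  have : ‖S.D.apply f S.vac‖ = 0 := by
    refine le_antisymm ?_ (norm_nonneg _)
    exact le_of_forall_pos_le_add (fun ε hε => by simpa using key ε hε)
  exact norm_eq_zero.mp this

/-- The vacuum is fixed by the unitary group. -/
lemma wave_vac (t : ℝ) : S.D.wave t S.vac = S.vac := by
  have h := apply_vac_eq_zero S (LineCalculus.character t - 1) (by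
    simp [character_apply])
  rw [apply_sub_vec, apply_one_vec, sub_eq_zero] at h
  exact h

/-- Norm bound for `a⋆ ξ` on a spectral band. -/
lemma tomita_bound (a : H →L[ℂ] H) (ha : a ∈ S.M) (s : ℝ) {δ : ℝ} (hδ : 0 < δ)
    (hband : S.D.SupportedIn (Set.Icc (s - 2 * δ) (s + 2 * δ)) (a S.vac)) :
    ‖star a S.vac‖ ≤ Real.exp ((s + 4 * δ) / 2) * ‖a S.vac‖ := by
  have h2δ : 0 < 2 * δ := by positivity
  let χ : BCF := bandFn s (2 * δ)
  have hχ : HasCompactSupport (χ : ℝ → ℂ) := bandFn_compact h2δ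
  let ψ : BCF := cmul χ hχ (1 / 2)
  have hψ : ‖ψ‖ ≤ Real.exp ((s + 4 * δ) / 2) := by
    refine (BoundedContinuousFunction.norm_le (Real.exp_pos _).le).mpr (fun u => ?_)
    show ‖χ u * expFn (1 / 2) u‖ ≤ _
    by_cases hu : |u - s| < 2 * (2 * δ)
    · rw [norm_mul]
      have h1 : ‖χ u‖ ≤ 1 := bumpC_norm_le _
      have h2 : ‖expFn (1 / 2) u‖ ≤ Real.exp ((s + 4 * δ) / 2) := by
        simp only [expFn, Complex.norm_real, Real.norm_eq_abs]
        rw [abs_of_pos (Real.exp_pos _)]
        apply Real.exp_le_exp.mpr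
        have := (abs_lt.mp hu).2
        linarith
      calc ‖χ u‖ * ‖expFn (1 / 2) u‖ ≤ 1 * Real.exp ((s + 4 * δ) / 2) :=
            mul_le_mul h1 h2 (norm_nonneg _) zero_le_one
        _ = _ := one_mul _
    · have : χ u = 0 := bandFn_zero h2δ (not_lt.mp hu)
      rw [this, zero_mul, norm_zero]
      exact (Real.exp_pos _).le
  have hy : S.J (star a S.vac) = S.D.apply ψ (a S.vac) := by
    refine eq_of_window S.D _ _ (fun w hw => ?_)
    have h1 := tomita_mem S a ha w (cmul w hw (1 / 2)) (fun u => by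
      simp only [cmul_apply, expFn]
      have : (1 / 2 : ℝ) * u = u / 2 := by ring
      rw [this])
    rw [h1, apply_mul_apply]
    have h3 := hband (cmul w hw (1 / 2) - w * ψ) (fun u hu => by
      have hχu : χ u = 1 := bandFn_one h2δ hu
      show w u * expFn (1 / 2) u - w u * (χ u * expFn (1 / 2) u) = 0
      rw [hχu]
      ring)
    rw [apply_sub_vec, sub_eq_zero] at h3
    exact h3
  have h4 : ‖star a S.vac‖ = ‖S.J (star a S.vac)‖ := (S.J.norm_map _).symm
  rw [h4, hy]
  exact (apply_vec_norm_le S.D _ _).trans (mul_le_mul_of_nonneg_right hψ (norm_nonneg _))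

end Datum

end Crest.Agent.Lib.MR
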