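import Crest.Agent.Lib.MR3

/-! Window means along an ultrafilter. -/

set_option autoImplicit false

namespace Crest.Agent.Lib.MR

open Crest.OpAlg Filter MeasureTheory
open scoped Topology InnerProductSpace ComplexConjugate

section Means

variable {E : Type*} [NormedAddCommGroup E] [NormedSpace ℝ E] [CompleteSpace E]

/-- Window mean with generic values. -/
noncomputable def wm (f : ℝ → E) (k : ℕ) : E := ⨍ t in Set.Icc (-(k : ℝ)) (k : ℝ), f t

lemma wm_eq_windowMean (f : ℝ → ℝ) : wm f = windowMean f := rfl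

lemma wm_eq_interval (f : ℝ → E) (k : ℕ) :
    wm f k = ((2 * (k : ℝ))⁻¹) • ∫ t in (-(k : ℝ))..(k : ℝ), f t := by
  have hk : (-(k : ℝ)) ≤ k := by
    have : (0 : ℝ) ≤ k := Nat.cast_nonneg k
    linarith
  rw [wm, setAverage_eq, integral_Icc_eq_integral_Ioc, intervalIntegral.integral_of_le hk]
  congr 2
  rw [Real.volume_real_Icc_of_le hk]
  ring

lemma wm_add {f g : ℝ → E} (hf : Continuous f) (hg : Continuous g) (k : ℕ) :
    wm (fun t => f t + g t) k = wm f k + wm g k := by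
  simp only [wm_eq_interval]
  rw [intervalIntegral.integral_add (hf.intervalIntegrable _ _) (hg.intervalIntegrable _ _),
    smul_add]

lemma wm_const_smul_real (c : ℝ) (f : ℝ → E) (k : ℕ) :
    wm (fun t => c • f t) k = c • wm f k := by
  simp only [wm_eq_interval]
  rw [intervalIntegral.integral_smul, smul_comm]

lemma wm_map {E' : Type*} [NormedAddCommGroup E'] [NormedSpace ℝ E']
    [CompleteSpace E']
    (Φ : E →L[ℝ] E') {f : ℝ → E} (hf : Continuous f) (k : ℕ) :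
    wm (fun t => Φ (f t)) k = Φ (wm f k) := by
  simp only [wm_eq_interval]
  rw [ContinuousLinearMap.intervalIntegral_comp_comm Φ (hf.intervalIntegrable _ _), map_smul]

lemma wm_const (v : E) {k : ℕ} (hk : 1 ≤ k) : wm (fun _ => v) k = v := by
  rw [wm_eq_interval, intervalIntegral.integral_const, smul_smul]
  have : (k : ℝ) ≠ 0 := by
    have : (1 : ℝ) ≤ k := by exact_mod_cast hk
    linarith
  have h2 : (2 * (k : ℝ))⁻¹ * ((k : ℝ) - -(k : ℝ)) = 1 := by
    field_simp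
    ring
  rw [h2, one_smul]

lemma wm_norm_le {f : ℝ → E} {K : ℝ} (hK : ∀ t, ‖f t‖ ≤ K) (k : ℕ) : ‖wm f k‖ ≤ K := by
  have hK0 : 0 ≤ K := (norm_nonneg _).trans (hK 0)
  rw [wm_eq_interval, norm_smul]
  have h1 : ‖∫ t in (-(k : ℝ))..(k : ℝ), f t‖ ≤ K * |(k : ℝ) - -(k : ℝ)| :=
    intervalIntegral.norm_integral_le_of_norm_le_const (fun t _ => hK t)
  have hk0 : (0 : ℝ) ≤ k := Nat.cast_nonneg k
  rw [abs_of_nonneg (by linarith)] at h1
  rcases eq_or_lt_of_le hk0 with hk | hk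
  · rw [← hk]
    simpa using hK0
  · rw [Real.norm_eq_abs, abs_of_pos (by positivity)]
    calc (2 * (k : ℝ))⁻¹ * ‖∫ t in (-(k : ℝ))..(k : ℝ), f t‖
        ≤ (2 * (k : ℝ))⁻¹ * (K * ((k : ℝ) - -(k : ℝ))) :=
          mul_le_mul_of_nonneg_left h1 (by positivity)
      _ = K := by field_simp; ring

lemma wm_neg_arg (f : ℝ → E) (k : ℕ) : wm (fun t => f (-t)) k = wm f k := by
  simp only [wm_eq_interval]
  rw [intervalIntegral.integral_comp_neg]
  simp

lemma wm_shift_sub {f : ℝ → E} (hf : Continuous f) {K : ℝ} (hK : ∀ t, ‖f t‖ ≤ K) (r : ℝ) (k : ℕ) :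
    ‖wm (fun t => f (t + r)) k - wm f k‖ ≤ (k : ℝ)⁻¹ * (K * |r|) := by
  have hK0 : 0 ≤ K := (norm_nonneg _).trans (hK 0)
  simp only [wm_eq_interval]
  rw [intervalIntegral.integral_comp_add_right, ← smul_sub]
  have hint : ∀ a b : ℝ, IntervalIntegrable f volume a b := fun a b => hf.intervalIntegrable a b
  have h : (∫ t in (-(k : ℝ) + r)..((k : ℝ) + r), f t) - ∫ t in (-(k : ℝ))..(k : ℝ), f t
      = (∫ t in (k : ℝ)..((k : ℝ) + r), f t) - ∫ t in (-(k : ℝ))..(-(k : ℝ) + r), f t := by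
    rw [intervalIntegral.integral_interval_sub_interval_comm (hint _ _) (hint _ _) (hint _ _),
      intervalIntegral.integral_symm (-(k : ℝ)) (-(k : ℝ) + r),
      intervalIntegral.integral_symm (k : ℝ) ((k : ℝ) + r)]
    abel
  rw [h, norm_smul]
  have h1 : ‖∫ t in (k : ℝ)..((k : ℝ) + r), f t‖ ≤ K * |(k : ℝ) + r - k| :=
    intervalIntegral.norm_integral_le_of_norm_le_const (fun t _ => hK t)
  have h2 : ‖∫ t in (-(k : ℝ))..(-(k : ℝ) + r), f t‖ ≤ K * |(-(k : ℝ) + r) - -(k : ℝ)| :=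
    intervalIntegral.norm_integral_le_of_norm_le_const (fun t _ => hK t)
  have e1 : (k : ℝ) + r - k = r := by ring
  have e2 : (-(k : ℝ) + r) - -(k : ℝ) = r := by ring
  rw [e1] at h1
  rw [e2] at h2
  have h3 := (norm_sub_le (∫ t in (k : ℝ)..((k : ℝ) + r), f t)
    (∫ t in (-(k : ℝ))..(-(k : ℝ) + r), f t)).trans (add_le_add h1 h2)
  have hk0 : (0 : ℝ) ≤ k := Nat.cast_nonneg k
  rcases eq_or_lt_of_le hk0 with hk | hk
  · rw [← hk]
    simp
  · rw [Real.norm_eq_abs, abs_of_pos (by positivity)]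
    calc (2 * (k : ℝ))⁻¹ * _ ≤ (2 * (k : ℝ))⁻¹ * (K * |r| + K * |r|) :=
          mul_le_mul_of_nonneg_left h3 (by positivity)
      _ = (k : ℝ)⁻¹ * (K * |r|) := by field_simp; ring

/-- The mean of a bounded continuous function along an ultrafilter exists and equals `L`. -/
structure UMean (ω : Ultrafilter ℕ) (f : ℝ → E) (L : E) : Prop where
  cont : Continuous f
  bdd : ∃ K, ∀ t, ‖f t‖ ≤ K
  lim : Tendsto (wm f) (ω : Filter ℕ) (𝓝 L)

variable {ω : Ultrafilter ℕ}

lemma UMean.unique {f : ℝ → E} {L L' : E} (h : UMean ω f L) (h' : UMean ω f L') : L = L' :=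
  tendsto_nhds_unique h.lim h'.lim

lemma UMean.add {f g : ℝ → E} {L L' : E} (h : UMean ω f L) (h' : UMean ω g L') :
    UMean ω (fun t => f t + g t) (L + L') := by
  obtain ⟨K, hK⟩ := h.bdd
  obtain ⟨K', hK'⟩ := h'.bdd
  refine ⟨h.cont.add h'.cont, ⟨K + K', fun t => (norm_add_le _ _).trans (add_le_add (hK t) (hK' t))⟩, ?_⟩
  have : wm (fun t => f t + g t) = fun k => wm f k + wm g k := by
    ext k
    exact wm_add h.cont h'.cont k
  rw [this]
  exact h.lim.add h'.lim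

lemma UMean.smul {f : ℝ → E} {L : E} (h : UMean ω f L) (c : ℝ) :
    UMean ω (fun t => c • f t) (c • L) := by
  obtain ⟨K, hK⟩ := h.bdd
  refine ⟨h.cont.const_smul c, ⟨‖c‖ * K, fun t => ?_⟩, ?_⟩
  · rw [norm_smul]
    exact mul_le_mul_of_nonneg_left (hK t) (norm_nonneg _)
  · have : wm (fun t => c • f t) = fun k => c • wm f k := by
      ext k
      exact wm_const_smul_real c f k
    rw [this]
    exact h.lim.const_smul c

lemma UMean.zero : UMean ω (fun _ => (0 : E)) 0 := by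
  refine ⟨continuous_const, ⟨0, fun _ => by simp⟩, ?_⟩
  have : wm (fun _ : ℝ => (0 : E)) = fun _ => 0 := by
    ext k
    simp [wm_eq_interval]
  rw [this]
  exact tendsto_const_nhds

lemma UMean.map {E' : Type*} [NormedAddCommGroup E'] [NormedSpace ℝ E']
    [CompleteSpace E'] (Φ : E →L[ℝ] E') {f : ℝ → E} {L : E} (h : UMean ω f L) :
    UMean ω (fun t => Φ (f t)) (Φ L) := by
  obtain ⟨K, hK⟩ := h.bdd
  refine ⟨Φ.continuous.comp h.cont, ⟨‖Φ‖ * K, fun t => ?_⟩, ?_⟩
  · exact (Φ.le_opNorm _).trans (mul_le_mul_of_nonneg_left (hK t) (norm_nonneg _))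
  · have : wm (fun t => Φ (f t)) = fun k => Φ (wm f k) := by
      ext k
      exact wm_map Φ h.cont k
    rw [this]
    exact Φ.continuous.continuousAt.tendsto.comp h.lim

lemma UMean.neg_arg {f : ℝ → E} {L : E} (h : UMean ω f L) : UMean ω (fun t => f (-t)) L := by
  obtain ⟨K, hK⟩ := h.bdd
  refine ⟨h.cont.comp continuous_neg, ⟨K, fun t => hK _⟩, ?_⟩
  have : wm (fun t => f (-t)) = wm f := by
    ext k
    exact wm_neg_arg f k
  rw [this]
  exact h.lim

lemma UMean.shift (hω : (ω : Filter ℕ) ≤ atTop) {f : ℝ → E} {L : E} (h : UMean ω f L) (r : ℝ) :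
    UMean ω (fun t => f (t + r)) L := by
  obtain ⟨K, hK⟩ := h.bdd
  refine ⟨h.cont.comp (continuous_id.add continuous_const), ⟨K, fun t => hK _⟩, ?_⟩
  have h0 : Tendsto (fun k : ℕ => wm (fun t => f (t + r)) k - wm f k) (ω : Filter ℕ) (𝓝 0) := by
    have h1 : Tendsto (fun k : ℕ => (k : ℝ)⁻¹ * (K * |r|)) atTop (𝓝 0) := by
      have := (tendsto_inv_atTop_nhds_zero_nat (𝕜 := ℝ)).mul_const (K * |r|)
      simpa using this
    refine tendsto_iff_norm_sub_tendsto_zero.mpr ?_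
    simp only [sub_zero]
    exact squeeze_zero (fun _ => norm_nonneg _) (fun k => wm_shift_sub h.cont hK r k) (h1.mono_left hω)
  have := h0.add h.lim
  simp only [sub_add_cancel, zero_add] at this
  exact this

lemma UMean.const (hω : (ω : Filter ℕ) ≤ atTop) (v : E) : UMean ω (fun _ => v) v := by
  refine ⟨continuous_const, ⟨‖v‖, fun _ => le_rfl⟩, ?_⟩
  refine Tendsto.congr' ?_ tendsto_const_nhds
  have : ∀ᶠ k : ℕ in (ω : Filter ℕ), 1 ≤ k := hω (eventually_ge_atTop 1)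
  filter_upwards [this] with k hk
  exact (wm_const v hk).symm

lemma UMean.norm_le {f : ℝ → E} {L : E} (h : UMean ω f L) {K : ℝ} (hK : ∀ t, ‖f t‖ ≤ K) :
    ‖L‖ ≤ K :=
  le_of_tendsto h.lim.norm (Eventually.of_forall fun k => wm_norm_le hK k)

lemma exists_umean {E : Type*} [NormedAddCommGroup E] [NormedSpace ℝ E] [ProperSpace E]
    (ω : Ultrafilter ℕ) {f : ℝ → E} (hf : Continuous f)
    {K : ℝ} (hK : ∀ t, ‖f t‖ ≤ K) : ∃ L, UMean ω f L := by
  have hmem : ∀ k, wm f k ∈ Metric.closedBall (0 : E) K := fun k => by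
    simpa [Metric.mem_closedBall, dist_zero_right] using wm_norm_le hK k
  have hc := isCompact_closedBall (0 : E) K
  obtain ⟨L, -, hL⟩ := hc.ultrafilter_le_nhds (ω.map (wm f)) (by
    simp only [Ultrafilter.coe_map, le_principal_iff]
    exact mem_map.mpr (Filter.mem_of_superset univ_mem (fun k _ => hmem k)))
  exact ⟨L, hf, ⟨K, hK⟩, hL⟩

/-- Selection from a mean. -/
lemma UMean.exists_le (hω : (ω : Filter ℕ) ≤ atTop) {f : ℝ → ℝ} {L : ℝ} (h : UMean ω f L)
    {ε : ℝ} (hε : 0 < ε) : ∃ t, f t ≤ L + ε := by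
  by_contra hcon
  have hall : ∀ t, L + ε < f t := fun t => not_le.mp (fun hle => hcon ⟨t, hle⟩)
  have hev : ∀ᶠ k : ℕ in (ω : Filter ℕ), L + ε ≤ wm f k := by
    have : ∀ᶠ k : ℕ in (ω : Filter ℕ), 1 ≤ k := hω (eventually_ge_atTop 1)
    filter_upwards [this] with k hk
    have hk1 : (1 : ℝ) ≤ k := by exact_mod_cast hk
    have hle : (-(k : ℝ)) ≤ k := by linarith
    rw [wm_eq_interval, smul_eq_mul]
    have hint : ∫ t in (-(k : ℝ))..(k : ℝ), (L + ε) ≤ ∫ t in (-(k : ℝ))..(k : ℝ), f t :=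
      intervalIntegral.integral_mono_on hle intervalIntegrable_const
        (h.cont.intervalIntegrable _ _) (fun t _ => (hall t).le)
    rw [intervalIntegral.integral_const, smul_eq_mul] at hint
    have h2 : (0 : ℝ) < 2 * (k : ℝ) := by positivity
    rw [inv_mul_eq_div, le_div_iff₀ h2]
    nlinarith
  have := ge_of_tendsto h.lim hev
  linarith

lemma UMean.exists_ge (hω : (ω : Filter ℕ) ≤ atTop) {f : ℝ → ℝ} {L : ℝ} (h : UMean ω f L)
    {ε : ℝ} (hε : 0 < ε) : ∃ t, L - ε ≤ f t := by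
  have h' : UMean ω (fun t => (-1 : ℝ) • f t) ((-1 : ℝ) • L) := h.smul (-1)
  obtain ⟨t, ht⟩ := h'.exists_le hω hε
  refine ⟨t, ?_⟩
  simp only [smul_eq_mul] at ht
  linarith

end Means

end Crest.Agent.Lib.MR
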