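import Crest.Agent.Lib.MR4

/-! Operator means along an ultrafilter; the ergodic theorem for the modular flow. -/

set_option autoImplicit false

namespace Crest.Agent.Lib.MR

open Crest.OpAlg Filter MeasureTheory
open scoped Topology InnerProductSpace ComplexConjugate

variable {H : Type*} [NormedAddCommGroup H] [InnerProductSpace ℂ H] [CompleteSpace H]

omit [CompleteSpace H] in
lemma norm_inner_self' (v : H) : ‖⟪v, v⟫_ℂ‖ = ‖v‖ ^ 2 := by
  rw [inner_self_eq_norm_sq_to_K]
  simp

section Flow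
variable (D : LineCalculus H)

/-- The flow of a bounded operator. -/
noncomputable def fl (t : ℝ) (c : H →L[ℂ] H) : H →L[ℂ] H := D.wave t * c * D.wave (-t)

lemma fl_apply (t : ℝ) (c : H →L[ℂ] H) (y : H) :
    fl D t c y = D.wave t (c (D.wave (-t) y)) := rfl

lemma fl_inner (t : ℝ) (c : H →L[ℂ] H) (y x : H) :
    ⟪fl D t c y, x⟫_ℂ = ⟪c (D.wave (-t) y), D.wave (-t) x⟫_ℂ := by
  rw [fl_apply, inner_wave_left]

lemma fl_norm_le (t : ℝ) (c : H →L[ℂ] H) : ‖fl D t c‖ ≤ ‖c‖ := by
  refine ContinuousLinearMap.opNorm_le_bound _ (norm_nonneg _) (fun y => ?_)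
  rw [fl_apply, norm_wave]
  refine (c.le_opNorm _).trans ?_
  rw [norm_wave]

lemma fl_vec_continuous (c : H →L[ℂ] H) (y : H) : Continuous (fun t => fl D t c y) := by
  refine wave_comp_continuous D (z := fun t => c (D.wave (-t) y)) ?_
  exact c.continuous.comp ((wave_continuous D y).comp continuous_neg)

lemma fl_inner_continuous (c : H →L[ℂ] H) (y x : H) :
    Continuous (fun t => ⟪fl D t c y, x⟫_ℂ) :=
  (fl_vec_continuous D c y).inner continuous_const

lemma fl_inner_bound (t : ℝ) (c : H →L[ℂ] H) (y x : H) :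
    ‖⟪fl D t c y, x⟫_ℂ‖ ≤ ‖c‖ * ‖y‖ * ‖x‖ := by
  refine (norm_inner_le_norm _ _).trans (mul_le_mul_of_nonneg_right ?_ (norm_nonneg _))
  exact ((fl D t c).le_opNorm y).trans (mul_le_mul_of_nonneg_right (fl_norm_le D t c) (norm_nonneg _))

lemma fl_add_vec (c : H →L[ℂ] H) (y y' : H) (t : ℝ) :
    fl D t c (y + y') = fl D t c y + fl D t c y' := map_add _ _ _

variable (ω : Ultrafilter ℕ)

/-- The mean form. -/
noncomputable def uform (c : H →L[ℂ] H) (y x : H) : ℂ :=
  limUnder (ω : Filter ℕ) (wm fun t => ⟪fl D t c y, x⟫_ℂ)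

lemma uform_umean (c : H →L[ℂ] H) (y x : H) :
    UMean ω (fun t => ⟪fl D t c y, x⟫_ℂ) (uform D ω c y x) := by
  obtain ⟨L, hL⟩ := exists_umean ω (fl_inner_continuous D c y x) (fl_inner_bound D · c y x)
  have : uform D ω c y x = L := hL.lim.limUnder_eq
  rw [this]
  exact hL

lemma uform_add_left (c : H →L[ℂ] H) (y y' x : H) :
    uform D ω c (y + y') x = uform D ω c y x + uform D ω c y' x := by
  have h := (uform_umean D ω c y x).add (uform_umean D ω c y' x)
  refine (uform_umean D ω c (y + y') x).unique ?_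
  simpa only [map_add, inner_add_left] using h

lemma uform_add_right (c : H →L[ℂ] H) (y x x' : H) :
    uform D ω c y (x + x') = uform D ω c y x + uform D ω c y x' := by
  have h := (uform_umean D ω c y x).add (uform_umean D ω c y x')
  refine (uform_umean D ω c y (x + x')).unique ?_
  simpa only [inner_add_right] using h

lemma uform_smul_left (c : H →L[ℂ] H) (α : ℂ) (y x : H) :
    uform D ω c (α • y) x = conj α * uform D ω c y x := by
  have h := (uform_umean D ω c y x).map (ContinuousLinearMap.mul ℝ ℂ (conj α))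
  refine (uform_umean D ω c (α • y) x).unique ?_
  simpa only [map_smul, inner_smul_left, ContinuousLinearMap.mul_apply'] using h

lemma uform_smul_right (c : H →L[ℂ] H) (α : ℂ) (y x : H) :
    uform D ω c y (α • x) = α * uform D ω c y x := by
  have h := (uform_umean D ω c y x).map (ContinuousLinearMap.mul ℝ ℂ α)
  refine (uform_umean D ω c y (α • x)).unique ?_
  simpa only [inner_smul_right, ContinuousLinearMap.mul_apply'] using h

lemma uform_bound (c : H →L[ℂ] H) (y x : H) : ‖uform D ω c y x‖ ≤ ‖c‖ * ‖y‖ * ‖x‖ :=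
  (uform_umean D ω c y x).norm_le (fl_inner_bound D · c y x)

/-- The mean form as a bounded sesquilinear form. -/
noncomputable def uformB (c : H →L[ℂ] H) : H →L⋆[ℂ] H →L[ℂ] ℂ :=
  LinearMap.mkContinuous₂
    (LinearMap.mk₂'ₛₗ (starRingEnd ℂ) (RingHom.id ℂ) (uform D ω c)
      (uform_add_left D ω c)
      (fun α y x => by rw [uform_smul_left]; rfl)
      (uform_add_right D ω c)
      (fun α y x => by rw [uform_smul_right]; rfl))
    ‖c‖ (fun y x => uform_bound D ω c y x)

/-- The mean of the flow of an operator. -/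
noncomputable def emean (c : H →L[ℂ] H) : H →L[ℂ] H :=
  InnerProductSpace.continuousLinearMapOfBilin (uformB D ω c)

lemma emean_inner (c : H →L[ℂ] H) (y x : H) : ⟪emean D ω c y, x⟫_ℂ = uform D ω c y x := by
  rw [emean, InnerProductSpace.continuousLinearMapOfBilin_apply]
  rfl

lemma emean_umean (c : H →L[ℂ] H) (y x : H) :
    UMean ω (fun t => ⟪fl D t c y, x⟫_ℂ) ⟪emean D ω c y, x⟫_ℂ := by
  rw [emean_inner]
  exact uform_umean D ω c y x

lemma emean_norm_le (c : H →L[ℂ] H) (y : H) : ‖emean D ω c y‖ ≤ ‖c‖ * ‖y‖ := by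
  have h1 : ‖⟪emean D ω c y, emean D ω c y⟫_ℂ‖ ≤ ‖c‖ * ‖y‖ * ‖emean D ω c y‖ :=
    (emean_umean D ω c y _).norm_le (fl_inner_bound D · c y _)
  rw [norm_inner_self'] at h1
  by_cases h0 : ‖emean D ω c y‖ = 0
  · rw [h0]; positivity
  · have hp : 0 < ‖emean D ω c y‖ := lt_of_le_of_ne (norm_nonneg _) (Ne.symm h0)
    rw [pow_two] at h1
    exact le_of_mul_le_mul_right h1 hp

lemma emean_wave_comm (hω : (ω : Filter ℕ) ≤ atTop) (c : H →L[ℂ] H) (r : ℝ) (y : H) :
    emean D ω c (D.wave r y) = D.wave r (emean D ω c y) := by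
  refine ext_inner_right ℂ (fun x => ?_)
  -- the left side
  have h1 := emean_umean D ω c (D.wave r y) x
  -- the right side
  have h2 := emean_umean D ω c y (D.wave (-r) x)
  have h3 := h2.shift hω (-r)
  have : (fun t => ⟪fl D (t + -r) c y, D.wave (-r) x⟫_ℂ) = fun t => ⟪fl D t c (D.wave r y), x⟫_ℂ := by
    ext t
    have e1 : fl D (t + -r) c y = D.wave (-r) (fl D t c (D.wave r y)) := by
      rw [fl_apply, fl_apply, ← wave_add_vec, ← wave_add_vec, show t + -r = -r + t by ring,
        show -(-r + t) = -t + r by ring]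
    rw [e1, inner_wave_wave]
  rw [this] at h3
  rw [h1.unique h3, inner_wave_left]

lemma emean_mem (M : VonNeumannAlgebra H)
    (hfl : ∀ t, ∀ a, a ∈ M → fl D t a ∈ M) (c : H →L[ℂ] H) (hc : c ∈ M) :
    emean D ω c ∈ M := by
  have hcc := VonNeumannAlgebra.centralizer_centralizer M
  have : emean D ω c ∈ ((M : Set (H →L[ℂ] H)).centralizer).centralizer := by
    rw [Set.mem_centralizer_iff]
    intro m hm
    rw [Set.mem_centralizer_iff] at hm
    ext y
    show m (emean D ω c y) = emean D ω c (m y)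
    refine ext_inner_right ℂ (fun x => ?_)
    have h1 := emean_umean D ω c y (star m x)
    have h2 := emean_umean D ω c (m y) x
    have hcomm : (fun t => ⟪fl D t c y, star m x⟫_ℂ) = fun t => ⟪fl D t c (m y), x⟫_ℂ := by
      ext t
      rw [ContinuousLinearMap.star_eq_adjoint, ContinuousLinearMap.adjoint_inner_right]
      have hm' := hm (fl D t c) (hfl t c hc)
      have := congrArg (fun L : H →L[ℂ] H => L y) hm'
      have e : m (fl D t c y) = fl D t c (m y) := this.symm
      rw [e]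
    rw [hcomm] at h1
    rw [← h1.unique h2, ContinuousLinearMap.star_eq_adjoint, ContinuousLinearMap.adjoint_inner_right]
  rw [hcc] at this
  exact this

end Flow

section Ergodic

variable (S : ModularDatum H) (ω : Ultrafilter ℕ)

lemma fl_mem (t : ℝ) (a : H →L[ℂ] H) (ha : a ∈ S.M) : fl S.D t a ∈ S.M := S.flow_mem t a ha

lemma fl_vac (t : ℝ) (a : H →L[ℂ] H) : fl S.D t a S.vac = S.D.wave t (a S.vac) := by
  rw [fl_apply, wave_vac]

/-- The ergodic theorem for the modular flow. -/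
theorem ergodic_umean (hω : (ω : Filter ℕ) ≤ atTop) (herg : S.Ergodic) (c : H →L[ℂ] H)
    (hc : c ∈ S.M) (y x : H) :
    UMean ω (fun t => ⟪fl S.D t c y, x⟫_ℂ) (⟪c S.vac, S.vac⟫_ℂ * ⟪y, x⟫_ℂ) := by
  have hmem := emean_mem S.D ω S.M (fl_mem S) c hc
  have hfix : ∀ t : ℝ, S.flow t (emean S.D ω c) = emean S.D ω c := by
    intro t
    ext z
    show S.D.wave t (emean S.D ω c (S.D.wave (-t) z)) = emean S.D ω c z
    rw [emean_wave_comm S.D ω hω, wave_wave_neg]
  obtain ⟨α, hα⟩ := herg _ hmem hfix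
  have hE : ∀ z w : H, ⟪emean S.D ω c z, w⟫_ℂ = conj α * ⟪z, w⟫_ℂ := by
    intro z w
    rw [hα]
    show ⟪α • z, w⟫_ℂ = _
    rw [inner_smul_left]
  -- identify α with the state
  have h1 := emean_umean S.D ω c S.vac S.vac
  have hconst : (fun t => ⟪fl S.D t c S.vac, S.vac⟫_ℂ) = fun _ => ⟪c S.vac, S.vac⟫_ℂ := by
    ext t
    rw [fl_inner, wave_vac]
  rw [hconst] at h1
  have h2 := h1.unique (UMean.const hω _)
  rw [hE, inner_self_eq_norm_sq_to_K, S.norm_vac] at h2
  simp only [Complex.coe_algebraMap, Complex.ofReal_one, one_pow, mul_one] at h2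
  have h3 := emean_umean S.D ω c y x
  rw [hE, h2] at h3
  exact h3

end Ergodic

section Energy

variable (D : LineCalculus H) (ω : Ultrafilter ℕ) (T : H →L[ℂ] H)

/-- The time-averaged energy operator of `T`. -/
noncomputable def energy : H →L[ℂ] H := emean D ω (star T * T)

lemma energy_fl_inner (t : ℝ) (y x : H) :
    ⟪fl D t (star T * T) y, x⟫_ℂ = ⟪T (D.wave (-t) y), T (D.wave (-t) x)⟫_ℂ := by
  rw [fl_inner]
  show ⟪star T (T (D.wave (-t) y)), D.wave (-t) x⟫_ℂ = _
  rw [ContinuousLinearMap.star_eq_adjoint, ContinuousLinearMap.adjoint_inner_left]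

lemma energy_umean (x : H) :
    UMean ω (fun t => ‖T (D.wave t x)‖ ^ 2) (⟪energy D ω T x, x⟫_ℂ).re := by
  have h1 := (emean_umean D ω (star T * T) x x).neg_arg.map Complex.reCLM
  have : (fun t => Complex.reCLM ⟪fl D (-t) (star T * T) x, x⟫_ℂ)
      = fun t => ‖T (D.wave t x)‖ ^ 2 := by
    ext t
    rw [energy_fl_inner, neg_neg, inner_self_eq_norm_sq_to_K]
    simp [← Complex.ofReal_pow]
  rw [this] at h1
  exact h1

lemma energy_nonneg (hω : (ω : Filter ℕ) ≤ atTop) (x : H) : 0 ≤ (⟪energy D ω T x, x⟫_ℂ).re := by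
  by_contra hcon
  have hneg := not_le.mp hcon
  obtain ⟨t, ht⟩ := (energy_umean D ω T x).exists_le hω (ε := -(⟪energy D ω T x, x⟫_ℂ).re / 2)
    (by linarith)
  have : 0 ≤ ‖T (D.wave t x)‖ ^ 2 := by positivity
  linarith

lemma energy_le (x : H) : (⟪energy D ω T x, x⟫_ℂ).re ≤ ‖T‖ ^ 2 * ‖x‖ ^ 2 := by
  have h := (energy_umean D ω T x).norm_le (K := ‖T‖ ^ 2 * ‖x‖ ^ 2) (fun t => by
    rw [Real.norm_eq_abs, abs_of_nonneg (by positivity), ← mul_pow]
    refine pow_le_pow_left₀ (norm_nonneg _) ?_ 2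
    have := T.le_opNorm (D.wave t x)
    rwa [norm_wave] at this)
  exact (le_abs_self _).trans h

lemma energy_symm (x z : H) : (⟪energy D ω T x, z⟫_ℂ).re = (⟪energy D ω T z, x⟫_ℂ).re := by
  have h1 := (emean_umean D ω (star T * T) x z).map Complex.reCLM
  have h2 := (emean_umean D ω (star T * T) z x).map Complex.reCLM
  have : (fun t => Complex.reCLM ⟪fl D t (star T * T) x, z⟫_ℂ)
      = fun t => Complex.reCLM ⟪fl D t (star T * T) z, x⟫_ℂ := by
    ext t
    rw [energy_fl_inner, energy_fl_inner]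
    exact inner_re_symm (𝕜 := ℂ) _ _
  rw [this] at h1
  exact h1.unique h2

lemma energy_cs (hω : (ω : Filter ℕ) ≤ atTop) (x z : H) :
    (⟪energy D ω T x, z⟫_ℂ).re ^ 2 ≤ (⟪energy D ω T x, x⟫_ℂ).re * (⟪energy D ω T z, z⟫_ℂ).re := by
  set A := energy D ω T with hA
  have hquad : ∀ τ : ℝ, 0 ≤ (⟪A z, z⟫_ℂ).re * (τ * τ) + (2 * (⟪A x, z⟫_ℂ).re) * τ + (⟪A x, x⟫_ℂ).re := by
    intro τ
    have h := energy_nonneg D ω T hω (x + (τ : ℂ) • z)
    rw [← hA, map_add, map_smul, inner_add_left, inner_add_right, inner_add_right,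
      inner_smul_left, inner_smul_right, inner_smul_left, inner_smul_right] at h
    simp only [Complex.conj_ofReal, Complex.add_re, Complex.mul_re, Complex.ofReal_re,
      Complex.ofReal_im, zero_mul, sub_zero, Complex.mul_im, add_zero] at h
    have hs := energy_symm D ω T z x
    rw [← hA] at hs
    rw [hs] at h
    nlinarith [h]
  have hd := discrim_le_zero hquad
  rw [discrim] at hd
  nlinarith [hd]

lemma energy_wave_comm (hω : (ω : Filter ℕ) ≤ atTop) (r : ℝ) (y : H) :
    energy D ω T (D.wave r y) = D.wave r (energy D ω T y) := emean_wave_comm D ω hω _ r y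

end Energy

end Crest.Agent.Lib.MR
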