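import Crest.Agent.Lib.MR5

/-! Resolvent truncation and band smoothing inside the von Neumann algebra. -/

set_option autoImplicit false

namespace Crest.Agent.Lib.MR

open Crest.OpAlg Filter MeasureTheory
open scoped Topology InnerProductSpace ComplexConjugate NNReal

variable {H : Type*} [NormedAddCommGroup H] [InnerProductSpace ℂ H] [CompleteSpace H]

omit [CompleteSpace H] in
lemma inner_star_mul_self (b : H →L[ℂ] H) [CompleteSpace H] (x y : H) :
    ⟪(star b * b) x, y⟫_ℂ = ⟪b x, b y⟫_ℂ := by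
  show ⟪star b (b x), y⟫_ℂ = _
  rw [ContinuousLinearMap.star_eq_adjoint, ContinuousLinearMap.adjoint_inner_left]

/-- Membership in a von Neumann algebra via the double commutant. -/
lemma mem_of_commutes (M : VonNeumannAlgebra H) (c : H →L[ℂ] H)
    (h : ∀ m : H →L[ℂ] H, (∀ a ∈ M, a * m = m * a) → m * c = c * m) : c ∈ M := by
  have hcc := VonNeumannAlgebra.centralizer_centralizer M
  have : c ∈ ((M : Set (H →L[ℂ] H)).centralizer).centralizer := by
    rw [Set.mem_centralizer_iff]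
    intro m hm
    rw [Set.mem_centralizer_iff] at hm
    exact h m (fun a ha => hm a ha)
  rw [hcc] at this
  exact this

/-- Truncation by the resolvent. -/
lemma resolvent_lemma (M : VonNeumannAlgebra H) (b : H →L[ℂ] H) (hb : b ∈ M) {lam : ℝ}
    (hlam : 0 < lam) (ξ : H) :
    ∃ v : H →L[ℂ] H, v ∈ M ∧ ‖v‖ ≤ 1 / (2 * Real.sqrt lam) ∧
      ‖b ξ‖ ^ 2 - lam * ‖(star b * b) ξ‖ ^ 2 ≤ (⟪b ξ, v ξ⟫_ℂ).re := by
  set C : H →L[ℂ] H := star b * b with hC
  set P : H →L[ℂ] H := 1 + (lam : ℂ) • C with hP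
  have hPx : ∀ x, P x = x + (lam : ℂ) • C x := fun x => rfl
  have hPin : ∀ x y, ⟪P x, y⟫_ℂ = ⟪x, y⟫_ℂ + lam * ⟪b x, b y⟫_ℂ := by
    intro x y
    rw [hPx, inner_add_left, inner_smul_left, hC, inner_star_mul_self]
    simp
  have hPre : ∀ x, (⟪P x, x⟫_ℂ).re = ‖x‖ ^ 2 + lam * ‖b x‖ ^ 2 := by
    intro x
    rw [hPin, inner_self_eq_norm_sq_to_K, inner_self_eq_norm_sq_to_K]
    simp [← Complex.ofReal_pow]
  have hunit : IsUnit P := by
    refine ContinuousLinearMap.isUnit_of_forall_le_norm_inner_map P (c := 1) one_pos (fun x => ?_)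
    have h1 := hPre x
    have h2 : (⟪P x, x⟫_ℂ).re ≤ ‖⟪P x, x⟫_ℂ‖ := Complex.re_le_norm _
    have h3 : 0 ≤ lam * ‖b x‖ ^ 2 := by positivity
    simp only [NNReal.coe_one, mul_one]
    linarith
  obtain ⟨u, hu⟩ := hunit
  set Q : H →L[ℂ] H := ↑u⁻¹ with hQ
  have hPQ : P * Q = 1 := by rw [← hu, hQ]; exact u.mul_inv
  have hQP : Q * P = 1 := by rw [← hu, hQ]; exact u.inv_mul
  have hPQx : ∀ x, P (Q x) = x := fun x => congrArg (fun L : H →L[ℂ] H => L x) hPQ
  have hCmem : C ∈ M := mul_mem (star_mem hb) hb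
  have hPmem : P ∈ M := add_mem (one_mem _) (by
    have := M.toStarSubalgebra.smul_mem hCmem (lam : ℂ)
    exact this)
  have hQmem : Q ∈ M := by
    refine mem_of_commutes M Q (fun m hm => ?_)
    have h1 : P * m = m * P := hm P hPmem
    calc m * Q = (Q * P) * m * Q := by rw [hQP, one_mul]
      _ = Q * (P * m) * Q := by simp only [mul_assoc]
      _ = Q * (m * P) * Q := by rw [h1]
      _ = Q * m * (P * Q) := by simp only [mul_assoc]
      _ = Q * m := by rw [hPQ, mul_one]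
  have hCP : C * P = P * C := by
    rw [hP, mul_add, add_mul, mul_one, one_mul, mul_smul_comm, smul_mul_assoc]
  have hCQ : C * Q = Q * C := by
    calc C * Q = (Q * P) * C * Q := by rw [hQP, one_mul]
      _ = Q * (P * C) * Q := by simp only [mul_assoc]
      _ = Q * (C * P) * Q := by rw [hCP]
      _ = Q * C * (P * Q) := by simp only [mul_assoc]
      _ = Q * C := by rw [hPQ, mul_one]
  have hsq : 0 < Real.sqrt lam := Real.sqrt_pos.mpr hlam
  refine ⟨b * Q, mul_mem hb hQmem, ?_, ?_⟩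
  · -- norm bound
    refine ContinuousLinearMap.opNorm_le_bound _ (by positivity) (fun x => ?_)
    set y := Q x with hy
    show ‖b y‖ ≤ 1 / (2 * Real.sqrt lam) * ‖x‖
    have h1 : (⟪x, y⟫_ℂ).re = ‖y‖ ^ 2 + lam * ‖b y‖ ^ 2 := by
      have := hPre y
      rw [hy, hPQx] at this
      exact this
    have h2 : (⟪x, y⟫_ℂ).re ≤ ‖x‖ * ‖y‖ :=
      (Complex.re_le_norm _).trans (norm_inner_le_norm _ _)
    have h3 : lam * ‖b y‖ ^ 2 ≤ ‖x‖ ^ 2 / 4 := by nlinarith [sq_nonneg (‖y‖ - ‖x‖ / 2)]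
    refine abs_le_of_sq_le_sq' ?_ (by positivity) |>.2
    rw [mul_pow, div_pow, mul_pow, Real.sq_sqrt hlam.le]
    have h4 : ‖b y‖ ^ 2 ≤ ‖x‖ ^ 2 / 4 / lam := by
      rw [le_div_iff₀ hlam]
      linarith
    calc ‖b y‖ ^ 2 ≤ ‖x‖ ^ 2 / 4 / lam := h4
      _ = 1 ^ 2 / (2 ^ 2 * lam) * ‖x‖ ^ 2 := by field_simp; norm_num
  · -- lower bound
    set η := Q ξ with hη
    have hη' : ξ = η + (lam : ℂ) • C η := by
      have := hPQx ξ
      rw [hPx] at this
      exact this.symm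
    have h1 : ⟪b ξ, (b * Q) ξ⟫_ℂ = ⟪C ξ, η⟫_ℂ := by
      rw [hC, inner_star_mul_self]
      rfl
    set z := C ξ with hz
    set w := Q z with hw
    have hCη : C η = w := by
      have := congrArg (fun L : H →L[ℂ] H => L ξ) hCQ
      exact this
    have h2 : η = ξ - (lam : ℂ) • w := by
      rw [← hCη]
      exact eq_sub_of_add_eq hη'.symm
    have h3 : ⟪z, η⟫_ℂ = ⟪z, ξ⟫_ℂ - lam * ⟪z, w⟫_ℂ := by
      rw [h2, inner_sub_right, inner_smul_right]
    have h4 : (⟪z, w⟫_ℂ).re = ‖w‖ ^ 2 + lam * ‖b w‖ ^ 2 := by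
      have := hPre w
      rw [hw, hPQx] at this
      exact this
    have h5 : (⟪z, w⟫_ℂ).re ≤ ‖z‖ * ‖w‖ :=
      (Complex.re_le_norm _).trans (norm_inner_le_norm _ _)
    have h6 : ‖w‖ ≤ ‖z‖ := by
      by_cases h0 : ‖w‖ = 0
      · rw [h0]; exact norm_nonneg _
      · have hp : 0 < ‖w‖ := lt_of_le_of_ne (norm_nonneg _) (Ne.symm h0)
        have : ‖w‖ * ‖w‖ ≤ ‖z‖ * ‖w‖ := by nlinarith [mul_nonneg hlam.le (sq_nonneg ‖b w‖)]
        exact le_of_mul_le_mul_right this hp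
    have h7 : (⟪z, w⟫_ℂ).re ≤ ‖z‖ ^ 2 := by nlinarith [norm_nonneg z, norm_nonneg w]
    have h8 : (⟪z, ξ⟫_ℂ).re = ‖b ξ‖ ^ 2 := by
      rw [hz, hC, inner_star_mul_self, inner_self_eq_norm_sq_to_K]
      simp [← Complex.ofReal_pow]
    rw [h1, h3]
    simp only [Complex.sub_re, Complex.mul_re, Complex.ofReal_re, Complex.ofReal_im, zero_mul,
      sub_zero]
    rw [h8]
    nlinarith

section Smooth

variable (D : LineCalculus H)

/-- Band smoothing of an operator. -/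
noncomputable def bandSmooth (s δ : ℝ) (a : H →L[ℂ] H) : H →L[ℂ] H :=
  smoothOp (bandKer s δ) (bandKer_integrable s δ) (fun t => fl D (-2 * Real.pi / δ * t) a) ‖a‖
    (fun x => (fl_vec_continuous D a x).comp (continuous_const.mul continuous_id))
    (fun t => fl_norm_le D _ a)

lemma bandSmooth_apply (s δ : ℝ) (a : H →L[ℂ] H) (y : H) :
    bandSmooth D s δ a y = ∫ t, bandKer s δ t • fl D (-2 * Real.pi / δ * t) a y := rfl

lemma bandSmooth_norm_le (s δ : ℝ) (a : H →L[ℂ] H) : ‖bandSmooth D s δ a‖ ≤ kerNorm * ‖a‖ := by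
  have := smoothOp_norm_le (bandKer s δ) (bandKer_integrable s δ)
    (fun t => fl D (-2 * Real.pi / δ * t) a) ‖a‖
    (fun x => (fl_vec_continuous D a x).comp (continuous_const.mul continuous_id))
    (fun t => fl_norm_le D _ a)
  rw [integral_norm_bandKer] at this
  exact this

lemma bandSmooth_mem (M : VonNeumannAlgebra H) (hfl : ∀ t, ∀ a, a ∈ M → fl D t a ∈ M)
    (s δ : ℝ) (a : H →L[ℂ] H) (ha : a ∈ M) : bandSmooth D s δ a ∈ M := by
  refine mem_of_commutes M _ (fun m hm => ?_)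
  refine smoothOp_commute _ _ _ _ _ _ m (fun _ => ?_)
  exact (hm _ (hfl _ a ha)).symm

end Smooth

lemma bandSmooth_vac (S : ModularDatum H) (s : ℝ) {δ : ℝ} (hδ : 0 < δ) (a : H →L[ℂ] H) :
    bandSmooth S.D s δ a S.vac = S.D.apply (bandFn s δ) (a S.vac) := by
  rw [bandSmooth_apply, ← band_integral S.D s hδ]
  refine integral_congr_ae (Eventually.of_forall fun t => ?_)
  simp only [fl_vac]

end Crest.Agent.Lib.MR
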