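import Crest.Agent.Lib.MR6

/-! Random sign sums of flowed copies of an operator: the fourth moment estimate. -/

set_option autoImplicit false

namespace Crest.Agent.Lib.MR

open Crest.OpAlg Filter MeasureTheory
open scoped Topology InnerProductSpace ComplexConjugate

variable {H : Type*} [NormedAddCommGroup H] [InnerProductSpace ℂ H] [CompleteSpace H]

/-- Pairs `(W, b)` of a signed sum of unitaries and the corresponding signed sum of flows. -/
abbrev OpPair (H : Type*) [NormedAddCommGroup H] [InnerProductSpace ℂ H] [CompleteSpace H] :=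
  (H →L[ℂ] H) × (H →L[ℂ] H)

lemma inner_star_mul_self_right (b : H →L[ℂ] H) (x y : H) :
    ⟪x, (star b * b) y⟫_ℂ = ⟪b x, b y⟫_ℂ := by
  show ⟪x, star b (b y)⟫_ℂ = _
  rw [ContinuousLinearMap.star_eq_adjoint, ContinuousLinearMap.adjoint_inner_right]

lemma inner_self_re (v : H) : (⟪v, v⟫_ℂ).re = ‖v‖ ^ 2 := by
  rw [inner_self_eq_norm_sq_to_K]
  simp [← Complex.ofReal_pow]

lemma inner_self_ofReal (v : H) : ⟪v, v⟫_ℂ = ((‖v‖ ^ 2 : ℝ) : ℂ) := by
  rw [inner_self_eq_norm_sq_to_K]
  simp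

section Flow
variable (D : LineCalculus H)

lemma fl_star (t : ℝ) (a : H →L[ℂ] H) : star (fl D t a) = fl D t (star a) := by
  simp only [fl, star_mul, star_wave, neg_neg, mul_assoc]

lemma fl_mul (t : ℝ) (c d : H →L[ℂ] H) : fl D t c * fl D t d = fl D t (c * d) := by
  ext y
  show D.wave t (c (D.wave (-t) (D.wave t (d (D.wave (-t) y))))) = D.wave t (c (d (D.wave (-t) y)))
  rw [wave_neg_wave]

end Flow

section ListSum

lemma list_sum_const {α : Type*} (L : List α) (c : ℝ) :
    (L.map (fun _ => c)).sum = L.length * c := by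
  induction L with
  | nil => simp
  | cons x xs ih =>
    simp only [List.map_cons, List.sum_cons, List.length_cons, ih]
    push_cast
    ring

lemma list_sum_le {α : Type*} (L : List α) (f g : α → ℝ) (h : ∀ p ∈ L, f p ≤ g p) :
    (L.map f).sum ≤ (L.map g).sum := by
  induction L with
  | nil => simp
  | cons x xs ih =>
    simp only [List.map_cons, List.sum_cons]
    exact add_le_add (h x (by simp)) (ih (fun p hp => h p (by simp [hp])))

lemma list_sum_congr {α : Type*} (L : List α) (f g : α → ℝ) (h : ∀ p ∈ L, f p = g p) :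
    (L.map f).sum = (L.map g).sum :=
  congrArg List.sum (List.map_congr_left h)

lemma list_sum_mul_left {α : Type*} (L : List α) (c : ℝ) (f : α → ℝ) :
    (L.map (fun p => c * f p)).sum = c * (L.map f).sum := by
  induction L with
  | nil => simp
  | cons x xs ih =>
    simp only [List.map_cons, List.sum_cons, ih]
    ring

lemma list_sum_add {α : Type*} (L : List α) (f g : α → ℝ) :
    (L.map (fun p => f p + g p)).sum = (L.map f).sum + (L.map g).sum := by
  induction L with
  | nil => simp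
  | cons x xs ih =>
    simp only [List.map_cons, List.sum_cons, ih]
    ring

lemma list_sum_sub {α : Type*} (L : List α) (f g : α → ℝ) :
    (L.map (fun p => f p - g p)).sum = (L.map f).sum - (L.map g).sum := by
  induction L with
  | nil => simp
  | cons x xs ih =>
    simp only [List.map_cons, List.sum_cons, ih]
    ring

lemma list_sum_lt {α : Type*} (L : List α) (hL : L ≠ []) (f : α → ℝ) (c : ℝ)
    (h : ∀ p ∈ L, f p < c) : (L.map f).sum < L.length * c := by
  induction L with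
  | nil => exact absurd rfl hL
  | cons x xs ih =>
    simp only [List.map_cons, List.sum_cons, List.length_cons]
    push_cast
    have hx := h x (by simp)
    by_cases hxs : xs = []
    · subst hxs
      simpa using hx
    · have := ih hxs (fun p hp => h p (by simp [hp]))
      linarith

/-- If a sum is at least `length * c`, some term is at least `c`. -/
lemma list_exists_ge {α : Type*} (L : List α) (hL : L ≠ []) (f : α → ℝ) (c : ℝ)
    (h : L.length * c ≤ (L.map f).sum) : ∃ p ∈ L, c ≤ f p := by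
  by_contra hcon
  have hall : ∀ p ∈ L, f p < c := fun p hp => not_le.mp (fun hle => hcon ⟨p, hp, hle⟩)
  have := list_sum_lt L hL f c hall
  linarith

lemma UMean.list_sum {α : Type*} {ω : Ultrafilter ℕ} (L : List α) (f : α → ℝ → ℝ) (m : α → ℝ)
    (h : ∀ p ∈ L, UMean ω (f p) (m p)) :
    UMean ω (fun t => (L.map (fun p => f p t)).sum) ((L.map m).sum) := by
  induction L with
  | nil => simpa using (UMean.zero (ω := ω) (E := ℝ))
  | cons x xs ih =>
    simp only [List.map_cons, List.sum_cons]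
    exact (h x (by simp)).add (ih (fun p hp => h p (by simp [hp])))

lemma UMean.congr {E : Type*} [NormedAddCommGroup E] [NormedSpace ℝ E] [CompleteSpace E]
    {ω : Ultrafilter ℕ} {f g : ℝ → E} {L L' : E} (h : UMean ω f L) (hfg : ∀ t, f t = g t)
    (hL : L = L') : UMean ω g L' := by
  have : f = g := funext hfg
  rw [← this, ← hL]
  exact h

end ListSum

section Parallelogram

lemma step_ineq (b a' : H →L[ℂ] H) (ξ : H) :
    ‖(star (b + a') * (b + a')) ξ‖ ^ 2 + ‖(star (b - a') * (b - a')) ξ‖ ^ 2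
      ≤ 2 * ‖(star b * b) ξ‖ ^ 2 + 2 * ‖(star a' * a') ξ‖ ^ 2
        + 4 * (⟪(star a' * a') ξ, (star b * b) ξ⟫_ℂ).re
        + 4 * ‖star b (a' ξ)‖ ^ 2 + 4 * ‖star a' (b ξ)‖ ^ 2 := by
  set u : H := (star b * b) ξ + (star a' * a') ξ with hu
  set X : H := star b (a' ξ) + star a' (b ξ) with hX
  have e1 : (star (b + a') * (b + a')) ξ = u + X := by
    rw [star_add]
    show (star b + star a') ((b + a') ξ) = _
    simp only [ContinuousLinearMap.add_apply, map_add, hu, hX]
    show star b (b ξ) + star a' (b ξ) + (star b (a' ξ) + star a' (a' ξ))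
      = star b (b ξ) + star a' (a' ξ) + (star b (a' ξ) + star a' (b ξ))
    abel
  have e2 : (star (b - a') * (b - a')) ξ = u - X := by
    rw [star_sub]
    show (star b - star a') ((b - a') ξ) = _
    simp only [ContinuousLinearMap.sub_apply, map_sub, hu, hX]
    show star b (b ξ) - star a' (b ξ) - (star b (a' ξ) - star a' (a' ξ))
      = star b (b ξ) + star a' (a' ξ) - (star b (a' ξ) + star a' (b ξ))
    abel
  rw [e1, e2]
  have h1 := parallelogram_law_with_norm ℂ u X
  have h2 : ‖u‖ ^ 2 = ‖(star b * b) ξ‖ ^ 2 + 2 * (⟪(star b * b) ξ, (star a' * a') ξ⟫_ℂ).re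
      + ‖(star a' * a') ξ‖ ^ 2 := by
    rw [hu]
    have := norm_add_sq (𝕜 := ℂ) ((star b * b) ξ) ((star a' * a') ξ)
    simpa only [RCLike.re_eq_complex_re] using this
  have h3 : (⟪(star b * b) ξ, (star a' * a') ξ⟫_ℂ).re = (⟪(star a' * a') ξ, (star b * b) ξ⟫_ℂ).re :=
    inner_re_symm (𝕜 := ℂ) _ _
  have h4 : ‖X‖ ^ 2 ≤ 2 * ‖star b (a' ξ)‖ ^ 2 + 2 * ‖star a' (b ξ)‖ ^ 2 := by
    have h5 : ‖X‖ ≤ ‖star b (a' ξ)‖ + ‖star a' (b ξ)‖ := norm_add_le _ _
    have h6 : ‖X‖ ^ 2 ≤ (‖star b (a' ξ)‖ + ‖star a' (b ξ)‖) ^ 2 :=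
      pow_le_pow_left₀ (norm_nonneg _) h5 2
    nlinarith [sq_nonneg (‖star b (a' ξ)‖ - ‖star a' (b ξ)‖)]
  nlinarith [h1, h2, h3, h4]

end Parallelogram

section Signs

variable (S : ModularDatum H) (a : H →L[ℂ] H)

/-- One doubling step. -/
noncomputable def stepList (t : ℝ) (L : List (OpPair H)) : List (OpPair H) :=
  L.map (fun p => (p.1 + S.D.wave t, p.2 + fl S.D t a)) ++
    L.map (fun p => (p.1 - S.D.wave t, p.2 - fl S.D t a))

lemma stepList_length (t : ℝ) (L : List (OpPair H)) :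
    (stepList S a t L).length = 2 * L.length := by
  simp [stepList]
  omega

lemma sum_stepList (t : ℝ) (L : List (OpPair H)) (φ : OpPair H → ℝ) :
    ((stepList S a t L).map φ).sum
      = (L.map (fun p => φ (p.1 + S.D.wave t, p.2 + fl S.D t a)
          + φ (p.1 - S.D.wave t, p.2 - fl S.D t a))).sum := by
  rw [list_sum_add, stepList, List.map_append, List.sum_append, List.map_map, List.map_map]
  rfl

/-- Invariants of a pair. -/
structure Good (p : OpPair H) : Prop where
  mem : p.2 ∈ S.M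
  vac : p.2 S.vac = p.1 (a S.vac)
  star_vac : star p.2 S.vac = p.1 (star a S.vac)
  comm : ∀ G : H →L[ℂ] H, (∀ t, G * S.D.wave t = S.D.wave t * G) → G * p.1 = p.1 * G

lemma good_plus {p : OpPair H} (hp : Good S a p) (ha : a ∈ S.M) (t : ℝ) :
    Good S a (p.1 + S.D.wave t, p.2 + fl S.D t a) := by
  refine ⟨add_mem hp.mem (fl_mem S t a ha), ?_, ?_, ?_⟩
  · show p.2 S.vac + fl S.D t a S.vac = p.1 (a S.vac) + S.D.wave t (a S.vac)
    rw [hp.vac, fl_vac]
  · simp only
    rw [star_add, fl_star]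
    show star p.2 S.vac + fl S.D t (star a) S.vac = p.1 (star a S.vac) + S.D.wave t (star a S.vac)
    rw [hp.star_vac, fl_vac]
  · intro G hG
    simp only
    rw [mul_add, add_mul, hp.comm G hG, hG t]

lemma good_minus {p : OpPair H} (hp : Good S a p) (ha : a ∈ S.M) (t : ℝ) :
    Good S a (p.1 - S.D.wave t, p.2 - fl S.D t a) := by
  refine ⟨sub_mem hp.mem (fl_mem S t a ha), ?_, ?_, ?_⟩
  · show p.2 S.vac - fl S.D t a S.vac = p.1 (a S.vac) - S.D.wave t (a S.vac)
    rw [hp.vac, fl_vac]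
  · simp only
    rw [star_sub, fl_star]
    show star p.2 S.vac - fl S.D t (star a) S.vac = p.1 (star a S.vac) - S.D.wave t (star a S.vac)
    rw [hp.star_vac, fl_vac]
  · intro G hG
    simp only
    rw [mul_sub, sub_mul, hp.comm G hG, hG t]

lemma good_step {L : List (OpPair H)} (hL : ∀ p ∈ L, Good S a p) (ha : a ∈ S.M) (t : ℝ) :
    ∀ p ∈ stepList S a t L, Good S a p := by
  intro p hp
  rw [stepList, List.mem_append, List.mem_map, List.mem_map] at hp
  rcases hp with ⟨q, hq, rfl⟩ | ⟨q, hq, rfl⟩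
  · exact good_plus S a (hL q hq) ha t
  · exact good_minus S a (hL q hq) ha t

/-- The time-dependent cross terms. -/
noncomputable def termFn (b : H →L[ℂ] H) (t : ℝ) : ℝ :=
  2 * (⟪fl S.D t (star a * a) S.vac, (star b * b) S.vac⟫_ℂ).re
    + 2 * ‖star b (fl S.D t a S.vac)‖ ^ 2 + 2 * ‖star (fl S.D t a) (b S.vac)‖ ^ 2

/-- The mean of the time-dependent cross terms. -/
noncomputable def termMean (b : H →L[ℂ] H) : ℝ :=
  2 * (‖a S.vac‖ ^ 2 * ‖b S.vac‖ ^ 2) + 2 * (‖star b S.vac‖ ^ 2 * ‖a S.vac‖ ^ 2)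
    + 2 * (‖star a S.vac‖ ^ 2 * ‖b S.vac‖ ^ 2)

lemma inner_mul_star_self (b : H →L[ℂ] H) (x : H) :
    ⟪(b * star b) x, x⟫_ℂ = ((‖star b x‖ ^ 2 : ℝ) : ℂ) := by
  show ⟪b (star b x), x⟫_ℂ = _
  rw [ContinuousLinearMap.star_eq_adjoint, ← ContinuousLinearMap.adjoint_inner_right,
    ← inner_self_ofReal]

variable {S a} in
lemma termFn_umean {ω : Ultrafilter ℕ} (hω : (ω : Filter ℕ) ≤ atTop) (herg : S.Ergodic)
    (ha : a ∈ S.M) (b : H →L[ℂ] H) (hb : b ∈ S.M) :
    UMean ω (termFn S a b) (termMean S a b) := by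
  have hstar : ∀ c ∈ S.M, star c ∈ S.M := fun c hc => star_mem hc
  -- first term
  have t1 := ((ergodic_umean S ω hω herg (star a * a) (mul_mem (hstar a ha) ha) S.vac
    ((star b * b) S.vac)).map Complex.reCLM).smul 2
  have l1 : (2 : ℝ) • Complex.reCLM (⟪(star a * a) S.vac, S.vac⟫_ℂ * ⟪S.vac, (star b * b) S.vac⟫_ℂ)
      = 2 * (‖a S.vac‖ ^ 2 * ‖b S.vac‖ ^ 2) := by
    rw [inner_star_mul_self, inner_star_mul_self_right, inner_self_ofReal, inner_self_ofReal,
      ← Complex.ofReal_mul, smul_eq_mul, Complex.reCLM_apply, Complex.ofReal_re]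
  -- second term
  have t2 := ((ergodic_umean S ω hω herg (b * star b) (mul_mem hb (hstar b hb)) (a S.vac)
    (a S.vac)).neg_arg.map Complex.reCLM).smul 2
  have l2 : (2 : ℝ) • Complex.reCLM (⟪(b * star b) S.vac, S.vac⟫_ℂ * ⟪a S.vac, a S.vac⟫_ℂ)
      = 2 * (‖star b S.vac‖ ^ 2 * ‖a S.vac‖ ^ 2) := by
    rw [inner_mul_star_self, inner_self_ofReal,
      ← Complex.ofReal_mul, smul_eq_mul, Complex.reCLM_apply, Complex.ofReal_re]
  have e2 : ∀ t : ℝ, (2 : ℝ) • Complex.reCLM ⟪fl S.D (-t) (b * star b) (a S.vac), a S.vac⟫_ℂ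
      = 2 * ‖star b (fl S.D t a S.vac)‖ ^ 2 := by
    intro t
    rw [fl_inner, neg_neg, fl_vac, inner_mul_star_self, smul_eq_mul, Complex.reCLM_apply,
      Complex.ofReal_re]
  -- third term
  have t3 := ((ergodic_umean S ω hω herg (a * star a) (mul_mem ha (hstar a ha)) (b S.vac)
    (b S.vac)).map Complex.reCLM).smul 2
  have l3 : (2 : ℝ) • Complex.reCLM (⟪(a * star a) S.vac, S.vac⟫_ℂ * ⟪b S.vac, b S.vac⟫_ℂ)
      = 2 * (‖star a S.vac‖ ^ 2 * ‖b S.vac‖ ^ 2) := by
    rw [inner_mul_star_self, inner_self_ofReal,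
      ← Complex.ofReal_mul, smul_eq_mul, Complex.reCLM_apply, Complex.ofReal_re]
  have e3 : ∀ t : ℝ, (2 : ℝ) • Complex.reCLM ⟪fl S.D t (a * star a) (b S.vac), b S.vac⟫_ℂ
      = 2 * ‖star (fl S.D t a) (b S.vac)‖ ^ 2 := by
    intro t
    rw [← fl_mul, ← fl_star, inner_mul_star_self, smul_eq_mul, Complex.reCLM_apply,
      Complex.ofReal_re]
  rw [l1] at t1
  rw [l2] at t2
  rw [l3] at t3
  refine ((t1.add t2).add t3).congr (fun t => ?_) rfl
  rw [e2, e3]
  rfl

/-- The fourth moment bound for random sign sums of flows. -/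
theorem exists_sign_list {ω : Ultrafilter ℕ} (hω : (ω : Filter ℕ) ≤ atTop) (herg : S.Ergodic)
    (ha : a ∈ S.M) (N : ℕ) :
    ∃ L : List (OpPair H), L.length = 2 ^ N ∧ (∀ p ∈ L, Good S a p) ∧
      (∀ x : H, (L.map (fun p => ‖p.1 x‖ ^ 2)).sum = L.length * (N * ‖x‖ ^ 2)) ∧
      (L.map (fun p => ‖(star p.2 * p.2) S.vac‖ ^ 2)).sum
        ≤ L.length * (N * (‖(star a * a) S.vac‖ ^ 2 + 1)
            + N ^ 2 * (‖a S.vac‖ ^ 4 + 2 * (‖a S.vac‖ ^ 2 * ‖star a S.vac‖ ^ 2))) := by
  set W := ‖(star a * a) S.vac‖ ^ 2 with hW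
  set Q := ‖a S.vac‖ ^ 4 + 2 * (‖a S.vac‖ ^ 2 * ‖star a S.vac‖ ^ 2) with hQ
  have hQ0 : 0 ≤ Q := by positivity
  have hW0 : 0 ≤ W := by positivity
  induction N with
  | zero =>
    refine ⟨[(0, 0)], by simp, ?_, ?_, ?_⟩
    · intro p hp
      rw [List.mem_singleton] at hp
      subst hp
      exact ⟨zero_mem _, by simp, by simp, fun G _ => by simp⟩
    · intro x
      simp
    · simp
  | succ N ih =>
    obtain ⟨L, hlen, hgood, hI1, hI2⟩ := ih
    have hLpos : (1 : ℝ) ≤ L.length := by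
      rw [hlen]
      exact_mod_cast Nat.one_le_two_pow
    -- mean of the cross terms
    have hmean := UMean.list_sum L (fun p => termFn S a p.2) (fun p => termMean S a p.2)
      (fun p hp => termFn_umean hω herg ha p.2 (hgood p hp).mem)
    obtain ⟨t, ht⟩ := hmean.exists_le hω (ε := 1) one_pos
    -- evaluate the mean
    have hmv : (L.map (fun p => termMean S a p.2)).sum = L.length * (N * (2 * Q)) := by
      have h1 : (L.map (fun p : OpPair H => ‖p.2 S.vac‖ ^ 2)).sum = L.length * (N * ‖a S.vac‖ ^ 2) := by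
        rw [← hI1 (a S.vac)]
        exact list_sum_congr _ _ _ (fun p hp => by rw [(hgood p hp).vac])
      have h2 : (L.map (fun p : OpPair H => ‖(star p.2 : H →L[ℂ] H) S.vac‖ ^ 2)).sum
          = L.length * (N * ‖star a S.vac‖ ^ 2) := by
        rw [← hI1 (star a S.vac)]
        exact list_sum_congr _ _ _ (fun p hp => by rw [(hgood p hp).star_vac])
      simp only [termMean]
      rw [list_sum_add, list_sum_add, list_sum_mul_left, list_sum_mul_left, list_sum_mul_left,
        list_sum_mul_left, show (fun p : OpPair H => ‖(star p.2 : H →L[ℂ] H) S.vac‖ ^ 2 * ‖a S.vac‖ ^ 2)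
          = fun p => ‖a S.vac‖ ^ 2 * ‖(star p.2 : H →L[ℂ] H) S.vac‖ ^ 2 from
          funext fun p => mul_comm _ _,
        list_sum_mul_left, list_sum_mul_left, h1, h2, hQ]
      ring
    refine ⟨stepList S a t L, ?_, good_step S a hgood ha t, ?_, ?_⟩
    · rw [stepList_length, hlen, pow_succ]
      ring
    · intro x
      rw [sum_stepList, stepList_length]
      have h3 : ∀ p ∈ L, ‖(p.1 + S.D.wave t) x‖ ^ 2 + ‖(p.1 - S.D.wave t) x‖ ^ 2
          = 2 * ‖p.1 x‖ ^ 2 + 2 * ‖x‖ ^ 2 := by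
        intro p _
        have := parallelogram_law_with_norm ℂ (p.1 x) (S.D.wave t x)
        rw [norm_wave] at this
        have e1 : (p.1 + S.D.wave t) x = p.1 x + S.D.wave t x := rfl
        have e2 : (p.1 - S.D.wave t) x = p.1 x - S.D.wave t x := rfl
        rw [e1, e2]
        nlinarith [this]
      simp only at h3 ⊢
      rw [list_sum_congr _ _ _ h3, list_sum_add, list_sum_mul_left, list_sum_const, hI1 x]
      push_cast
      ring
    · rw [sum_stepList, stepList_length]
      have h4 : ∀ p ∈ L, ‖(star (p.2 + fl S.D t a) * (p.2 + fl S.D t a)) S.vac‖ ^ 2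
            + ‖(star (p.2 - fl S.D t a) * (p.2 - fl S.D t a)) S.vac‖ ^ 2
          ≤ 2 * ‖(star p.2 * p.2) S.vac‖ ^ 2 + 2 * W + 2 * termFn S a p.2 t := by
        intro p _
        have h5 := step_ineq p.2 (fl S.D t a) S.vac
        have h6 : star (fl S.D t a) * fl S.D t a = fl S.D t (star a * a) := by
          rw [fl_star, fl_mul]
        have h7 : ‖(star (fl S.D t a) * fl S.D t a) S.vac‖ ^ 2 = W := by
          rw [h6, fl_vac, norm_wave]
        rw [h7, h6] at h5
        simp only [termFn]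
        linarith
      simp only at h4 ⊢
      have h8 := list_sum_le _ _ _ h4
      have h9 : (L.map (fun p => 2 * ‖(star p.2 * p.2) S.vac‖ ^ 2 + 2 * W + 2 * termFn S a p.2 t)).sum
          = 2 * (L.map (fun p => ‖(star p.2 * p.2) S.vac‖ ^ 2)).sum + L.length * (2 * W)
            + 2 * (L.map (fun p => termFn S a p.2 t)).sum := by
        rw [list_sum_add, list_sum_add, list_sum_mul_left, list_sum_const, list_sum_mul_left]
      rw [h9] at h8
      refine h8.trans ?_
      rw [hmv] at ht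
      have hNW : (0 : ℝ) ≤ N := Nat.cast_nonneg N
      have hlQ : 0 ≤ (L.length : ℝ) * Q := mul_nonneg (by linarith) hQ0
      have key : ((2 * L.length : ℕ) : ℝ) * (((N + 1 : ℕ) : ℝ) * (W + 1) + ((N + 1 : ℕ) : ℝ) ^ 2 * Q)
          = 2 * ((L.length : ℝ) * ((N : ℝ) * (W + 1) + (N : ℝ) ^ 2 * Q)) + (L.length : ℝ) * (2 * W)
            + 2 * ((L.length : ℝ) * ((N : ℝ) * (2 * Q))) + 2 * (L.length : ℝ)
            + 2 * ((L.length : ℝ) * Q) := by
        push_cast
        ring
      rw [key]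
      linarith

end Signs

end Crest.Agent.Lib.MR
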