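import Crest.Agent.Lib.MR7

/-! The bounded recovery step. -/

set_option autoImplicit false

namespace Crest.Agent.Lib.MR

open Crest.OpAlg Filter MeasureTheory
open scoped Topology InnerProductSpace ComplexConjugate

variable {H : Type*} [NormedAddCommGroup H] [InnerProductSpace ℂ H] [CompleteSpace H]

local notation "BCF" => BoundedContinuousFunction ℝ ℂ

section

variable (D : LineCalculus H) (ω : Ultrafilter ℕ) (T : H →L[ℂ] H)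

lemma energy_band_comm (hω : (ω : Filter ℕ) ≤ atTop) (s : ℝ) {δ : ℝ} (hδ : 0 < δ) (x : H) :
    energy D ω T (D.apply (bandFn s δ) x) = D.apply (bandFn s δ) (energy D ω T x) := by
  rw [← band_integral D s hδ, ← band_integral D s hδ]
  have hint : Integrable (fun t => bandKer s δ t • D.wave (-2 * Real.pi / δ * t) x) :=
    integrable_smul_bdd (bandKer_integrable s δ)
      ((wave_continuous D x).comp (continuous_const.mul continuous_id))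
      (fun t => (norm_wave D _ _).le)
  rw [← ContinuousLinearMap.integral_comp_comm (energy D ω T) hint]
  refine integral_congr_ae (Eventually.of_forall fun t => ?_)
  simp only [map_smul]
  rw [energy_wave_comm D ω T hω]

lemma energy_norm_le (x : H) : ‖energy D ω T x‖ ≤ ‖T‖ ^ 2 * ‖x‖ := by
  refine (emean_norm_le D ω _ x).trans (le_of_eq ?_)
  rw [CStarRing.norm_star_mul_self, pow_two]

lemma energy_comm_wave (hω : (ω : Filter ℕ) ≤ atTop) (t : ℝ) :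
    energy D ω T * D.wave t = D.wave t * energy D ω T := by
  ext y
  exact energy_wave_comm D ω T hω t y

lemma apply_comm_wave (f : BCF) (t : ℝ) : D.apply f * D.wave t = D.wave t * D.apply f := by
  ext y
  exact apply_wave_comm D f t y

lemma supported_smul {K : Set ℝ} {x : H} (hx : D.SupportedIn K x) (α : ℂ) :
    D.SupportedIn K (α • x) := by
  intro f hf
  rw [map_smul, hx f hf, smul_zero]

end

section Numeric

lemma num_amgm (u r θ κ : ℝ) (hκ : 0 < κ) (hθ : 0 ≤ θ) (hr : 0 ≤ r) :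
    u * (Real.sqrt r * θ) ≤ (θ / 2) * (u ^ 2 / κ + r * κ) := by
  have hs : Real.sqrt r ^ 2 = r := Real.sq_sqrt hr
  have hsκ : Real.sqrt κ ^ 2 = κ := Real.sq_sqrt hκ.le
  have hsκpos : 0 < Real.sqrt κ := Real.sqrt_pos.mpr hκ
  have h6 : 0 ≤ (u / Real.sqrt κ - Real.sqrt r * Real.sqrt κ) ^ 2 := sq_nonneg _
  have h7 : (u / Real.sqrt κ - Real.sqrt r * Real.sqrt κ) ^ 2
      = u ^ 2 / κ - 2 * (u * Real.sqrt r) + r * κ := by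
    have : (u / Real.sqrt κ) ^ 2 = u ^ 2 / κ := by rw [div_pow, hsκ]
    rw [sub_sq, this, mul_pow, hs, hsκ]
    field_simp
  rw [h7] at h6
  have h5 : u * Real.sqrt r ≤ (u ^ 2 / κ + r * κ) / 2 := by linarith only [h6]
  have h9 := mul_le_mul_of_nonneg_right h5 hθ
  calc u * (Real.sqrt r * θ) = (u * Real.sqrt r) * θ := by ring
    _ ≤ (u ^ 2 / κ + r * κ) / 2 * θ := h9
    _ = _ := by ring

lemma num_sum (ℓ N lam' θ κ₀ μ c K₂ lam zsq asq S4 : ℝ)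
    (hℓ : 0 < ℓ) (hN : 1 ≤ N) (hlam' : lam' = lam / N) (hlam : lam = c ^ 2 / (8 * K₂))
    (hK₂ : 0 < K₂) (hc : 0 < c) (hκ : 0 < κ₀) (hz : zsq ≤ κ₀ ^ 2)
    (hκ3 : θ * κ₀ ≤ c ^ 2 / 16) (hθ : 0 < θ) (hasq : c ^ 2 / 4 ≤ asq)
    (hS4 : S4 ≤ ℓ * (N ^ 2 * K₂)) (hμ : μ = c ^ 2 / 32) :
    ℓ * (N * μ) ≤ ℓ * (N * asq) - lam' * S4 - (θ / 2) * (ℓ * (N * zsq) / κ₀ + ℓ * (N * κ₀))
      - μ * (ℓ * (N * 1 ^ 2)) := by
  have hNpos : 0 < N := by linarith only [hN]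
  have hlam'pos : 0 < lam' := by rw [hlam', hlam]; positivity
  have h1 : lam' * S4 ≤ ℓ * (N * (c ^ 2 / 8)) := by
    have h5 : lam' * S4 ≤ lam' * (ℓ * (N ^ 2 * K₂)) := mul_le_mul_of_nonneg_left hS4 hlam'pos.le
    refine h5.trans (le_of_eq ?_)
    rw [hlam', hlam]
    field_simp
  have h2 : (θ / 2) * (ℓ * (N * zsq) / κ₀ + ℓ * (N * κ₀)) ≤ ℓ * (N * (c ^ 2 / 16)) := by
    have h3 : zsq / κ₀ ≤ κ₀ := by
      rw [div_le_iff₀ hκ]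
      linarith only [hz, sq κ₀]
    have h5 : ℓ * (N * zsq) / κ₀ = ℓ * (N * (zsq / κ₀)) := by ring
    rw [h5]
    have hLN : 0 ≤ ℓ * N := by positivity
    have h6 : ℓ * (N * (zsq / κ₀)) ≤ ℓ * (N * κ₀) :=
      mul_le_mul_of_nonneg_left (mul_le_mul_of_nonneg_left h3 hNpos.le) hℓ.le
    have h7 : (θ / 2) * (ℓ * (N * (zsq / κ₀)) + ℓ * (N * κ₀))
        ≤ (θ / 2) * (ℓ * (N * κ₀) + ℓ * (N * κ₀)) :=
      mul_le_mul_of_nonneg_left (add_le_add h6 le_rfl) (by positivity)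
    refine h7.trans ?_
    have h8 : (θ / 2) * (ℓ * (N * κ₀) + ℓ * (N * κ₀)) = (ℓ * N) * (θ * κ₀) := by ring
    rw [h8]
    have h9 : (ℓ * N) * (θ * κ₀) ≤ (ℓ * N) * (c ^ 2 / 16) := mul_le_mul_of_nonneg_left hκ3 hLN
    refine h9.trans (le_of_eq ?_)
    ring
  have h4 : ℓ * (N * (c ^ 2 / 4)) ≤ ℓ * (N * asq) :=
    mul_le_mul_of_nonneg_left (mul_le_mul_of_nonneg_left hasq hNpos.le) hℓ.le
  have h5 : ℓ * (N * μ) = ℓ * (N * (c ^ 2 / 4)) - ℓ * (N * (c ^ 2 / 8))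
      - ℓ * (N * (c ^ 2 / 16)) - μ * (ℓ * (N * 1 ^ 2)) := by
    rw [hμ]
    ring
  rw [h5]
  linarith only [h1, h2, h4]

lemma num_W (N W Q K₁ : ℝ) (hN : 1 ≤ N) (hNW : W + 1 ≤ N) (hQle : Q ≤ K₁) :
    N * (W + 1) + N ^ 2 * Q ≤ N ^ 2 * (K₁ + 1) := by
  have hNpos : 0 ≤ N := by linarith only [hN]
  have h3 : N * (W + 1) ≤ N * N := mul_le_mul_of_nonneg_left hNW hNpos
  have h4 : N ^ 2 * Q ≤ N ^ 2 * K₁ := mul_le_mul_of_nonneg_left hQle (by positivity)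
  have h5 : N ^ 2 * (K₁ + 1) = N ^ 2 * K₁ + N * N := by ring
  rw [h5]
  linarith only [h3, h4]

end Numeric

/-- Averaging over the signs: existence of a good pair with a truncation. -/
theorem exists_good_pair (S : ModularDatum H) (herg : S.Ergodic) (ω : Ultrafilter ℕ)
    (hω : (ω : Filter ℕ) ≤ atTop) (a : H →L[ℂ] H) (hamem : a ∈ S.M) (h y : H) (hh : ‖h‖ = 1)
    (c K₁ θ κ₀ μ lam : ℝ) (hc : 0 < c) (hK₁ : 0 ≤ K₁) (hlam : lam = c ^ 2 / (8 * (K₁ + 1)))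
    (hθ : θ = 1 / (2 * Real.sqrt lam)) (hκ₀ : 0 < κ₀) (hκθ : θ * κ₀ ≤ c ^ 2 / 16)
    (hμ : μ = c ^ 2 / 32) (hz : ‖a S.vac - y‖ ≤ κ₀) (halow : c / 2 ≤ ‖a S.vac‖)
    (hQle : ‖a S.vac‖ ^ 4 + 2 * (‖a S.vac‖ ^ 2 * ‖star a S.vac‖ ^ 2) ≤ K₁) :
    ∃ (N : ℕ) (p : OpPair H) (v : H →L[ℂ] H), 1 ≤ N ∧ Good S a p ∧ v ∈ S.M ∧
      ‖v‖ ≤ Real.sqrt N * θ ∧
      (N : ℝ) * μ + μ * ‖p.1 h‖ ^ 2 ≤ (⟪p.1 y, v S.vac⟫_ℂ).re := by
  have hK₂ : 0 < K₁ + 1 := by linarith only [hK₁]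
  have hlampos : 0 < lam := by rw [hlam]; positivity
  have hsqrtlam : 0 < Real.sqrt lam := Real.sqrt_pos.mpr hlampos
  have hθpos : 0 < θ := by rw [hθ]; positivity
  obtain ⟨N₀, hN₀⟩ := exists_nat_ge (‖(star a * a) S.vac‖ ^ 2 + 1)
  obtain ⟨N, hN⟩ : ∃ N : ℕ, N = N₀ + 1 := ⟨_, rfl⟩
  have hNnat : 1 ≤ N := by omega
  have hNreal : (N : ℝ) = N₀ + 1 := by rw [hN]; push_cast; rfl
  have hN₀0 : (0 : ℝ) ≤ N₀ := Nat.cast_nonneg _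
  have hN1 : (1 : ℝ) ≤ N := by rw [hNreal]; linarith only [hN₀0]
  have hNW : ‖(star a * a) S.vac‖ ^ 2 + 1 ≤ N := by rw [hNreal]; linarith only [hN₀]
  have hNpos : (0 : ℝ) < N := by linarith only [hN1]
  obtain ⟨L, hlen, hgood, hI1, hI2⟩ := exists_sign_list S a hω herg hamem N
  have hLne : L ≠ [] := by
    intro hnil
    have h0 : L.length = 0 := by rw [hnil]; rfl
    rw [h0] at hlen
    exact absurd hlen.symm (pow_ne_zero _ (by norm_num))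
  have hLpos : (0 : ℝ) < L.length := by
    rw [hlen]
    positivity
  obtain ⟨lam', hlam'⟩ : ∃ lam' : ℝ, lam' = lam / N := ⟨_, rfl⟩
  have hlam'pos : 0 < lam' := by rw [hlam']; positivity
  have hsqrtN : 0 < Real.sqrt N := Real.sqrt_pos.mpr hNpos
  have hvnorm : 1 / (2 * Real.sqrt lam') = Real.sqrt N * θ := by
    rw [hlam', Real.sqrt_div hlampos.le, hθ]
    field_simp
  have hex : ∀ p : OpPair H, ∃ v : H →L[ℂ] H, p.2 ∈ S.M → (v ∈ S.M ∧ ‖v‖ ≤ Real.sqrt N * θ ∧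
      ‖p.2 S.vac‖ ^ 2 - lam' * ‖(star p.2 * p.2) S.vac‖ ^ 2 ≤ (⟪p.2 S.vac, v S.vac⟫_ℂ).re) := by
    intro p
    by_cases hp : p.2 ∈ S.M
    · obtain ⟨v, h1, h2, h3⟩ := resolvent_lemma S.M p.2 hp hlam'pos S.vac
      exact ⟨v, fun _ => ⟨h1, by rwa [hvnorm] at h2, h3⟩⟩
    · exact ⟨0, fun hp' => absurd hp' hp⟩
  choose v hv using hex
  let Φ : OpPair H → ℝ := fun p => (⟪p.1 y, v p S.vac⟫_ℂ).re - μ * ‖p.1 h‖ ^ 2
  let Ψ : OpPair H → ℝ := fun p =>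
    ‖p.1 (a S.vac)‖ ^ 2 - lam' * ‖(star p.2 * p.2) S.vac‖ ^ 2
      - (θ / 2) * (‖p.1 (a S.vac - y)‖ ^ 2 / κ₀ + N * κ₀) - μ * ‖p.1 h‖ ^ 2
  have hpoint : ∀ p ∈ L, Ψ p ≤ Φ p := by
    intro p hp
    have hG := hgood p hp
    obtain ⟨-, hv2, hv3⟩ := hv p hG.mem
    have e1 : p.2 S.vac = p.1 y + p.1 (a S.vac - y) := by
      rw [hG.vac, ← map_add]
      congr 1
      abel
    have e2 : (⟪p.2 S.vac, v p S.vac⟫_ℂ).re
        = (⟪p.1 y, v p S.vac⟫_ℂ).re + (⟪p.1 (a S.vac - y), v p S.vac⟫_ℂ).re := by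
      rw [e1, inner_add_left, Complex.add_re]
    have e3 : (⟪p.1 (a S.vac - y), v p S.vac⟫_ℂ).re ≤ ‖p.1 (a S.vac - y)‖ * (Real.sqrt N * θ) := by
      refine (Complex.re_le_norm _).trans ((norm_inner_le_norm _ _).trans ?_)
      refine mul_le_mul_of_nonneg_left ?_ (norm_nonneg _)
      refine ((v p).le_opNorm _).trans ?_
      rw [S.norm_vac, mul_one]
      exact hv2
    have e4 := num_amgm ‖p.1 (a S.vac - y)‖ N θ κ₀ hκ₀ hθpos.le hNpos.le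
    have e5 : ‖p.2 S.vac‖ = ‖p.1 (a S.vac)‖ := by rw [hG.vac]
    rw [e5] at hv3
    show ‖p.1 (a S.vac)‖ ^ 2 - lam' * ‖(star p.2 * p.2) S.vac‖ ^ 2
      - (θ / 2) * (‖p.1 (a S.vac - y)‖ ^ 2 / κ₀ + N * κ₀) - μ * ‖p.1 h‖ ^ 2
      ≤ (⟪p.1 y, v p S.vac⟫_ℂ).re - μ * ‖p.1 h‖ ^ 2
    linarith only [e2, e3, e4, hv3]
  have hΨsum : L.length * (N * μ) ≤ (L.map Ψ).sum := by
    have hS1 : (L.map (fun p : OpPair H => ‖p.1 (a S.vac)‖ ^ 2)).sum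
        = L.length * (N * ‖a S.vac‖ ^ 2) := hI1 _
    have hS2 : (L.map (fun p : OpPair H => ‖p.1 (a S.vac - y)‖ ^ 2)).sum
        = L.length * (N * ‖a S.vac - y‖ ^ 2) := hI1 _
    have hS3 : (L.map (fun p : OpPair H => ‖p.1 h‖ ^ 2)).sum = L.length * (N * ‖h‖ ^ 2) := hI1 _
    have hS4 : (L.map (fun p : OpPair H => ‖(star p.2 * p.2) S.vac‖ ^ 2)).sum
        ≤ L.length * (N ^ 2 * (K₁ + 1)) :=
      hI2.trans (mul_le_mul_of_nonneg_left (num_W _ _ _ _ hN1 hNW hQle) hLpos.le)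
    have hS5 : (L.map Ψ).sum = (L.map (fun p : OpPair H => ‖p.1 (a S.vac)‖ ^ 2)).sum
        - lam' * (L.map (fun p : OpPair H => ‖(star p.2 * p.2) S.vac‖ ^ 2)).sum
        - (θ / 2) * ((L.map (fun p : OpPair H => ‖p.1 (a S.vac - y)‖ ^ 2)).sum / κ₀
            + L.length * (N * κ₀))
        - μ * (L.map (fun p : OpPair H => ‖p.1 h‖ ^ 2)).sum := by
      show (L.map (fun p : OpPair H => ‖p.1 (a S.vac)‖ ^ 2 - lam' * ‖(star p.2 * p.2) S.vac‖ ^ 2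
          - (θ / 2) * (‖p.1 (a S.vac - y)‖ ^ 2 / κ₀ + N * κ₀) - μ * ‖p.1 h‖ ^ 2)).sum = _
      rw [list_sum_sub, list_sum_sub, list_sum_sub, list_sum_mul_left, list_sum_mul_left,
        list_sum_mul_left, list_sum_add, list_sum_const]
      have hdiv : (L.map (fun p : OpPair H => ‖p.1 (a S.vac - y)‖ ^ 2 / κ₀)).sum
          = (L.map (fun p : OpPair H => ‖p.1 (a S.vac - y)‖ ^ 2)).sum / κ₀ := by
        simp only [div_eq_mul_inv]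
        rw [show (fun p : OpPair H => ‖p.1 (a S.vac - y)‖ ^ 2 * κ₀⁻¹)
            = fun p : OpPair H => κ₀⁻¹ * ‖p.1 (a S.vac - y)‖ ^ 2
          from funext fun p => mul_comm _ _, list_sum_mul_left, mul_comm]
      rw [hdiv]
    rw [hS5, hS1, hS2, hS3, hh]
    have hzsq : ‖a S.vac - y‖ ^ 2 ≤ κ₀ ^ 2 := pow_le_pow_left₀ (norm_nonneg _) hz 2
    have hasq : c ^ 2 / 4 ≤ ‖a S.vac‖ ^ 2 := by
      have := pow_le_pow_left₀ (by positivity : 0 ≤ c / 2) halow 2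
      have e : (c / 2) ^ 2 = c ^ 2 / 4 := by ring
      rwa [e] at this
    exact num_sum _ _ _ _ _ _ _ (K₁ + 1) lam _ _ _ hLpos hN1 hlam' hlam hK₂ hc hκ₀ hzsq hκθ hθpos
      hasq hS4 hμ
  have hΦsum : L.length * (N * μ) ≤ (L.map Φ).sum :=
    hΨsum.trans (list_sum_le L Ψ Φ hpoint)
  obtain ⟨p, hpL, hp⟩ := list_exists_ge L hLne Φ _ hΦsum
  have hG := hgood p hpL
  obtain ⟨hv1, hv2, -⟩ := hv p hG.mem
  refine ⟨N, p, v p, hNnat, hG, hv1, hv2, ?_⟩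
  have hp' : (N : ℝ) * μ ≤ (⟪p.1 y, v p S.vac⟫_ℂ).re - μ * ‖p.1 h‖ ^ 2 := hp
  linarith only [hp']

/-- From a good pair to the final vector. -/
theorem final_from_pair (S : ModularDatum H) (ω : Ultrafilter ℕ)
    (hω : (ω : Filter ℕ) ≤ atTop) (T : H →L[ℂ] H) (a : H →L[ℂ] H) (h y : H) (s δ : ℝ) (hδ : 0 < δ)
    (hy : y = energy S.D ω T h)
    (hysupp : S.D.SupportedIn (Set.Icc (s - 2 * δ) (s + 2 * δ)) y)
    (μ θ T₂ : ℝ) (hμ : 0 < μ) (hT₂ : ‖T‖ ^ 2 ≤ T₂) (hT₂pos : 0 < T₂)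
    (N : ℕ) (p : OpPair H) (v : H →L[ℂ] H) (hN : 1 ≤ N) (hG : Good S a p) (hv1 : v ∈ S.M)
    (hv2 : ‖v‖ ≤ Real.sqrt N * θ)
    (hp : (N : ℝ) * μ + μ * ‖p.1 h‖ ^ 2 ≤ (⟪p.1 y, v S.vac⟫_ℂ).re) :
    ∃ v : H →L[ℂ] H, v ∈ S.M ∧ ‖v‖ ≤ kerNorm * θ ∧ Real.sqrt (μ ^ 2 / T₂) ≤ ‖T (v S.vac)‖ ∧
        S.D.SupportedIn (Set.Icc (s - 4 * δ) (s + 4 * δ)) (v S.vac) := by
  have h2δ : 0 < 2 * δ := by positivity
  have hNpos : (0 : ℝ) < N := by exact_mod_cast hN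
  have hN1 : (1 : ℝ) ≤ N := by exact_mod_cast hN
  obtain ⟨A, hA⟩ : ∃ A : H →L[ℂ] H, A = energy S.D ω T := ⟨_, rfl⟩
  obtain ⟨x, hx⟩ : ∃ x : H, x = p.1 h := ⟨_, rfl⟩
  have hAx : A x = p.1 y := by
    have := congrArg (fun L : H →L[ℂ] H => L h) (hG.comm A (by
      rw [hA]; exact energy_comm_wave S.D ω T hω))
    rw [hx, hy, ← hA]
    exact this
  obtain ⟨v₁, hv₁⟩ : ∃ v₁ : H →L[ℂ] H, v₁ = bandSmooth S.D s (2 * δ) v := ⟨_, rfl⟩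
  have hv₁mem : v₁ ∈ S.M := by
    rw [hv₁]; exact bandSmooth_mem S.D S.M (fl_mem S) s _ _ hv1
  have hv₁vac : v₁ S.vac = S.D.apply (bandFn s (2 * δ)) (v S.vac) := by
    rw [hv₁]; exact bandSmooth_vac S s h2δ _
  have hv₁norm : ‖v₁‖ ≤ kerNorm * (Real.sqrt N * θ) := by
    rw [hv₁]
    exact (bandSmooth_norm_le S.D s _ _).trans (mul_le_mul_of_nonneg_left hv2 kerNorm_nonneg)
  obtain ⟨zz, hzz⟩ : ∃ zz : H, zz = v₁ S.vac := ⟨_, rfl⟩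
  have hy2 : S.D.apply (bandFn s (2 * δ)) y = y := apply_band_of_supported S.D h2δ hysupp
  have hinner : ⟪p.1 y, zz⟫_ℂ = ⟪p.1 y, v S.vac⟫_ℂ := by
    rw [hzz, hv₁vac, ← inner_band_left]
    have := congrArg (fun L : H →L[ℂ] H => L y)
      (hG.comm (S.D.apply (bandFn s (2 * δ))) (apply_comm_wave S.D _))
    have e : S.D.apply (bandFn s (2 * δ)) (p.1 y) = p.1 (S.D.apply (bandFn s (2 * δ)) y) := this
    rw [e, hy2]
  have hmain : (N : ℝ) * μ + μ * ‖x‖ ^ 2 ≤ (⟪A x, zz⟫_ℂ).re := by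
    rw [hAx, hinner, hx]
    exact hp
  have hNμ : 0 < (N : ℝ) * μ := by positivity
  have hx0 : x ≠ 0 := by
    intro hx0
    have hmain' := hmain
    rw [hx0, map_zero, inner_zero_left] at hmain'
    simp only [norm_zero, Complex.zero_re] at hmain'
    have h00 : μ * (0 : ℝ) ^ 2 = 0 := by ring
    rw [h00] at hmain'
    linarith only [hmain', hNμ]
  have hxpos : 0 < ‖x‖ := norm_pos_iff.mpr hx0
  have hcs := energy_cs S.D ω T hω x zz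
  rw [← hA] at hcs
  have hAzz0 : 0 ≤ (⟪A zz, zz⟫_ℂ).re := by rw [hA]; exact energy_nonneg S.D ω T hω zz
  have hAxx : (⟪A x, x⟫_ℂ).re ≤ T₂ * ‖x‖ ^ 2 := by
    have := energy_le S.D ω T x
    rw [← hA] at this
    exact this.trans (mul_le_mul_of_nonneg_right hT₂ (by positivity))
  have hsN : Real.sqrt N ^ 2 = N := Real.sq_sqrt hNpos.le
  have hlow : 2 * μ * (Real.sqrt N * ‖x‖) ≤ (⟪A x, zz⟫_ℂ).re := by
    refine le_trans ?_ hmain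
    have h1 : 0 ≤ μ * (Real.sqrt N - ‖x‖) ^ 2 := by positivity
    have h2 : μ * (Real.sqrt N - ‖x‖) ^ 2
        = (N : ℝ) * μ + μ * ‖x‖ ^ 2 - 2 * μ * (Real.sqrt N * ‖x‖) := by
      have : μ * (Real.sqrt N - ‖x‖) ^ 2
          = μ * Real.sqrt N ^ 2 + μ * ‖x‖ ^ 2 - 2 * μ * (Real.sqrt N * ‖x‖) := by ring
      rw [this, hsN]
      ring
    rw [h2] at h1
    linarith only [h1]
  have hNen : 4 * μ ^ 2 * N ≤ T₂ * (⟪A zz, zz⟫_ℂ).re := by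
    have h1 : (2 * μ * (Real.sqrt N * ‖x‖)) ^ 2 ≤ (⟪A x, zz⟫_ℂ).re ^ 2 :=
      pow_le_pow_left₀ (by positivity) hlow 2
    have h2 : (⟪A x, x⟫_ℂ).re * (⟪A zz, zz⟫_ℂ).re ≤ (T₂ * ‖x‖ ^ 2) * (⟪A zz, zz⟫_ℂ).re :=
      mul_le_mul_of_nonneg_right hAxx hAzz0
    have h3 : (2 * μ * (Real.sqrt N * ‖x‖)) ^ 2 = (4 * μ ^ 2 * N) * ‖x‖ ^ 2 := by
      rw [mul_pow, mul_pow, mul_pow, hsN]
      ring
    have h4 : (4 * μ ^ 2 * N) * ‖x‖ ^ 2 ≤ (T₂ * (⟪A zz, zz⟫_ℂ).re) * ‖x‖ ^ 2 := by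
      rw [← h3]
      calc _ ≤ _ := h1
        _ ≤ _ := hcs
        _ ≤ _ := h2
        _ = _ := by ring
    exact le_of_mul_le_mul_right h4 (by positivity)
  -- normalise
  have hsqrtN : 0 < Real.sqrt N := Real.sqrt_pos.mpr hNpos
  obtain ⟨β, hβ⟩ : ∃ β : ℂ, β = (((Real.sqrt N)⁻¹ : ℝ) : ℂ) := ⟨_, rfl⟩
  obtain ⟨v₂, hv₂⟩ : ∃ v₂ : H →L[ℂ] H, v₂ = β • v₁ := ⟨_, rfl⟩
  have hv₂mem : v₂ ∈ S.M := by
    rw [hv₂]; exact S.M.toStarSubalgebra.smul_mem hv₁mem β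
  have hβnorm : ‖β‖ = (Real.sqrt N)⁻¹ := by
    rw [hβ, Complex.norm_real, Real.norm_eq_abs, abs_of_pos (by positivity)]
  have hv₂norm : ‖v₂‖ ≤ kerNorm * θ := by
    rw [hv₂, norm_smul, hβnorm]
    have : (Real.sqrt N)⁻¹ * (kerNorm * (Real.sqrt N * θ)) = kerNorm * θ := by
      field_simp
    rw [← this]
    exact mul_le_mul_of_nonneg_left hv₁norm (by positivity)
  obtain ⟨zz₂, hzz₂⟩ : ∃ zz₂ : H, zz₂ = v₂ S.vac := ⟨_, rfl⟩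
  have hzz₂eq : zz₂ = β • zz := by rw [hzz₂, hv₂, hzz]; rfl
  obtain ⟨η₀, hη₀⟩ : ∃ η₀ : ℝ, η₀ = μ ^ 2 / T₂ := ⟨_, rfl⟩
  have hη₀pos : 0 < η₀ := by rw [hη₀]; positivity
  have hen₂ : 4 * η₀ ≤ (⟪A zz₂, zz₂⟫_ℂ).re := by
    have h1 : ⟪A zz₂, zz₂⟫_ℂ = (((Real.sqrt N)⁻¹ ^ 2 : ℝ) : ℂ) * ⟪A zz, zz⟫_ℂ := by
      rw [hzz₂eq, map_smul, inner_smul_left, inner_smul_right, hβ, Complex.conj_ofReal]
      push_cast
      ring
    rw [h1, Complex.re_ofReal_mul]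
    have hs : (Real.sqrt N)⁻¹ ^ 2 = (N : ℝ)⁻¹ := by
      rw [inv_pow, hsN]
    rw [hs, hη₀]
    have h2 : 4 * μ ^ 2 ≤ T₂ * ((N : ℝ)⁻¹ * (⟪A zz, zz⟫_ℂ).re) := by
      have : T₂ * ((N : ℝ)⁻¹ * (⟪A zz, zz⟫_ℂ).re) = (T₂ * (⟪A zz, zz⟫_ℂ).re) / N := by
        field_simp
      rw [this, le_div_iff₀ hNpos]
      exact hNen
    have h3 : 4 * (μ ^ 2 / T₂) = (4 * μ ^ 2) / T₂ := by ring
    rw [h3, div_le_iff₀ hT₂pos]
    linarith only [h2]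
  obtain ⟨t, ht⟩ := (energy_umean S.D ω T zz₂).exists_ge hω (ε := 3 * η₀) (by positivity)
  rw [← hA] at ht
  refine ⟨fl S.D t v₂, fl_mem S t v₂ hv₂mem, (fl_norm_le S.D t v₂).trans hv₂norm, ?_, ?_⟩
  · rw [fl_vac, ← hη₀, ← hzz₂]
    refine Real.sqrt_le_iff.mpr ⟨norm_nonneg _, ?_⟩
    linarith only [ht, hen₂]
  · rw [fl_vac, ← hzz₂]
    refine supported_wave S.D ?_ t
    have h1 : S.D.SupportedIn (Set.Icc (s - 2 * (2 * δ)) (s + 2 * (2 * δ))) zz := by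
      rw [hzz, hv₁vac]
      exact supported_apply_band S.D h2δ _
    have h2 : (Set.Icc (s - 2 * (2 * δ)) (s + 2 * (2 * δ))) = Set.Icc (s - 4 * δ) (s + 4 * δ) := by
      congr 1 <;> ring
    rw [h2] at h1
    rw [hzz₂eq]
    exact supported_smul S.D h1 β

/-- The recovery estimate with uniform constants. -/
theorem recovery_step (S : ModularDatum H) (herg : S.Ergodic) (ω : Ultrafilter ℕ)
    (hω : (ω : Filter ℕ) ≤ atTop) (T : H →L[ℂ] H) (s c : ℝ) (hc : 0 < c) :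
    ∃ C η : ℝ, 0 < η ∧ ∀ (δ : ℝ) (h : H), 0 < δ → δ ≤ 1 → ‖h‖ = 1 →
      S.D.SupportedIn (Set.Icc (s - δ) (s + δ)) h → c ≤ (⟪energy S.D ω T h, h⟫_ℂ).re →
      ∃ v : H →L[ℂ] H, v ∈ S.M ∧ ‖v‖ ≤ C ∧ η ≤ ‖T (v S.vac)‖ ∧
        S.D.SupportedIn (Set.Icc (s - 4 * δ) (s + 4 * δ)) (v S.vac) := by
  -- constants
  obtain ⟨T₂, hT₂⟩ : ∃ T₂ : ℝ, T₂ = ‖T‖ ^ 2 + 1 := ⟨_, rfl⟩
  have hT₂pos : 0 < T₂ := by rw [hT₂]; positivity
  obtain ⟨E₀, hE₀⟩ : ∃ E₀ : ℝ, E₀ = Real.exp ((s + 4) / 2) := ⟨_, rfl⟩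
  have hE₀pos : 0 < E₀ := by rw [hE₀]; exact Real.exp_pos _
  obtain ⟨K₁, hK₁⟩ : ∃ K₁ : ℝ, K₁ = T₂ ^ 4 * (1 + 2 * E₀ ^ 2) := ⟨_, rfl⟩
  have hK₁pos : 0 < K₁ := by rw [hK₁]; positivity
  obtain ⟨lam, hlam⟩ : ∃ lam : ℝ, lam = c ^ 2 / (8 * (K₁ + 1)) := ⟨_, rfl⟩
  have hlampos : 0 < lam := by rw [hlam]; positivity
  have hsqrtlam : 0 < Real.sqrt lam := Real.sqrt_pos.mpr hlampos
  obtain ⟨θ, hθ⟩ : ∃ θ : ℝ, θ = 1 / (2 * Real.sqrt lam) := ⟨_, rfl⟩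
  have hθpos : 0 < θ := by rw [hθ]; positivity
  obtain ⟨κ₀, hκ₀⟩ : ∃ κ₀ : ℝ, κ₀ = min 1 (min (c / 2) (c ^ 2 / (16 * θ))) := ⟨_, rfl⟩
  have hκ₀pos : 0 < κ₀ := by
    rw [hκ₀]
    exact lt_min one_pos (lt_min (by positivity) (by positivity))
  have hκ₀1 : κ₀ ≤ 1 := by rw [hκ₀]; exact min_le_left _ _
  have hκ₀2 : κ₀ ≤ c / 2 := by rw [hκ₀]; exact (min_le_right _ _).trans (min_le_left _ _)
  have hκ₀3 : θ * κ₀ ≤ c ^ 2 / 16 := by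
    have h1 : κ₀ ≤ c ^ 2 / (16 * θ) := by
      rw [hκ₀]; exact (min_le_right _ _).trans (min_le_right _ _)
    have h2 : κ₀ * (16 * θ) ≤ c ^ 2 := (le_div_iff₀ (by positivity)).mp h1
    linarith only [h2]
  obtain ⟨μ, hμ⟩ : ∃ μ : ℝ, μ = c ^ 2 / 32 := ⟨_, rfl⟩
  have hμpos : 0 < μ := by rw [hμ]; positivity
  refine ⟨kerNorm * θ, Real.sqrt (μ ^ 2 / T₂), Real.sqrt_pos.mpr (by positivity), ?_⟩
  intro δ h hδ hδ1 hh hband hcen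
  obtain ⟨y, hy⟩ : ∃ y : H, y = energy S.D ω T h := ⟨_, rfl⟩
  have hgh : S.D.apply (bandFn s δ) h = h := apply_band_of_supported S.D hδ hband
  have hgy : S.D.apply (bandFn s δ) y = y := by
    rw [hy, ← energy_band_comm S.D ω T hω s hδ, hgh]
  have hysupp : S.D.SupportedIn (Set.Icc (s - 2 * δ) (s + 2 * δ)) y := by
    rw [← hgy]
    exact supported_apply_band S.D hδ y
  have hylow : c ≤ ‖y‖ := by
    calc c ≤ (⟪energy S.D ω T h, h⟫_ℂ).re := hcen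
      _ ≤ ‖⟪energy S.D ω T h, h⟫_ℂ‖ := Complex.re_le_norm _
      _ ≤ ‖energy S.D ω T h‖ * ‖h‖ := norm_inner_le_norm _ _
      _ = ‖y‖ := by rw [hh, mul_one, hy]
  have hyup : ‖y‖ ≤ ‖T‖ ^ 2 := by
    have := energy_norm_le S.D ω T h
    rwa [hh, mul_one, ← hy] at this
  obtain ⟨_, ⟨a₀, rfl⟩, ha₀⟩ := S.cyclic.exists_dist_lt y hκ₀pos
  obtain ⟨a, ha⟩ : ∃ a : H →L[ℂ] H, a = bandSmooth S.D s δ (a₀ : H →L[ℂ] H) := ⟨_, rfl⟩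
  have hamem : a ∈ S.M := by rw [ha]; exact bandSmooth_mem S.D S.M (fl_mem S) s δ _ a₀.2
  have havac : a S.vac = S.D.apply (bandFn s δ) ((a₀ : H →L[ℂ] H) S.vac) := by
    rw [ha]; exact bandSmooth_vac S s hδ _
  have hasupp : S.D.SupportedIn (Set.Icc (s - 2 * δ) (s + 2 * δ)) (a S.vac) := by
    rw [havac]
    exact supported_apply_band S.D hδ _
  have hznorm : ‖a S.vac - y‖ ≤ κ₀ := by
    have e : a S.vac - y = S.D.apply (bandFn s δ) ((a₀ : H →L[ℂ] H) S.vac - y) := by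
      rw [map_sub, hgy, havac]
    rw [e]
    refine (apply_vec_norm_le S.D _ _).trans ?_
    have h1 : ‖(a₀ : H →L[ℂ] H) S.vac - y‖ ≤ κ₀ := by
      rw [← dist_eq_norm, dist_comm]
      exact ha₀.le
    calc ‖bandFn s δ‖ * _ ≤ 1 * κ₀ :=
          mul_le_mul (bandFn_norm_le s δ) h1 (norm_nonneg _) zero_le_one
      _ = κ₀ := one_mul _
  have hu1 : ‖a S.vac‖ ≤ ‖y‖ + κ₀ := by
    have e1 : a S.vac = y + (a S.vac - y) := by abel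
    rw [e1]
    refine (norm_add_le _ _).trans (add_le_add le_rfl ?_)
    simpa using hznorm
  have hu2 : ‖y‖ - κ₀ ≤ ‖a S.vac‖ := by
    have := norm_sub_le (a S.vac) (a S.vac - y)
    have e2 : a S.vac - (a S.vac - y) = y := by abel
    rw [e2] at this
    linarith only [this, hznorm]
  have haup : ‖a S.vac‖ ≤ T₂ := by
    rw [hT₂]
    linarith only [hu1, hyup, hκ₀1]
  have halow : c / 2 ≤ ‖a S.vac‖ := by
    linarith only [hu2, hylow, hκ₀2]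
  have hastar : ‖star a S.vac‖ ≤ E₀ * ‖a S.vac‖ := by
    refine (tomita_bound S a hamem s hδ hasupp).trans ?_
    refine mul_le_mul_of_nonneg_right ?_ (norm_nonneg _)
    rw [hE₀]
    exact Real.exp_le_exp.mpr (by linarith only [hδ1])
  have hQle : ‖a S.vac‖ ^ 4 + 2 * (‖a S.vac‖ ^ 2 * ‖star a S.vac‖ ^ 2) ≤ K₁ := by
    have h1 : ‖star a S.vac‖ ^ 2 ≤ E₀ ^ 2 * ‖a S.vac‖ ^ 2 := by
      rw [← mul_pow]
      exact pow_le_pow_left₀ (norm_nonneg _) hastar 2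
    have h2 : ‖a S.vac‖ ^ 4 ≤ T₂ ^ 4 := pow_le_pow_left₀ (norm_nonneg _) haup 4
    have h3 : ‖a S.vac‖ ^ 2 * ‖star a S.vac‖ ^ 2 ≤ ‖a S.vac‖ ^ 2 * (E₀ ^ 2 * ‖a S.vac‖ ^ 2) :=
      mul_le_mul_of_nonneg_left h1 (by positivity)
    have h4 : ‖a S.vac‖ ^ 4 * (1 + 2 * E₀ ^ 2) ≤ T₂ ^ 4 * (1 + 2 * E₀ ^ 2) :=
      mul_le_mul_of_nonneg_right h2 (by positivity)
    have h5 : ‖a S.vac‖ ^ 4 * (1 + 2 * E₀ ^ 2)
        = ‖a S.vac‖ ^ 4 + 2 * (‖a S.vac‖ ^ 2 * (E₀ ^ 2 * ‖a S.vac‖ ^ 2)) := by ring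
    rw [hK₁]
    linarith only [h3, h4, h5]
  obtain ⟨N, p, v, hN, hG, hv1, hv2, hp⟩ := exists_good_pair S herg ω hω a hamem h y hh c K₁ θ κ₀ μ
    lam hc hK₁pos.le hlam hθ hκ₀pos hκ₀3 hμ hznorm halow hQle
  exact final_from_pair S ω hω T a h y s δ hδ hy hysupp μ θ T₂ hμpos (by rw [hT₂]; linarith only)
    hT₂pos N p v hN hG hv1 hv2 hp

end Crest.Agent.Lib.MR
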