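import Mathlib
import Crest.Prelude.Def_QuadricHamiltonian

/-!
# Algebra of the `so(4)` moment map on complex 5-space
-/

set_option autoImplicit false
set_option linter.unusedSectionVars false

open scoped ContDiff Topology NNReal ComplexConjugate
open Set Crest.GeometryTopology.Quadric

namespace Crest.Agent.Lib.QuadricAlg

/-- Complex 5-space. -/
abbrev C5 : Type := Fin 5 → ℂ

/-- The imaginary part of the Hermitian product. -/
noncomputable def Q (u v : C5) : ℝ := (herm u v).im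

lemma Q_eq (u v : C5) : Q u v =
    ((u 0).re * (v 0).im - (u 0).im * (v 0).re) + ((u 1).re * (v 1).im - (u 1).im * (v 1).re) +
    ((u 2).re * (v 2).im - (u 2).im * (v 2).re) + ((u 3).re * (v 3).im - (u 3).im * (v 3).re) +
    ((u 4).re * (v 4).im - (u 4).im * (v 4).re) := by
  simp only [Q, herm, Fin.sum_univ_five, Complex.add_im, Complex.mul_im, Complex.conj_re,
    Complex.conj_im]
  ring

lemma Q_anti (u v : C5) : Q u v = - Q v u := by
  rw [Q_eq, Q_eq]; ring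

/-- The sum of the squared moduli. -/
noncomputable def N (z : C5) : ℝ := (herm z z).re

lemma N_eq (z : C5) : N z =
    (z 0).re ^ 2 + (z 0).im ^ 2 + ((z 1).re ^ 2 + (z 1).im ^ 2) + ((z 2).re ^ 2 + (z 2).im ^ 2) +
    ((z 3).re ^ 2 + (z 3).im ^ 2) + ((z 4).re ^ 2 + (z 4).im ^ 2) := by
  simp only [N, herm, Fin.sum_univ_five, Complex.add_re, Complex.mul_re, Complex.conj_re,
    Complex.conj_im]
  ring

lemma herm_self_im (z : C5) : (herm z z).im = 0 := by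
  have := Q_anti z z
  have h : Q z z = 0 := by linarith
  exact h

lemma herm_self (z : C5) : herm z z = (N z : ℂ) := by
  apply Complex.ext
  · simp [N]
  · simp [herm_self_im]

/-- The sum of squares. -/
noncomputable def Sq (z : C5) : ℂ := ∑ j, z j ^ 2

lemma Sq_eq (z : C5) : Sq z = z 0 ^ 2 + z 1 ^ 2 + z 2 ^ 2 + z 3 ^ 2 + z 4 ^ 2 := by
  simp [Sq, Fin.sum_univ_five]

lemma mem_unitCone_iff (z : C5) : z ∈ unitCone ↔ N z = 1 ∧ Sq z = 0 := by
  simp only [unitCone, Set.mem_ofPred_eq, Sq]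
  rw [herm_self]
  constructor
  · rintro ⟨h1, h2⟩
    refine ⟨?_, h2⟩
    exact_mod_cast h1
  · rintro ⟨h1, h2⟩
    refine ⟨?_, h2⟩
    rw [h1]; simp

/-- Real skew action of `so(4) = so(3) ⊕ so(3)`. Parameters `c = (g₁,g₂,g₃,k₁,k₂,k₃)`. -/
noncomputable def A (c : Fin 6 → ℝ) (z : C5) : C5 :=
  ![((c 0 + c 3 : ℝ) : ℂ) * z 1 + ((c 1 + c 4 : ℝ) : ℂ) * z 2 + ((c 2 + c 5 : ℝ) : ℂ) * z 3,
    -((c 0 + c 3 : ℝ) : ℂ) * z 0 + ((c 2 - c 5 : ℝ) : ℂ) * z 2 + ((c 4 - c 1 : ℝ) : ℂ) * z 3,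
    -((c 1 + c 4 : ℝ) : ℂ) * z 0 - ((c 2 - c 5 : ℝ) : ℂ) * z 1 + ((c 0 - c 3 : ℝ) : ℂ) * z 3,
    -((c 2 + c 5 : ℝ) : ℂ) * z 0 + ((c 1 - c 4 : ℝ) : ℂ) * z 1 - ((c 0 - c 3 : ℝ) : ℂ) * z 2,
    0]

@[simp] lemma A_zero (c : Fin 6 → ℝ) (z : C5) : A c z 0 =
    ((c 0 + c 3 : ℝ) : ℂ) * z 1 + ((c 1 + c 4 : ℝ) : ℂ) * z 2 + ((c 2 + c 5 : ℝ) : ℂ) * z 3 := rfl
@[simp] lemma A_one (c : Fin 6 → ℝ) (z : C5) : A c z 1 =
    -((c 0 + c 3 : ℝ) : ℂ) * z 0 + ((c 2 - c 5 : ℝ) : ℂ) * z 2 + ((c 4 - c 1 : ℝ) : ℂ) * z 3 := rfl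
@[simp] lemma A_two (c : Fin 6 → ℝ) (z : C5) : A c z 2 =
    -((c 1 + c 4 : ℝ) : ℂ) * z 0 - ((c 2 - c 5 : ℝ) : ℂ) * z 1 + ((c 0 - c 3 : ℝ) : ℂ) * z 3 := rfl
@[simp] lemma A_three (c : Fin 6 → ℝ) (z : C5) : A c z 3 =
    -((c 2 + c 5 : ℝ) : ℂ) * z 0 + ((c 1 - c 4 : ℝ) : ℂ) * z 1 - ((c 0 - c 3 : ℝ) : ℂ) * z 2 := rfl
@[simp] lemma A_four (c : Fin 6 → ℝ) (z : C5) : A c z 4 = 0 := rfl

/-- `Im (z̄ᵢ zⱼ)` -/
def p (i j : Fin 5) (z : C5) : ℝ := (z i).re * (z j).im - (z i).im * (z j).re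

/-- The moment map `(x₁,x₂,x₃,y₁,y₂,y₃)`. -/
def mu (z : C5) : Fin 6 → ℝ :=
  ![2 * (p 0 1 z + p 2 3 z), 2 * (p 0 2 z + p 3 1 z), 2 * (p 0 3 z + p 1 2 z),
    2 * (p 0 1 z - p 2 3 z), 2 * (p 0 2 z - p 3 1 z), 2 * (p 0 3 z - p 1 2 z)]

@[simp] lemma mu_zero (z : C5) : mu z 0 = 2 * (p 0 1 z + p 2 3 z) := rfl
@[simp] lemma mu_one (z : C5) : mu z 1 = 2 * (p 0 2 z + p 3 1 z) := rfl
@[simp] lemma mu_two (z : C5) : mu z 2 = 2 * (p 0 3 z + p 1 2 z) := rfl
@[simp] lemma mu_three (z : C5) : mu z 3 = 2 * (p 0 1 z - p 2 3 z) := rfl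
@[simp] lemma mu_four (z : C5) : mu z 4 = 2 * (p 0 2 z - p 3 1 z) := rfl
@[simp] lemma mu_five (z : C5) : mu z 5 = 2 * (p 0 3 z - p 1 2 z) := rfl

/-- `Q z (A c z)` is linear in `c` with coefficients the moment map. -/
lemma Q_self_A (c : Fin 6 → ℝ) (z : C5) :
    Q z (A c z) = c 0 * mu z 0 + c 1 * mu z 1 + c 2 * mu z 2 + c 3 * mu z 3 + c 4 * mu z 4 +
      c 5 * mu z 5 := by
  simp only [Q_eq, A_zero, A_one, A_two, A_three, A_four, mu_zero, mu_one, mu_two, mu_three,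
    mu_four, mu_five, p, Complex.add_im, Complex.sub_im, Complex.mul_im, Complex.ofReal_re,
    Complex.add_re, Complex.sub_re, Complex.mul_re,
    Complex.ofReal_im, Complex.neg_re, Complex.neg_im, Complex.zero_im, Complex.zero_re]
  ring

/-- skewness of `A`: -/
lemma Q_A_skew (c : Fin 6 → ℝ) (u v : C5) : Q u (A c v) = - Q (A c u) v := by
  simp only [Q_eq, A_zero, A_one, A_two, A_three, A_four, Complex.add_im, Complex.sub_im,
    Complex.add_re, Complex.sub_re, Complex.mul_im, Complex.mul_re, Complex.ofReal_re,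
    Complex.ofReal_im, Complex.neg_re, Complex.neg_im, Complex.zero_im, Complex.zero_re]
  ring

/-- The cross product on the two factors with the signs of the Poisson structure. -/
def cross (c u : Fin 6 → ℝ) : Fin 6 → ℝ :=
  ![c 1 * u 2 - c 2 * u 1, c 2 * u 0 - c 0 * u 2, c 0 * u 1 - c 1 * u 0,
    -(c 4 * u 5 - c 5 * u 4), -(c 5 * u 3 - c 3 * u 5), -(c 3 * u 4 - c 4 * u 3)]

/-- Basis vectors -/
def e (b : Fin 6) : Fin 6 → ℝ := Pi.single b 1

lemma Q_AA (c : Fin 6 → ℝ) (z : C5) (b : Fin 6) :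
    Q (A (e b) z) (A c z) = cross c (mu z) b := by
  fin_cases b <;>
  · simp [Q_eq, e, cross, p]
    ring

/-- linearity of `A` in the parameter. -/
lemma A_decomp (c : Fin 6 → ℝ) (z : C5) :
    A c z = fun j => (c 0 : ℂ) * A (e 0) z j + (c 1 : ℂ) * A (e 1) z j + (c 2 : ℂ) * A (e 2) z j +
      (c 3 : ℂ) * A (e 3) z j + (c 4 : ℂ) * A (e 4) z j + (c 5 : ℂ) * A (e 5) z j := by
  ext j
  fin_cases j <;>
  · simp [e]
    try ring

lemma Q_A_left_decomp (c : Fin 6 → ℝ) (z w : C5) :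
    Q (A c z) w = c 0 * Q (A (e 0) z) w + c 1 * Q (A (e 1) z) w + c 2 * Q (A (e 2) z) w +
      c 3 * Q (A (e 3) z) w + c 4 * Q (A (e 4) z) w + c 5 * Q (A (e 5) z) w := by
  simp [Q_eq, e]
  ring

/-- skew-Hermitian: -/
lemma herm_A_self_re (c : Fin 6 → ℝ) (z : C5) : (herm z (A c z)).re = 0 := by
  simp only [herm, Fin.sum_univ_five, Complex.add_re, Complex.mul_re, Complex.conj_re,
    Complex.conj_im, A_zero, A_one, A_two, A_three, A_four, Complex.sub_re, Complex.add_im,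
    Complex.sub_im, Complex.mul_im, Complex.ofReal_re, Complex.ofReal_im, Complex.neg_re,
    Complex.neg_im, Complex.zero_im, Complex.zero_re]
  ring

/-- orthogonality: -/
lemma dot_A_self (c : Fin 6 → ℝ) (z : C5) :
    z 0 * A c z 0 + z 1 * A c z 1 + z 2 * A c z 2 + z 3 * A c z 3 + z 4 * A c z 4 = 0 := by
  simp only [A_zero, A_one, A_two, A_three, A_four]
  push_cast
  ring

/-- the moment map does not see unit phases. -/
lemma herm_smul (a : ℂ) (u v : C5) : herm (a • u) (a • v) = (Complex.normSq a : ℂ) * herm u v := by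
  simp only [herm, Pi.smul_apply, smul_eq_mul, Finset.mul_sum]
  refine Finset.sum_congr rfl fun j _ => ?_
  rw [map_mul, Complex.normSq_eq_conj_mul_self]
  ring

lemma A_smul (c : Fin 6 → ℝ) (a : ℂ) (z : C5) : A c (a • z) = a • A c z := by
  ext j
  fin_cases j <;>
  · simp
    try ring

lemma N_smul (a : ℂ) (z : C5) : N (a • z) = Complex.normSq a * N z := by
  simp [N, herm_smul]

lemma Q_smul (a : ℂ) (u v : C5) : Q (a • u) (a • v) = Complex.normSq a * Q u v := by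
  simp [Q, herm_smul]

lemma p_smul (a : ℂ) (z : C5) (i j : Fin 5) : p i j (a • z) = Complex.normSq a * p i j z := by
  simp only [p, Pi.smul_apply, smul_eq_mul, Complex.mul_re, Complex.mul_im, Complex.normSq_apply]
  ring

lemma mu_smul (a : ℂ) (z : C5) : mu (a • z) = Complex.normSq a • mu z := by
  ext b
  fin_cases b <;>
  · simp [p_smul]
    ring

/-- The moment map is invariant under unit phases. -/
lemma mu_smul_of_norm_one (a : ℂ) (ha : ‖a‖ = 1) (z : C5) : mu (a • z) = mu z := by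
  rw [mu_smul, Complex.normSq_eq_norm_sq, ha]
  simp

lemma N_smul_of_norm_one (a : ℂ) (ha : ‖a‖ = 1) (z : C5) : N (a • z) = N z := by
  rw [N_smul, Complex.normSq_eq_norm_sq, ha]
  simp

/-- Sum of squares of the components of the two factors on the quadric surface `z₄ = 0`. -/
lemma mu_sq_fst (z : C5) (h4 : z 4 = 0) :
    mu z 0 ^ 2 + mu z 1 ^ 2 + mu z 2 ^ 2 = N z ^ 2 - (Sq z).re ^ 2 - (Sq z).im ^ 2 := by
  simp only [mu_zero, mu_one, mu_two, p, N_eq, Sq_eq, h4]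
  simp only [sq, Complex.add_re, Complex.mul_re, Complex.add_im, Complex.mul_im, Complex.zero_re,
    Complex.zero_im]
  ring

lemma mu_sq_snd (z : C5) (h4 : z 4 = 0) :
    mu z 3 ^ 2 + mu z 4 ^ 2 + mu z 5 ^ 2 = N z ^ 2 - (Sq z).re ^ 2 - (Sq z).im ^ 2 := by
  simp only [mu_three, mu_four, mu_five, p, N_eq, Sq_eq, h4]
  simp only [sq, Complex.add_re, Complex.mul_re, Complex.add_im, Complex.mul_im, Complex.zero_re,
    Complex.zero_im]
  ring

/-- The moment map, used as the parameter of `A`, acts by `2 I` on the isotropic unit vectors. -/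
lemma A_mu_self (z : C5) (h4 : z 4 = 0) (j : Fin 5) :
    A (mu z) z j = 2 * Complex.I * ((N z : ℂ) * z j - Sq z * conj (z j)) := by
  have hN : (N z : ℂ) = (((z 0).re ^ 2 + (z 0).im ^ 2 + ((z 1).re ^ 2 + (z 1).im ^ 2) +
      ((z 2).re ^ 2 + (z 2).im ^ 2) + ((z 3).re ^ 2 + (z 3).im ^ 2) : ℝ) : ℂ) := by
    rw [N_eq, h4]; simp
  rw [hN, Sq_eq, h4]
  fin_cases j
  · apply Complex.ext <;>
    · simp [p, pow_two]
      ring
  · apply Complex.ext <;>
    · simp [p, pow_two]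
      ring
  · apply Complex.ext <;>
    · simp [p, pow_two]
      ring
  · apply Complex.ext <;>
    · simp [p, pow_two]
      ring
  · simp [h4]

end Crest.Agent.Lib.QuadricAlg
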