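import Mathlib
import Crest.Agent.Lib.QuadricAlg

/-!
# The function `x₁ + y₃ - x · y` on `S² × S²` has exactly three critical points
-/

set_option autoImplicit false
set_option linter.unusedSectionVars false

open scoped ContDiff Topology NNReal ComplexConjugate
open Set Crest.GeometryTopology.Quadric

namespace Crest.Agent.Lib.QuadricAlg

/-- The gradient of `h(x,y) = x₁ + y₃ - x · y`. -/
def grad (u : Fin 6 → ℝ) : Fin 6 → ℝ := ![1 - u 3, - u 4, - u 5, - u 0, - u 1, 1 - u 2]

/-- The function `h(x,y) = x₁ + y₃ - x · y`. -/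
def hh (u : Fin 6 → ℝ) : ℝ := u 0 + u 5 - u 0 * u 3 - u 1 * u 4 - u 2 * u 5

/-- The square root of 3 -/
noncomputable def s3 : ℝ := Real.sqrt 3

lemma s3_sq : s3 ^ 2 = 3 := Real.sq_sqrt (by norm_num)
lemma s3_pos : 0 < s3 := Real.sqrt_pos.2 (by norm_num)

/-- The three critical points. -/
noncomputable def u1 : Fin 6 → ℝ := ![0, 0, 1, 1, 0, 0]
/-- The three critical points. -/
noncomputable def u2 : Fin 6 → ℝ := ![s3 / 2, 0, -1 / 2, -1 / 2, 0, s3 / 2]
/-- The three critical points. -/
noncomputable def u3 : Fin 6 → ℝ := ![-s3 / 2, 0, -1 / 2, -1 / 2, 0, -s3 / 2]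

lemma crit_cases (u : Fin 6 → ℝ) (h1 : u 0 ^ 2 + u 1 ^ 2 + u 2 ^ 2 = 1)
    (h2 : u 3 ^ 2 + u 4 ^ 2 + u 5 ^ 2 = 1) (hc : cross (grad u) u = 0) :
    u = u1 ∨ u = u2 ∨ u = u3 := by
  have e0 := congrFun hc 0
  have e1 := congrFun hc 1
  have e2 := congrFun hc 2
  have e3 := congrFun hc 3
  have e4 := congrFun hc 4
  have e5 := congrFun hc 5
  simp only [cross, grad, Matrix.cons_val, Pi.zero_apply] at e0 e1 e2 e3 e4 e5
  set a := u 0 with ha
  set b := u 1 with hb
  set c := u 2 with hc'
  set d := u 3 with hd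
  set e := u 4 with he
  set f := u 5 with hf
  set l : ℝ := (1 - d) * a - e * b - f * c with hl
  set m : ℝ := - a * d - b * e + (1 - c) * f with hm
  -- g = (g·x) x
  have g0 : 1 - d = l * a := by
    rw [hl]
    have : (1 - d) * (a ^ 2 + b ^ 2 + c ^ 2) = ((1 - d) * a - e * b - f * c) * a :=
      by linear_combination (b) * e2 + (-c) * e1
    rw [h1, mul_one] at this
    exact this
  have g1 : - e = l * b := by
    rw [hl]
    have : (- e) * (a ^ 2 + b ^ 2 + c ^ 2) = ((1 - d) * a - e * b - f * c) * b :=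
      by linear_combination (-a) * e2 + (c) * e0
    rw [h1, mul_one] at this
    exact this
  have g2 : - f = l * c := by
    rw [hl]
    have : (- f) * (a ^ 2 + b ^ 2 + c ^ 2) = ((1 - d) * a - e * b - f * c) * c :=
      by linear_combination (a) * e1 + (-b) * e0
    rw [h1, mul_one] at this
    exact this
  have k0 : - a = m * d := by
    rw [hm]
    have : (- a) * (d ^ 2 + e ^ 2 + f ^ 2) = (- a * d - b * e + (1 - c) * f) * d :=
      by linear_combination (-e) * e5 + (f) * e4
    rw [h2, mul_one] at this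
    exact this
  have k1 : - b = m * e := by
    rw [hm]
    have : (- b) * (d ^ 2 + e ^ 2 + f ^ 2) = (- a * d - b * e + (1 - c) * f) * e :=
      by linear_combination (d) * e5 + (-f) * e3
    rw [h2, mul_one] at this
    exact this
  have k2 : 1 - c = m * f := by
    rw [hm]
    have : (1 - c) * (d ^ 2 + e ^ 2 + f ^ 2) = (- a * d - b * e + (1 - c) * f) * f :=
      by linear_combination (-d) * e4 + (e) * e3
    rw [h2, mul_one] at this
    exact this
  clear_value l m
  set t : ℝ := 1 - l * m with ht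
  have ta : a * t = - m := by rw [ht]; linear_combination (-1) * k0 + (m) * g0
  have tb : b * t = 0 := by rw [ht]; linear_combination (-1) * k1 + (m) * g1
  have tc : c * t = 1 := by rw [ht]; linear_combination (-1) * k2 + (m) * g2
  have td : d * t = 1 := by rw [ht]; linear_combination (-1) * g0 + (l) * k0
  have te : e * t = 0 := by rw [ht]; linear_combination (-1) * g1 + (l) * k1
  have tf : f * t = - l := by rw [ht]; linear_combination (-1) * g2 + (l) * k2
  have t0 : t ≠ 0 := by
    intro h0
    rw [h0] at tc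
    simp at tc
  have b0 : b = 0 := by simpa [t0] using tb
  have e0' : e = 0 := by simpa [t0] using te
  have cd : c = d := mul_right_cancel₀ t0 (tc.trans td.symm)
  have hm2 : m ^ 2 + 1 = t ^ 2 := by
    have : (a ^ 2 + c ^ 2) * t ^ 2 = t ^ 2 := by
      rw [b0] at h1
      have h1' : a ^ 2 + c ^ 2 = 1 := by linarith
      rw [h1']; ring
    have h3 : (a * t) ^ 2 + (c * t) ^ 2 = t ^ 2 := by linear_combination this
    rw [ta, tc] at h3
    linarith
  have hl2 : l ^ 2 + 1 = t ^ 2 := by
    have : (f ^ 2 + d ^ 2) * t ^ 2 = t ^ 2 := by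
      rw [e0'] at h2
      have h2' : f ^ 2 + d ^ 2 = 1 := by linarith
      rw [h2']; ring
    have h3 : (f * t) ^ 2 + (d * t) ^ 2 = t ^ 2 := by linear_combination this
    rw [tf, td] at h3
    linarith
  have hlm : (l - m) * (l + m) = 0 := by linear_combination hl2 - hm2
  -- reconstruct `u`
  have ufun : ∀ (a' c' f' : ℝ), a = a' → c = c' → f = f' →
      u = ![a', 0, c', c', 0, f'] := by
    intro a' c' f' h1 h2 h3
    ext i
    fin_cases i
    · simpa using h1
    · simpa using b0
    · simpa using h2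
    · simpa using (cd.symm.trans h2)
    · simpa using e0'
    · simpa using h3
  have hcase0 : l = 0 → m = 0 → u = u1 := by
    intro hl0 hm0
    have ht1 : t = 1 := by rw [ht, hl0]; ring
    rw [ht1] at ta tc tf
    have := ufun 0 1 0 (by rw [hm0] at ta; simpa using ta) (by simpa using tc)
      (by rw [hl0] at tf; simpa using tf)
    rw [this, u1]
  rcases mul_eq_zero.1 hlm with h | h
  · -- l = m
    have hlm' : l = m := by linarith
    have h4 : l ^ 2 * (l ^ 2 - 3) = 0 := by
      rw [ht, ← hlm'] at hl2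
      linear_combination (-1) * hl2
    rcases mul_eq_zero.1 h4 with h5 | h5
    · have hl0 : l = 0 := by simpa using h5
      exact Or.inl (hcase0 hl0 (by rw [← hlm', hl0]))
    · have ht2 : t = -2 := by rw [ht, ← hlm']; linear_combination (-1) * h5
      have hl3 : (l - s3) * (l + s3) = 0 := by
        linear_combination h5 - s3_sq
      rcases mul_eq_zero.1 hl3 with h6 | h6
      · have hl4 : l = s3 := by linarith
        right; left
        rw [ht2, ← hlm', hl4] at ta
        rw [ht2] at tc
        rw [ht2, hl4] at tf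
        have := ufun (s3 / 2) (-1 / 2) (s3 / 2) (by linarith) (by linarith) (by linarith)
        rw [this, u2]
      · have hl4 : l = - s3 := by linarith
        right; right
        rw [ht2, ← hlm', hl4] at ta
        rw [ht2] at tc
        rw [ht2, hl4] at tf
        have := ufun (-s3 / 2) (-1 / 2) (-s3 / 2) (by linarith) (by linarith) (by linarith)
        rw [this, u3]
  · -- l = -m
    have hlm' : m = - l := by linarith
    have ht3 : t = 1 + l ^ 2 := by rw [ht, hlm']; ring
    have h7 : (l ^ 2 + 1) * l ^ 2 = 0 := by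
      rw [ht3] at hl2
      linear_combination (-1) * hl2
    have hl0 : l = 0 := by
      rcases mul_eq_zero.1 h7 with h8 | h8
      · nlinarith [sq_nonneg l]
      · simpa using h8
    exact Or.inl (hcase0 hl0 (by rw [hlm', hl0]; simp))

lemma grad_u1 : grad u1 = 0 := by
  ext i
  fin_cases i <;> simp [grad, u1]

lemma grad_u2 : grad u2 = s3 • u2 := by
  have h := s3_sq
  ext i
  fin_cases i <;> simp [grad, u2]
  · linear_combination (-1 / 2) * h
  · ring
  · ring
  · linear_combination (-1 / 2) * h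

lemma grad_u3 : grad u3 = (- s3) • u3 := by
  have h := s3_sq
  ext i
  fin_cases i <;> simp [grad, u3]
  · linear_combination (-1 / 2) * h
  · ring
  · ring
  · linear_combination (-1 / 2) * h

/-- The three cone points. -/
noncomputable def z1 : C5 := ![1 / 2, Complex.I / 2, -1 / 2, Complex.I / 2, 0]
/-- The three cone points. -/
noncomputable def z2 : C5 :=
  ![-Complex.I * ((s3 : ℂ) - 1) / 4, 1 / 2, -Complex.I * ((s3 : ℂ) + 1) / 4, 1 / 2, 0]
/-- The three cone points. -/
noncomputable def z3 : C5 :=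
  ![Complex.I * ((s3 : ℂ) + 1) / 4, 1 / 2, Complex.I * ((s3 : ℂ) - 1) / 4, 1 / 2, 0]

lemma mu_z1 : mu z1 = u1 := by
  ext i
  fin_cases i <;> simp [z1, u1, p] <;> norm_num

lemma mu_z2 : mu z2 = u2 := by
  ext i
  fin_cases i <;> simp [z2, u2, p] <;> ring

lemma mu_z3 : mu z3 = u3 := by
  ext i
  fin_cases i <;> simp [z3, u3, p] <;> ring

lemma N_z1 : N z1 = 1 := by
  rw [N_eq]; simp [z1]; norm_num

lemma N_z2 : N z2 = 1 := by
  have h := s3_sq
  rw [N_eq]; simp [z2]
  linear_combination (1 / 8) * h

lemma N_z3 : N z3 = 1 := by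
  have h := s3_sq
  rw [N_eq]; simp [z3]
  linear_combination (1 / 8) * h

lemma Sq_z1 : Sq z1 = 0 := by
  rw [Sq_eq]; simp [z1]
  ring_nf
  simp

lemma Sq_z2 : Sq z2 = 0 := by
  have h : (s3 : ℂ) ^ 2 = 3 := by exact_mod_cast s3_sq
  rw [Sq_eq]; simp [z2]
  ring_nf
  simp only [Complex.I_sq, h]
  ring

lemma Sq_z3 : Sq z3 = 0 := by
  have h : (s3 : ℂ) ^ 2 = 3 := by exact_mod_cast s3_sq
  rw [Sq_eq]; simp [z3]
  ring_nf
  simp only [Complex.I_sq, h]
  ring

/-- Points on the quadric surface are eigenvectors of `A (mu z)`. -/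
lemma A_mu_of_cone (z : C5) (h4 : z 4 = 0) (hN : N z = 1) (hS : Sq z = 0) :
    A (mu z) z = (2 * Complex.I) • z := by
  ext j
  rw [A_mu_self z h4 j, hN, hS]
  simp

/-- The fibres of the moment map over the critical points are lines. -/
lemma eq_smul_z1 (z : C5) (h4 : z 4 = 0) (h : A u1 z = (2 * Complex.I) • z) :
    z = (2 * z 0) • z1 := by
  have e0 := congrFun h 0
  have e1 := congrFun h 1
  have e2 := congrFun h 2
  have e3 := congrFun h 3
  simp [A, u1] at e0 e1 e2 e3
  have hI : Complex.I ≠ 0 := Complex.I_ne_zero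
  have h2 : z 2 = - z 0 := by
    have : (2 * Complex.I) * (z 2 + z 0) = 0 := by linear_combination (-1 : ℂ) * e0 - e2
    have h3 : z 2 + z 0 = 0 := by simpa [hI] using this
    linear_combination h3
  have h3 : z 3 = z 1 := by
    have : (2 * Complex.I) * (z 3 - z 1) = 0 := by linear_combination e1 - e3
    have h3 : z 3 - z 1 = 0 := by simpa [hI] using this
    linear_combination h3
  have h1 : z 1 = Complex.I * z 0 := by
    have : 2 * z 1 = (2 * Complex.I) * z 0 := by
      rw [h3] at e0
      linear_combination e0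
    linear_combination (1 / 2 : ℂ) * this
  ext j
  fin_cases j <;> simp [z1, h4, h2, h3, h1] <;> ring

lemma eq_smul_z2 (z : C5) (h4 : z 4 = 0) (h : A u2 z = (2 * Complex.I) • z) :
    z = (2 * z 1) • z2 := by
  have e0 := congrFun h 0
  have e1 := congrFun h 1
  have e2 := congrFun h 2
  have e3 := congrFun h 3
  simp [A, u2] at e0 e1 e2 e3
  have hI : Complex.I ≠ 0 := Complex.I_ne_zero
  have hI2 : Complex.I * Complex.I = -1 := Complex.I_mul_I
  have h3 : z 3 = z 1 := by
    have : (2 * Complex.I) * (z 3 - z 1) = 0 := by linear_combination e1 - e3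
    have h3 : z 3 - z 1 = 0 := by simpa [hI] using this
    linear_combination h3
  rw [h3] at e0 e2
  have h0 : z 0 = - Complex.I * ((s3 : ℂ) - 1) / 2 * z 1 := by
    push_cast at e0
    linear_combination (Complex.I / 2) * e0 + (z 0) * hI2
  have h2 : z 2 = - Complex.I * ((s3 : ℂ) + 1) / 2 * z 1 := by
    push_cast at e2
    linear_combination (Complex.I / 2) * e2 + (z 2) * hI2
  ext j
  fin_cases j <;> simp [z2, h4, h3]
  · rw [h0]; ring
  · ring
  · rw [h2]; ring
  · ring

lemma eq_smul_z3 (z : C5) (h4 : z 4 = 0) (h : A u3 z = (2 * Complex.I) • z) :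
    z = (2 * z 1) • z3 := by
  have e0 := congrFun h 0
  have e1 := congrFun h 1
  have e2 := congrFun h 2
  have e3 := congrFun h 3
  simp [A, u3] at e0 e1 e2 e3
  have hI : Complex.I ≠ 0 := Complex.I_ne_zero
  have hI2 : Complex.I * Complex.I = -1 := Complex.I_mul_I
  have h3 : z 3 = z 1 := by
    have : (2 * Complex.I) * (z 3 - z 1) = 0 := by linear_combination e1 - e3
    have h3 : z 3 - z 1 = 0 := by simpa [hI] using this
    linear_combination h3
  rw [h3] at e0 e2
  have h0 : z 0 = Complex.I * ((s3 : ℂ) + 1) / 2 * z 1 := by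
    push_cast at e0
    linear_combination (Complex.I / 2) * e0 + (z 0) * hI2
  have h2 : z 2 = Complex.I * ((s3 : ℂ) - 1) / 2 * z 1 := by
    push_cast at e2
    linear_combination (Complex.I / 2) * e2 + (z 2) * hI2
  ext j
  fin_cases j <;> simp [z3, h4, h3]
  · rw [h0]; ring
  · ring
  · rw [h2]; ring
  · ring

end Crest.Agent.Lib.QuadricAlg
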