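import Mathlib
import Crest.Agent.Lib.QuadricCrit

/-!
# Curves in complex 5-space: derivatives of the moment map etc; the rotation path
-/

set_option autoImplicit false
set_option linter.unusedSectionVars false

open scoped ContDiff Topology NNReal ComplexConjugate
open Set Crest.GeometryTopology.Quadric

namespace Crest.Agent.Lib.QuadricAlg

lemma C5_ext {u v : C5} (h0 : u 0 = v 0) (h1 : u 1 = v 1) (h2 : u 2 = v 2) (h3 : u 3 = v 3)
    (h4 : u 4 = v 4) : u = v := by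
  ext j
  fin_cases j <;> assumption

@[simp] lemma grad_0 (u : Fin 6 → ℝ) : grad u 0 = 1 - u 3 := rfl
@[simp] lemma grad_1 (u : Fin 6 → ℝ) : grad u 1 = - u 4 := rfl
@[simp] lemma grad_2 (u : Fin 6 → ℝ) : grad u 2 = - u 5 := rfl
@[simp] lemma grad_3 (u : Fin 6 → ℝ) : grad u 3 = - u 0 := rfl
@[simp] lemma grad_4 (u : Fin 6 → ℝ) : grad u 4 = - u 1 := rfl
@[simp] lemma grad_5 (u : Fin 6 → ℝ) : grad u 5 = 1 - u 2 := rfl

section curves

variable {y : ℝ → C5} {v : C5} {s : ℝ}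

lemma hasDerivAt_re {f : ℝ → ℂ} {f' : ℂ} (h : HasDerivAt f f' s) :
    HasDerivAt (fun r => (f r).re) f'.re s :=
  Complex.reCLM.hasFDerivAt.comp_hasDerivAt s h

lemma hasDerivAt_im {f : ℝ → ℂ} {f' : ℂ} (h : HasDerivAt f f' s) :
    HasDerivAt (fun r => (f r).im) f'.im s :=
  Complex.imCLM.hasFDerivAt.comp_hasDerivAt s h

lemma hasDerivAt_coord (h : HasDerivAt y v s) (j : Fin 5) :
    HasDerivAt (fun r => y r j) (v j) s := hasDerivAt_pi.1 h j

lemma hasDerivAt_N (h : HasDerivAt y v s) :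
    HasDerivAt (fun r => N (y r)) (2 * (herm (y s) v).re) s := by
  have hr := fun j => hasDerivAt_re (hasDerivAt_coord h j)
  have hi := fun j => hasDerivAt_im (hasDerivAt_coord h j)
  have hN : (fun r => N (y r)) = fun r =>
      (y r 0).re ^ 2 + (y r 0).im ^ 2 + ((y r 1).re ^ 2 + (y r 1).im ^ 2) +
      ((y r 2).re ^ 2 + (y r 2).im ^ 2) + ((y r 3).re ^ 2 + (y r 3).im ^ 2) +
      ((y r 4).re ^ 2 + (y r 4).im ^ 2) := by
    funext r; exact N_eq _
  rw [hN]
  have := (((((hr 0).pow 2).add ((hi 0).pow 2)).add (((hr 1).pow 2).add ((hi 1).pow 2))).add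
    (((hr 2).pow 2).add ((hi 2).pow 2))).add (((hr 3).pow 2).add ((hi 3).pow 2)) |>.add
    (((hr 4).pow 2).add ((hi 4).pow 2))
  refine this.congr_deriv ?_
  simp only [herm, Fin.sum_univ_five, Complex.add_re, Complex.mul_re, Complex.conj_re,
    Complex.conj_im]
  simp
  ring

lemma hasDerivAt_Sq (h : HasDerivAt y v s) :
    HasDerivAt (fun r => Sq (y r))
      (2 * (y s 0 * v 0 + y s 1 * v 1 + y s 2 * v 2 + y s 3 * v 3 + y s 4 * v 4)) s := by
  have hc := fun j => hasDerivAt_coord h j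
  have hS : (fun r => Sq (y r)) = fun r =>
      y r 0 ^ 2 + y r 1 ^ 2 + y r 2 ^ 2 + y r 3 ^ 2 + y r 4 ^ 2 := by
    funext r; exact Sq_eq _
  rw [hS]
  have := (((((hc 0).pow 2).add ((hc 1).pow 2)).add ((hc 2).pow 2)).add ((hc 3).pow 2)).add
    ((hc 4).pow 2)
  refine this.congr_deriv ?_
  simp
  ring

lemma hasDerivAt_Q {f g : ℝ → C5} {f' g' : C5} (hf : HasDerivAt f f' s) (hg : HasDerivAt g g' s) :
    HasDerivAt (fun r => Q (f r) (g r)) (Q f' (g s) + Q (f s) g') s := by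
  have hfr := fun j => hasDerivAt_re (hasDerivAt_coord hf j)
  have hfi := fun j => hasDerivAt_im (hasDerivAt_coord hf j)
  have hgr := fun j => hasDerivAt_re (hasDerivAt_coord hg j)
  have hgi := fun j => hasDerivAt_im (hasDerivAt_coord hg j)
  have hQ : (fun r => Q (f r) (g r)) = fun r =>
    ((f r 0).re * (g r 0).im - (f r 0).im * (g r 0).re) +
    ((f r 1).re * (g r 1).im - (f r 1).im * (g r 1).re) +
    ((f r 2).re * (g r 2).im - (f r 2).im * (g r 2).re) +
    ((f r 3).re * (g r 3).im - (f r 3).im * (g r 3).re) +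
    ((f r 4).re * (g r 4).im - (f r 4).im * (g r 4).re) := by
    funext r; exact Q_eq _ _
  rw [hQ]
  have := ((((((hfr 0).mul (hgi 0)).sub ((hfi 0).mul (hgr 0))).add
    (((hfr 1).mul (hgi 1)).sub ((hfi 1).mul (hgr 1)))).add
    (((hfr 2).mul (hgi 2)).sub ((hfi 2).mul (hgr 2)))).add
    (((hfr 3).mul (hgi 3)).sub ((hfi 3).mul (hgr 3)))).add
    (((hfr 4).mul (hgi 4)).sub ((hfi 4).mul (hgr 4)))
  refine this.congr_deriv ?_
  rw [Q_eq, Q_eq]
  ring

lemma hasDerivAt_A (c : Fin 6 → ℝ) (h : HasDerivAt y v s) :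
    HasDerivAt (fun r => A c (y r)) (A c v) s := by
  have hc := fun j => hasDerivAt_coord h j
  refine hasDerivAt_pi.2 fun j => ?_
  fin_cases j
  · exact (((hc 1).const_mul _).add ((hc 2).const_mul _)).add ((hc 3).const_mul _)
  · exact (((hc 0).const_mul _).add ((hc 2).const_mul _)).add ((hc 3).const_mul _)
  · exact (((hc 0).const_mul _).sub ((hc 1).const_mul _)).add ((hc 3).const_mul _)
  · exact (((hc 0).const_mul _).add ((hc 1).const_mul _)).sub ((hc 2).const_mul _)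
  · exact hasDerivAt_const _ _

/-- The moment map as a quadratic form. -/
lemma mu_eq_Q (z : C5) (b : Fin 6) : mu z b = Q z (A (e b) z) := by
  rw [Q_self_A]
  fin_cases b <;> simp [e]

lemma hasDerivAt_mu (b : Fin 6) (h : HasDerivAt y v s) :
    HasDerivAt (fun r => mu (y r) b) (-2 * Q (A (e b) (y s)) v) s := by
  have hQ : (fun r => mu (y r) b) = fun r => Q (y r) (A (e b) (y r)) := by
    funext r; exact mu_eq_Q _ _
  rw [hQ]
  refine (hasDerivAt_Q h (hasDerivAt_A (e b) h)).congr_deriv ?_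
  rw [Q_anti v, Q_A_skew]
  ring

lemma hasDerivAt_hh_mu (h : HasDerivAt y v s) :
    HasDerivAt (fun r => hh (mu (y r))) (-2 * Q (A (grad (mu (y s))) (y s)) v) s := by
  have hm := fun b => hasDerivAt_mu b h
  have := (((((hm 0).add (hm 5)).sub ((hm 0).mul (hm 3))).sub ((hm 1).mul (hm 4))).sub
    ((hm 2).mul (hm 5)))
  refine this.congr_deriv ?_
  rw [Q_A_left_decomp (grad (mu (y s)))]
  simp only [grad_0, grad_1, grad_2, grad_3, grad_4, grad_5]
  ring

lemma Q_neg_right (u v : C5) : Q u (-v) = - Q u v := by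
  rw [Q_eq, Q_eq]
  simp
  ring

lemma Q_smul_real_right (r : ℝ) (u v : C5) : Q u (r • v) = r * Q u v := by
  rw [Q_eq, Q_eq]
  simp
  ring

lemma Q_smul_real_left (r : ℝ) (u v : C5) : Q (r • u) v = r * Q u v := by
  rw [Q_eq, Q_eq]
  simp
  ring

lemma Q_add_left (u v w : C5) : Q (u + v) w = Q u w + Q v w := by
  rw [Q_eq, Q_eq, Q_eq]
  simp
  ring

/-- Along a curve with velocity `- A c y`, the moment map moves by the cross product. -/
lemma hasDerivAt_mu_of_A (c : Fin 6 → ℝ) (h : HasDerivAt y (- A c (y s)) s) (b : Fin 6) :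
    HasDerivAt (fun r => mu (y r) b) (2 * cross c (mu (y s)) b) s := by
  refine (hasDerivAt_mu b h).congr_deriv ?_
  rw [Q_neg_right, Q_AA]
  ring

lemma hasDerivAt_N_of_A (c : Fin 6 → ℝ) (h : HasDerivAt y (- A c (y s)) s) :
    HasDerivAt (fun r => N (y r)) 0 s := by
  refine (hasDerivAt_N h).congr_deriv ?_
  have h1 := herm_A_self_re c (y s)
  have h2 : herm (y s) (- A c (y s)) = - herm (y s) (A c (y s)) := by
    simp [herm, Finset.sum_neg_distrib]
  rw [h2, Complex.neg_re, h1]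
  simp

lemma hasDerivAt_Sq_of_A (c : Fin 6 → ℝ) (h : HasDerivAt y (- A c (y s)) s) :
    HasDerivAt (fun r => Sq (y r)) 0 s := by
  refine (hasDerivAt_Sq h).congr_deriv ?_
  have h1 := dot_A_self c (y s)
  simp only [Pi.neg_apply]
  linear_combination (-2 : ℂ) * h1

lemma hasDerivAt_four_of_A (c : Fin 6 → ℝ) (h : HasDerivAt y (- A c (y s)) s) :
    HasDerivAt (fun r => y r 4) 0 s := by
  have := hasDerivAt_coord h 4
  simpa using this

end curves

/-! ### Rotation path -/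

/-- The rotation path from the identity to the involution. -/
noncomputable def Rot (t : ℝ) (a : C5) : C5 :=
  ![(Real.cos (Real.pi * t) : ℂ) * a 0 + (Real.sin (Real.pi * t) : ℂ) * a 1,
    -(Real.sin (Real.pi * t) : ℂ) * a 0 + (Real.cos (Real.pi * t) : ℂ) * a 1,
    (Real.cos (Real.pi * t) : ℂ) * a 2 + (Real.sin (Real.pi * t) : ℂ) * a 3,
    -(Real.sin (Real.pi * t) : ℂ) * a 2 + (Real.cos (Real.pi * t) : ℂ) * a 3,
    a 4]

@[simp] lemma Rot_0 (t : ℝ) (a : C5) :
    Rot t a 0 = (Real.cos (Real.pi * t) : ℂ) * a 0 + (Real.sin (Real.pi * t) : ℂ) * a 1 := rfl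
@[simp] lemma Rot_1 (t : ℝ) (a : C5) :
    Rot t a 1 = -(Real.sin (Real.pi * t) : ℂ) * a 0 + (Real.cos (Real.pi * t) : ℂ) * a 1 := rfl
@[simp] lemma Rot_2 (t : ℝ) (a : C5) :
    Rot t a 2 = (Real.cos (Real.pi * t) : ℂ) * a 2 + (Real.sin (Real.pi * t) : ℂ) * a 3 := rfl
@[simp] lemma Rot_3 (t : ℝ) (a : C5) :
    Rot t a 3 = -(Real.sin (Real.pi * t) : ℂ) * a 2 + (Real.cos (Real.pi * t) : ℂ) * a 3 := rfl
@[simp] lemma Rot_4 (t : ℝ) (a : C5) : Rot t a 4 = a 4 := rfl

lemma cs_sq (t : ℝ) : (Real.cos (Real.pi * t) : ℂ) ^ 2 + (Real.sin (Real.pi * t) : ℂ) ^ 2 = 1 := by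
  exact_mod_cast Real.cos_sq_add_sin_sq (Real.pi * t)

lemma Rot_zero (a : C5) : Rot 0 a = a := by
  ext j
  fin_cases j <;> simp

lemma Rot_one (a : C5) : Rot 1 a = ![- a 0, - a 1, - a 2, - a 3, a 4] := by
  ext j
  fin_cases j <;> simp

lemma Rot_Rot_neg (t : ℝ) (a : C5) : Rot t (Rot (-t) a) = a := by
  have h := cs_sq t
  refine C5_ext ?_ ?_ ?_ ?_ ?_ <;>
    simp only [Rot_0, Rot_1, Rot_2, Rot_3, Rot_4, mul_neg, Real.cos_neg, Real.sin_neg,
      Complex.ofReal_neg]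
  · linear_combination (a 0) * h
  · linear_combination (a 1) * h
  · linear_combination (a 2) * h
  · linear_combination (a 3) * h

lemma Rot_neg_Rot (t : ℝ) (a : C5) : Rot (-t) (Rot t a) = a := by
  have h := cs_sq t
  refine C5_ext ?_ ?_ ?_ ?_ ?_ <;>
    simp only [Rot_0, Rot_1, Rot_2, Rot_3, Rot_4, mul_neg, Real.cos_neg, Real.sin_neg,
      Complex.ofReal_neg]
  · linear_combination (a 0) * h
  · linear_combination (a 1) * h
  · linear_combination (a 2) * h
  · linear_combination (a 3) * h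

lemma Q_Rot (t : ℝ) (u v : C5) : Q (Rot t u) v = Q u (Rot (-t) v) := by
  rw [Q_eq, Q_eq]
  simp only [Rot_0, Rot_1, Rot_2, Rot_3, Rot_4, mul_neg, Real.cos_neg, Real.sin_neg,
    Complex.add_re, Complex.add_im, Complex.mul_re, Complex.mul_im, Complex.ofReal_re,
    Complex.ofReal_im, Complex.neg_re, Complex.neg_im, neg_mul, Complex.ofReal_neg]
  ring

lemma Rot_smul (t : ℝ) (a : ℂ) (z : C5) : Rot t (a • z) = a • Rot t z := by
  ext j
  fin_cases j <;> simp <;> ring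

lemma Rot_add_smul (t : ℝ) (a w : C5) (r : ℝ) : Rot t (a + r • w) = Rot t a + r • Rot t w := by
  ext j
  fin_cases j <;> simp <;> ring

lemma N_Rot (t : ℝ) (a : C5) : N (Rot t a) = N a := by
  have h := Real.cos_sq_add_sin_sq (Real.pi * t)
  rw [N_eq, N_eq]
  simp only [Rot_0, Rot_1, Rot_2, Rot_3, Rot_4, Complex.add_re, Complex.add_im, Complex.mul_re,
    Complex.mul_im, Complex.ofReal_re, Complex.ofReal_im, Complex.neg_re, Complex.neg_im]
  linear_combination ((a 0).re ^ 2 + (a 0).im ^ 2 + (a 1).re ^ 2 + (a 1).im ^ 2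
    + (a 2).re ^ 2 + (a 2).im ^ 2 + (a 3).re ^ 2 + (a 3).im ^ 2) * h

lemma Sq_Rot (t : ℝ) (a : C5) : Sq (Rot t a) = Sq a := by
  have h := cs_sq t
  rw [Sq_eq, Sq_eq]
  simp only [Rot_0, Rot_1, Rot_2, Rot_3, Rot_4]
  linear_combination (a 0 ^ 2 + a 1 ^ 2 + a 2 ^ 2 + a 3 ^ 2) * h

/-- The generator of the rotation path. -/
lemma hasDerivAt_Rot {y : ℝ → C5} {v : C5} {t : ℝ} (h : HasDerivAt y v t) :
    HasDerivAt (fun r => Rot r (y r)) ((Real.pi : ℝ) • A (e 0) (Rot t (y t)) + Rot t v) t := by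
  have hc := fun j => hasDerivAt_coord h j
  have hcos : HasDerivAt (fun r : ℝ => ((Real.cos (Real.pi * r) : ℝ) : ℂ))
      (((- Real.sin (Real.pi * t) * Real.pi : ℝ)) : ℂ) t := by
    have h1 : HasDerivAt (fun r : ℝ => Real.pi * r) Real.pi t := by
      simpa using (hasDerivAt_id t).const_mul Real.pi
    exact (h1.cos).ofReal_comp.congr_deriv (by push_cast; ring)
  have hsin : HasDerivAt (fun r : ℝ => ((Real.sin (Real.pi * r) : ℝ) : ℂ))
      (((Real.cos (Real.pi * t) * Real.pi : ℝ)) : ℂ) t := by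
    have h1 : HasDerivAt (fun r : ℝ => Real.pi * r) Real.pi t := by
      simpa using (hasDerivAt_id t).const_mul Real.pi
    exact (h1.sin).ofReal_comp.congr_deriv (by push_cast; ring)
  refine hasDerivAt_pi.2 fun j => ?_
  fin_cases j
  · refine ((hcos.mul (hc 0)).add (hsin.mul (hc 1))).congr_deriv ?_
    simp [e]
    ring
  · refine ((hsin.neg.mul (hc 0)).add (hcos.mul (hc 1))).congr_deriv ?_
    simp [e]
    ring
  · refine ((hcos.mul (hc 2)).add (hsin.mul (hc 3))).congr_deriv ?_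
    simp [e]
    ring
  · refine ((hsin.neg.mul (hc 2)).add (hcos.mul (hc 3))).congr_deriv ?_
    simp [e]
    ring
  · simpa [e] using hc 4

/-! ### Smoothness -/

lemma contDiff_coord (n : WithTop ℕ∞) (j : Fin 5) : ContDiff ℝ n (fun z : C5 => z j) :=
  contDiff_apply ℝ ℂ j

lemma contDiff_re_coord (n : WithTop ℕ∞) (j : Fin 5) : ContDiff ℝ n (fun z : C5 => (z j).re) :=
  Complex.reCLM.contDiff.comp (contDiff_coord n j)

lemma contDiff_im_coord (n : WithTop ℕ∞) (j : Fin 5) : ContDiff ℝ n (fun z : C5 => (z j).im) :=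
  Complex.imCLM.contDiff.comp (contDiff_coord n j)

lemma contDiff_p (n : WithTop ℕ∞) (i j : Fin 5) : ContDiff ℝ n (p i j) :=
  ((contDiff_re_coord n i).mul (contDiff_im_coord n j)).sub
    ((contDiff_im_coord n i).mul (contDiff_re_coord n j))

lemma contDiff_mu (n : WithTop ℕ∞) (b : Fin 6) : ContDiff ℝ n (fun z : C5 => mu z b) := by
  have h := fun i j => contDiff_p n i j
  fin_cases b
  · exact contDiff_const.mul ((h 0 1).add (h 2 3))
  · exact contDiff_const.mul ((h 0 2).add (h 3 1))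
  · exact contDiff_const.mul ((h 0 3).add (h 1 2))
  · exact contDiff_const.mul ((h 0 1).sub (h 2 3))
  · exact contDiff_const.mul ((h 0 2).sub (h 3 1))
  · exact contDiff_const.mul ((h 0 3).sub (h 1 2))

lemma contDiff_N (n : WithTop ℕ∞) : ContDiff ℝ n N := by
  have hr := fun j => contDiff_re_coord n j
  have hi := fun j => contDiff_im_coord n j
  have : N = fun z => (z 0).re ^ 2 + (z 0).im ^ 2 + ((z 1).re ^ 2 + (z 1).im ^ 2) +
      ((z 2).re ^ 2 + (z 2).im ^ 2) + ((z 3).re ^ 2 + (z 3).im ^ 2) +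
      ((z 4).re ^ 2 + (z 4).im ^ 2) := by
    funext z; exact N_eq z
  rw [this]
  exact ((((((hr 0).pow 2).add ((hi 0).pow 2)).add (((hr 1).pow 2).add ((hi 1).pow 2))).add
    (((hr 2).pow 2).add ((hi 2).pow 2))).add (((hr 3).pow 2).add ((hi 3).pow 2))).add
    (((hr 4).pow 2).add ((hi 4).pow 2))

lemma contDiff_ofReal_comp {n : WithTop ℕ∞} {E : Type*} [NormedAddCommGroup E] [NormedSpace ℝ E]
    {f : E → ℝ} (hf : ContDiff ℝ n f) : ContDiff ℝ n (fun x => ((f x : ℝ) : ℂ)) :=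
  Complex.ofRealCLM.contDiff.comp hf

/-- Smoothness of `A` in both arguments -/
lemma contDiff_A {n : WithTop ℕ∞} {E : Type*} [NormedAddCommGroup E] [NormedSpace ℝ E]
    {c : E → Fin 6 → ℝ} {z : E → C5} (hc : ∀ b, ContDiff ℝ n (fun x => c x b))
    (hz : ∀ j, ContDiff ℝ n (fun x => z x j)) :
    ContDiff ℝ n (fun x => A (c x) (z x)) := by
  refine contDiff_pi.2 fun j => ?_
  have hpm : ∀ a b : Fin 6, ContDiff ℝ n (fun x => (((c x a + c x b : ℝ)) : ℂ)) :=
    fun a b => contDiff_ofReal_comp ((hc a).add (hc b))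
  have hmm : ∀ a b : Fin 6, ContDiff ℝ n (fun x => (((c x a - c x b : ℝ)) : ℂ)) :=
    fun a b => contDiff_ofReal_comp ((hc a).sub (hc b))
  fin_cases j
  · exact (((hpm 0 3).mul (hz 1)).add ((hpm 1 4).mul (hz 2))).add ((hpm 2 5).mul (hz 3))
  · exact (((hpm 0 3).neg.mul (hz 0)).add ((hmm 2 5).mul (hz 2))).add ((hmm 4 1).mul (hz 3))
  · exact (((hpm 1 4).neg.mul (hz 0)).sub ((hmm 2 5).mul (hz 1))).add ((hmm 0 3).mul (hz 3))
  · exact (((hpm 2 5).neg.mul (hz 0)).add ((hmm 1 4).mul (hz 1))).sub ((hmm 0 3).mul (hz 2))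
  · exact contDiff_const

lemma contDiff_grad_comp {n : WithTop ℕ∞} {E : Type*} [NormedAddCommGroup E] [NormedSpace ℝ E]
    {u : E → Fin 6 → ℝ} (hu : ∀ b, ContDiff ℝ n (fun x => u x b)) (b : Fin 6) :
    ContDiff ℝ n (fun x => grad (u x) b) := by
  fin_cases b
  · exact contDiff_const.sub (hu 3)
  · exact (hu 4).neg
  · exact (hu 5).neg
  · exact (hu 0).neg
  · exact (hu 1).neg
  · exact contDiff_const.sub (hu 2)

/-- smoothness of `Rot` jointly -/
lemma contDiff_Rot {n : WithTop ℕ∞} {E : Type*} [NormedAddCommGroup E] [NormedSpace ℝ E]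
    {t : E → ℝ} {z : E → C5} (ht : ContDiff ℝ n t) (hz : ContDiff ℝ n z) :
    ContDiff ℝ n (fun x => Rot (t x) (z x)) := by
  refine contDiff_pi.2 fun j => ?_
  have hz' : ∀ j, ContDiff ℝ n (fun x => z x j) := fun j => contDiff_pi.1 hz j
  have hcos : ContDiff ℝ n (fun x => ((Real.cos (Real.pi * t x) : ℝ) : ℂ)) :=
    contDiff_ofReal_comp (Real.contDiff_cos.comp (contDiff_const.mul ht))
  have hsin : ContDiff ℝ n (fun x => ((Real.sin (Real.pi * t x) : ℝ) : ℂ)) :=
    contDiff_ofReal_comp (Real.contDiff_sin.comp (contDiff_const.mul ht))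
  fin_cases j
  · exact (hcos.mul (hz' 0)).add (hsin.mul (hz' 1))
  · exact (hsin.neg.mul (hz' 0)).add (hcos.mul (hz' 1))
  · exact (hcos.mul (hz' 2)).add (hsin.mul (hz' 3))
  · exact (hsin.neg.mul (hz' 2)).add (hcos.mul (hz' 3))
  · exact hz' 4

/-! ### Yorke's argument -/

/-- A closed orbit of a vector field with Lipschitz constant less than 1 (in time 1) is constant. -/
lemma yorke {F : Type*} [NormedAddCommGroup F] [NormedSpace ℝ F] (u : ℝ → F) (W : F → F)
    (S : Set F) (L : ℝ≥0) (hL : (L : ℝ) < 1) (hW : LipschitzOnWith L W S)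
    (hS : ∀ t ∈ Icc (0 : ℝ) 1, u t ∈ S)
    (hu : ∀ t ∈ Icc (0 : ℝ) 1, HasDerivAt u (W (u t)) t) (h01 : u 1 = u 0) :
    ∀ t ∈ Icc (0 : ℝ) 1, W (u t) = 0 := by
  have hcu : ContinuousOn u (Icc 0 1) := fun t ht => (hu t ht).continuousAt.continuousWithinAt
  have hcW : ContinuousOn (fun t => ‖W (u t)‖) (Icc 0 1) :=
    (hW.continuousOn.comp hcu hS).norm
  obtain ⟨t₀, ht₀, hmax⟩ := isCompact_Icc.exists_isMaxOn (nonempty_Icc.2 zero_le_one) hcW
  set M := ‖W (u t₀)‖ with hM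
  have hM0 : 0 ≤ M := norm_nonneg _
  have hmax' : ∀ t ∈ Icc (0 : ℝ) 1, ‖W (u t)‖ ≤ M := fun t ht => hmax ht
  -- bound on the displacement
  have hdisp : ∀ t ∈ Icc (0 : ℝ) 1, ‖u t - u t₀‖ ≤ M := by
    intro t ht
    have h := Convex.norm_image_sub_le_of_norm_hasDerivWithin_le (f := u) (f' := fun t => W (u t))
      (s := Icc 0 1) (C := M) (x := t₀) (y := t)
      (fun x hx => (hu x hx).hasDerivWithinAt) hmax' (convex_Icc 0 1) ht₀ ht
    have h3 : ‖t - t₀‖ ≤ 1 := by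
      rw [Real.norm_eq_abs, abs_le]
      constructor <;> linarith [ht.1, ht.2, ht₀.1, ht₀.2]
    calc _ ≤ M * ‖t - t₀‖ := h
      _ ≤ M * 1 := by gcongr
      _ = M := mul_one _
  -- the comparison function
  set G : ℝ → F := fun t => u t - t • W (u t₀) with hG
  have hG' : ∀ t ∈ Icc (0 : ℝ) 1, HasDerivWithinAt G (W (u t) - W (u t₀)) (Icc 0 1) t := by
    intro t ht
    have h2 : HasDerivAt (fun r : ℝ => r • W (u t₀)) (W (u t₀)) t := by
      simpa using (hasDerivAt_id t).smul_const (W (u t₀))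
    exact ((hu t ht).sub h2).hasDerivWithinAt
  have hbound : ∀ t ∈ Ico (0 : ℝ) 1, ‖W (u t) - W (u t₀)‖ ≤ L * M := by
    intro t ht
    have ht' : t ∈ Icc (0 : ℝ) 1 := Ico_subset_Icc_self ht
    calc _ ≤ L * ‖u t - u t₀‖ := hW.norm_sub_le (hS t ht') (hS t₀ ht₀)
      _ ≤ L * M := by
        gcongr
        exact hdisp t ht'
  have h1 := norm_image_sub_le_of_norm_deriv_le_segment_01' hG' hbound
  have h2 : G 1 - G 0 = - W (u t₀) := by
    simp only [hG, one_smul, zero_smul, sub_zero, h01]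
    abel
  rw [h2, norm_neg] at h1
  have h3 : M * (1 - L) ≤ 0 := by
    have : M ≤ L * M := h1
    linarith
  have h4 : M ≤ 0 := by
    by_contra hcon
    push Not at hcon
    have : 0 < M * (1 - L) := mul_pos hcon (by linarith)
    linarith
  intro t ht
  have := hmax' t ht
  exact norm_le_zero_iff.1 (this.trans h4)

end Crest.Agent.Lib.QuadricAlg
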