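import Mathlib

/-!
# Smooth dependence of ODE flows on time and initial data

For a smooth globally Lipschitz vector field `V` on a Banach space we construct, by the implicit
function theorem on the Banach space of continuous curves on `[0,1]`, a map `Φ : ℝ × E → E` which
is smooth on `{|s| < T}` (for `T * Lip V < 1`) with `Φ (0, x) = x` and `∂ₛ Φ (s, x) = V (Φ (s, x))`.
-/

set_option autoImplicit false
set_option linter.unusedSectionVars false

open scoped ContDiff Topology NNReal
open Set

namespace Crest.Agent.Lib.SmoothFlow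

universe u
variable {E F : Type u} [NormedAddCommGroup E] [NormedSpace ℝ E]
  [NormedAddCommGroup F] [NormedSpace ℝ F]

/-- The unit interval. -/
abbrev I01 : Type := Set.Icc (0 : ℝ) 1

noncomputable instance : Nonempty I01 := ⟨⟨0, by simp⟩⟩

/-- Nemytskii (superposition) operator. -/
def nem (V : E → F) (hV : Continuous V) : C(I01, E) → C(I01, F) :=
  fun u => (⟨V, hV⟩ : C(E, F)).comp u

@[simp] lemma nem_apply (V : E → F) (hV : Continuous V) (u : C(I01, E)) (τ : I01) :
    nem V hV u τ = V (u τ) := rfl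

lemma continuous_nem (V : E → F) (hV : Continuous V) : Continuous (nem V hV) :=
  ContinuousMap.continuous_postcomp _

/-- Pointwise application of a curve of linear maps to a curve of vectors. -/
noncomputable def papply : C(I01, E →L[ℝ] F) →L[ℝ] C(I01, E) →L[ℝ] C(I01, F) :=
  LinearMap.mkContinuous₂
    (LinearMap.mk₂ ℝ (fun (A : C(I01, E →L[ℝ] F)) (u : C(I01, E)) =>
        (⟨fun τ => A τ (u τ), by fun_prop⟩ : C(I01, F)))
      (by intro A B u; ext τ; simp)
      (by intro c A u; ext τ; simp)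
      (by intro A u v; ext τ; simp)
      (by intro c A u; ext τ; simp))
    1
    (by
      intro A u
      rw [one_mul]
      refine ContinuousMap.norm_le _ (by positivity) |>.2 fun τ => ?_
      calc ‖A τ (u τ)‖ ≤ ‖A τ‖ * ‖u τ‖ := (A τ).le_opNorm _
        _ ≤ ‖A‖ * ‖u‖ := by
          gcongr
          · exact A.norm_coe_le_norm τ
          · exact u.norm_coe_le_norm τ)

@[simp] lemma papply_apply (A : C(I01, E →L[ℝ] F)) (u : C(I01, E)) (τ : I01) :
    papply A u τ = A τ (u τ) := rfl

lemma hasFDerivAt_nem (V : E → F) (hV : ContDiff ℝ 1 V) (u : C(I01, E)) :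
    HasFDerivAt (nem V hV.continuous)
      (papply (nem (fderiv ℝ V) (hV.continuous_fderiv (by simp)) u)) u := by
  have hcont := continuous_nem (fderiv ℝ V) (hV.continuous_fderiv (by simp))
  have hdiff : Differentiable ℝ V := hV.differentiable (by simp)
  rw [hasFDerivAt_iff_isLittleO_nhds_zero, Asymptotics.isLittleO_iff]
  intro c hc
  obtain ⟨η, hη, hη'⟩ := Metric.continuousAt_iff.1 (hcont.continuousAt (x := u)) c hc
  filter_upwards [Metric.ball_mem_nhds (0 : C(I01, E)) hη] with δ hδ
  have hδ' : ‖δ‖ < η := by simpa using hδ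
  refine ContinuousMap.norm_le _ (by positivity) |>.2 fun τ => ?_
  -- one-dimensional mean value
  set φ : ℝ → F := fun r => V (u τ + r • δ τ) - r • (fderiv ℝ V (u τ) (δ τ)) with hφ
  have hφ' : ∀ r ∈ Icc (0 : ℝ) 1, HasDerivWithinAt φ
      (fderiv ℝ V (u τ + r • δ τ) (δ τ) - fderiv ℝ V (u τ) (δ τ)) (Icc 0 1) r := by
    intro r _
    have h2 : HasDerivAt (fun r : ℝ => u τ + r • δ τ) (δ τ) r := by
      simpa using ((hasDerivAt_id r).smul_const (δ τ)).const_add (u τ)
    have h3 := ((hdiff (u τ + r • δ τ)).hasFDerivAt.comp_hasDerivAt r h2)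
    have h4 : HasDerivAt (fun r : ℝ => r • (fderiv ℝ V (u τ) (δ τ))) (fderiv ℝ V (u τ) (δ τ)) r := by
      simpa using (hasDerivAt_id r).smul_const (fderiv ℝ V (u τ) (δ τ))
    exact (h3.sub h4).hasDerivWithinAt
  have hbound : ∀ r ∈ Ico (0 : ℝ) 1,
      ‖fderiv ℝ V (u τ + r • δ τ) (δ τ) - fderiv ℝ V (u τ) (δ τ)‖ ≤ c * ‖δ‖ := by
    intro r hr
    have hw : dist (u + r • δ) u < η := by
      rw [dist_eq_norm, add_sub_cancel_left, norm_smul, Real.norm_eq_abs, abs_of_nonneg hr.1]
      calc r * ‖δ‖ ≤ 1 * ‖δ‖ := by gcongr; exact hr.2.le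
        _ < η := by simpa using hδ'
    have h5 := hη' hw
    rw [dist_eq_norm] at h5
    have h6 : ‖fderiv ℝ V (u τ + r • δ τ) - fderiv ℝ V (u τ)‖ ≤ c := by
      have := (nem (fderiv ℝ V) (hV.continuous_fderiv (by simp)) (u + r • δ)
        - nem (fderiv ℝ V) (hV.continuous_fderiv (by simp)) u).norm_coe_le_norm τ
      simp only [ContinuousMap.coe_sub, Pi.sub_apply, nem_apply, ContinuousMap.add_apply,
        ContinuousMap.smul_apply] at this
      exact this.trans h5.le
    rw [← sub_apply]
    calc _ ≤ ‖fderiv ℝ V (u τ + r • δ τ) - fderiv ℝ V (u τ)‖ * ‖δ τ‖ :=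
          ContinuousLinearMap.le_opNorm _ _
      _ ≤ c * ‖δ‖ := by
          gcongr
          exact δ.norm_coe_le_norm τ
  have := norm_image_sub_le_of_norm_deriv_le_segment_01' hφ' hbound
  simpa [hφ, sub_sub, add_comm, add_left_comm, add_assoc] using this

lemma fderiv_nem (V : E → F) (hV : ContDiff ℝ 1 V) :
    fderiv ℝ (nem V hV.continuous) =
      fun u => papply (nem (fderiv ℝ V) (hV.continuous_fderiv (by simp)) u) := by
  ext1 u
  exact (hasFDerivAt_nem V hV u).fderiv

lemma contDiff_nem (n : ℕ) : ∀ (F : Type u) [NormedAddCommGroup F] [NormedSpace ℝ F]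
    (V : E → F) (_ : ContDiff ℝ n V) (hV' : Continuous V), ContDiff ℝ n (nem V hV') := by
  induction n with
  | zero =>
    intro F _ _ V _ hV'
    simpa using continuous_nem V hV'
  | succ n ih =>
    intro F _ _ V hV hV'
    have hV1 : ContDiff ℝ 1 V := hV.of_le (by norm_cast; omega)
    have hcast : ((n + 1 : ℕ) : WithTop ℕ∞) = (n : WithTop ℕ∞) + 1 := by norm_cast
    rw [hcast] at hV ⊢
    rw [contDiff_succ_iff_fderiv] at hV ⊢
    refine ⟨fun u => (hasFDerivAt_nem V hV1 u).differentiableAt, by simp, ?_⟩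
    rw [fderiv_nem V hV1]
    have hp : ContDiff ℝ n (⇑(papply (E := E) (F := F))) := by
      apply ContinuousLinearMap.contDiff
    exact hp.comp
      (ih (E →L[ℝ] F) (fderiv ℝ V) hV.2.2 (hV1.continuous_fderiv (by simp)))

lemma contDiff_nem_infty (V : E → F) (hV : ContDiff ℝ ∞ V) :
    ContDiff ℝ ∞ (nem V hV.continuous) := by
  rw [contDiff_infty]
  intro n
  exact contDiff_nem n F V (hV.of_le (by exact_mod_cast le_top)) hV.continuous


/-! ### Volterra operator and the fixed point equation -/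

section Flow

variable {E : Type u} [NormedAddCommGroup E] [NormedSpace ℝ E] [CompleteSpace E]

/-- extension of a curve on `[0,1]` to the line, constant outside. -/
noncomputable def ext01 (u : C(I01, E)) : ℝ → E := Set.IccExtend (zero_le_one) u

lemma continuous_ext01 (u : C(I01, E)) : Continuous (ext01 u) := u.continuous.Icc_extend'

lemma ext01_of_mem (u : C(I01, E)) {r : ℝ} (hr : r ∈ Icc (0 : ℝ) 1) : ext01 u r = u ⟨r, hr⟩ :=
  Set.IccExtend_of_mem _ _ hr

lemma norm_ext01_le (u : C(I01, E)) (r : ℝ) : ‖ext01 u r‖ ≤ ‖u‖ := u.norm_coe_le_norm _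

/-- The primitive of a curve, as a curve. -/
noncomputable def volFun (u : C(I01, E)) : C(I01, E) :=
  ⟨fun τ => ∫ r in (0 : ℝ)..τ, ext01 u r,
    (intervalIntegral.continuous_primitive
      (fun a b => (continuous_ext01 u).intervalIntegrable a b) 0).comp continuous_subtype_val⟩

lemma volFun_apply (u : C(I01, E)) (τ : I01) : volFun u τ = ∫ r in (0 : ℝ)..τ, ext01 u r := rfl

lemma ext01_add (u v : C(I01, E)) : ext01 (u + v) = fun r => ext01 u r + ext01 v r := rfl

lemma ext01_smul (c : ℝ) (u : C(I01, E)) : ext01 (c • u) = fun r => c • ext01 u r := rfl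

lemma norm_volFun_le (u : C(I01, E)) : ‖volFun u‖ ≤ 1 * ‖u‖ := by
  rw [one_mul]
  refine ContinuousMap.norm_le _ (norm_nonneg _) |>.2 fun τ => ?_
  rw [volFun_apply]
  have h := intervalIntegral.norm_integral_le_of_norm_le_const (a := 0) (b := τ) (C := ‖u‖)
    (f := ext01 u) (fun x _ => norm_ext01_le u x)
  have hτ : |(τ : ℝ) - 0| ≤ 1 := by
    rw [sub_zero, abs_of_nonneg τ.2.1]; exact τ.2.2
  calc _ ≤ ‖u‖ * |(τ : ℝ) - 0| := h
    _ ≤ ‖u‖ * 1 := by gcongr
    _ = ‖u‖ := mul_one _

/-- Volterra operator on curves. -/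
noncomputable def vol : C(I01, E) →L[ℝ] C(I01, E) :=
  LinearMap.mkContinuous
    { toFun := volFun
      map_add' := by
        intro u v
        ext τ
        simp only [ContinuousMap.add_apply, volFun_apply, ext01_add]
        exact intervalIntegral.integral_add ((continuous_ext01 u).intervalIntegrable _ _)
          ((continuous_ext01 v).intervalIntegrable _ _)
      map_smul' := by
        intro c u
        ext τ
        simp only [ContinuousMap.smul_apply, volFun_apply, ext01_smul, RingHom.id_apply]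
        exact intervalIntegral.integral_smul c _ }
    1 norm_volFun_le

lemma vol_apply (u : C(I01, E)) (τ : I01) : vol u τ = ∫ r in (0 : ℝ)..τ, ext01 u r := rfl

lemma norm_vol_le : ‖(vol : C(I01, E) →L[ℝ] C(I01, E))‖ ≤ 1 :=
  ContinuousLinearMap.opNorm_le_bound _ zero_le_one norm_volFun_le

/-- constant curves -/
noncomputable def constL : E →L[ℝ] C(I01, E) :=
  LinearMap.mkContinuous
    { toFun := fun x => ContinuousMap.const _ x
      map_add' := by intro x y; ext τ; simp
      map_smul' := by intro c x; ext τ; simp }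
    1
    (by
      intro x
      rw [one_mul]
      exact ContinuousMap.norm_le _ (norm_nonneg _) |>.2 fun τ => le_rfl)

@[simp] lemma constL_apply (x : E) (τ : I01) : constL x τ = x := rfl

/-- The fixed point operator. -/
noncomputable def Tmap (V : E → E) (hV : Continuous V) (s : ℝ) (x : E) (u : C(I01, E)) :
    C(I01, E) :=
  constL x + s • vol (nem V hV u)

lemma norm_nem_sub_le (V : E → E) (hV : Continuous V) (K : ℝ≥0) (hK : LipschitzWith K V)
    (u v : C(I01, E)) : ‖nem V hV u - nem V hV v‖ ≤ K * ‖u - v‖ := by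
  refine ContinuousMap.norm_le _ (by positivity) |>.2 fun τ => ?_
  simp only [ContinuousMap.coe_sub, Pi.sub_apply, nem_apply]
  calc ‖V (u τ) - V (v τ)‖ ≤ K * ‖u τ - v τ‖ := hK.norm_sub_le _ _
    _ ≤ K * ‖u - v‖ := by
      gcongr
      exact (u - v).norm_coe_le_norm τ

lemma contractingWith_Tmap (V : E → E) (hV : Continuous V) (K : ℝ≥0) (hK : LipschitzWith K V)
    (s : ℝ) (x : E) (hs : |s| * K < 1) :
    ContractingWith (‖s‖₊ * K) (Tmap V hV s x) := by
  refine ⟨by
    rw [← NNReal.coe_lt_coe]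
    simpa using hs, LipschitzWith.of_dist_le_mul fun u v => ?_⟩
  rw [dist_eq_norm, dist_eq_norm]
  have h : Tmap V hV s x u - Tmap V hV s x v = s • vol (nem V hV u - nem V hV v) := by
    simp only [Tmap, map_sub, smul_sub]
    abel
  rw [h, norm_smul, Real.norm_eq_abs]
  have h2 : ‖vol (nem V hV u - nem V hV v)‖ ≤ K * ‖u - v‖ := by
    calc _ ≤ ‖(vol : C(I01, E) →L[ℝ] C(I01, E))‖ * ‖nem V hV u - nem V hV v‖ :=
          ContinuousLinearMap.le_opNorm _ _
      _ ≤ 1 * (K * ‖u - v‖) := by
          gcongr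
          · exact norm_vol_le
          · exact norm_nem_sub_le V hV K hK u v
      _ = _ := one_mul _
  calc |s| * ‖vol (nem V hV u - nem V hV v)‖ ≤ |s| * (K * ‖u - v‖) := by gcongr
    _ = _ := by simp [mul_assoc]

/-- The solution curve: fixed point of `Tmap`, junk if the contraction condition fails. -/
noncomputable def sol (V : E → E) (hV : Continuous V) (K : ℝ≥0) (hK : LipschitzWith K V)
    (p : ℝ × E) : C(I01, E) :=
  if h : |p.1| * K < 1 then (contractingWith_Tmap V hV K hK p.1 p.2 h).fixedPoint else 0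

lemma sol_spec (V : E → E) (hV : Continuous V) (K : ℝ≥0) (hK : LipschitzWith K V)
    (p : ℝ × E) (h : |p.1| * K < 1) :
    Tmap V hV p.1 p.2 (sol V hV K hK p) = sol V hV K hK p := by
  rw [sol, dif_pos h]
  exact (contractingWith_Tmap V hV K hK p.1 p.2 h).fixedPoint_isFixedPt

lemma sol_unique (V : E → E) (hV : Continuous V) (K : ℝ≥0) (hK : LipschitzWith K V)
    (p : ℝ × E) (h : |p.1| * K < 1) (u : C(I01, E)) (hu : Tmap V hV p.1 p.2 u = u) :
    u = sol V hV K hK p := by
  rw [sol, dif_pos h]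
  exact (contractingWith_Tmap V hV K hK p.1 p.2 h).fixedPoint_unique hu

/-- the implicit equation -/
noncomputable def Fmap (V : E → E) (hV : Continuous V) (q : (ℝ × E) × C(I01, E)) : C(I01, E) :=
  q.2 - constL q.1.2 - q.1.1 • vol (nem V hV q.2)

lemma Fmap_eq_zero_iff (V : E → E) (hV : Continuous V) (p : ℝ × E) (u : C(I01, E)) :
    Fmap V hV (p, u) = 0 ↔ Tmap V hV p.1 p.2 u = u := by
  simp only [Fmap, Tmap]
  rw [sub_sub, sub_eq_zero, eq_comm]

lemma contDiff_Fmap (V : E → E) (hV : ContDiff ℝ ∞ V) :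
    ContDiff ℝ ∞ (Fmap V hV.continuous) := by
  have h1 := contDiff_nem_infty V hV
  have hvol : ContDiff ℝ ∞ (⇑(vol (E := E))) := by apply ContinuousLinearMap.contDiff
  have hconst : ContDiff ℝ ∞ (⇑(constL (E := E))) := by apply ContinuousLinearMap.contDiff
  unfold Fmap
  refine ((contDiff_snd).sub (hconst.comp (contDiff_snd.comp contDiff_fst))).sub ?_
  exact (contDiff_fst.comp contDiff_fst).smul (hvol.comp (h1.comp contDiff_snd))

lemma hasFDerivAt_Fmap_slice (V : E → E) (hV : ContDiff ℝ ∞ V) (p : ℝ × E) (u : C(I01, E)) :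
    HasFDerivAt (fun v => Fmap V hV.continuous (p, v))
      (ContinuousLinearMap.id ℝ _ - p.1 • ((vol (E := E)).comp
        (papply (nem (fderiv ℝ V) ((hV.of_le (by exact_mod_cast le_top) : ContDiff ℝ 1 V).continuous_fderiv
          (by simp)) u)))) u := by
  have hV1 : ContDiff ℝ 1 V := hV.of_le (by exact_mod_cast le_top)
  have h1 := hasFDerivAt_nem V hV1 u
  have h2 : HasFDerivAt (fun v => (vol (E := E)) (nem V hV1.continuous v))
      ((vol (E := E)).comp (papply (nem (fderiv ℝ V) (hV1.continuous_fderiv (by simp)) u))) u := by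
    have hvol : HasFDerivAt (⇑(vol (E := E))) (vol (E := E)) (nem V hV1.continuous u) := by
      apply ContinuousLinearMap.hasFDerivAt
    exact hvol.comp u h1
  have h3 := (((hasFDerivAt_id u).sub_const (constL p.2)).sub (h2.const_smul p.1))
  exact h3

/-- The Neumann condition: `1 - s J D` is invertible. -/
lemma isInvertible_slice (V : E → E) (hV : ContDiff ℝ ∞ V) (K : ℝ≥0) (hK : LipschitzWith K V)
    (s : ℝ) (hs : |s| * K < 1) (u : C(I01, E)) :
    (ContinuousLinearMap.id ℝ (C(I01, E)) - s • ((vol (E := E)).comp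
        (papply (nem (fderiv ℝ V) ((hV.of_le (by exact_mod_cast le_top) : ContDiff ℝ 1 V).continuous_fderiv
          (by simp)) u)))).IsInvertible := by
  set t : C(I01, E) →L[ℝ] C(I01, E) := s • ((vol (E := E)).comp
        (papply (nem (fderiv ℝ V) ((hV.of_le (by exact_mod_cast le_top) : ContDiff ℝ 1 V).continuous_fderiv
          (by simp)) u))) with ht
  have hA : ‖nem (fderiv ℝ V) ((hV.of_le (by exact_mod_cast le_top) : ContDiff ℝ 1 V).continuous_fderiv
      (by simp)) u‖ ≤ K := by
    refine ContinuousMap.norm_le _ (by positivity) |>.2 fun τ => ?_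
    exact norm_fderiv_le_of_lipschitz ℝ hK
  have hD : ‖(papply (E := E) (F := E) (nem (fderiv ℝ V) ((hV.of_le (by exact_mod_cast le_top) : ContDiff ℝ 1 V).continuous_fderiv
      (by simp)) u))‖ ≤ K := by
    refine ContinuousLinearMap.opNorm_le_bound _ (by positivity) fun δ => ?_
    refine ContinuousMap.norm_le _ (by positivity) |>.2 fun τ => ?_
    rw [papply_apply]
    calc _ ≤ ‖nem (fderiv ℝ V) ((hV.of_le (by exact_mod_cast le_top) : ContDiff ℝ 1 V).continuous_fderiv
          (by simp)) u τ‖ * ‖δ τ‖ := ContinuousLinearMap.le_opNorm _ _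
      _ ≤ K * ‖δ‖ := by
        gcongr
        · exact norm_fderiv_le_of_lipschitz ℝ hK
        · exact δ.norm_coe_le_norm τ
  have hnorm : ‖t‖ < 1 := by
    rw [ht]
    refine lt_of_le_of_lt (ContinuousLinearMap.opNorm_smul_le _ _) ?_
    rw [Real.norm_eq_abs]
    calc |s| * ‖(vol (E := E)).comp _‖ ≤ |s| * (‖(vol (E := E))‖ * K) := by
          gcongr
          exact (ContinuousLinearMap.opNorm_comp_le _ _).trans (by gcongr)
      _ ≤ |s| * (1 * K) := by
          gcongr
          exact norm_vol_le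
      _ < 1 := by simpa using hs
  refine ⟨ContinuousLinearEquiv.unitsEquiv ℝ _ (Units.oneSub t hnorm), ?_⟩
  ext v
  simp


lemma contDiffAt_sol (V : E → E) (hV : ContDiff ℝ ∞ V) (K : ℝ≥0) (hK : LipschitzWith K V)
    (p : ℝ × E) (hp : |p.1| * K < 1) :
    ContDiffAt ℝ ∞ (sol V hV.continuous K hK) p := by
  set u₀ := sol V hV.continuous K hK p with hu₀
  set q : (ℝ × E) × C(I01, E) := (p, u₀) with hq
  have cdf : ContDiffAt ℝ ∞ (Fmap V hV.continuous) q := (contDiff_Fmap V hV).contDiffAt
  have pn : (∞ : WithTop ℕ∞) ≠ 0 := by simp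
  have hslice := hasFDerivAt_Fmap_slice V hV p u₀
  have hfull : HasFDerivAt (Fmap V hV.continuous) (fderiv ℝ (Fmap V hV.continuous) q) q :=
    (cdf.differentiableAt (by simp)).hasFDerivAt
  have hcomp : HasFDerivAt (fun v => Fmap V hV.continuous (p, v))
      ((fderiv ℝ (Fmap V hV.continuous) q).comp (.inr ℝ _ _)) u₀ :=
    hfull.comp u₀ (hasFDerivAt_prodMk_right p u₀)
  have heq := hcomp.unique hslice
  have if₂ : ((fderiv ℝ (Fmap V hV.continuous) q).comp
      (.inr ℝ (ℝ × E) (C(I01, E)))).IsInvertible := by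
    rw [heq]
    exact isInvertible_slice V hV K hK p.1 hp u₀
  have hψ : ContDiffAt ℝ ∞ (cdf.implicitFunction pn if₂) p :=
    cdf.contDiffAt_implicitFunction pn if₂
  have h0 : Fmap V hV.continuous q = 0 :=
    (Fmap_eq_zero_iff V hV.continuous p u₀).2 (sol_spec V hV.continuous K hK p hp)
  have hev := cdf.eventually_apply_implicitFunction pn if₂
  have hopen : ∀ᶠ r : ℝ × E in 𝓝 p, |r.1| * K < 1 := by
    have hc : Continuous fun r : ℝ × E => |r.1| * (K : ℝ) := by fun_prop
    exact hc.continuousAt.eventually (gt_mem_nhds hp)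
  refine hψ.congr_of_eventuallyEq ?_
  filter_upwards [hev, hopen] with r h1 h2
  rw [h0] at h1
  exact (sol_unique V hV.continuous K hK r h2 _
    ((Fmap_eq_zero_iff V hV.continuous r _).1 h1)).symm

/-- evaluation at the end point `1` -/
noncomputable def one01 : I01 := ⟨1, by simp⟩

/-- The flow. -/
noncomputable def flow (V : E → E) (hV : Continuous V) (K : ℝ≥0) (hK : LipschitzWith K V)
    (p : ℝ × E) : E :=
  sol V hV K hK p one01

lemma contDiffAt_flow (V : E → E) (hV : ContDiff ℝ ∞ V) (K : ℝ≥0) (hK : LipschitzWith K V)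
    (p : ℝ × E) (hp : |p.1| * K < 1) :
    ContDiffAt ℝ ∞ (flow V hV.continuous K hK) p := by
  have h : ContDiff ℝ ∞ (⇑(ContinuousMap.evalCLM ℝ one01 : C(I01, E) →L[ℝ] E)) := by
    apply ContinuousLinearMap.contDiff
  exact h.contDiffAt.comp p (contDiffAt_sol V hV K hK p hp)

/-- scaling of the time parameter -/
noncomputable def mul01 (a τ : I01) : I01 :=
  ⟨(a : ℝ) * τ, mul_nonneg a.2.1 τ.2.1, mul_le_one₀ a.2.2 τ.2.1 τ.2.2⟩

lemma continuous_mul01 (a : I01) : Continuous (mul01 a) := by
  unfold mul01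
  fun_prop

lemma abs_mul01_lt (s : ℝ) (K : ℝ≥0) (hs : |s| * K < 1) (a : I01) : |s * a| * K < 1 := by
  rw [abs_mul, abs_of_nonneg a.2.1]
  refine lt_of_le_of_lt ?_ hs
  have : |s| * (a : ℝ) ≤ |s| * 1 := by
    gcongr
    exact a.2.2
  rw [mul_one] at this
  gcongr

lemma sol_scale (V : E → E) (hV : Continuous V) (K : ℝ≥0) (hK : LipschitzWith K V)
    (s : ℝ) (x : E) (hs : |s| * K < 1) (a τ : I01) :
    sol V hV K hK (s * a, x) τ = sol V hV K hK (s, x) (mul01 a τ) := by
  set w := sol V hV K hK (s, x) with hw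
  set wa : C(I01, E) := w.comp ⟨mul01 a, continuous_mul01 a⟩ with hwa
  have hfix : Tmap V hV (s * a) x wa = wa := by
    ext σ
    have h1 : w (mul01 a σ) = Tmap V hV s x w (mul01 a σ) := by
      have := sol_spec V hV K hK (s, x) hs
      rw [← hw] at this
      simp only at this
      rw [this]
    show Tmap V hV (s * a) x wa σ = w (mul01 a σ)
    rw [h1]
    simp only [Tmap, ContinuousMap.add_apply, constL_apply, ContinuousMap.smul_apply, vol_apply]
    congr 1
    set g := ext01 (nem V hV w) with hg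
    have hcongr : ∫ r in (0 : ℝ)..σ, ext01 (nem V hV wa) r = ∫ r in (0 : ℝ)..σ, g ((a : ℝ) * r) := by
      refine intervalIntegral.integral_congr fun r hr => ?_
      have hr' : r ∈ Icc (0 : ℝ) 1 := by
        rw [uIcc_of_le σ.2.1] at hr
        exact ⟨hr.1, hr.2.trans σ.2.2⟩
      have hr'' : (a : ℝ) * r ∈ Icc (0 : ℝ) 1 :=
        ⟨mul_nonneg a.2.1 hr'.1, mul_le_one₀ a.2.2 hr'.1 hr'.2⟩
      show ext01 (nem V hV wa) r = ext01 (nem V hV w) ((a : ℝ) * r)
      rw [ext01_of_mem _ hr', ext01_of_mem _ hr'']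
      rfl
    rw [hcongr, mul_smul, intervalIntegral.smul_integral_comp_mul_left]
    simp [mul01, hg]
  have := sol_unique V hV K hK (s * a, x) (abs_mul01_lt s K hs a) wa hfix
  rw [← this]
  rfl

lemma sol_apply_eq_flow (V : E → E) (hV : Continuous V) (K : ℝ≥0) (hK : LipschitzWith K V)
    (s : ℝ) (x : E) (hs : |s| * K < 1) (a : I01) :
    sol V hV K hK (s, x) a = flow V hV K hK (s * a, x) := by
  have h := sol_scale V hV K hK s x hs a one01
  rw [flow, h]
  congr 1
  ext
  simp [mul01, one01]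

lemma flow_formula (V : E → E) (hV : Continuous V) (K : ℝ≥0) (hK : LipschitzWith K V)
    (s : ℝ) (x : E) (hs : |s| * K < 1) :
    flow V hV K hK (s, x) = x + ∫ r in (0 : ℝ)..s, V (flow V hV K hK (r, x)) := by
  have h1 := sol_spec V hV K hK (s, x) hs
  have h2 : flow V hV K hK (s, x) =
      Tmap V hV s x (sol V hV K hK (s, x)) one01 := by
    rw [h1]; rfl
  rw [h2]
  simp only [Tmap, ContinuousMap.add_apply, constL_apply, ContinuousMap.smul_apply, vol_apply]
  congr 1
  have hcongr : ∫ r in (0 : ℝ)..(one01 : ℝ), ext01 (nem V hV (sol V hV K hK (s, x))) r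
      = ∫ r in (0 : ℝ)..1, V (flow V hV K hK (s * r, x)) := by
    refine intervalIntegral.integral_congr fun r hr => ?_
    have hr' : r ∈ Icc (0 : ℝ) 1 := by
      simpa [one01] using hr
    show ext01 (nem V hV (sol V hV K hK (s, x))) r = V (flow V hV K hK (s * r, x))
    rw [ext01_of_mem _ hr', nem_apply, sol_apply_eq_flow V hV K hK s x hs ⟨r, hr'⟩]
  rw [hcongr]
  have := intervalIntegral.smul_integral_comp_mul_left (a := 0) (b := 1)
    (fun r => V (flow V hV K hK (r, x))) s
  simpa using this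

lemma hasDerivAt_flow (V : E → E) (hV : ContDiff ℝ ∞ V) (K : ℝ≥0) (hK : LipschitzWith K V)
    (s : ℝ) (x : E) (hs : |s| * K < 1) :
    HasDerivAt (fun r => flow V hV.continuous K hK (r, x))
      (V (flow V hV.continuous K hK (s, x))) s := by
  set G : ℝ → E := fun r => V (flow V hV.continuous K hK (r, x)) with hG
  have hcontAt : ∀ r : ℝ, |r| * (K : ℝ) < 1 → ContinuousAt G r := by
    intro r hr
    have h1 : ContinuousAt (flow V hV.continuous K hK) (r, x) :=
      (contDiffAt_flow V hV K hK (r, x) hr).continuousAt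
    have h2 : ContinuousAt (fun r : ℝ => (r, x)) r := by fun_prop
    have h3 : ContinuousAt (fun r : ℝ => flow V hV.continuous K hK (r, x)) r :=
      ContinuousAt.comp (f := fun r : ℝ => (r, x)) h1 h2
    exact hV.continuous.continuousAt.comp h3
  set U : Set ℝ := {r | |r| * (K : ℝ) < 1} with hU
  have hUo : IsOpen U := by
    have hc : Continuous fun r : ℝ => |r| * (K : ℝ) := by fun_prop
    exact isOpen_lt hc continuous_const
  have hGU : ContinuousOn G U := fun r hr => (hcontAt r hr).continuousWithinAt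
  have hsub : uIcc 0 s ⊆ U := by
    intro r hr
    have : |r| ≤ |s| := by
      rcases le_total 0 s with h | h
      · rw [uIcc_of_le h] at hr
        rw [abs_of_nonneg hr.1, abs_of_nonneg h]
        exact hr.2
      · rw [uIcc_of_ge h] at hr
        rw [abs_of_nonpos hr.2, abs_of_nonpos h]
        linarith [hr.1]
    show |r| * (K : ℝ) < 1
    refine lt_of_le_of_lt ?_ hs
    gcongr
  have hint : IntervalIntegrable G MeasureTheory.volume 0 s :=
    (hGU.mono hsub).intervalIntegrable
  have hmeas : StronglyMeasurableAtFilter G (𝓝 s) :=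
    hGU.stronglyMeasurableAtFilter hUo s hs
  have hFTC := intervalIntegral.integral_hasDerivAt_right hint hmeas (hcontAt s hs)
  have h := hFTC.const_add x
  refine h.congr_of_eventuallyEq ?_
  filter_upwards [hUo.mem_nhds hs] with r hr
  exact flow_formula V hV.continuous K hK r x hr

/-- **Smooth flow**: main theorem. -/
theorem exists_smooth_flow (V : E → E) (hV : ContDiff ℝ ∞ V) (K : ℝ≥0) (hK : LipschitzWith K V) :
    ∃ Φ : ℝ × E → E, (∀ p : ℝ × E, |p.1| * K < 1 → ContDiffAt ℝ ∞ Φ p) ∧
      (∀ x, Φ (0, x) = x) ∧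
      (∀ (s : ℝ) (x : E), |s| * (K : ℝ) < 1 → HasDerivAt (fun r => Φ (r, x)) (V (Φ (s, x))) s) := by
  refine ⟨flow V hV.continuous K hK, fun p hp => contDiffAt_flow V hV K hK p hp, fun x => ?_,
    fun s x hs => hasDerivAt_flow V hV K hK s x hs⟩
  have := flow_formula V hV.continuous K hK 0 x (by simp)
  simpa using this

end Flow

end Crest.Agent.Lib.SmoothFlow
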