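import Mathlib
import Crest.Agent.Lib.QuadricCurve
import Crest.Agent.Lib.SmoothFlow

/-!
# The Hamiltonian cone lift: construction
-/

set_option autoImplicit false
set_option linter.unusedSectionVars false

open scoped ContDiff Topology NNReal ComplexConjugate
open Set Crest.GeometryTopology.Quadric

namespace Crest.Agent.Lib.QuadricAlg

/-- Cut-off function. -/
noncomputable def chi (r : ℝ) : ℝ := Real.smoothTransition (3 - r)

lemma chi_eq_one {r : ℝ} (hr : r ≤ 2) : chi r = 1 :=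
  Real.smoothTransition.one_of_one_le (by linarith)

lemma chi_eq_zero {r : ℝ} (hr : 3 ≤ r) : chi r = 0 :=
  Real.smoothTransition.zero_of_nonpos (by linarith)

lemma contDiff_chi : ContDiff ℝ ∞ chi :=
  Real.smoothTransition.contDiff.comp (contDiff_const.sub contDiff_id)

/-- The Hamiltonian vector field of `hh ∘ mu`. -/
noncomputable def V0 (z : C5) : C5 := - A (grad (mu z)) z

/-- The cut-off vector field. -/
noncomputable def V1 (z : C5) : C5 := (chi (N z)) • V0 z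

/-- The small vector field. -/
noncomputable def Vf (ε : ℝ) (z : C5) : C5 := ε • V1 z

lemma A_real_smul (r : ℝ) (c : Fin 6 → ℝ) (z : C5) : A (r • c) z = r • A c z := by
  refine C5_ext ?_ ?_ ?_ ?_ ?_ <;> simp <;> ring

lemma Vf_eq (ε : ℝ) (z : C5) : Vf ε z = - A ((ε * chi (N z)) • grad (mu z)) z := by
  rw [A_real_smul, Vf, V1, V0, smul_neg, smul_neg, smul_smul]

lemma contDiff_V0 : ContDiff ℝ ∞ V0 := by
  refine (contDiff_A (fun b => contDiff_grad_comp (fun b => contDiff_mu ∞ b) b)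
    (fun j => contDiff_coord ∞ j)).neg

lemma contDiff_V1 : ContDiff ℝ ∞ V1 :=
  (contDiff_chi.comp (contDiff_N ∞)).smul contDiff_V0

lemma normSq_coord_le_N (z : C5) (j : Fin 5) : Complex.normSq (z j) ≤ N z := by
  rw [N_eq]
  have h : ∀ j, 0 ≤ (z j).re ^ 2 + (z j).im ^ 2 := fun j => by positivity
  have h0 := h 0
  have h1 := h 1
  have h2 := h 2
  have h3 := h 3
  have h4 := h 4
  rw [Complex.normSq_apply, ← pow_two, ← pow_two]
  fin_cases j
  · show (z 0).re ^ 2 + (z 0).im ^ 2 ≤ _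
    linarith
  · show (z 1).re ^ 2 + (z 1).im ^ 2 ≤ _
    linarith
  · show (z 2).re ^ 2 + (z 2).im ^ 2 ≤ _
    linarith
  · show (z 3).re ^ 2 + (z 3).im ^ 2 ≤ _
    linarith
  · show (z 4).re ^ 2 + (z 4).im ^ 2 ≤ _
    linarith

lemma hasCompactSupport_V1 : HasCompactSupport V1 := by
  refine HasCompactSupport.intro (isCompact_closedBall (0 : C5) 2) fun z hz => ?_
  have hz' : 2 < ‖z‖ := by simpa using hz
  -- some coordinate is large
  have hex : ∃ j, 2 < ‖z j‖ := by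
    by_contra hcon
    push Not at hcon
    have : ‖z‖ ≤ 2 := (pi_norm_le_iff_of_nonneg (by norm_num)).2 hcon
    linarith
  obtain ⟨j, hj⟩ := hex
  have h3 : 3 ≤ N z := by
    have h1 := normSq_coord_le_N z j
    rw [Complex.normSq_eq_norm_sq] at h1
    nlinarith [norm_nonneg (z j)]
  simp [V1, chi_eq_zero h3]

/-- The vector field for the flow on moment map level. -/
noncomputable def W1 (u : Fin 6 → ℝ) : Fin 6 → ℝ := (2 : ℝ) • cross (grad u) u

lemma contDiff_W1 : ContDiff ℝ ∞ W1 := by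
  have hu : ∀ b : Fin 6, ContDiff ℝ ∞ (fun u : Fin 6 → ℝ => u b) := fun b => contDiff_apply ℝ ℝ b
  have hg := fun b => contDiff_grad_comp (n := ∞) hu b
  refine contDiff_pi.2 fun b => ?_
  simp only [W1, Pi.smul_apply, smul_eq_mul]
  refine contDiff_const.mul ?_
  fin_cases b
  · exact ((hg 1).mul (hu 2)).sub ((hg 2).mul (hu 1))
  · exact ((hg 2).mul (hu 0)).sub ((hg 0).mul (hu 2))
  · exact ((hg 0).mul (hu 1)).sub ((hg 1).mul (hu 0))
  · exact (((hg 4).mul (hu 5)).sub ((hg 5).mul (hu 4))).neg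
  · exact (((hg 5).mul (hu 3)).sub ((hg 3).mul (hu 5))).neg
  · exact (((hg 3).mul (hu 4)).sub ((hg 4).mul (hu 3))).neg

/-- The bundled data of the smooth flow. -/
structure FlowData where
  /-- smallness parameter -/
  ε : ℝ
  hε : 0 < ε
  /-- Lipschitz constant -/
  K : ℝ≥0
  hK3 : 3 * (K : ℝ) < 1
  hK : LipschitzWith K (Vf ε)
  /-- The flow -/
  Φ : ℝ × C5 → C5
  smooth : ∀ p : ℝ × C5, |p.1| * (K : ℝ) < 1 → ContDiffAt ℝ ∞ Φ p
  init : ∀ x, Φ (0, x) = x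
  deriv : ∀ (s : ℝ) (x : C5), |s| * (K : ℝ) < 1 →
    HasDerivAt (fun r => Φ (r, x)) (Vf ε (Φ (s, x))) s
  /-- Lipschitz constant on moment map level -/
  L : ℝ≥0
  hL : (L : ℝ) < 1
  hW : LipschitzOnWith L (fun u => ε • W1 u) (Metric.closedBall (0 : Fin 6 → ℝ) 1)
  hC : ∀ z, ‖Vf ε z‖ ≤ 1 / 4

lemma contDiff_Vf (ε : ℝ) : ContDiff ℝ ∞ (Vf ε) := contDiff_V1.const_smul ε

theorem exists_flowData : Nonempty FlowData := by
  obtain ⟨K₁, hK₁⟩ := ContDiff.lipschitzWith_of_hasCompactSupport hasCompactSupport_V1 contDiff_V1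
    (by simp)
  obtain ⟨C₁, hC₁⟩ := hasCompactSupport_V1.exists_bound_of_continuous contDiff_V1.continuous
  obtain ⟨L₁, hL₁⟩ := (contDiff_W1.contDiffOn (s := Metric.closedBall (0 : Fin 6 → ℝ) 1)).exists_lipschitzOnWith
    (by simp) (convex_closedBall _ _) (isCompact_closedBall _ _)
  have hC₁0 : 0 ≤ C₁ := (norm_nonneg _).trans (hC₁ 0)
  set ε : ℝ := 1 / (3 * K₁ + L₁ + 4 * C₁ + 1) with hεdef
  have hden : 0 < 3 * (K₁ : ℝ) + L₁ + 4 * C₁ + 1 := by positivity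
  have hε : 0 < ε := by positivity
  have hε1 : ε * (3 * (K₁ : ℝ) + L₁ + 4 * C₁ + 1) = 1 := by
    rw [hεdef]; field_simp
  -- Lipschitz constant of `Vf ε`
  set εn : ℝ≥0 := ⟨ε, hε.le⟩ with hεn
  have hεc : (εn : ℝ) = ε := rfl
  have hVf : LipschitzWith (εn * K₁) (Vf ε) := by
    refine LipschitzWith.of_dist_le_mul fun x y => ?_
    rw [dist_eq_norm, dist_eq_norm]
    have : Vf ε x - Vf ε y = ε • (V1 x - V1 y) := by simp [Vf, smul_sub]
    rw [this, norm_smul, Real.norm_eq_abs, abs_of_pos hε]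
    have h1 := hK₁.dist_le_mul x y
    rw [dist_eq_norm, dist_eq_norm] at h1
    push_cast
    rw [mul_assoc, hεc]
    gcongr
  have hWε : LipschitzOnWith (εn * L₁) (fun u => ε • W1 u)
      (Metric.closedBall (0 : Fin 6 → ℝ) 1) := by
    refine LipschitzOnWith.of_dist_le_mul fun x hx y hy => ?_
    rw [dist_eq_norm, dist_eq_norm]
    have : ε • W1 x - ε • W1 y = ε • (W1 x - W1 y) := by simp [smul_sub]
    rw [this, norm_smul, Real.norm_eq_abs, abs_of_pos hε]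
    have h1 := hL₁.dist_le_mul x hx y hy
    rw [dist_eq_norm, dist_eq_norm] at h1
    push_cast
    rw [mul_assoc, hεc]
    gcongr
  obtain ⟨Φ, h1, h2, h3⟩ := SmoothFlow.exists_smooth_flow (Vf ε) (contDiff_Vf ε) (εn * K₁) hVf
  refine ⟨⟨ε, hε, εn * K₁, ?_, hVf, Φ, h1, h2, h3, εn * L₁, ?_, hWε, ?_⟩⟩
  · push_cast
    rw [hεc]
    have : 0 < ε * (L₁ + 4 * C₁ + 1) := by positivity
    nlinarith
  · push_cast
    rw [hεc]
    have : 0 < ε * (3 * K₁ + 4 * C₁ + 1) := by positivity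
    nlinarith
  · intro z
    have hz : ‖Vf ε z‖ = ε * ‖V1 z‖ := by
      rw [Vf, norm_smul, Real.norm_eq_abs, abs_of_pos hε]
    rw [hz]
    have : ε * ‖V1 z‖ ≤ ε * C₁ := by
      gcongr
      exact hC₁ z
    have h6 : 0 ≤ ε * (3 * K₁ + L₁ + 1) := by positivity
    nlinarith

namespace FlowData

variable (D : FlowData)

lemma lt_of_abs_lt {s : ℝ} (hs : |s| < 3) : |s| * (D.K : ℝ) < 1 := by
  have h0 : (0 : ℝ) ≤ D.K := D.K.2
  calc |s| * (D.K : ℝ) ≤ 3 * (D.K : ℝ) := by gcongr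
    _ < 1 := D.hK3

lemma hderiv {s : ℝ} (hs : |s| < 3) (x : C5) :
    HasDerivAt (fun r => D.Φ (r, x)) (Vf D.ε (D.Φ (s, x))) s :=
  D.deriv s x (D.lt_of_abs_lt hs)

lemma hderiv_A {s : ℝ} (hs : |s| < 3) (x : C5) :
    HasDerivAt (fun r => D.Φ (r, x))
      (- A ((D.ε * chi (N (D.Φ (s, x)))) • grad (mu (D.Φ (s, x)))) (D.Φ (s, x))) s := by
  rw [← Vf_eq]
  exact D.hderiv hs x

/-- Constancy along the flow on `(-3, 3)`. -/
lemma const_of_deriv_zero {F : Type*} [NormedAddCommGroup F] [NormedSpace ℝ F] (f : ℝ → F)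
    (hf : ∀ s, |s| < 3 → HasDerivAt f 0 s) {s : ℝ} (hs : |s| < 3) : f s = f 0 := by
  have hconv : Convex ℝ (Ioo (-3 : ℝ) 3) := convex_Ioo _ _
  have hmem : ∀ {r : ℝ}, r ∈ Ioo (-3 : ℝ) 3 ↔ |r| < 3 := by
    intro r; rw [abs_lt]; simp
  have h0 : (0 : ℝ) ∈ Ioo (-3 : ℝ) 3 := by norm_num
  refine hconv.is_const_of_fderivWithin_eq_zero (𝕜 := ℝ)
    (fun r hr => (hf r (hmem.1 hr)).differentiableAt.differentiableWithinAt) ?_ (hmem.2 hs) h0
  intro r hr
  have := (hf r (hmem.1 hr)).hasFDerivAt.hasFDerivWithinAt (s := Ioo (-3 : ℝ) 3)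
  rw [this.fderivWithin (isOpen_Ioo.uniqueDiffWithinAt hr)]
  ext
  simp

lemma N_flow (x : C5) {s : ℝ} (hs : |s| < 3) : N (D.Φ (s, x)) = N x := by
  have h := const_of_deriv_zero (fun r => N (D.Φ (r, x)))
    (fun r hr => hasDerivAt_N_of_A _ (D.hderiv_A hr x)) hs
  rw [h, D.init]

lemma Sq_flow (x : C5) {s : ℝ} (hs : |s| < 3) : Sq (D.Φ (s, x)) = Sq x := by
  have h := const_of_deriv_zero (fun r => Sq (D.Φ (r, x)))
    (fun r hr => hasDerivAt_Sq_of_A _ (D.hderiv_A hr x)) hs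
  rw [h, D.init]

lemma four_flow (x : C5) {s : ℝ} (hs : |s| < 3) : D.Φ (s, x) 4 = x 4 := by
  have h := const_of_deriv_zero (fun r => D.Φ (r, x) 4)
    (fun r hr => hasDerivAt_four_of_A _ (D.hderiv_A hr x)) hs
  rw [h, D.init]

lemma flow_mem_cone {x : C5} (hx : x ∈ unitCone) {s : ℝ} (hs : |s| < 3) :
    D.Φ (s, x) ∈ unitCone := by
  rw [mem_unitCone_iff] at hx ⊢
  rw [D.N_flow x hs, D.Sq_flow x hs]
  exact hx

/-- equivariance of the vector field -/
lemma Vf_smul (ε : ℝ) (a : ℂ) (ha : ‖a‖ = 1) (z : C5) : Vf ε (a • z) = a • Vf ε z := by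
  simp only [Vf, V1, V0, N_smul_of_norm_one a ha, mu_smul_of_norm_one a ha, A_smul]
  ext j
  simp only [Pi.smul_apply, Pi.neg_apply, smul_eq_mul, Complex.real_smul]
  ring

/-- uniqueness of the flow lines on `(-3, 3)` -/
lemma flow_unique {f : ℝ → C5} {x : C5} (hf : ∀ s, |s| < 3 → HasDerivAt f (Vf D.ε (f s)) s)
    (h0 : f 0 = x) {s : ℝ} (hs : |s| < 3) : f s = D.Φ (s, x) := by
  have hmem : ∀ {r : ℝ}, r ∈ Ioo (-3 : ℝ) 3 ↔ |r| < 3 := by
    intro r; rw [abs_lt]; simp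
  have := ODE_solution_unique_of_mem_Ioo (v := fun _ => Vf D.ε) (s := fun _ => univ) (K := D.K)
    (f := f) (g := fun r => D.Φ (r, x)) (a := -3) (b := 3) (t₀ := 0)
    (fun _ _ => D.hK.lipschitzOnWith) (by norm_num)
    (fun t ht => ⟨hf t (hmem.1 ht), mem_univ _⟩)
    (fun t ht => ⟨D.hderiv (hmem.1 ht) x, mem_univ _⟩)
    (by rw [h0]; exact (D.init x).symm)
  exact this (hmem.2 hs)

lemma flow_smul (a : ℂ) (ha : ‖a‖ = 1) (x : C5) {s : ℝ} (hs : |s| < 3) :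
    D.Φ (s, a • x) = a • D.Φ (s, x) := by
  refine (D.flow_unique (x := a • x) (f := fun r => a • D.Φ (r, x)) ?_ ?_ hs).symm
  · intro r hr
    have h1 := (D.hderiv hr x).const_smul a
    rw [Vf_smul _ a ha]
    exact h1
  · simp [D.init]

end FlowData

end Crest.Agent.Lib.QuadricAlg
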