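import Mathlib
import Crest.Agent.Lib.QuadricLift

/-!
# The Hamiltonian cone lift with exactly three fixed lines, one of them degenerate
-/

set_option autoImplicit false
set_option linter.unusedSectionVars false

open scoped ContDiff Topology NNReal ComplexConjugate
open Set Crest.GeometryTopology.Quadric

namespace Crest.Agent.Lib.QuadricAlg

/-- time reparametrisation: the identity on `[-1,2]`, bounded by 3. -/
noncomputable def bet (t : ℝ) : ℝ :=
  t * (Real.smoothTransition (t + 2) * Real.smoothTransition (3 - t))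

lemma contDiff_bet : ContDiff ℝ ∞ bet :=
  contDiff_id.mul ((Real.smoothTransition.contDiff.comp (contDiff_id.add contDiff_const)).mul
    (Real.smoothTransition.contDiff.comp (contDiff_const.sub contDiff_id)))

lemma bet_eq_self {t : ℝ} (h1 : -1 ≤ t) (h2 : t ≤ 2) : bet t = t := by
  have h3 : Real.smoothTransition (t + 2) = 1 := Real.smoothTransition.one_of_one_le (by linarith)
  have h4 : Real.smoothTransition (3 - t) = 1 := Real.smoothTransition.one_of_one_le (by linarith)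
  simp [bet, h3, h4]

lemma abs_bet_lt (t : ℝ) : |bet t| < 3 := by
  by_cases ht : 3 ≤ t
  · have h4 : Real.smoothTransition (3 - t) = 0 :=
      Real.smoothTransition.zero_of_nonpos (by linarith)
    simp [bet, h4]
  by_cases ht' : t ≤ -3
  · have h4 : Real.smoothTransition (t + 2) = 0 :=
      Real.smoothTransition.zero_of_nonpos (by linarith)
    simp [bet, h4]
  push Not at ht ht'
  have h0 : |t| < 3 := abs_lt.2 ⟨ht', ht⟩
  rw [bet, abs_mul]
  have h1 := Real.smoothTransition.nonneg (t + 2)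
  have h2 := Real.smoothTransition.nonneg (3 - t)
  have h3 := Real.smoothTransition.le_one (t + 2)
  have h4 := Real.smoothTransition.le_one (3 - t)
  have h5 : |Real.smoothTransition (t + 2) * Real.smoothTransition (3 - t)| ≤ 1 := by
    rw [abs_of_nonneg (mul_nonneg h1 h2)]
    exact mul_le_one₀ h3 h2 h4
  calc _ ≤ |t| * 1 := by gcongr
    _ < 3 := by simpa using h0

namespace FlowData

variable (D : FlowData)

/-- The isotopy. -/
noncomputable def Ψ (p : ℝ × C5) : C5 := Rot p.1 (D.Φ (bet p.1, p.2))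

/-- The Hamiltonian. -/
noncomputable def HH (p : ℝ × C5) : ℝ :=
  - Real.pi * mu p.2 0 + D.ε * hh (mu (Rot (-p.1) p.2))

lemma contDiffAt_flow_comp (t : ℝ) (z : C5) :
    ContDiffAt ℝ ∞ (fun q : ℝ × C5 => D.Φ (bet q.1, q.2)) (t, z) := by
  have h1 : ContDiffAt ℝ ∞ D.Φ (bet t, z) := D.smooth _ (D.lt_of_abs_lt (abs_bet_lt t))
  have h2 : ContDiff ℝ ∞ (fun q : ℝ × C5 => (bet q.1, q.2)) :=
    (contDiff_bet.comp contDiff_fst).prodMk contDiff_snd
  exact ContDiffAt.comp (t, z) (g := D.Φ) (f := fun q : ℝ × C5 => (bet q.1, q.2)) h1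
    h2.contDiffAt

lemma contDiff_Ψ : ContDiff ℝ ∞ D.Ψ := by
  rw [contDiff_iff_contDiffAt]
  rintro ⟨t, z⟩
  have h2 : ContDiff ℝ ∞ (fun q : ℝ × (C5) => Rot q.1 q.2) := contDiff_Rot contDiff_fst contDiff_snd
  have h3 : ContDiffAt ℝ ∞ (fun q : ℝ × C5 => (q.1, D.Φ (bet q.1, q.2))) (t, z) :=
    contDiffAt_fst.prodMk (D.contDiffAt_flow_comp t z)
  exact ContDiffAt.comp (t, z) (g := fun q : ℝ × C5 => Rot q.1 q.2)
    (f := fun q : ℝ × C5 => (q.1, D.Φ (bet q.1, q.2))) h2.contDiffAt h3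

lemma contDiff_hh_comp {n : WithTop ℕ∞} {E : Type*} [NormedAddCommGroup E] [NormedSpace ℝ E]
    {u : E → Fin 6 → ℝ} (hu : ∀ b, ContDiff ℝ n (fun x => u x b)) :
    ContDiff ℝ n (fun x => hh (u x)) :=
  (((((hu 0).add (hu 5)).sub ((hu 0).mul (hu 3))).sub ((hu 1).mul (hu 4))).sub ((hu 2).mul (hu 5)))

lemma contDiff_HH : ContDiff ℝ ∞ D.HH := by
  have h1 : ContDiff ℝ ∞ (fun p : ℝ × C5 => mu p.2 0) := (contDiff_mu ∞ 0).comp contDiff_snd
  have h2 : ContDiff ℝ ∞ (fun p : ℝ × C5 => Rot (-p.1) p.2) :=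
    contDiff_Rot contDiff_fst.neg contDiff_snd
  have h3 : ∀ b, ContDiff ℝ ∞ (fun p : ℝ × C5 => mu (Rot (-p.1) p.2) b) :=
    fun b => (contDiff_mu ∞ b).comp h2
  exact (contDiff_const.mul h1).add (contDiff_const.mul (contDiff_hh_comp h3))

lemma Ψ_mem_cone (t : ℝ) {z : C5} (hz : z ∈ unitCone) : D.Ψ (t, z) ∈ unitCone := by
  have := D.flow_mem_cone hz (abs_bet_lt t)
  rw [mem_unitCone_iff] at this ⊢
  simp only [Ψ, N_Rot, Sq_Rot]
  exact this

lemma Ψ_compatible (t : ℝ) (z : C5) (a : ℂ) (ha : ‖a‖ = 1) :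
    D.Ψ (t, a • z) = a • D.Ψ (t, z) := by
  simp only [Ψ]
  rw [D.flow_smul a ha z (abs_bet_lt t), Rot_smul]

lemma Ψ_start (z : C5) : D.Ψ (0, z) = z := by
  have h : bet 0 = 0 := bet_eq_self (by norm_num) (by norm_num)
  simp only [Ψ, h, D.init, Rot_zero]

lemma HH_invariant (t : ℝ) (z : C5) (a : ℂ) (ha : ‖a‖ = 1) :
    D.HH (t, a • z) = D.HH (t, z) := by
  simp only [HH]
  rw [Rot_smul, mu_smul_of_norm_one a ha, mu_smul_of_norm_one a ha]

/-- On the unit sphere the vector field is not cut off. -/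
lemma Vf_of_N (ε : ℝ) (y : C5) (hy : N y ≤ 2) : Vf ε y = ε • (- A (grad (mu y)) y) := by
  simp [Vf, V1, V0, chi_eq_one hy]

/-- Hamilton's equation. -/
lemma hamilton (t : ℝ) (ht : t ∈ Icc (0 : ℝ) 1) (z : C5) (hz : z ∈ unitCone) (w : C5) :
    2 * (herm (_root_.deriv (fun s : ℝ => D.Ψ (s, z)) t) w).im =
      fderiv ℝ (fun x : C5 => D.HH (t, x)) (D.Ψ (t, z)) w := by
  have hbt : bet t = t := bet_eq_self (by linarith [ht.1]) (by linarith [ht.2])
  have ht3 : |t| < 3 := by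
    rw [abs_lt]; constructor <;> linarith [ht.1, ht.2]
  set y := D.Φ (t, z) with hy
  have hyN : N y = 1 := by
    rw [hy, D.N_flow z ht3]
    exact ((mem_unitCone_iff z).1 hz).1
  set a := Rot t y with ha
  have hΨ : D.Ψ (t, z) = a := by simp only [Ψ, hbt, ← hy, ha]
  -- time derivative of the isotopy
  have hcurve : HasDerivAt (fun r => D.Φ (bet r, z)) (Vf D.ε y) t := by
    refine (D.hderiv ht3 z).congr_of_eventuallyEq ?_
    have hnhds : Ioo (-1 : ℝ) 2 ∈ 𝓝 t := Ioo_mem_nhds (by linarith [ht.1]) (by linarith [ht.2])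
    filter_upwards [hnhds] with r hr
    rw [bet_eq_self hr.1.le hr.2.le]
  have hcurve' : HasDerivAt (fun r => Rot r (D.Φ (bet r, z)))
      ((Real.pi : ℝ) • A (e 0) a + Rot t (Vf D.ε y)) t := by
    have := hasDerivAt_Rot hcurve
    simpa only [hbt, ← hy, ← ha] using this
  have hderiv_eq : _root_.deriv (fun s : ℝ => D.Ψ (s, z)) t =
      (Real.pi : ℝ) • A (e 0) a + Rot t (Vf D.ε y) := hcurve'.deriv
  -- space derivative of the Hamiltonian
  have hdiff : DifferentiableAt ℝ (fun x : C5 => D.HH (t, x)) a := by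
    have h1 : ContDiff ℝ ∞ (fun x : C5 => D.HH (t, x)) :=
      D.contDiff_HH.comp (contDiff_const.prodMk contDiff_id)
    exact (h1.differentiable (by simp)) a
  have hline : HasDerivAt (fun τ : ℝ => a + τ • w) w 0 := by
    simpa using ((hasDerivAt_id (0 : ℝ)).smul_const w).const_add a
  have h1 := hdiff.hasFDerivAt.comp_hasDerivAt_of_eq (0 : ℝ) hline (by simp)
  have hline2 : HasDerivAt (fun τ : ℝ => Rot (-t) (a + τ • w)) (Rot (-t) w) 0 := by
    have h3 : (fun τ : ℝ => Rot (-t) (a + τ • w)) = fun τ => Rot (-t) a + τ • Rot (-t) w := by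
      funext τ; exact Rot_add_smul _ _ _ _
    rw [h3]
    simpa using ((hasDerivAt_id (0 : ℝ)).smul_const (Rot (-t) w)).const_add (Rot (-t) a)
  have h2a := hasDerivAt_mu 0 hline
  have h2b := hasDerivAt_hh_mu hline2
  have h2 : HasDerivAt (fun τ : ℝ => D.HH (t, a + τ • w))
      (- Real.pi * (-2 * Q (A (e 0) (a + (0 : ℝ) • w)) w) +
        D.ε * (-2 * Q (A (grad (mu (Rot (-t) (a + (0 : ℝ) • w)))) (Rot (-t) (a + (0 : ℝ) • w)))
          (Rot (-t) w))) 0 :=
    (h2a.const_mul (-Real.pi)).add (h2b.const_mul D.ε)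
  have hequal := h1.unique h2
  simp only [zero_smul, add_zero] at hequal
  have hRa : Rot (-t) a = y := by rw [ha, Rot_neg_Rot]
  rw [hRa] at hequal
  rw [hΨ]
  show 2 * Q (_root_.deriv (fun s : ℝ => D.Ψ (s, z)) t) w = _
  have hfd : fderiv ℝ (fun x : C5 => D.HH (t, x)) a w =
      - Real.pi * (-2 * Q (A (e 0) a) w) + D.ε * (-2 * Q (A (grad (mu y)) y) (Rot (-t) w)) :=
    hequal
  have hneg : ∀ u v : C5, Q (-u) v = - Q u v := by
    intro u v
    rw [Q_eq, Q_eq]
    simp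
    ring
  rw [hfd, hderiv_eq, Q_add_left, Q_smul_real_left, Q_Rot,
    FlowData.Vf_of_N _ _ (by rw [hyN]; norm_num), Q_smul_real_left, hneg]
  ring

/-- The lift -/
noncomputable def lift : HamiltonianConeLift where
  Ψ := D.Ψ
  H := D.HH
  smooth_Ψ := D.contDiff_Ψ
  smooth_H := D.contDiff_HH
  mapsTo_cone := fun t _ hz => D.Ψ_mem_cone t hz
  compatible := fun t z _ c hc => ⟨c, D.Ψ_compatible t z c hc⟩
  start := fun z _ => ⟨1, by simp [D.Ψ_start]⟩
  invariant := fun t z _ c hc => D.HH_invariant t z c hc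
  hamilton := fun t ht z hz w _ => D.hamilton t ht z hz w

end FlowData

end Crest.Agent.Lib.QuadricAlg
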