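import Mathlib
import Crest.Agent.Lib.QuadricFinal

/-!
# Fixed lines of the time one map
-/

set_option autoImplicit false
set_option linter.unusedSectionVars false

open scoped ContDiff Topology NNReal ComplexConjugate
open Set Crest.GeometryTopology.Quadric

namespace Crest.Agent.Lib.QuadricAlg

lemma bet_one : bet 1 = 1 := bet_eq_self (by norm_num) (by norm_num)

lemma cross_smul (r : ℝ) (c u : Fin 6 → ℝ) : cross (r • c) u = r • cross c u := by
  ext b
  fin_cases b <;> simp [cross] <;> ring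

lemma N_eq_norm (z : C5) :
    N z = ‖z 0‖ ^ 2 + ‖z 1‖ ^ 2 + ‖z 2‖ ^ 2 + ‖z 3‖ ^ 2 + ‖z 4‖ ^ 2 := by
  rw [N_eq]
  simp only [Complex.sq_norm, Complex.normSq_apply]
  ring

namespace FlowData

variable (D : FlowData)

/-- The moment map along a flow line on the quadric surface. -/
lemma hasDerivAt_mu_flow (z : C5) (hN : N z = 1) {s : ℝ} (hs : |s| < 3) :
    HasDerivAt (fun r => mu (D.Φ (r, z))) (D.ε • W1 (mu (D.Φ (s, z)))) s := by
  refine hasDerivAt_pi.2 fun b => ?_
  have hNs : N (D.Φ (s, z)) = 1 := by rw [D.N_flow z hs, hN]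
  refine (hasDerivAt_mu_of_A _ (D.hderiv_A hs z) b).congr_deriv ?_
  rw [hNs, chi_eq_one (by norm_num), mul_one, cross_smul]
  simp [W1]
  ring

lemma mu_mem_closedBall {y : C5} (h4 : y 4 = 0) (hN : N y = 1) (hS : Sq y = 0) :
    mu y ∈ Metric.closedBall (0 : Fin 6 → ℝ) 1 := by
  have h1 := mu_sq_fst y h4
  have h2 := mu_sq_snd y h4
  rw [hN, hS] at h1 h2
  simp only [Complex.zero_re, Complex.zero_im] at h1 h2
  rw [mem_closedBall_zero_iff, pi_norm_le_iff_of_nonneg (by norm_num)]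
  intro b
  rw [Real.norm_eq_abs]
  refine abs_le_one_iff_mul_self_le_one.2 ?_
  have h3 := sq_nonneg (mu y 0)
  have h4' := sq_nonneg (mu y 1)
  have h5 := sq_nonneg (mu y 2)
  have h6 := sq_nonneg (mu y 3)
  have h7 := sq_nonneg (mu y 4)
  have h8 := sq_nonneg (mu y 5)
  fin_cases b
  · show mu y 0 * mu y 0 ≤ 1
    nlinarith
  · show mu y 1 * mu y 1 ≤ 1
    nlinarith
  · show mu y 2 * mu y 2 ≤ 1
    nlinarith
  · show mu y 3 * mu y 3 ≤ 1
    nlinarith
  · show mu y 4 * mu y 4 ≤ 1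
    nlinarith
  · show mu y 5 * mu y 5 ≤ 1
    nlinarith

/-- A fixed line on the quadric surface comes from a critical point of `h`. -/
lemma crit_of_fixed (z : C5) (h4 : z 4 = 0) (hN : N z = 1) (hS : Sq z = 0)
    (hfix : mu (D.Φ (1, z)) = mu z) : mu z = u1 ∨ mu z = u2 ∨ mu z = u3 := by
  have hs1 : ∀ t ∈ Icc (0 : ℝ) 1, |t| < 3 := fun t ht => by
    rw [abs_lt]; constructor <;> linarith [ht.1, ht.2]
  have hy := yorke (fun r => mu (D.Φ (r, z))) (fun u => D.ε • W1 u)
    (Metric.closedBall (0 : Fin 6 → ℝ) 1) D.L D.hL D.hW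
    (fun t ht => mu_mem_closedBall (by rw [D.four_flow z (hs1 t ht), h4])
      (by rw [D.N_flow z (hs1 t ht), hN]) (by rw [D.Sq_flow z (hs1 t ht), hS]))
    (fun t ht => D.hasDerivAt_mu_flow z hN (hs1 t ht))
    (by simp only [D.init, hfix]) 0 (by simp)
  simp only [D.init] at hy
  have hW : W1 (mu z) = 0 := by
    have := (smul_eq_zero.1 hy)
    rcases this with h | h
    · exact absurd h D.hε.ne'
    · exact h
  have hc : cross (grad (mu z)) (mu z) = 0 := by
    have := (smul_eq_zero.1 hW)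
    rcases this with h | h
    · norm_num at h
    · exact h
  have h1 := mu_sq_fst z h4
  have h2 := mu_sq_snd z h4
  rw [hN, hS] at h1 h2
  simp only [Complex.zero_re, Complex.zero_im] at h1 h2
  exact crit_cases (mu z) (by linarith) (by linarith) hc

/-- Fixed lines lie on the quadric surface and over critical points. -/
lemma classify_fixed {z : C5} (hz : z ∈ unitCone) {c : ℂ} (hc : c • z = D.Ψ (1, z)) :
    z 4 = 0 ∧ (mu z = u1 ∨ mu z = u2 ∨ mu z = u3) := by
  have hz' := (mem_unitCone_iff z).1 hz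
  have h13 : |(1 : ℝ)| < 3 := by norm_num
  set y := D.Φ (1, z) with hy
  have hΨ : D.Ψ (1, z) = ![- y 0, - y 1, - y 2, - y 3, y 4] := by
    simp only [FlowData.Ψ, bet_one, ← hy, Rot_one]
  rw [hΨ] at hc
  have c0 : c * z 0 = - y 0 := congrFun hc 0
  have c1 : c * z 1 = - y 1 := congrFun hc 1
  have c2 : c * z 2 = - y 2 := congrFun hc 2
  have c3 : c * z 3 = - y 3 := congrFun hc 3
  have c4 : c * z 4 = y 4 := congrFun hc 4
  have y4 : y 4 = z 4 := D.four_flow z h13
  by_cases h4 : z 4 = 0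
  · refine ⟨h4, ?_⟩
    have hyz : y = (-c) • z := by
      refine C5_ext ?_ ?_ ?_ ?_ ?_
      · simp only [Pi.smul_apply, smul_eq_mul]; linear_combination c0
      · simp only [Pi.smul_apply, smul_eq_mul]; linear_combination c1
      · simp only [Pi.smul_apply, smul_eq_mul]; linear_combination c2
      · simp only [Pi.smul_apply, smul_eq_mul]; linear_combination c3
      · simp only [Pi.smul_apply, smul_eq_mul, y4, h4, mul_zero]
    have hnorm : Complex.normSq (-c) = 1 := by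
      have h1 : N y = 1 := by rw [hy, D.N_flow z h13, hz'.1]
      rw [hyz, N_smul, hz'.1, mul_one] at h1
      exact h1
    have hfix : mu (D.Φ (1, z)) = mu z := by
      rw [← hy, hyz, mu_smul, hnorm, one_smul]
    exact D.crit_of_fixed z h4 hz'.1 hz'.2 hfix
  · exfalso
    have hc1 : c = 1 := by
      rw [y4] at c4
      exact mul_right_cancel₀ h4 (c4.trans (one_mul _).symm)
    rw [hc1, one_mul] at c0 c1 c2 c3
    -- the flow moves points little
    have hf' : ∀ r ∈ Icc (0 : ℝ) 1, HasDerivWithinAt (fun r => D.Φ (r, z))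
        (Vf D.ε (D.Φ (r, z))) (Icc 0 1) r := fun r hr =>
      (D.hderiv (by rw [abs_lt]; constructor <;> linarith [hr.1, hr.2]) z).hasDerivWithinAt
    have hmv := norm_image_sub_le_of_norm_deriv_le_segment_01' hf' (fun r _ => D.hC _)
    simp only [D.init, ← hy] at hmv
    have hcoord : ∀ j, ‖y j - z j‖ ≤ 1 / 4 := fun j =>
      (norm_le_pi_norm (y - z) j).trans hmv
    have hsmall : ∀ u v : ℂ, u = - v → ‖v - u‖ ≤ 1 / 4 → ‖u‖ ^ 2 ≤ 1 / 64 := by
      intro u v huv hle
      have : v - u = (-2 : ℂ) * u := by rw [huv]; ring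
      rw [this, norm_mul] at hle
      simp only [norm_neg, Complex.norm_ofNat] at hle
      have h0 := norm_nonneg u
      have hu : ‖u‖ ≤ 1 / 8 := by linarith
      nlinarith
    have s0 := hsmall _ _ c0 (hcoord 0)
    have s1 := hsmall _ _ c1 (hcoord 1)
    have s2 := hsmall _ _ c2 (hcoord 2)
    have s3' := hsmall _ _ c3 (hcoord 3)
    have hS := hz'.2
    rw [Sq_eq] at hS
    have h44 : z 4 ^ 2 = - (z 0 ^ 2 + z 1 ^ 2 + z 2 ^ 2 + z 3 ^ 2) := by
      linear_combination hS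
    have hn4 : ‖z 4‖ ^ 2 ≤ ‖z 0‖ ^ 2 + ‖z 1‖ ^ 2 + ‖z 2‖ ^ 2 + ‖z 3‖ ^ 2 := by
      rw [← norm_pow, h44, norm_neg]
      refine (norm_add_le _ _).trans ?_
      refine add_le_add ((norm_add_le _ _).trans ?_) (by rw [norm_pow])
      refine add_le_add ((norm_add_le _ _).trans ?_) (by rw [norm_pow])
      rw [norm_pow, norm_pow]
    have hN := hz'.1
    rw [N_eq_norm] at hN
    linarith

/-- Eigenvector formula for the vector field. -/
lemma Vf_eigen (ε : ℝ) (z : C5) (h4 : z 4 = 0) (hN : N z = 1) (hS : Sq z = 0) (l : ℝ)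
    (hg : grad (mu z) = l • mu z) :
    Vf ε z = ((-2 * ε * l : ℝ) * Complex.I) • z := by
  rw [FlowData.Vf_of_N _ _ (by rw [hN]; norm_num), hg, A_real_smul, A_mu_of_cone z h4 hN hS]
  ext j
  simp only [Pi.smul_apply, Pi.neg_apply, Complex.real_smul, smul_eq_mul]
  push_cast
  ring

/-- Explicit flow lines over the critical points. -/
lemma flow_eigen (z : C5) (h4 : z 4 = 0) (hN : N z = 1) (hS : Sq z = 0) (l : ℝ)
    (hg : grad (mu z) = l • mu z) {s : ℝ} (hs : |s| < 3) :
    D.Φ (s, z) = Complex.exp (((-2 * D.ε * l * s : ℝ) : ℂ) * Complex.I) • z := by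
  refine (D.flow_unique (x := z)
    (f := fun r => Complex.exp (((-2 * D.ε * l * r : ℝ) : ℂ) * Complex.I) • z) ?_ (by simp) hs).symm
  intro r _
  have hu : ‖Complex.exp (((-2 * D.ε * l * r : ℝ) : ℂ) * Complex.I)‖ = 1 :=
    Complex.norm_exp_ofReal_mul_I _
  rw [FlowData.Vf_smul _ _ hu, Vf_eigen D.ε z h4 hN hS l hg]
  have h1 : HasDerivAt (fun r : ℝ => ((-2 * D.ε * l * r : ℝ) : ℂ) * Complex.I)
      (((-2 * D.ε * l : ℝ) : ℂ) * Complex.I) r := by
    have := ((hasDerivAt_id r).const_mul (-2 * D.ε * l)).ofReal_comp.mul_const Complex.I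
    simpa using this
  have h2 := (h1.cexp).smul_const z
  refine h2.congr_deriv ?_
  ext j
  simp only [Pi.smul_apply, smul_eq_mul]
  ring

/-- The lines over the critical points are fixed. -/
lemma fixed_of_eigen (z : C5) (h4 : z 4 = 0) (hN : N z = 1) (hS : Sq z = 0) (l : ℝ)
    (hg : grad (mu z) = l • mu z) : D.Ψ (1, z) ∈ Submodule.span ℂ {z} := by
  rw [Submodule.mem_span_singleton]
  refine ⟨- Complex.exp (((-2 * D.ε * l * 1 : ℝ) : ℂ) * Complex.I), ?_⟩
  simp only [FlowData.Ψ, bet_one]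
  rw [D.flow_eigen z h4 hN hS l hg (by norm_num), Rot_smul, Rot_one]
  refine C5_ext ?_ ?_ ?_ ?_ ?_ <;> simp [h4]

end FlowData

lemma z1_mem : z1 ∈ unitCone := (mem_unitCone_iff _).2 ⟨N_z1, Sq_z1⟩
lemma z2_mem : z2 ∈ unitCone := (mem_unitCone_iff _).2 ⟨N_z2, Sq_z2⟩
lemma z3_mem : z3 ∈ unitCone := (mem_unitCone_iff _).2 ⟨N_z3, Sq_z3⟩

lemma z1_four : z1 4 = 0 := rfl
lemma z2_four : z2 4 = 0 := rfl
lemma z3_four : z3 4 = 0 := rfl

/-- Lines of the cone points are separated by the moment map. -/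
lemma mu_eq_of_span_eq {a b : C5} (ha : N a = 1) (hb : N b = 1)
    (h : Submodule.span ℂ {a} = Submodule.span ℂ {b}) : mu a = mu b := by
  have h1 : a ∈ Submodule.span ℂ {b} := by
    rw [← h]; exact Submodule.mem_span_singleton_self a
  obtain ⟨k, hk⟩ := Submodule.mem_span_singleton.1 h1
  have hk1 : Complex.normSq k = 1 := by
    have := N_smul k b
    rw [hk, ha, hb, mul_one] at this
    exact this.symm
  rw [← hk, mu_smul, hk1, one_smul]

lemma u1_ne_u2 : u1 ≠ u2 := by
  intro h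
  have := congrFun h 0
  simp [u1, u2] at this
  have h2 := s3_pos
  linarith

lemma u1_ne_u3 : u1 ≠ u3 := by
  intro h
  have := congrFun h 0
  simp [u1, u3] at this
  have h2 := s3_pos
  linarith

lemma u2_ne_u3 : u2 ≠ u3 := by
  intro h
  have := congrFun h 0
  simp [u2, u3] at this
  have h2 := s3_pos
  linarith

/-- Spans of nonzero multiples agree. -/
lemma span_eq_of_eq_smul {z w : C5} {a : ℂ} (h : z = a • w) (hz : N z = 1) :
    Submodule.span ℂ {z} = Submodule.span ℂ {w} := by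
  have ha : a ≠ 0 := by
    rintro rfl
    rw [zero_smul] at h
    rw [h] at hz
    simp [N, herm] at hz
  rw [h]
  exact Submodule.span_singleton_smul_eq (IsUnit.mk0 a ha) w

namespace FlowData

variable (D : FlowData)

theorem fixedLines_eq :
    fixedLines D.lift =
      {Submodule.span ℂ {z1}, Submodule.span ℂ {z2}, Submodule.span ℂ {z3}} := by
  ext ℓ
  simp only [fixedLines, mem_ofPred_eq, mem_insert_iff, mem_singleton_iff]
  constructor
  · rintro ⟨z, hz, rfl, hfix⟩
    have hz' := (mem_unitCone_iff z).1 hz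
    obtain ⟨c, hc⟩ := Submodule.mem_span_singleton.1 hfix
    obtain ⟨h4, hcase⟩ := D.classify_fixed hz hc
    have hA := A_mu_of_cone z h4 hz'.1 hz'.2
    rcases hcase with h | h | h
    · rw [h] at hA
      exact Or.inl (span_eq_of_eq_smul (eq_smul_z1 z h4 hA) hz'.1)
    · rw [h] at hA
      exact Or.inr (Or.inl (span_eq_of_eq_smul (eq_smul_z2 z h4 hA) hz'.1))
    · rw [h] at hA
      exact Or.inr (Or.inr (span_eq_of_eq_smul (eq_smul_z3 z h4 hA) hz'.1))
  · rintro (rfl | rfl | rfl)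
    · refine ⟨z1, z1_mem, rfl, ?_⟩
      refine D.fixed_of_eigen z1 z1_four N_z1 Sq_z1 0 ?_
      rw [mu_z1, grad_u1, zero_smul]
    · refine ⟨z2, z2_mem, rfl, ?_⟩
      refine D.fixed_of_eigen z2 z2_four N_z2 Sq_z2 s3 ?_
      rw [mu_z2, grad_u2]
    · refine ⟨z3, z3_mem, rfl, ?_⟩
      refine D.fixed_of_eigen z3 z3_four N_z3 Sq_z3 (-s3) ?_
      rw [mu_z3, grad_u3]

theorem ncard_fixedLines : (fixedLines D.lift).ncard = 3 := by
  rw [D.fixedLines_eq, Set.ncard_eq_three]
  refine ⟨_, _, _, ?_, ?_, ?_, rfl⟩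
  · intro h
    have := mu_eq_of_span_eq N_z1 N_z2 h
    rw [mu_z1, mu_z2] at this
    exact u1_ne_u2 this
  · intro h
    have := mu_eq_of_span_eq N_z1 N_z3 h
    rw [mu_z1, mu_z3] at this
    exact u1_ne_u3 this
  · intro h
    have := mu_eq_of_span_eq N_z2 N_z3 h
    rw [mu_z2, mu_z3] at this
    exact u2_ne_u3 this

end FlowData

end Crest.Agent.Lib.QuadricAlg
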