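import Mathlib
import Crest.Agent.Lib.QuadricFix

/-!
# The fixed line over the critical point `(e₃, e₁)` is degenerate
-/

set_option autoImplicit false
set_option linter.unusedSectionVars false

open scoped ContDiff Topology NNReal ComplexConjugate
open Set Crest.GeometryTopology.Quadric

namespace Crest.Agent.Lib.QuadricAlg

/-- The kernel direction at the degenerate fixed point. -/
noncomputable def w1 : C5 := ![0, Complex.I / 2, 0, -Complex.I / 2, 0]

lemma mu_line (τ : ℝ) : mu (z1 + τ • w1) = ![τ, 0, 1, 1, 0, -τ] := by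
  ext b
  fin_cases b <;> simp [z1, w1, p] <;> ring

lemma N_line (τ : ℝ) : N (z1 + τ • w1) = 1 + τ ^ 2 / 2 := by
  rw [N_eq]
  simp [z1, w1]
  ring

lemma V0_line (τ : ℝ) :
    - A (grad (mu (z1 + τ • w1))) (z1 + τ • w1) =
      (τ ^ 2 : ℝ) • (![Complex.I, 0, Complex.I, 0, 0] : C5) := by
  rw [mu_line]
  refine C5_ext ?_ ?_ ?_ ?_ ?_ <;> simp [grad, z1, w1] <;> ring

lemma hasDerivAt_Vf_line (ε : ℝ) :
    HasDerivAt (fun τ : ℝ => Vf ε (z1 + τ • w1)) 0 0 := by
  have h1 : HasDerivAt (fun τ : ℝ => (ε * τ ^ 2) • (![Complex.I, 0, Complex.I, 0, 0] : C5)) 0 0 := by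
    have h2 : HasDerivAt (fun τ : ℝ => ε * τ ^ 2) (ε * (2 * 0)) 0 := by
      have := ((hasDerivAt_id (0 : ℝ)).pow 2).const_mul ε
      simpa using this
    have := h2.smul_const (![Complex.I, 0, Complex.I, 0, 0] : C5)
    simpa using this
  refine h1.congr_of_eventuallyEq ?_
  have hnhds : Ioo (-1 : ℝ) 1 ∈ 𝓝 (0 : ℝ) := Ioo_mem_nhds (by norm_num) (by norm_num)
  filter_upwards [hnhds] with τ hτ
  have hN : N (z1 + τ • w1) ≤ 2 := by
    rw [N_line]
    have : τ ^ 2 ≤ 1 := by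
      rw [sq_le_one_iff_abs_le_one, abs_le]
      exact ⟨hτ.1.le, hτ.2.le⟩
    linarith
  rw [FlowData.Vf_of_N _ _ hN, V0_line, smul_smul]

lemma fderiv_Vf_w1 (ε : ℝ) : fderiv ℝ (Vf ε) z1 w1 = 0 := by
  have hd : DifferentiableAt ℝ (Vf ε) z1 := ((contDiff_Vf ε).differentiable (by simp)) z1
  have hline : HasDerivAt (fun τ : ℝ => z1 + τ • w1) w1 0 := by
    simpa using ((hasDerivAt_id (0 : ℝ)).smul_const w1).const_add z1
  have h1 := hd.hasFDerivAt.comp_hasDerivAt_of_eq (0 : ℝ) hline (by simp)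
  exact h1.unique (hasDerivAt_Vf_line ε)

lemma hasDerivAt_Rot_const {y : ℝ → C5} {v : C5} {s : ℝ} (t : ℝ) (h : HasDerivAt y v s) :
    HasDerivAt (fun r => Rot t (y r)) (Rot t v) s := by
  have hc := fun j => hasDerivAt_coord h j
  refine hasDerivAt_pi.2 fun j => ?_
  fin_cases j
  · exact ((hc 0).const_mul _).add ((hc 1).const_mul _)
  · exact ((hc 0).const_mul _).add ((hc 1).const_mul _)
  · exact ((hc 2).const_mul _).add ((hc 3).const_mul _)
  · exact ((hc 2).const_mul _).add ((hc 3).const_mul _)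
  · exact hc 4

namespace FlowData

variable (D : FlowData)

lemma flow_z1 {s : ℝ} (hs : |s| < 3) : D.Φ (s, z1) = z1 := by
  rw [D.flow_eigen z1 z1_four N_z1 Sq_z1 0 (by rw [mu_z1, grad_u1, zero_smul]) hs]
  simp

lemma contDiffAt_flow {s : ℝ} (hs : |s| < 3) (x : C5) : ContDiffAt ℝ ∞ D.Φ (s, x) :=
  D.smooth _ (D.lt_of_abs_lt hs)

lemma hasFDerivAt_flow {s : ℝ} (hs : |s| < 3) (x : C5) :
    HasFDerivAt D.Φ (fderiv ℝ D.Φ (s, x)) (s, x) :=
  ((D.contDiffAt_flow hs x).differentiableAt (by simp)).hasFDerivAt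

/-- The time derivative is the vector field. -/
lemma fderiv_time {s : ℝ} (hs : |s| < 3) (x : C5) :
    fderiv ℝ D.Φ (s, x) ((1 : ℝ), (0 : C5)) = Vf D.ε (D.Φ (s, x)) := by
  have hline : HasDerivAt (fun r : ℝ => (r, x)) ((1 : ℝ), (0 : C5)) s :=
    (hasDerivAt_id s).prodMk (hasDerivAt_const s x)
  have h1 := (D.hasFDerivAt_flow hs x).comp_hasDerivAt s hline
  exact h1.unique (D.hderiv hs x)

/-- The variation field. -/
noncomputable def xi (s : ℝ) : C5 := fderiv ℝ D.Φ (s, z1) ((0 : ℝ), w1)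

lemma hasDerivAt_space_line {s : ℝ} (hs : |s| < 3) :
    HasDerivAt (fun τ : ℝ => D.Φ (s, z1 + τ • w1)) (D.xi s) 0 := by
  have hline : HasDerivAt (fun τ : ℝ => (s, z1 + τ • w1)) ((0 : ℝ), w1) 0 := by
    have h2 : HasDerivAt (fun τ : ℝ => z1 + τ • w1) w1 0 := by
      simpa using ((hasDerivAt_id (0 : ℝ)).smul_const w1).const_add z1
    exact (hasDerivAt_const (0 : ℝ) s).prodMk h2
  exact (D.hasFDerivAt_flow hs z1).comp_hasDerivAt_of_eq (0 : ℝ) hline (by simp)

/-- The variational equation. -/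
lemma hasDerivAt_xi {s : ℝ} (hs : |s| < 3) :
    HasDerivAt D.xi (fderiv ℝ (Vf D.ε) z1 (D.xi s)) s := by
  set G := fderiv ℝ D.Φ with hG
  have hc := D.contDiffAt_flow hs z1
  have hGd : DifferentiableAt ℝ G (s, z1) := by
    have h1 : ContDiffAt ℝ ∞ G (s, z1) := hc.fderiv_right (m := ∞) (by simp)
    exact h1.differentiableAt (by simp)
  have hsymm : IsSymmSndFDerivAt ℝ D.Φ (s, z1) :=
    hc.isSymmSndFDerivAt (by simp only [minSmoothness_of_isRCLikeNormedField]; norm_cast)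
  set G' := fderiv ℝ G (s, z1) with hG'
  -- time derivative of the variation
  have hline : HasDerivAt (fun r : ℝ => (r, z1)) ((1 : ℝ), (0 : C5)) s :=
    (hasDerivAt_id s).prodMk (hasDerivAt_const s z1)
  have h1 : HasDerivAt (fun r : ℝ => G (r, z1)) (G' ((1 : ℝ), (0 : C5))) s :=
    hGd.hasFDerivAt.comp_hasDerivAt s hline
  have h2 : HasDerivAt D.xi (G' ((1 : ℝ), (0 : C5)) ((0 : ℝ), w1)) s := by
    have := h1.clm_apply (hasDerivAt_const s ((0 : ℝ), w1))
    show HasDerivAt (fun y => G (y, z1) ((0 : ℝ), w1)) _ s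
    simpa using this
  refine h2.congr_deriv ?_
  rw [hsymm ((1 : ℝ), (0 : C5)) ((0 : ℝ), w1)]
  -- space derivative of the velocity
  have hspace : HasDerivAt (fun τ : ℝ => (s, z1 + τ • w1)) ((0 : ℝ), w1) 0 := by
    have h2 : HasDerivAt (fun τ : ℝ => z1 + τ • w1) w1 0 := by
      simpa using ((hasDerivAt_id (0 : ℝ)).smul_const w1).const_add z1
    exact (hasDerivAt_const (0 : ℝ) s).prodMk h2
  have h3 : HasDerivAt (fun τ : ℝ => G (s, z1 + τ • w1)) (G' ((0 : ℝ), w1)) 0 :=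
    hGd.hasFDerivAt.comp_hasDerivAt_of_eq (0 : ℝ) hspace (by simp)
  have h4 : HasDerivAt (fun τ : ℝ => G (s, z1 + τ • w1) ((1 : ℝ), (0 : C5)))
      (G' ((0 : ℝ), w1) ((1 : ℝ), (0 : C5))) 0 := by
    have := h3.clm_apply (hasDerivAt_const (0 : ℝ) ((1 : ℝ), (0 : C5)))
    simpa using this
  have h5 : (fun τ : ℝ => G (s, z1 + τ • w1) ((1 : ℝ), (0 : C5))) =
      fun τ : ℝ => Vf D.ε (D.Φ (s, z1 + τ • w1)) := by
    funext τ
    exact D.fderiv_time hs _
  rw [h5] at h4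
  have hVd : DifferentiableAt ℝ (Vf D.ε) z1 := ((contDiff_Vf D.ε).differentiable (by simp)) z1
  have h6 : HasDerivAt (fun τ : ℝ => Vf D.ε (D.Φ (s, z1 + τ • w1)))
      (fderiv ℝ (Vf D.ε) z1 (D.xi s)) 0 :=
    hVd.hasFDerivAt.comp_hasDerivAt_of_eq (0 : ℝ) (D.hasDerivAt_space_line hs)
      (by simp [D.flow_z1 hs])
  exact h4.unique h6

lemma xi_zero : D.xi 0 = w1 := by
  have h0 : |(0 : ℝ)| < 3 := by norm_num
  have h1 := D.hasDerivAt_space_line h0
  simp only [D.init] at h1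
  have h2 : HasDerivAt (fun τ : ℝ => z1 + τ • w1) w1 0 := by
    simpa using ((hasDerivAt_id (0 : ℝ)).smul_const w1).const_add z1
  exact h1.unique h2

lemma xi_eq (s : ℝ) (hs : s ∈ Icc (0 : ℝ) 1) : D.xi s = w1 := by
  set L := fderiv ℝ (Vf D.ε) z1 with hL
  have habs : ∀ t ∈ Icc (0 : ℝ) 1, |t| < 3 := fun t ht => by
    rw [abs_lt]; constructor <;> linarith [ht.1, ht.2]
  have := ODE_solution_unique_of_mem_Icc_right (v := fun _ => (L : C5 → C5)) (s := fun _ => univ)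
    (K := ‖L‖₊) (f := D.xi) (g := fun _ => w1) (a := 0) (b := 1)
    (fun _ _ => L.lipschitz.lipschitzOnWith)
    (fun t ht => (D.hasDerivAt_xi (habs t ht)).continuousAt.continuousWithinAt)
    (fun t ht => (D.hasDerivAt_xi (habs t (Ico_subset_Icc_self ht))).hasDerivWithinAt)
    (fun _ _ => mem_univ _)
    continuousOn_const
    (fun t _ => by
      have h1 : L w1 = 0 := fderiv_Vf_w1 D.ε
      simp only [h1]
      exact (hasDerivAt_const t w1).hasDerivWithinAt)
    (fun _ _ => mem_univ _)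
    D.xi_zero
  exact this hs

/-- The space derivative of the time one map at the degenerate point in the direction `w1`. -/
lemma fderiv_Ψ_w1 :
    fderiv ℝ (fun x : C5 => D.lift.Ψ (1, x)) z1 w1 = (-1 : ℂ) • (w1 + (((0 : ℝ) : ℂ) * Complex.I) • z1) := by
  have h13 : |(1 : ℝ)| < 3 := by norm_num
  have hd : DifferentiableAt ℝ (fun x : C5 => D.lift.Ψ (1, x)) z1 := by
    have h1 : ContDiff ℝ ∞ (fun x : C5 => D.Ψ (1, x)) :=
      D.contDiff_Ψ.comp (contDiff_const.prodMk contDiff_id)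
    exact (h1.differentiable (by simp)) z1
  have hline : HasDerivAt (fun τ : ℝ => z1 + τ • w1) w1 0 := by
    simpa using ((hasDerivAt_id (0 : ℝ)).smul_const w1).const_add z1
  have h1 := hd.hasFDerivAt.comp_hasDerivAt_of_eq (0 : ℝ) hline (by simp)
  have h2 : HasDerivAt (fun τ : ℝ => Rot 1 (D.Φ (1, z1 + τ • w1))) (Rot 1 w1) 0 := by
    have h3 := D.hasDerivAt_space_line h13
    rw [D.xi_eq 1 (by simp)] at h3
    exact hasDerivAt_Rot_const 1 h3
  have h4 : HasDerivAt (fun τ : ℝ => D.lift.Ψ (1, z1 + τ • w1)) (Rot 1 w1) 0 := by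
    refine h2.congr_of_eventuallyEq (Filter.Eventually.of_forall fun τ => ?_)
    simp only [lift, FlowData.Ψ, bet_one]
  have h5 := h1.unique h4
  rw [h5, Rot_one]
  refine C5_ext ?_ ?_ ?_ ?_ ?_ <;> simp [w1]

theorem hasDegenerate : HasDegenerateFixedPoint D.lift := by
  have h13 : |(1 : ℝ)| < 3 := by norm_num
  refine ⟨z1, z1_mem, -1, ?_, w1, ⟨?_, ?_⟩, ?_, 0, D.fderiv_Ψ_w1⟩
  · show D.Ψ (1, z1) = _
    simp only [FlowData.Ψ, bet_one, D.flow_z1 h13, Rot_one]
    refine C5_ext ?_ ?_ ?_ ?_ ?_ <;> simp [z1]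
  · simp only [herm, Fin.sum_univ_five, Complex.add_re, Complex.mul_re, Complex.conj_re,
      Complex.conj_im]
    simp [z1, w1]
    norm_num
  · simp [Fin.sum_univ_five, z1, w1]
    ring
  · intro r hr
    have h0 := congrFun hr 0
    have h1 := congrFun hr 1
    simp [z1, w1] at h0 h1
    have hr0 : r = 0 := by
      simpa using h0
    rw [hr0] at h1
    simp at h1

end FlowData

end Crest.Agent.Lib.QuadricAlg
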