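import Crest.Agent.Lib.TetraArea

set_option autoImplicit false
set_option maxHeartbeats 4000000

open MeasureTheory

namespace Crest.Agent.Lib.RadialSweep

open Crest.Agent.Lib.TetraArea (gram triSet area_triSet convexHull_three_eq gram_nonneg)

abbrev E3 := EuclideanSpace ℝ (Fin 3)

/-- Coordinates on the plane spanned by `a, b`. -/
theorem exists_coords (e a b : E3) (he : ‖e‖ = 1) (ha : inner ℝ a e = 0) (hb : inner ℝ b e = 0)
    (hab : LinearIndependent ℝ ![a, b]) :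
    ∃ X Y : E3 →L[ℝ] ℝ, X a = 1 ∧ X b = 0 ∧ Y a = 0 ∧ Y b = 1 ∧
      ∀ v : E3, inner ℝ v e = 0 → v = X v • a + Y v • b := by
  have hee : inner ℝ e e = (1 : ℝ) := by rw [real_inner_self_eq_norm_sq, he]; norm_num
  have hnotin : e ∉ Submodule.span ℝ (Set.range ![a, b]) := by
    intro hmem
    have hperp : ∀ v ∈ Submodule.span ℝ (Set.range ![a, b]), inner ℝ v e = (0 : ℝ) := by
      intro v hv
      induction hv using Submodule.span_induction with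
      | mem x hx =>
        obtain ⟨i, rfl⟩ := hx
        fin_cases i
        · exact ha
        · exact hb
      | zero => simp
      | add x y _ _ hx hy => rw [inner_add_left, hx, hy, add_zero]
      | smul r x _ hx => rw [inner_smul_left, hx, mul_zero]
    have := hperp e hmem
    rw [hee] at this
    exact one_ne_zero this
  have hli : LinearIndependent ℝ ![e, a, b] := by
    have := (linearIndependent_finCons (x := e) (v := ![a, b])).2 ⟨hab, hnotin⟩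
    exact this
  have hcard : Fintype.card (Fin 3) = Module.finrank ℝ E3 := by simp
  let B := basisOfLinearIndependentOfCardEqFinrank hli hcard
  have hB0 : B 0 = e := by simp [B]
  have hB1 : B 1 = a := by simp [B]
  have hB2 : B 2 = b := by simp [B]
  let X : E3 →L[ℝ] ℝ := LinearMap.toContinuousLinearMap (B.coord 1)
  let Y : E3 →L[ℝ] ℝ := LinearMap.toContinuousLinearMap (B.coord 2)
  have hX : ∀ v, X v = B.coord 1 v := fun v => rfl
  have hY : ∀ v, Y v = B.coord 2 v := fun v => rfl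
  refine ⟨X, Y, ?_, ?_, ?_, ?_, ?_⟩
  · rw [hX, ← hB1]; simp
  · rw [hX, ← hB2]; simp
  · rw [hY, ← hB1]; simp
  · rw [hY, ← hB2]; simp
  · intro v hv
    have hexp := B.sum_repr v
    rw [Fin.sum_univ_three, hB0, hB1, hB2] at hexp
    have h0 : B.repr v 0 = 0 := by
      have h1 : inner ℝ v e = B.repr v 0 := by
        conv_lhs => rw [← hexp]
        rw [inner_add_left, inner_add_left, inner_smul_left, inner_smul_left, inner_smul_left, hee, ha, hb]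
        simp
      rw [← h1, hv]
    rw [h0, zero_smul, zero_add] at hexp
    rw [hX, hY]
    exact hexp.symm

/-- Projection along `d` onto `d^⊥`. -/
noncomputable def prj (d y : E3) : E3 := y - (inner ℝ y d / ‖d‖ ^ 2) • d

theorem prj_add (d x y : E3) : prj d (x + y) = prj d x + prj d y := by
  simp only [prj, inner_add_left, add_div, add_smul]; abel

theorem prj_smul (d x : E3) (r : ℝ) : prj d (r • x) = r • prj d x := by
  simp only [prj, inner_smul_left, smul_sub, smul_smul]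
  congr 2
  simp
  ring

theorem prj_sub (d x y : E3) : prj d (x - y) = prj d x - prj d y := by
  simp only [prj, inner_sub_left, sub_div, sub_smul]; abel

theorem prj_self (d : E3) (hd : d ≠ 0) : prj d d = 0 := by
  have h : ‖d‖ ^ 2 ≠ 0 := by positivity
  simp only [prj, real_inner_self_eq_norm_sq, div_self h, one_smul, sub_self]

theorem prj_add_smul (d y : E3) (hd : d ≠ 0) (σ : ℝ) : prj d (y + σ • d) = prj d y := by
  rw [prj_add, prj_smul, prj_self d hd, smul_zero, add_zero]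

theorem inner_prj (d y : E3) (hd : d ≠ 0) : inner ℝ (prj d y) d = 0 := by
  have h : ‖d‖ ^ 2 ≠ 0 := by positivity
  simp only [prj, inner_sub_left, inner_smul_left, real_inner_self_eq_norm_sq]
  simp
  field_simp
  ring

theorem eq_prj_add (d y : E3) : y = prj d y + (inner ℝ y d / ‖d‖ ^ 2) • d := by
  simp [prj]

theorem inner_prj_prj (d x y : E3) (hd : d ≠ 0) :
    inner ℝ (prj d x) (prj d y) = inner ℝ x y - inner ℝ x d * inner ℝ y d / ‖d‖ ^ 2 := by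
  have h : ‖d‖ ^ 2 ≠ 0 := by positivity
  simp only [prj, inner_sub_left, inner_sub_right, inner_smul_left, inner_smul_right,
    real_inner_self_eq_norm_sq, real_inner_comm d x, real_inner_comm d y]
  simp
  field_simp
  ring

/-- gram of combinations. -/
theorem gram_comb (A B : E3) (u₁ u₂ v₁ v₂ : ℝ) :
    gram (u₁ • A + u₂ • B) (v₁ • A + v₂ • B) = (u₁ * v₂ - u₂ * v₁) ^ 2 * gram A B := by
  unfold gram
  simp only [← real_inner_self_eq_norm_sq]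
  simp only [inner_add_left, inner_add_right, inner_smul_left, inner_smul_right, real_inner_comm A B]
  simp
  ring

/-- Area factor of the oblique projection. -/
theorem gram_prj (e a b w : E3) (he : ‖e‖ = 1) (ha : inner ℝ a e = 0) (hb : inner ℝ b e = 0)
    (hw : inner ℝ w e = 0) (α β : ℝ) (hwab : w = α • a + β • b) :
    gram (prj (e + w) a) (prj (e + w) b) = gram a b / (1 + ‖w‖ ^ 2) := by
  have hee : inner ℝ e e = (1 : ℝ) := by rw [real_inner_self_eq_norm_sq, he]; norm_num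
  have hdn : ‖e + w‖ ^ 2 = 1 + ‖w‖ ^ 2 := by
    rw [@norm_add_sq_real, he, real_inner_comm, hw]; ring
  have hD : (1 + ‖w‖ ^ 2) ≠ 0 := by positivity
  have hd : e + w ≠ 0 := by
    intro h0
    rw [h0, norm_zero] at hdn
    norm_num at hdn
    nlinarith [sq_nonneg ‖w‖]
  have hXd : inner ℝ a (e + w) = inner ℝ a w := by rw [inner_add_right, ha, zero_add]
  have hYd : inner ℝ b (e + w) = inner ℝ b w := by rw [inner_add_right, hb, zero_add]
  have hW0 : ‖w‖ ^ 2 = α ^ 2 * inner ℝ a a + 2 * α * β * inner ℝ a b + β ^ 2 * inner ℝ b b := by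
    rw [← real_inner_self_eq_norm_sq, hwab]
    simp only [inner_add_left, inner_add_right, real_inner_smul_left, real_inner_smul_right,
      real_inner_comm a b]
    ring
  have hX0 : inner ℝ a w = α * inner ℝ a a + β * inner ℝ a b := by
    rw [hwab, inner_add_right, real_inner_smul_right, real_inner_smul_right]
  have hY0 : inner ℝ b w = α * inner ℝ a b + β * inner ℝ b b := by
    rw [hwab, inner_add_right, real_inner_smul_right, real_inner_smul_right, real_inner_comm a b]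
  unfold gram
  simp only [← real_inner_self_eq_norm_sq (prj (e + w) a), ← real_inner_self_eq_norm_sq (prj (e + w) b)]
  rw [inner_prj_prj _ _ _ hd, inner_prj_prj _ _ _ hd, inner_prj_prj _ _ _ hd, hXd, hYd, hdn]
  rw [← real_inner_self_eq_norm_sq a, ← real_inner_self_eq_norm_sq b, hX0, hY0]
  generalize inner ℝ a a = A at *
  generalize inner ℝ b b = B at *
  generalize inner ℝ a b = C at *
  field_simp
  rw [hW0]
  ring

/-- Two-variable MVT estimates. -/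
theorem wedge_estimates (a b : E3) (X Y : E3 →L[ℝ] ℝ) (hXa : X a = 1) (hXb : X b = 0) (hYa : Y a = 0)
    (hYb : Y b = 1) (α β : ℝ) (w : ℝ → E3) (lam : ℝ → ℝ)
    (hw' : ∀ t ∈ Set.Icc α β, HasDerivWithinAt w (lam t • (a + t • b)) (Set.Icc α β) t)
    (Λ : ℝ) (hΛ : ∀ t ∈ Set.Icc α β, |lam t| ≤ Λ) (τ c : ℝ) (hτ : τ ∈ Set.Icc α β) (hc : c ∈ Set.Icc α β) :
    |X (w τ) - X (w c)| ≤ Λ * |τ - c| ∧
      |(Y (w τ) - Y (w c)) - τ * (X (w τ) - X (w c))| ≤ Λ * |τ - c| * |τ - c| := by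
  have hs : Set.uIcc c τ ⊆ Set.Icc α β := Set.uIcc_subset_Icc hc hτ
  have hΛ0 : 0 ≤ Λ := (abs_nonneg _).trans (hΛ c hc)
  have hX : ∀ t ∈ Set.uIcc c τ, HasDerivWithinAt (fun σ => X (w σ)) (lam t) (Set.uIcc c τ) t := by
    intro t ht
    have h1 := ((hw' t (hs ht)).mono hs)
    have h2 := X.hasFDerivAt.comp_hasDerivWithinAt t h1
    have e : X (lam t • (a + t • b)) = lam t := by
      simp [hXa, hXb]
    rw [e] at h2
    exact h2
  have hY : ∀ t ∈ Set.uIcc c τ, HasDerivWithinAt (fun σ => Y (w σ)) (lam t * t) (Set.uIcc c τ) t := by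
    intro t ht
    have h1 := ((hw' t (hs ht)).mono hs)
    have h2 := Y.hasFDerivAt.comp_hasDerivWithinAt t h1
    have e : Y (lam t • (a + t • b)) = lam t * t := by
      simp [hYa, hYb]
    rw [e] at h2
    exact h2
  have hcs : c ∈ Set.uIcc c τ := Set.left_mem_uIcc
  have hτs : τ ∈ Set.uIcc c τ := Set.right_mem_uIcc
  constructor
  · have := Convex.norm_image_sub_le_of_norm_hasDerivWithin_le (f := fun σ => X (w σ)) (f' := lam)
      (s := Set.uIcc c τ) (C := Λ) hX (fun t ht => by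
        rw [Real.norm_eq_abs]; exact hΛ t (hs ht)) (convex_uIcc c τ) hcs hτs
    simpa [Real.norm_eq_abs] using this
  · have hZ : ∀ t ∈ Set.uIcc c τ, HasDerivWithinAt (fun σ => Y (w σ) - τ * X (w σ))
        (lam t * (t - τ)) (Set.uIcc c τ) t := by
      intro t ht
      have := (hY t ht).sub ((hX t ht).const_mul τ)
      have e : lam t * t - τ * lam t = lam t * (t - τ) := by ring
      rw [e] at this
      exact this
    have hbound : ∀ t ∈ Set.uIcc c τ, ‖lam t * (t - τ)‖ ≤ Λ * |τ - c| := by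
      intro t ht
      rw [norm_mul, Real.norm_eq_abs, Real.norm_eq_abs]
      apply mul_le_mul (hΛ t (hs ht)) _ (abs_nonneg _) hΛ0
      rw [Set.mem_uIcc] at ht
      rcases ht with ⟨h1, h2⟩ | ⟨h1, h2⟩
      · rw [abs_le]; constructor
        · rw [abs_of_nonneg (by linarith)]; linarith
        · have := abs_nonneg (τ - c); linarith
      · rw [abs_le]; constructor
        · have := abs_nonneg (τ - c); linarith
        · rw [abs_of_nonpos (by linarith)]; linarith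
    have := Convex.norm_image_sub_le_of_norm_hasDerivWithin_le (f := fun σ => Y (w σ) - τ * X (w σ))
      (f' := fun t => lam t * (t - τ)) (s := Set.uIcc c τ) (C := Λ * |τ - c|) hZ hbound
      (convex_uIcc c τ) hcs hτs
    rw [Real.norm_eq_abs, Real.norm_eq_abs] at this
    have e : Y (w τ) - τ * X (w τ) - (Y (w c) - τ * X (w c)) =
      (Y (w τ) - Y (w c)) - τ * (X (w τ) - X (w c)) := by ring
    rw [e] at this
    exact this

/-- barycentric arithmetic -/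
theorem bary_arith (ρ f E τ t t' Rp Λ' ξ : ℝ) (hΔ : t < t') (hρ0 : 0 ≤ ρ) (hρ : ρ ≤ Rp) (hf : |f| ≤ Λ')
    (hE : |E| ≤ Λ' * (t' - t)) (hτ : t ≤ τ) (hτ' : τ ≤ t') (hξ : 0 < ξ) :
    ∃ u v : ℝ, 0 ≤ u ∧ 0 ≤ v ∧ u + v ≤ 1 ∧
      (ρ + f) + 4 * Λ' = (u + v) * (Rp + 5 * Λ' + ξ) ∧
      τ * (ρ + f) + E + 4 * Λ' * t + 2 * Λ' * (t' - t) = (u * t + v * t') * (Rp + 5 * Λ' + ξ) := by
  have hΛ0 : 0 ≤ Λ' := (abs_nonneg f).trans hf
  obtain ⟨hf1, hf2⟩ := abs_le.mp hf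
  obtain ⟨hE1, hE2⟩ := abs_le.mp hE
  have hΔ' : 0 < t' - t := sub_pos.mpr hΔ
  obtain ⟨Δ, hΔd⟩ : ∃ Δ, Δ = t' - t := ⟨_, rfl⟩
  rw [← hΔd] at hΔ' hE1 hE2 ⊢
  obtain ⟨H, hH⟩ : ∃ H, H = Rp + 5 * Λ' + ξ := ⟨_, rfl⟩
  rw [← hH]
  have hHpos : 0 < H := by rw [hH]; linarith
  obtain ⟨Q, hQ⟩ : ∃ Q, Q = (τ - t) * (ρ + f) + E + 2 * Λ' * Δ := ⟨_, rfl⟩
  have hτt : 0 ≤ τ - t := by linarith
  have hτt' : 0 ≤ t' - τ := by linarith
  have hτΔ : τ - t ≤ Δ := by rw [hΔd]; linarith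
  have hτΔ' : t' - τ ≤ Δ := by rw [hΔd]; linarith
  have hρf : -Λ' ≤ ρ + f := by linarith
  have h1 : -(Δ * Λ') ≤ (τ - t) * (ρ + f) := by
    have : (τ - t) * (-Λ') ≤ (τ - t) * (ρ + f) := mul_le_mul_of_nonneg_left hρf hτt
    have h2 : (τ - t) * Λ' ≤ Δ * Λ' := mul_le_mul_of_nonneg_right hτΔ hΛ0
    linarith
  have h2 : -(Δ * Λ') ≤ (t' - τ) * (ρ + f) := by
    have : (t' - τ) * (-Λ') ≤ (t' - τ) * (ρ + f) := mul_le_mul_of_nonneg_left hρf hτt'
    have h2 : (t' - τ) * Λ' ≤ Δ * Λ' := mul_le_mul_of_nonneg_right hτΔ' hΛ0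
    linarith
  have hQ0 : 0 ≤ Q := by rw [hQ]; linarith
  have hsplit : (ρ + f + 4 * Λ') * Δ - Q = (t' - τ) * (ρ + f) + 2 * Λ' * Δ - E := by
    rw [hQ, hΔd]; ring
  have hQ1 : 0 ≤ (ρ + f + 4 * Λ') * Δ - Q := by rw [hsplit]; linarith
  have hX : ρ + f + 4 * Λ' ≤ H := by rw [hH]; linarith
  have hHΔ : 0 < H * Δ := mul_pos hHpos hΔ'
  refine ⟨(ρ + f + 4 * Λ') / H - Q / (H * Δ), Q / (H * Δ), ?_, div_nonneg hQ0 hHΔ.le, ?_, ?_, ?_⟩
  · have : (ρ + f + 4 * Λ') / H - Q / (H * Δ) = ((ρ + f + 4 * Λ') * Δ - Q) / (H * Δ) := by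
      field_simp
    rw [this]
    exact div_nonneg hQ1 hHΔ.le
  · rw [sub_add_cancel, div_le_one hHpos]
    exact hX
  · rw [sub_add_cancel]
    field_simp
  · have ht' : t' = t + Δ := by rw [hΔd]; ring
    rw [ht', hQ] 
    field_simp
    ring

theorem norm_d_sq (e w : E3) (he : ‖e‖ = 1) (hw : inner ℝ w e = 0) : ‖e + w‖ ^ 2 = 1 + ‖w‖ ^ 2 := by
  rw [@norm_add_sq_real, he, real_inner_comm, hw]; ring

theorem d_ne_zero (e w : E3) (he : ‖e‖ = 1) (hw : inner ℝ w e = 0) : e + w ≠ 0 := by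
  intro h0
  have := norm_d_sq e w he hw
  rw [h0, norm_zero] at this
  nlinarith [sq_nonneg ‖w‖]

theorem edge_formula (d a b : E3) (Z t : ℝ) :
    prj d (Z • (a + t • b)) = Z • prj d a + (Z * t) • prj d b := by
  rw [prj_smul, prj_add, prj_smul, smul_add, smul_smul]

theorem sqrt_area_formula (Z t t' g D : ℝ) (htt' : t ≤ t') (hg : 0 ≤ g) (hD : 0 < D) :
    Real.sqrt ((Z * (Z * t') - Z * t * Z) ^ 2 * (g / D)) / 2 =
      Real.sqrt g * (t' - t) / (2 * Real.sqrt D) * Z ^ 2 := by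
  have e1 : (Z * (Z * t') - Z * t * Z) ^ 2 = (Z ^ 2 * (t' - t)) ^ 2 := by ring
  have h0 : 0 ≤ Z ^ 2 * (t' - t) := mul_nonneg (sq_nonneg _) (sub_nonneg.mpr htt')
  rw [e1, Real.sqrt_mul (sq_nonneg _), Real.sqrt_sq h0, Real.sqrt_div hg]
  have hD' : Real.sqrt D ≠ 0 := (Real.sqrt_pos.mpr hD).ne'
  field_simp

theorem affineIndependent_of_gram (p u v : E3) (h : gram u v ≠ 0) :
    AffineIndependent ℝ ![p, p + u, p + v] := by
  rw [affineIndependent_iff_not_collinear_set]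
  intro hc
  rw [collinear_iff_of_mem (p₀ := p) (by simp)] at hc
  obtain ⟨z, hz⟩ := hc
  obtain ⟨r1, h1⟩ := hz (p + u) (by simp)
  obtain ⟨r2, h2⟩ := hz (p + v) (by simp)
  have hu : u = r1 • z := by
    rw [vadd_eq_add, add_comm] at h1
    exact add_right_cancel h1
  have hv : v = r2 • z := by
    rw [vadd_eq_add, add_comm] at h2
    exact add_right_cancel h2
  apply h
  rw [hu, hv]
  unfold gram
  rw [real_inner_smul_left, real_inner_smul_right, real_inner_self_eq_norm_sq, norm_smul, norm_smul,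
    Real.norm_eq_abs, Real.norm_eq_abs, mul_pow, mul_pow, sq_abs, sq_abs]
  ring

/-- The swept piece. -/
def sweep (e a b p₀ : E3) (L : ℝ) (R : ℝ → ℝ) (w : ℝ → E3) (t t' : ℝ) : Set E3 :=
  {x | ∃ τ ∈ Set.Icc t t', ∃ ρ ∈ Set.Icc 0 (R τ), ∃ s : ℝ, |s| ≤ L ∧
    x = p₀ + ρ • (a + τ • b) + s • (e + w τ)}

/-- Barycentric coordinates of a point of the swept piece in the cover triangle. -/
theorem piece_cover (e a b p₀ : E3) (he : ‖e‖ = 1)
    (X Y : E3 →L[ℝ] ℝ) (hXa : X a = 1) (hXb : X b = 0) (hYa : Y a = 0) (hYb : Y b = 1)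
    (hspan : ∀ v : E3, inner ℝ v e = 0 → v = X v • a + Y v • b)
    (L : ℝ) (hL : 0 < L) (α β : ℝ) (R : ℝ → ℝ) (w : ℝ → E3)
    (hw : ∀ t ∈ Set.Icc α β, inner ℝ (w t) e = 0) (lam : ℝ → ℝ)
    (hw' : ∀ t ∈ Set.Icc α β, HasDerivWithinAt w (lam t • (a + t • b)) (Set.Icc α β) t)
    (Λ : ℝ) (hΛ : ∀ t ∈ Set.Icc α β, |lam t| ≤ Λ)
    (t t' c Rp ξ : ℝ) (htt' : t < t') (ht : α ≤ t) (ht' : t' ≤ β) (hc : t ≤ c) (hc' : c ≤ t')
    (hRp : ∀ τ ∈ Set.Icc t t', R τ ≤ Rp) (hξ : 0 < ξ)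
    (Δ : ℝ) (hΔ : Δ = t' - t) (H : ℝ) (hH : H = Rp + 5 * (L * Λ * Δ) + ξ)
    (x : E3) (hx : x ∈ sweep e a b p₀ L R w t t') :
    ∃ u v : ℝ, 0 ≤ u ∧ 0 ≤ v ∧ u + v ≤ 1 ∧
      prj (e + w c) x = prj (e + w c) (p₀ + (-(4 * (L * Λ * Δ))) • (a + t • b) - (2 * (L * Λ * Δ) * Δ) • b) +
        u • (H • prj (e + w c) a + (H * t) • prj (e + w c) b) +
        v • (H • prj (e + w c) a + (H * t') • prj (e + w c) b) := by
  obtain ⟨τ, ⟨hτ1, hτ2⟩, ρ, ⟨hρ0, hρ1⟩, s, hs, rfl⟩ := hx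
  have hcI : c ∈ Set.Icc α β := ⟨ht.trans hc, hc'.trans ht'⟩
  have hτI : τ ∈ Set.Icc α β := ⟨ht.trans hτ1, hτ2.trans ht'⟩
  have hwc := hw c hcI
  have hd0 := d_ne_zero e (w c) he hwc
  have hΛ0 : 0 ≤ Λ := (abs_nonneg _).trans (hΛ c hcI)
  obtain ⟨h1, h2⟩ := wedge_estimates a b X Y hXa hXb hYa hYb α β w lam hw' Λ hΛ τ c hτI hcI
  obtain ⟨A, hA⟩ : ∃ A, A = X (w τ) - X (w c) := ⟨_, rfl⟩
  obtain ⟨B, hB⟩ : ∃ B, B = Y (w τ) - Y (w c) := ⟨_, rfl⟩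
  rw [← hA, ← hB] at h2
  rw [← hA] at h1
  have hdiff : w τ = w c + (A • a + B • b) := by
    have h0 : inner ℝ (w τ - w c) e = 0 := by rw [inner_sub_left, hw τ hτI, hwc, sub_zero]
    have h3 := hspan _ h0
    rw [map_sub, map_sub, ← hA, ← hB] at h3
    rw [← h3]; abel
  have hτc : |τ - c| ≤ Δ := by
    rw [abs_le, hΔ]; constructor <;> linarith
  have hΛΔ : Λ * |τ - c| ≤ Λ * Δ := mul_le_mul_of_nonneg_left hτc hΛ0
  have hΔ0 : 0 ≤ Δ := (abs_nonneg _).trans hτc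
  have hf : |s * A| ≤ L * Λ * Δ := by
    rw [abs_mul, mul_assoc]
    exact mul_le_mul hs (h1.trans hΛΔ) (abs_nonneg _) hL.le
  have hE : |s * (B - τ * A)| ≤ L * Λ * Δ * (t' - t) := by
    rw [abs_mul, ← hΔ]
    have h3 : Λ * |τ - c| * |τ - c| ≤ Λ * Δ * Δ := by
      exact mul_le_mul hΛΔ hτc (abs_nonneg _) (by positivity)
    have h4 := mul_le_mul hs (h2.trans h3) (abs_nonneg _) hL.le
    calc _ ≤ _ := h4
      _ = _ := by ring
  rw [← sub_eq_iff_eq_add'] at hdiff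
  obtain ⟨u, v, hu, hv, huv, he1, he2⟩ := bary_arith ρ (s * A) (s * (B - τ * A)) τ t t' Rp (L * Λ * Δ) ξ htt' hρ0
    (hρ1.trans (hRp τ ⟨hτ1, hτ2⟩)) hf hE hτ1 hτ2 hξ
  rw [← hΔ, ← hH] at he2
  rw [← hH] at he1
  refine ⟨u, v, hu, hv, huv, ?_⟩
  have hdiff' : w τ = w c + (A • a + B • b) := by rw [← hdiff]; abel
  have hxx : p₀ + ρ • (a + τ • b) + s • (e + w τ) =
      (p₀ + (-(4 * (L * Λ * Δ))) • (a + t • b) - (2 * (L * Λ * Δ) * Δ) • b) +
        (u * H) • (a + t • b) + (v * H) • (a + t' • b) + s • (e + w c) := by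
    rw [hdiff']
    linear_combination (norm := module) he1 • a + he2 • b
  rw [hxx, prj_add_smul _ _ hd0, prj_add, prj_add, edge_formula, edge_formula]
  module

/-- The lower triangle lies in the projected piece. -/
theorem piece_lower (e a b p₀ d : E3) (hd0 : d ≠ 0) (L : ℝ) (hL : 0 < L) (R : ℝ → ℝ) (w : ℝ → E3)
    (t t' Rm : ℝ) (htt' : t < t') (hRm : ∀ τ ∈ Set.Icc t t', Rm ≤ R τ) (hRm0 : 0 ≤ Rm) :
    triSet (prj d p₀) (Rm • prj d a + (Rm * t) • prj d b) (Rm • prj d a + (Rm * t') • prj d b) ⊆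
      prj d '' sweep e a b p₀ L R w t t' := by
  rintro y ⟨u, v, hu, hv, huv, rfl⟩
  rcases (add_nonneg hu hv).eq_or_lt with h0 | hpos
  · have hu0 : u = 0 := by linarith
    have hv0 : v = 0 := by linarith
    refine ⟨p₀ + (0 : ℝ) • (a + t • b) + (0 : ℝ) • (e + w t), ⟨t, ⟨le_rfl, htt'.le⟩, 0,
      ⟨le_rfl, hRm0.trans (hRm t ⟨le_rfl, htt'.le⟩)⟩, 0, by simpa using hL.le, rfl⟩, ?_⟩
    rw [hu0, hv0]
    simp
  · obtain ⟨τ, hτ⟩ : ∃ τ, τ = (u * t + v * t') / (u + v) := ⟨_, rfl⟩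
    have hτ1 : t ≤ τ := by
      rw [hτ, le_div_iff₀ hpos]; nlinarith
    have hτ2 : τ ≤ t' := by
      rw [hτ, div_le_iff₀ hpos]; nlinarith
    have hτe : (u + v) * τ = u * t + v * t' := by
      rw [hτ]; field_simp
    have hρ0 : 0 ≤ (u + v) * Rm := by positivity
    have hρ1 : (u + v) * Rm ≤ R τ := by
      have := hRm τ ⟨hτ1, hτ2⟩
      nlinarith
    refine ⟨p₀ + ((u + v) * Rm) • (a + τ • b) + (0 : ℝ) • (e + w τ), ⟨τ, ⟨hτ1, hτ2⟩, (u + v) * Rm,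
      ⟨hρ0, hρ1⟩, 0, by simpa using hL.le, rfl⟩, ?_⟩
    rw [zero_smul, add_zero, prj_add, edge_formula]
    have e1 : ((u + v) * Rm * τ) = Rm * (u * t + v * t') := by rw [← hτe]; ring
    rw [e1]
    module

/-- All the data for one piece. -/
theorem piece_data (e a b p₀ : E3) (he : ‖e‖ = 1) (ha : inner ℝ a e = 0) (hb : inner ℝ b e = 0)
    (X Y : E3 →L[ℝ] ℝ) (hXa : X a = 1) (hXb : X b = 0) (hYa : Y a = 0) (hYb : Y b = 1)
    (hspan : ∀ v : E3, inner ℝ v e = 0 → v = X v • a + Y v • b)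
    (hgram : 0 < gram a b) (L : ℝ) (hL : 0 < L) (α β : ℝ) (R : ℝ → ℝ) (w : ℝ → E3)
    (hw : ∀ t ∈ Set.Icc α β, inner ℝ (w t) e = 0) (lam : ℝ → ℝ)
    (hw' : ∀ t ∈ Set.Icc α β, HasDerivWithinAt w (lam t • (a + t • b)) (Set.Icc α β) t)
    (Λ : ℝ) (hΛ : ∀ t ∈ Set.Icc α β, |lam t| ≤ Λ)
    (t t' c Rp Rm ξ : ℝ) (htt' : t < t') (ht : α ≤ t) (ht' : t' ≤ β) (hc : t ≤ c) (hc' : c ≤ t')
    (hRp : ∀ τ ∈ Set.Icc t t', R τ ≤ Rp) (hRm : ∀ τ ∈ Set.Icc t t', Rm ≤ R τ) (hRm0 : 0 ≤ Rm)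
    (hRp0 : 0 ≤ Rp) (hξ : 0 < ξ)
    (Δ : ℝ) (hΔ : Δ = t' - t) (H : ℝ) (hH : H = Rp + 5 * (L * Λ * Δ) + ξ)
    (K : ℝ) (hK : K = Real.sqrt (gram a b) * Δ / (2 * Real.sqrt (1 + ‖w c‖ ^ 2))) :
    ∃ p q r : E3, inner ℝ p (e + w c) = 0 ∧ inner ℝ q (e + w c) = 0 ∧ inner ℝ r (e + w c) = 0 ∧
      AffineIndependent ℝ ![p, q, r] ∧
      (∀ x ∈ sweep e a b p₀ L R w t t', prj (e + w c) x ∈ convexHull ℝ {p, q, r}) ∧
      (μHE[2] (convexHull ℝ ({p, q, r} : Set E3))).toReal = K * H ^ 2 ∧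
      K * Rm ^ 2 ≤ (μHE[2] (prj (e + w c) '' sweep e a b p₀ L R w t t')).toReal ∧
      (μHE[2] (prj (e + w c) '' sweep e a b p₀ L R w t t')).toReal ≤ K * H ^ 2 := by
  have hcI : c ∈ Set.Icc α β := ⟨ht.trans hc, hc'.trans ht'⟩
  have hwc := hw c hcI
  have hd0 := d_ne_zero e (w c) he hwc
  have hΛ0 : 0 ≤ Λ := (abs_nonneg _).trans (hΛ c hcI)
  have hΔ0 : 0 < Δ := by rw [hΔ]; linarith
  have hH0 : 0 < H := by rw [hH]; positivity
  have hD : 0 < 1 + ‖w c‖ ^ 2 := by positivity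
  have hgp : gram (prj (e + w c) a) (prj (e + w c) b) = gram a b / (1 + ‖w c‖ ^ 2) :=
    gram_prj e a b (w c) he ha hb hwc (X (w c)) (Y (w c)) (hspan _ hwc)
  obtain ⟨d, hd⟩ : ∃ d, d = e + w c := ⟨_, rfl⟩
  rw [← hd] at hd0 hgp ⊢
  obtain ⟨P, hP⟩ : ∃ P, P = p₀ + (-(4 * (L * Λ * Δ))) • (a + t • b) - (2 * (L * Λ * Δ) * Δ) • b := ⟨_, rfl⟩
  have hq : prj d (P + H • (a + t • b)) - prj d P = H • prj d a + (H * t) • prj d b := by
    rw [prj_add, edge_formula]; abel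
  have hr : prj d (P + H • (a + t' • b)) - prj d P = H • prj d a + (H * t') • prj d b := by
    rw [prj_add, edge_formula]; abel
  have hgr : gram (prj d (P + H • (a + t • b)) - prj d P) (prj d (P + H • (a + t' • b)) - prj d P) =
      (H * (H * t') - H * t * H) ^ 2 * (gram a b / (1 + ‖w c‖ ^ 2)) := by
    rw [hq, hr, gram_comb, hgp]
  have hgpos : 0 < gram (prj d (P + H • (a + t • b)) - prj d P) (prj d (P + H • (a + t' • b)) - prj d P) := by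
    rw [hgr]
    have h1 : H * (H * t') - H * t * H = H ^ 2 * (t' - t) := by ring
    rw [h1]
    have : t' - t ≠ 0 := by rw [← hΔ]; exact hΔ0.ne'
    positivity
  have harea : μHE[2] (convexHull ℝ ({prj d P, prj d (P + H • (a + t • b)), prj d (P + H • (a + t' • b))} : Set E3)) =
      ENNReal.ofReal (K * H ^ 2) := by
    rw [Crest.Agent.Lib.TetraArea.area_triangle, hgr, sqrt_area_formula _ _ _ _ _ htt'.le hgram.le hD, hK, hΔ]
  have hK0 : 0 ≤ K := by rw [hK]; positivity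
  have hcover : ∀ x ∈ sweep e a b p₀ L R w t t', prj d x ∈
      convexHull ℝ ({prj d P, prj d (P + H • (a + t • b)), prj d (P + H • (a + t' • b))} : Set E3) := by
    intro x hx
    obtain ⟨u, v, hu, hv, huv, hxe⟩ := piece_cover e a b p₀ he X Y hXa hXb hYa hYb hspan L hL α β R w hw lam hw'
      Λ hΛ t t' c Rp ξ htt' ht ht' hc hc' hRp hξ Δ hΔ H hH x hx
    rw [convexHull_three_eq]
    refine ⟨u, v, hu, hv, huv, ?_⟩
    rw [hq, hr, hd, hP]
    exact hxe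
  have hsub : prj d '' sweep e a b p₀ L R w t t' ⊆
      convexHull ℝ ({prj d P, prj d (P + H • (a + t • b)), prj d (P + H • (a + t' • b))} : Set E3) := by
    rintro _ ⟨x, hx, rfl⟩
    exact hcover x hx
  have hfin : μHE[2] (convexHull ℝ ({prj d P, prj d (P + H • (a + t • b)), prj d (P + H • (a + t' • b))} : Set E3)) ≠ ⊤ := by
    rw [harea]; exact ENNReal.ofReal_ne_top
  have hKH : 0 ≤ K * H ^ 2 := by positivity
  have hlow : K * Rm ^ 2 ≤ (μHE[2] (prj d '' sweep e a b p₀ L R w t t')).toReal := by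
    have hsub2 := piece_lower e a b p₀ d hd0 L hL R w t t' Rm htt' hRm hRm0
    have h2 := measure_mono (μ := μHE[2]) hsub2
    have h3 := ENNReal.toReal_mono (ne_top_of_le_ne_top hfin (measure_mono hsub)) h2
    rw [Crest.Agent.Lib.TetraArea.area_triSet, gram_comb, hgp,
      sqrt_area_formula _ _ _ _ _ htt'.le hgram.le hD, ENNReal.toReal_ofReal (by positivity)] at h3
    rw [hK, hΔ]
    exact h3
  refine ⟨prj d P, prj d (P + H • (a + t • b)), prj d (P + H • (a + t' • b)),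
    inner_prj _ _ hd0, inner_prj _ _ hd0, inner_prj _ _ hd0, ?_, hcover, ?_, hlow, ?_⟩
  · have := affineIndependent_of_gram (prj d P) (prj d (P + H • (a + t • b)) - prj d P)
      (prj d (P + H • (a + t' • b)) - prj d P) hgpos.ne'
    simpa using this
  · rw [harea, ENNReal.toReal_ofReal hKH]
  · have := ENNReal.toReal_mono hfin (measure_mono (μ := μHE[2]) hsub)
    rwa [harea, ENNReal.toReal_ofReal hKH] at this

theorem gram_pos_of_indep (a b : E3) (hab : LinearIndependent ℝ ![a, b]) : 0 < gram a b := by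
  rcases (gram_nonneg a b).lt_or_eq with h | h
  · exact h
  · exfalso
    obtain ⟨d, ⟨κ₁, h1⟩, ⟨κ₂, h2⟩⟩ := Crest.Agent.Lib.TetraArea.exists_dir_of_gram_eq_zero h.symm
    have hp := LinearIndependent.pair_iff.mp hab
    have h3 := hp κ₂ (-κ₁) (by rw [h1, h2]; module)
    have hk1 : κ₁ = 0 := by linarith [h3.2]
    have ha0 : a = 0 := by rw [h1, hk1, zero_smul]
    have h4 := hp 1 0 (by simp [ha0])
    exact one_ne_zero h4.1

theorem fin_telescope : ∀ (N : ℕ) (g : Fin (N + 1) → ℝ),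
    ∑ i : Fin N, (g i.succ - g i.castSucc) = g (Fin.last N) - g 0 := by
  intro N
  induction N with
  | zero => intro g; simp
  | succ n ih =>
    intro g
    rw [Fin.sum_univ_castSucc]
    have h := ih (fun i => g i.castSucc)
    simp only [Fin.succ_castSucc, Fin.succ_last, Fin.castSucc_zero] at h ⊢
    rw [h]
    ring

theorem exists_piece (N : ℕ) (t : Fin (N + 1) → ℝ) (h : t 0 ≠ t (Fin.last N)) (τ : ℝ)
    (h0 : t 0 ≤ τ) (h1 : τ ≤ t (Fin.last N)) :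
    ∃ i : Fin N, t i.castSucc ≤ τ ∧ τ ≤ t i.succ := by
  by_contra hcon
  push_neg at hcon
  have key : ∀ j : Fin (N + 1), t j ≤ τ := by
    intro j
    induction j using Fin.induction with
    | zero => exact h0
    | succ i ih => exact (hcon i ih).le
  cases N with
  | zero => exact h rfl
  | succ n =>
    have := hcon (Fin.last n) (key _)
    rw [Fin.succ_last] at this
    linarith

theorem sum_close (N : ℕ) (t : Fin (N + 1) → ℝ) (c : Fin N → ℝ) (F : ℝ → ℝ) (α β κ ε₁ : ℝ) (hκ : 0 ≤ κ)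
    (hF : ContinuousOn F (Set.Icc α β)) (hmono : StrictMono t) (h0 : t 0 = α) (hl : t (Fin.last N) = β)
    (hFc : ∀ i : Fin N, ∀ τ ∈ Set.Icc (t i.castSucc) (t i.succ), |F τ - F (c i)| ≤ ε₁ / 2)
    (m : Fin N → ℝ)
    (hm : ∀ i, |m i - κ * (t i.succ - t i.castSucc) * F (c i)| ≤
      κ * (t i.succ - t i.castSucc) * (ε₁ / 2)) :
    |∑ i, m i - κ * ∫ τ in α..β, F τ| ≤ κ * (β - α) * ε₁ := by
  have tI : ∀ j, t j ∈ Set.Icc α β := fun j =>
    ⟨h0 ▸ hmono.monotone (Fin.zero_le j), hl ▸ hmono.monotone (Fin.le_last j)⟩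
  have hint : ∀ u ∈ Set.Icc α β, ∀ v ∈ Set.Icc α β, IntervalIntegrable F volume u v := fun u hu v hv =>
    (hF.mono (Set.uIcc_subset_Icc hu hv)).intervalIntegrable
  have hαI : α ∈ Set.Icc α β := h0 ▸ tI 0
  have hpiece : ∀ i : Fin N, ∫ τ in t i.castSucc..t i.succ, F τ =
      (∫ τ in α..t i.succ, F τ) - ∫ τ in α..t i.castSucc, F τ := fun i =>
    (intervalIntegral.integral_interval_sub_left (hint _ hαI _ (tI _)) (hint _ hαI _ (tI _))).symm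
  have hsumint : ∑ i : Fin N, ∫ τ in t i.castSucc..t i.succ, F τ = ∫ τ in α..β, F τ := by
    simp only [hpiece]
    rw [fin_telescope N (fun j => ∫ τ in α..t j, F τ), hl, h0]
    simp
  have hsumΔ : ∑ i : Fin N, (t i.succ - t i.castSucc) = β - α := by
    rw [fin_telescope N t, hl, h0]
  have hbound : ∀ i : Fin N, |m i - κ * ∫ τ in t i.castSucc..t i.succ, F τ| ≤
      κ * (t i.succ - t i.castSucc) * ε₁ := by
    intro i
    have hlt : t i.castSucc < t i.succ := hmono Fin.castSucc_lt_succ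
    have hΔ0 : 0 ≤ t i.succ - t i.castSucc := by linarith
    have hci : |(∫ τ in t i.castSucc..t i.succ, F τ) - (t i.succ - t i.castSucc) * F (c i)| ≤
        (t i.succ - t i.castSucc) * (ε₁ / 2) := by
      have h1 : (∫ τ in t i.castSucc..t i.succ, F τ) - (t i.succ - t i.castSucc) * F (c i) =
          ∫ τ in t i.castSucc..t i.succ, (F τ - F (c i)) := by
        rw [intervalIntegral.integral_sub (hint _ (tI _) _ (tI _)) intervalIntegrable_const,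
          intervalIntegral.integral_const, smul_eq_mul]
      rw [h1]
      have h2 := intervalIntegral.norm_integral_le_of_norm_le_const (a := t i.castSucc) (b := t i.succ)
        (f := fun τ => F τ - F (c i)) (C := ε₁ / 2) (by
          intro x hx
          rw [Set.uIoc_of_le hlt.le] at hx
          exact hFc i x ⟨hx.1.le, hx.2⟩)
      rw [Real.norm_eq_abs, abs_of_nonneg hΔ0] at h2
      rw [mul_comm (t i.succ - t i.castSucc)]
      exact h2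
    have h3 := hm i
    have h4 : κ * |(∫ τ in t i.castSucc..t i.succ, F τ) - (t i.succ - t i.castSucc) * F (c i)| ≤
        κ * ((t i.succ - t i.castSucc) * (ε₁ / 2)) := mul_le_mul_of_nonneg_left hci hκ
    have e1 : m i - κ * ∫ τ in t i.castSucc..t i.succ, F τ =
        (m i - κ * (t i.succ - t i.castSucc) * F (c i)) -
          κ * ((∫ τ in t i.castSucc..t i.succ, F τ) - (t i.succ - t i.castSucc) * F (c i)) := by ring
    rw [e1]
    refine (abs_sub _ _).trans ?_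
    rw [abs_mul, abs_of_nonneg hκ]
    calc _ ≤ κ * (t i.succ - t i.castSucc) * (ε₁ / 2) + κ * ((t i.succ - t i.castSucc) * (ε₁ / 2)) :=
          add_le_add h3 h4
      _ = _ := by ring
  have e2 : ∑ i, m i - κ * ∫ τ in α..β, F τ =
      ∑ i, (m i - κ * ∫ τ in t i.castSucc..t i.succ, F τ) := by
    rw [Finset.sum_sub_distrib, ← Finset.mul_sum, hsumint]
  rw [e2]
  refine (Finset.abs_sum_le_sum_abs _ _).trans ((Finset.sum_le_sum fun i _ => hbound i).trans ?_)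
  have e3 : ∑ i : Fin N, κ * (t i.succ - t i.castSucc) * ε₁ =
      κ * (∑ i : Fin N, (t i.succ - t i.castSucc)) * ε₁ := by
    rw [Finset.mul_sum, Finset.sum_mul]
  rw [e3, hsumΔ]

theorem numeric_H (Rc Rmax ζ z ε₁ : ℝ) (h0 : 0 ≤ Rc) (hR : Rc ≤ Rmax) (hz0 : 0 ≤ z) (hz : z ≤ ζ)
    (hζ1 : ζ ≤ 1) (hζ : ζ * (2 * Rmax + 1) ≤ ε₁) : |(Rc + z) ^ 2 - Rc ^ 2| ≤ ε₁ := by
  have e : (Rc + z) ^ 2 - Rc ^ 2 = z * (2 * Rc + z) := by ring
  rw [e, abs_of_nonneg (by positivity)]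
  have h1 : 2 * Rc + z ≤ 2 * Rmax + 1 := by linarith
  have h2 : z * (2 * Rc + z) ≤ ζ * (2 * Rmax + 1) :=
    mul_le_mul hz h1 (by positivity) (hz0.trans hz)
  linarith

theorem numeric_Rm (Rc Rm Rmax ζ ε₁ : ℝ) (h0 : 0 ≤ Rm) (h1 : Rm ≤ Rc) (hR : Rc ≤ Rmax)
    (hz : Rc - Rm ≤ ζ) (hζ : ζ * (2 * Rmax + 1) ≤ ε₁) : |Rm ^ 2 - Rc ^ 2| ≤ ε₁ := by
  have e : Rm ^ 2 - Rc ^ 2 = -((Rc - Rm) * (Rc + Rm)) := by ring
  have h2 : 0 ≤ Rc - Rm := by linarith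
  have h3 : (Rc - Rm) * (Rc + Rm) ≤ ζ * (2 * Rmax + 1) :=
    mul_le_mul hz (by linarith) (by linarith) (h2.trans hz)
  rw [e, abs_neg, abs_of_nonneg (by apply mul_nonneg h2; linarith)]
  linarith

theorem numeric_K (κ Δ S Rc Z ε₁ : ℝ) (hκ : 0 ≤ κ) (hΔ : 0 ≤ Δ) (hS : 1 ≤ S)
    (hZ : |Z ^ 2 - Rc ^ 2| ≤ ε₁) :
    |κ * Δ / (2 * S) * Z ^ 2 - κ * Δ * (Rc ^ 2 / (2 * S))| ≤ κ * Δ * (ε₁ / 2) := by
  have hS0 : 0 < S := by linarith
  have e : κ * Δ / (2 * S) * Z ^ 2 - κ * Δ * (Rc ^ 2 / (2 * S)) = (κ * Δ) * ((Z ^ 2 - Rc ^ 2) / (2 * S)) := by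
    field_simp
  rw [e, abs_mul, abs_of_nonneg (mul_nonneg hκ hΔ)]
  apply mul_le_mul_of_nonneg_left _ (mul_nonneg hκ hΔ)
  rw [abs_div, abs_of_pos (by positivity : 0 < 2 * S), div_le_div_iff₀ (by positivity) (by norm_num)]
  have hε : 0 ≤ ε₁ := (abs_nonneg _).trans hZ
  nlinarith [abs_nonneg (Z ^ 2 - Rc ^ 2)]

theorem squeeze_abs (m l u v ε : ℝ) (h1 : l ≤ m) (h2 : m ≤ u) (h3 : |l - v| ≤ ε) (h4 : |u - v| ≤ ε) :
    |m - v| ≤ ε := by
  rw [abs_le] at *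
  constructor <;> linarith [h3.1, h3.2, h4.1, h4.2]

/-- Parameters for a fixed accuracy. -/
theorem exists_params (e a b p₀ : E3) (he : ‖e‖ = 1) (ha : inner ℝ a e = 0) (hb : inner ℝ b e = 0)
    (X Y : E3 →L[ℝ] ℝ) (hXa : X a = 1) (hXb : X b = 0) (hYa : Y a = 0) (hYb : Y b = 1)
    (hspan : ∀ v : E3, inner ℝ v e = 0 → v = X v • a + Y v • b)
    (hgram : 0 < gram a b) (L : ℝ) (hL : 0 < L) (α β : ℝ) (R : ℝ → ℝ)
    (hR0 : ∀ t ∈ Set.Icc α β, 0 ≤ R t) (w : ℝ → E3)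
    (hw : ∀ t ∈ Set.Icc α β, inner ℝ (w t) e = 0) (lam : ℝ → ℝ)
    (hw' : ∀ t ∈ Set.Icc α β, HasDerivWithinAt w (lam t • (a + t • b)) (Set.Icc α β) t)
    (Λ : ℝ) (hΛ0 : 0 < Λ) (hΛ : ∀ t ∈ Set.Icc α β, |lam t| ≤ Λ)
    (Rmax : ℝ) (hRmax : ∀ t ∈ Set.Icc α β, R t ≤ Rmax)
    (F : ℝ → ℝ) (hFdef : F = fun τ => R τ ^ 2 / (2 * Real.sqrt (1 + ‖w τ‖ ^ 2)))
    (ε₁ ζ δ₁ δ₂ δ : ℝ) (hζ0 : 0 < ζ) (hζ1 : ζ ≤ 1) (hζ : ζ * (2 * Rmax + 1) ≤ ε₁)
    (hδ₁ : ∀ x ∈ Set.Icc α β, ∀ y ∈ Set.Icc α β, |x - y| ≤ δ → |F x - F y| ≤ ε₁ / 2)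
    (hδ₂ : ∀ x ∈ Set.Icc α β, ∀ y ∈ Set.Icc α β, |x - y| ≤ δ → |R x - R y| ≤ ζ / 3)
    (hδ : 5 * (L * Λ * δ) ≤ ζ / 3)
    (t t' c : ℝ) (htt' : t < t') (ht : α ≤ t) (ht' : t' ≤ β) (hc : t ≤ c) (hc' : c ≤ t')
    (hmesh : t' - t ≤ δ) :
    ∃ p q r : E3, inner ℝ p (e + w c) = 0 ∧ inner ℝ q (e + w c) = 0 ∧ inner ℝ r (e + w c) = 0 ∧
      AffineIndependent ℝ ![p, q, r] ∧
      (∀ x ∈ sweep e a b p₀ L R w t t', prj (e + w c) x ∈ convexHull ℝ {p, q, r}) ∧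
      |(μHE[2] (convexHull ℝ ({p, q, r} : Set E3))).toReal -
        Real.sqrt (gram a b) * (t' - t) * F c| ≤ Real.sqrt (gram a b) * (t' - t) * (ε₁ / 2) ∧
      |(μHE[2] (prj (e + w c) '' sweep e a b p₀ L R w t t')).toReal -
        Real.sqrt (gram a b) * (t' - t) * F c| ≤ Real.sqrt (gram a b) * (t' - t) * (ε₁ / 2) := by
  have hcI : c ∈ Set.Icc α β := ⟨ht.trans hc, hc'.trans ht'⟩
  have hΔ0 : 0 ≤ t' - t := by linarith
  have hclose : ∀ τ ∈ Set.Icc t t', |τ - c| ≤ δ := by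
    rintro τ ⟨h1, h2⟩
    rw [abs_le]; constructor <;> linarith
  have hIsub : ∀ τ ∈ Set.Icc t t', τ ∈ Set.Icc α β := fun τ h => ⟨ht.trans h.1, h.2.trans ht'⟩
  have hRp : ∀ τ ∈ Set.Icc t t', R τ ≤ R c + ζ / 3 := by
    intro τ hτ
    have := (abs_le.mp (hδ₂ τ (hIsub τ hτ) c hcI (hclose τ hτ))).2
    linarith
  have hRm : ∀ τ ∈ Set.Icc t t', max 0 (R c - ζ / 3) ≤ R τ := by
    intro τ hτ
    have := (abs_le.mp (hδ₂ τ (hIsub τ hτ) c hcI (hclose τ hτ))).1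
    exact max_le (hR0 τ (hIsub τ hτ)) (by linarith)
  have hRc0 := hR0 c hcI
  obtain ⟨p, q, r, h1, h2, h3, h4, h5, h6, h7, h8⟩ := piece_data e a b p₀ he ha hb X Y hXa hXb hYa hYb hspan hgram
    L hL α β R w hw lam hw' Λ (fun τ hτ => hΛ τ hτ) t t' c (R c + ζ / 3) (max 0 (R c - ζ / 3)) (ζ / 3) htt' ht ht' hc hc'
    hRp hRm (le_max_left _ _) (by positivity) (by positivity) (t' - t) rfl _ rfl _ rfl
  have hκ0 : 0 ≤ Real.sqrt (gram a b) := Real.sqrt_nonneg _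
  have hS : 1 ≤ Real.sqrt (1 + ‖w c‖ ^ 2) := by
    rw [Real.one_le_sqrt]; nlinarith [sq_nonneg ‖w c‖]
  have hcoef : 5 * (L * Λ * (t' - t)) ≤ ζ / 3 := by
    refine le_trans ?_ hδ
    have : L * Λ * (t' - t) ≤ L * Λ * δ := mul_le_mul_of_nonneg_left hmesh (by positivity)
    linarith
  have hcoef0 : 0 ≤ 5 * (L * Λ * (t' - t)) := by positivity
  have hHZ : |(R c + ζ / 3 + 5 * (L * Λ * (t' - t)) + ζ / 3) ^ 2 - R c ^ 2| ≤ ε₁ := by
    have e : R c + ζ / 3 + 5 * (L * Λ * (t' - t)) + ζ / 3 = R c + (ζ / 3 + 5 * (L * Λ * (t' - t)) + ζ / 3) := by ring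
    rw [e]
    exact numeric_H (R c) Rmax ζ _ ε₁ hRc0 (hRmax c hcI) (by positivity) (by linarith) hζ1 hζ
  have hRmZ : |(max 0 (R c - ζ / 3)) ^ 2 - R c ^ 2| ≤ ε₁ := by
    refine numeric_Rm (R c) _ Rmax ζ ε₁ (le_max_left _ _) (max_le hRc0 (by linarith)) (hRmax c hcI) ?_ hζ
    have := le_max_right 0 (R c - ζ / 3)
    linarith
  have hFc : F c = R c ^ 2 / (2 * Real.sqrt (1 + ‖w c‖ ^ 2)) := by rw [hFdef]
  have hu := numeric_K _ _ _ (R c) _ ε₁ hκ0 hΔ0 hS hHZ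
  have hl := numeric_K _ _ _ (R c) _ ε₁ hκ0 hΔ0 hS hRmZ
  rw [hFc]
  refine ⟨p, q, r, h1, h2, h3, h4, h5, ?_, ?_⟩
  · rw [h6]
    exact hu
  · exact squeeze_abs _ _ _ _ _ h7 h8 hl hu

theorem main
    (e a b p₀ : E3) (he : ‖e‖ = 1)
    (ha : inner ℝ a e = 0) (hb : inner ℝ b e = 0)
    (hab : LinearIndependent ℝ ![a, b]) (L : ℝ) (hL : 0 < L) (α β : ℝ) (hαβ : α < β)
    (R : ℝ → ℝ) (hR : ContinuousOn R (Set.Icc α β)) (hR0 : ∀ t ∈ Set.Icc α β, 0 ≤ R t)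
    (w : ℝ → E3) (hw : ∀ t ∈ Set.Icc α β, inner ℝ (w t) e = 0)
    (lam : ℝ → ℝ) (hlam : ContinuousOn lam (Set.Icc α β))
    (hw' : ∀ t ∈ Set.Icc α β, HasDerivWithinAt w (lam t • (a + t • b)) (Set.Icc α β) t)
    (η : ℝ) (hη : 0 < η) :
    ∃ δ : ℝ, 0 < δ ∧ ∀ (N : ℕ) (t : Fin (N + 1) → ℝ) (c : Fin N → ℝ),
      StrictMono t → t 0 = α → t (Fin.last N) = β →
      (∀ i : Fin N, t i.succ - t i.castSucc ≤ δ) →
      (∀ i : Fin N, t i.castSucc ≤ c i ∧ c i ≤ t i.succ) →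
      (∃ (p q r : Fin N → E3),
        (∀ i, inner ℝ (p i) (e + w (c i)) = 0 ∧ inner ℝ (q i) (e + w (c i)) = 0 ∧
          inner ℝ (r i) (e + w (c i)) = 0) ∧
        (∀ i, AffineIndependent ℝ ![p i, q i, r i]) ∧
        {x : E3 | ∃ τ ∈ Set.Icc α β, ∃ ρ ∈ Set.Icc 0 (R τ), ∃ s : ℝ, abs s ≤ L ∧
            x = p₀ + ρ • (a + τ • b) + s • (e + w τ)} ⊆
          ⋃ i, {x : E3 | ∃ y ∈ convexHull ℝ {p i, q i, r i}, ∃ σ : ℝ,
            x = y + σ • (e + w (c i))} ∧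
        abs ((∑ i, (μHE[2] (convexHull ℝ ({p i, q i, r i} : Set E3))).toReal) -
            Real.sqrt (‖a‖ ^ 2 * ‖b‖ ^ 2 - inner ℝ a b ^ 2) *
              ∫ τ in α..β, R τ ^ 2 / (2 * Real.sqrt (1 + ‖w τ‖ ^ 2))) ≤ η) ∧
      abs ((∑ i : Fin N, (μHE[2] ((fun y => y - (inner ℝ y (e + w (c i)) / ‖e + w (c i)‖ ^ 2) • (e + w (c i))) ''
            {x : E3 | ∃ τ ∈ Set.Icc (t i.castSucc) (t i.succ), ∃ ρ ∈ Set.Icc 0 (R τ),
              ∃ s : ℝ, abs s ≤ L ∧ x = p₀ + ρ • (a + τ • b) + s • (e + w τ)})).toReal) -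
          Real.sqrt (‖a‖ ^ 2 * ‖b‖ ^ 2 - inner ℝ a b ^ 2) *
            ∫ τ in α..β, R τ ^ 2 / (2 * Real.sqrt (1 + ‖w τ‖ ^ 2))) ≤ η := by
  obtain ⟨X, Y, hXa, hXb, hYa, hYb, hspan⟩ := exists_coords e a b he ha hb hab
  have hgram := gram_pos_of_indep a b hab
  have hκ : 0 < Real.sqrt (gram a b) := Real.sqrt_pos.mpr hgram
  have hκe : Real.sqrt (‖a‖ ^ 2 * ‖b‖ ^ 2 - inner ℝ a b ^ 2) = Real.sqrt (gram a b) := rfl
  rw [hκe]
  obtain ⟨C1, hC1⟩ := isCompact_Icc.exists_bound_of_continuousOn hlam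
  obtain ⟨C2, hC2⟩ := isCompact_Icc.exists_bound_of_continuousOn hR
  obtain ⟨Λ, hΛdef⟩ : ∃ Λ, Λ = |C1| + 1 := ⟨_, rfl⟩
  have hΛ0 : 0 < Λ := by rw [hΛdef]; positivity
  have hΛ : ∀ t ∈ Set.Icc α β, |lam t| ≤ Λ := fun t ht => by
    have := hC1 t ht
    rw [Real.norm_eq_abs] at this
    rw [hΛdef]; linarith [le_abs_self C1]
  obtain ⟨Rmax, hRmaxdef⟩ : ∃ Rmax, Rmax = |C2| + 1 := ⟨_, rfl⟩
  have hRmax0 : 0 < Rmax := by rw [hRmaxdef]; positivity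
  have hRmax : ∀ t ∈ Set.Icc α β, R t ≤ Rmax := fun t ht => by
    have := hC2 t ht
    rw [Real.norm_eq_abs] at this
    rw [hRmaxdef]; linarith [le_abs_self C2, le_abs_self (R t)]
  have hwcont : ContinuousOn w (Set.Icc α β) := fun t ht => (hw' t ht).continuousWithinAt
  obtain ⟨F, hFdef⟩ : ∃ F : ℝ → ℝ, F = fun τ => R τ ^ 2 / (2 * Real.sqrt (1 + ‖w τ‖ ^ 2)) := ⟨_, rfl⟩
  have hF : ContinuousOn F (Set.Icc α β) := by
    rw [hFdef]
    refine (hR.pow 2).div (continuousOn_const.mul (Real.continuous_sqrt.comp_continuousOn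
      (continuousOn_const.add (hwcont.norm.pow 2)))) ?_
    intro t _
    have : 0 < Real.sqrt (1 + ‖w t‖ ^ 2) := Real.sqrt_pos.mpr (by positivity)
    positivity
  have hβα : 0 < β - α := sub_pos.mpr hαβ
  have hκβ : 0 < Real.sqrt (gram a b) * (β - α) := mul_pos hκ hβα
  obtain ⟨ε₁, hε₁⟩ : ∃ ε₁, ε₁ = η / (Real.sqrt (gram a b) * (β - α)) := ⟨_, rfl⟩
  have hε₁0 : 0 < ε₁ := by rw [hε₁]; positivity
  have hκε : Real.sqrt (gram a b) * (β - α) * ε₁ = η := by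
    rw [hε₁]; field_simp
  obtain ⟨ζ, hζdef⟩ : ∃ ζ, ζ = min 1 (ε₁ / (2 * Rmax + 1)) := ⟨_, rfl⟩
  have hζ0 : 0 < ζ := by rw [hζdef]; positivity
  have hζ1 : ζ ≤ 1 := by rw [hζdef]; exact min_le_left _ _
  have hζ : ζ * (2 * Rmax + 1) ≤ ε₁ := by
    have h1 : ζ ≤ ε₁ / (2 * Rmax + 1) := by rw [hζdef]; exact min_le_right _ _
    rwa [le_div_iff₀ (by positivity)] at h1
  have hFu := isCompact_Icc.uniformContinuousOn_of_continuous hF
  have hRu := isCompact_Icc.uniformContinuousOn_of_continuous hR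
  rw [Metric.uniformContinuousOn_iff] at hFu hRu
  obtain ⟨δ₁, hδ₁0, hδ₁⟩ := hFu (ε₁ / 2) (by positivity)
  obtain ⟨δ₂, hδ₂0, hδ₂⟩ := hRu (ζ / 3) (by positivity)
  obtain ⟨δ, hδdef⟩ : ∃ δ, δ = min (min (δ₁ / 2) (δ₂ / 2)) (ζ / (15 * (L * Λ))) := ⟨_, rfl⟩
  have hδ0 : 0 < δ := by rw [hδdef]; positivity
  have hδ1 : δ < δ₁ := by
    have h1 : δ ≤ δ₁ / 2 := by rw [hδdef]; exact (min_le_left _ _).trans (min_le_left _ _)
    linarith
  have hδ2 : δ < δ₂ := by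
    have h1 : δ ≤ δ₂ / 2 := by rw [hδdef]; exact (min_le_left _ _).trans (min_le_right _ _)
    linarith
  have hδ3 : 5 * (L * Λ * δ) ≤ ζ / 3 := by
    have h1 : δ ≤ ζ / (15 * (L * Λ)) := by rw [hδdef]; exact min_le_right _ _
    have hLΛ : 0 < L * Λ := by positivity
    have h2 : (L * Λ) * δ ≤ (L * Λ) * (ζ / (15 * (L * Λ))) := mul_le_mul_of_nonneg_left h1 hLΛ.le
    have h3 : (L * Λ) * (ζ / (15 * (L * Λ))) = ζ / 15 := by field_simp
    rw [h3] at h2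
    linarith
  have hFclose : ∀ x ∈ Set.Icc α β, ∀ y ∈ Set.Icc α β, |x - y| ≤ δ → |F x - F y| ≤ ε₁ / 2 := by
    intro x hx y hy hxy
    have := hδ₁ x hx y hy (by rw [Real.dist_eq]; linarith)
    rw [Real.dist_eq] at this
    exact this.le
  have hRclose : ∀ x ∈ Set.Icc α β, ∀ y ∈ Set.Icc α β, |x - y| ≤ δ → |R x - R y| ≤ ζ / 3 := by
    intro x hx y hy hxy
    have := hδ₂ x hx y hy (by rw [Real.dist_eq]; linarith)
    rw [Real.dist_eq] at this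
    exact this.le
  refine ⟨δ, hδ0, ?_⟩
  intro N t c hmono h0 hl hmesh htag
  have tI : ∀ j, t j ∈ Set.Icc α β := fun j =>
    ⟨h0 ▸ hmono.monotone (Fin.zero_le j), hl ▸ hmono.monotone (Fin.le_last j)⟩
  have hpd := fun i : Fin N => exists_params e a b p₀ he ha hb X Y hXa hXb hYa hYb hspan hgram L hL α β R hR0 w hw lam hw'
    Λ hΛ0 hΛ Rmax hRmax F hFdef ε₁ ζ δ₁ δ₂ δ hζ0 hζ1 hζ hFclose hRclose hδ3
    (t i.castSucc) (t i.succ) (c i) (hmono Fin.castSucc_lt_succ) (tI _).1 (tI _).2 (htag i).1 (htag i).2 (hmesh i)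
  choose p q r h1 h2 h3 h4 h5 h6 h7 using hpd
  have hFpiece : ∀ i : Fin N, ∀ τ ∈ Set.Icc (t i.castSucc) (t i.succ), |F τ - F (c i)| ≤ ε₁ / 2 := by
    intro i τ hτ
    have hτI : τ ∈ Set.Icc α β := ⟨(tI _).1.trans hτ.1, hτ.2.trans (tI _).2⟩
    have hcI : c i ∈ Set.Icc α β := ⟨(tI _).1.trans (htag i).1, (htag i).2.trans (tI _).2⟩
    refine hFclose τ hτI (c i) hcI ?_
    have := hmesh i
    rw [abs_le]
    constructor <;> linarith [hτ.1, hτ.2, (htag i).1, (htag i).2]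
  have hint : ∫ τ in α..β, R τ ^ 2 / (2 * Real.sqrt (1 + ‖w τ‖ ^ 2)) = ∫ τ in α..β, F τ := by
    rw [hFdef]
  rw [hint]
  refine ⟨⟨p, q, r, fun i => ⟨h1 i, h2 i, h3 i⟩, h4, ?_, ?_⟩, ?_⟩
  · rintro x ⟨τ, hτ, ρ, hρ, s, hs, rfl⟩
    have hne : t 0 ≠ t (Fin.last N) := by rw [h0, hl]; exact hαβ.ne
    obtain ⟨i, hi1, hi2⟩ := exists_piece N t hne τ (by rw [h0]; exact hτ.1) (by rw [hl]; exact hτ.2)
    rw [Set.mem_iUnion]
    refine ⟨i, _, h5 i _ ⟨τ, ⟨hi1, hi2⟩, ρ, hρ, s, hs, rfl⟩, _, eq_prj_add (e + w (c i)) _⟩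
  · have := sum_close N t c F α β (Real.sqrt (gram a b)) ε₁ hκ.le hF hmono h0 hl hFpiece _ h6
    rwa [hκε] at this
  · have := sum_close N t c F α β (Real.sqrt (gram a b)) ε₁ hκ.le hF hmono h0 hl hFpiece _ h7
    rw [hκε] at this
    exact this

end Crest.Agent.Lib.RadialSweep
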