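import Mathlib

set_option autoImplicit false

namespace Crest.Agent.Lib.AUC

open Filter Topology
open scoped ENNReal InnerProductSpace

lemma hasSum_norm_sq_lp2 {E : ℕ → Type*} [∀ k, NormedAddCommGroup (E k)] (u : lp E 2) :
    HasSum (fun k => ‖u k‖ ^ 2) (‖u‖ ^ 2) := by
  have h := lp.hasSum_norm (p := 2) (by norm_num) u
  simpa [Real.rpow_two] using h

lemma sum_norm_sq_le_lp2 {E : ℕ → Type*} [∀ k, NormedAddCommGroup (E k)] (u : lp E 2)
    (A : Finset ℕ) : ∑ k ∈ A, ‖u k‖ ^ 2 ≤ ‖u‖ ^ 2 :=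
  sum_le_hasSum A (fun _ _ => by positivity) (hasSum_norm_sq_lp2 u)

/-- Build an element of the `lp 2` from a bounded partial sums condition. -/
lemma memℓp_two_of_sum_le {E : ℕ → Type*} [∀ k, NormedAddCommGroup (E k)] {x : ∀ k, E k} {C : ℝ}
    (h : ∀ A : Finset ℕ, ∑ k ∈ A, ‖x k‖ ^ 2 ≤ C) : Memℓp x 2 := by
  apply memℓp_gen' (C := C)
  intro s
  simpa [Real.rpow_two] using h s

/-- Transfer of reflexivity along a continuous linear equivalence. -/
theorem reflexive_of_equiv {H Y : Type*} [NormedAddCommGroup H] [NormedSpace ℝ H]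
    [NormedAddCommGroup Y] [NormedSpace ℝ Y] (L : H ≃L[ℝ] Y)
    (hH : Function.Surjective (NormedSpace.inclusionInDoubleDual ℝ H)) :
    Function.Surjective (NormedSpace.inclusionInDoubleDual ℝ Y) := by
  intro Φ
  let pre : StrongDual ℝ H →L[ℝ] StrongDual ℝ Y :=
    (ContinuousLinearMap.compL ℝ Y H ℝ).flip (L.symm : Y →L[ℝ] H)
  obtain ⟨h, hh⟩ := hH (Φ.comp pre)
  refine ⟨L h, ?_⟩
  ext χ
  have h1 := congrArg (fun Ψ : StrongDual ℝ (StrongDual ℝ H) => Ψ (χ.comp (L : H →L[ℝ] Y))) hh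
  simp only [NormedSpace.dual_def, ContinuousLinearMap.comp_apply] at h1 ⊢
  have h2 : pre (χ.comp (L : H →L[ℝ] Y)) = χ := by
    ext z
    simp [pre]
  rw [h2] at h1
  simpa using h1

/-- Real Hilbert spaces are reflexive. -/
theorem reflexive_hilbert (H : Type*) [NormedAddCommGroup H] [InnerProductSpace ℝ H] [CompleteSpace H] :
    Function.Surjective (NormedSpace.inclusionInDoubleDual ℝ H) := by
  intro Φ
  let θ0 : H →ₗ[ℝ] ℝ :=
    { toFun := fun y => Φ (innerSL ℝ y)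
      map_add' := by
        intro a b
        have : innerSL ℝ (a + b) = innerSL ℝ a + innerSL ℝ b := by
          ext z; simp [inner_add_left]
        rw [this, map_add]
      map_smul' := by
        intro c a
        have : innerSL ℝ (c • a) = c • innerSL ℝ a := by
          ext z; simp [real_inner_smul_left]
        rw [this, map_smul]
        rfl }
  let θ : H →L[ℝ] ℝ := θ0.mkContinuous ‖Φ‖ (by
    intro y
    have h1 := Φ.le_opNorm (innerSL ℝ y)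
    rw [innerSL_apply_norm] at h1
    exact h1)
  have hθ : ∀ y, θ y = Φ (innerSL ℝ y) := fun y => rfl
  set h : H := (InnerProductSpace.toDual ℝ H).symm θ with hh
  refine ⟨h, ?_⟩
  ext ψ
  simp only [NormedSpace.dual_def]
  set y : H := (InnerProductSpace.toDual ℝ H).symm ψ with hy
  have h1 : innerSL ℝ y = ψ := by
    have := (InnerProductSpace.toDual ℝ H).apply_symm_apply ψ
    rw [← this]
    rfl
  have h2 : ψ h = ⟪y, h⟫_ℝ := by
    rw [hy, InnerProductSpace.toDual_symm_apply]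
  have h3 : ⟪h, y⟫_ℝ = θ y := by
    rw [hh, InnerProductSpace.toDual_symm_apply]
  rw [h2, real_inner_comm, h3, hθ, h1]

section lpsum

variable {E : ℕ → Type*} [∀ k, NormedAddCommGroup (E k)] [∀ k, NormedSpace ℝ (E k)]

/-- Projection. -/
noncomputable abbrev Pk (E : ℕ → Type*) [∀ k, NormedAddCommGroup (E k)] [∀ k, NormedSpace ℝ (E k)]
    (k : ℕ) : lp E 2 →L[ℝ] E k := lp.evalCLM ℝ E 2 k

/-- Injection. -/
noncomputable abbrev Jk (E : ℕ → Type*) [∀ k, NormedAddCommGroup (E k)] [∀ k, NormedSpace ℝ (E k)]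
    (k : ℕ) : E k →L[ℝ] lp E 2 := lp.singleContinuousLinearMap ℝ E 2 k

lemma Jk_apply (k : ℕ) (z : E k) : Jk E k z = lp.single 2 k z := rfl

lemma Pk_apply (k : ℕ) (u : lp E 2) : Pk E k u = u k := rfl

/-- Cauchy--Schwarz for finite sums with square roots. -/
lemma abs_sum_mul_le_sqrt {A : Finset ℕ} (a b : ℕ → ℝ) :
    |∑ k ∈ A, a k * b k| ≤ Real.sqrt (∑ k ∈ A, a k ^ 2) * Real.sqrt (∑ k ∈ A, b k ^ 2) := by
  rw [← Real.sqrt_mul (Finset.sum_nonneg fun _ _ => sq_nonneg _)]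
  apply Real.abs_le_sqrt
  exact Finset.sum_mul_sq_le_sq_mul_sq A a b

/-- Almost norming vectors for real functionals. -/
lemma exists_norming_vec {V : Type*} [NormedAddCommGroup V] [NormedSpace ℝ V] (ψ : StrongDual ℝ V)
    {ε : ℝ} (hε : 0 < ε) : ∃ z : V, ‖z‖ ≤ 1 ∧ ‖ψ‖ - ε ≤ ψ z := by
  by_contra hcon
  push Not at hcon
  have h0 := hcon 0 (by simp)
  simp only [map_zero] at h0
  have hbd : ‖ψ‖ ≤ ‖ψ‖ - ε := by
    apply ContinuousLinearMap.opNorm_le_of_unit_norm (by linarith)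
    intro x hx
    rw [Real.norm_eq_abs, abs_le]
    have h1 := hcon x hx.le
    have h2 := hcon (-x) (by simpa using hx.le)
    simp only [map_neg] at h2
    constructor <;> linarith
  linarith

/-- A real `S` with `S ≤ a √S` satisfies `S ≤ a²`. -/
lemma le_sq_of_le_mul_sqrt {S a : ℝ} (hS : 0 ≤ S) (ha : 0 ≤ a) (h : S ≤ a * Real.sqrt S) :
    S ≤ a ^ 2 := by
  have hsq : Real.sqrt S ^ 2 = S := Real.sq_sqrt hS
  have hn := Real.sqrt_nonneg S
  by_cases h0 : Real.sqrt S = 0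
  · rw [h0] at hsq
    have : S = 0 := by nlinarith
    rw [this]
    positivity
  · have hpos : 0 < Real.sqrt S := lt_of_le_of_ne hn (Ne.symm h0)
    have h3 : Real.sqrt S ≤ a := by
      have h4 : Real.sqrt S * Real.sqrt S ≤ a * Real.sqrt S := by nlinarith
      exact le_of_mul_le_mul_right h4 hpos
    calc S = Real.sqrt S ^ 2 := hsq.symm
      _ ≤ a ^ 2 := pow_le_pow_left₀ hn h3 2

/-- Norm of a finite sum of singles. -/
lemma norm_sum_single_le (A : Finset ℕ) (f : ∀ k, E k) {C : ℝ} (hC : 0 ≤ C)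
    (h : ∑ k ∈ A, ‖f k‖ ^ 2 ≤ C ^ 2) : ‖∑ k ∈ A, lp.single 2 k (f k)‖ ≤ C := by
  have h1 := lp.norm_sum_single (E := E) (p := 2) (by norm_num) f A
  simp only [ENNReal.toReal_ofNat, Real.rpow_two] at h1
  have h2 : ‖∑ k ∈ A, lp.single 2 k (f k)‖ ^ 2 ≤ C ^ 2 := by rw [h1]; exact h
  exact (pow_le_pow_iff_left₀ (norm_nonneg _) hC two_ne_zero).mp h2

/-- The squared norms of the components of a functional are summable. -/
lemma sum_norm_comp_sq_le (χ : StrongDual ℝ (lp E 2)) (A : Finset ℕ) :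
    ∑ k ∈ A, ‖χ.comp (Jk E k)‖ ^ 2 ≤ ‖χ‖ ^ 2 := by
  classical
  set c : ℕ → ℝ := fun k => ‖χ.comp (Jk E k)‖ with hc
  set S : ℝ := ∑ k ∈ A, c k ^ 2 with hS
  have hc0 : ∀ k, 0 ≤ c k := fun k => norm_nonneg _
  have hS0 : 0 ≤ S := Finset.sum_nonneg fun _ _ => sq_nonneg _
  have hsq : Real.sqrt S ^ 2 = S := Real.sq_sqrt hS0
  have key : ∀ δ : ℝ, 0 < δ → S - δ * ∑ k ∈ A, c k ≤ ‖χ‖ * Real.sqrt S := by
    intro δ hδ
    have hz : ∀ k, ∃ z : E k, ‖z‖ ≤ 1 ∧ c k - δ ≤ χ (Jk E k z) := by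
      intro k
      obtain ⟨z, hz1, hz2⟩ := exists_norming_vec (χ.comp (Jk E k)) hδ
      exact ⟨z, hz1, hz2⟩
    choose z hz1 hz2 using hz
    set u : lp E 2 := ∑ k ∈ A, lp.single 2 k (c k • z k) with hu
    have hunorm : ‖u‖ ≤ Real.sqrt S := by
      apply norm_sum_single_le A _ (Real.sqrt_nonneg _)
      rw [hsq]
      apply Finset.sum_le_sum
      intro k _
      rw [norm_smul, Real.norm_eq_abs, abs_of_nonneg (hc0 k)]
      apply pow_le_pow_left₀ (by positivity)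
      have := hz1 k
      nlinarith [hc0 k]
    have hχu : χ u = ∑ k ∈ A, c k * χ (Jk E k (z k)) := by
      rw [hu, map_sum]
      apply Finset.sum_congr rfl
      intro k _
      have : lp.single 2 k (c k • z k) = c k • Jk E k (z k) := by
        rw [Jk_apply, lp.single_smul]
      rw [this, map_smul, smul_eq_mul]
    have hlow : S - δ * ∑ k ∈ A, c k ≤ χ u := by
      rw [hχu, Finset.mul_sum, hS, ← Finset.sum_sub_distrib]
      apply Finset.sum_le_sum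
      intro k _
      have := hz2 k
      nlinarith [hc0 k]
    have hup : χ u ≤ ‖χ‖ * Real.sqrt S := by
      refine (le_abs_self _).trans ?_
      refine (χ.le_opNorm u).trans ?_
      exact mul_le_mul_of_nonneg_left hunorm (norm_nonneg _)
    linarith
  have hkey2 : S ≤ ‖χ‖ * Real.sqrt S := by
    apply le_of_forall_pos_le_add
    intro ε hε
    set T : ℝ := ∑ k ∈ A, c k with hT
    have hT0 : 0 ≤ T := Finset.sum_nonneg fun k _ => hc0 k
    have := key (ε / (T + 1)) (by positivity)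
    have h2 : ε / (T + 1) * T ≤ ε := by
      rw [div_mul_eq_mul_div, div_le_iff₀ (by positivity)]
      nlinarith
    linarith
  exact le_sq_of_le_mul_sqrt hS0 (norm_nonneg _) hkey2

/-- Tail estimate for functionals. -/
lemma abs_sub_sum_comp_le (χ : StrongDual ℝ (lp E 2)) (u : lp E 2) (A : Finset ℕ) {ε : ℝ}
    (hε : 0 ≤ ε) (hA : ∀ C : Finset ℕ, Disjoint C A → ∑ k ∈ C, ‖χ.comp (Jk E k)‖ ^ 2 ≤ ε ^ 2) :
    |χ u - ∑ k ∈ A, (χ.comp (Jk E k)) (u k)| ≤ ε * ‖u‖ := by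
  classical
  have hsum : HasSum (fun k => χ (lp.single 2 k (u k))) (χ u) :=
    (lp.hasSum_single (by norm_num) u).mapL χ
  have hlim := hsum.sub_const (∑ k ∈ A, (χ.comp (Jk E k)) (u k))
  have hlim2 : Tendsto (fun B : Finset ℕ => |∑ k ∈ B, χ (lp.single 2 k (u k))
      - ∑ k ∈ A, (χ.comp (Jk E k)) (u k)|) atTop
      (𝓝 |χ u - ∑ k ∈ A, (χ.comp (Jk E k)) (u k)|) :=
    (hsum.sub_const _).abs
  refine le_of_tendsto hlim2 ?_
  filter_upwards [eventually_ge_atTop A] with B hB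
  have hB' : ∑ k ∈ B, χ (lp.single 2 k (u k)) - ∑ k ∈ A, (χ.comp (Jk E k)) (u k)
      = ∑ k ∈ B \ A, χ (lp.single 2 k (u k)) := by
    rw [← Finset.sum_sdiff hB]
    have : ∑ k ∈ A, χ (lp.single 2 k (u k)) = ∑ k ∈ A, (χ.comp (Jk E k)) (u k) := rfl
    rw [this]
    ring
  rw [hB']
  have hdisj : Disjoint (B \ A) A := Finset.sdiff_disjoint
  have h1 := hA (B \ A) hdisj
  have h2 : ∑ k ∈ B \ A, ‖u k‖ ^ 2 ≤ ‖u‖ ^ 2 := sum_norm_sq_le_lp2 u _
  calc |∑ k ∈ B \ A, χ (lp.single 2 k (u k))|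
      ≤ ∑ k ∈ B \ A, ‖χ.comp (Jk E k)‖ * ‖u k‖ := by
        refine (Finset.abs_sum_le_sum_abs _ _).trans ?_
        apply Finset.sum_le_sum
        intro k _
        exact (χ.comp (Jk E k)).le_opNorm (u k)
    _ ≤ |∑ k ∈ B \ A, ‖χ.comp (Jk E k)‖ * ‖u k‖| := le_abs_self _
    _ ≤ Real.sqrt (∑ k ∈ B \ A, ‖χ.comp (Jk E k)‖ ^ 2) * Real.sqrt (∑ k ∈ B \ A, ‖u k‖ ^ 2) :=
        abs_sum_mul_le_sqrt _ _
    _ ≤ ε * ‖u‖ := by
        apply mul_le_mul _ _ (Real.sqrt_nonneg _) hε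
        · exact Real.sqrt_le_iff.mpr ⟨hε, h1⟩
        · exact Real.sqrt_le_iff.mpr ⟨norm_nonneg _, h2⟩

/-- The `ℓ²` sum of reflexive spaces is reflexive. -/
theorem reflexive_lp2 (hE : ∀ k, Function.Surjective (NormedSpace.inclusionInDoubleDual ℝ (E k))) :
    Function.Surjective (NormedSpace.inclusionInDoubleDual ℝ (lp E 2)) := by
  classical
  intro Φ
  -- the components
  have hx : ∀ k, ∃ x : E k, ∀ ψ : StrongDual ℝ (E k), ψ x = Φ (ψ.comp (Pk E k)) := by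
    intro k
    let pre : StrongDual ℝ (E k) →L[ℝ] StrongDual ℝ (lp E 2) :=
      (ContinuousLinearMap.compL ℝ (lp E 2) (E k) ℝ).flip (Pk E k)
    obtain ⟨x, hx⟩ := hE k (Φ.comp pre)
    refine ⟨x, fun ψ => ?_⟩
    have := congrArg (fun Ψ : StrongDual ℝ (StrongDual ℝ (E k)) => Ψ ψ) hx
    simpa [pre] using this
  choose x hx using hx
  -- the bound
  have hbound : ∀ A : Finset ℕ, ∑ k ∈ A, ‖x k‖ ^ 2 ≤ ‖Φ‖ ^ 2 := by
    intro A
    have hψ : ∀ k, ∃ g : StrongDual ℝ (E k), ‖g‖ ≤ 1 ∧ g (x k) = ‖x k‖ :=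
      fun k => exists_dual_vector'' ℝ (x k)
    choose ψ hψ1 hψ2 using hψ
    set S : ℝ := ∑ k ∈ A, ‖x k‖ ^ 2 with hS
    have hS0 : 0 ≤ S := Finset.sum_nonneg fun _ _ => sq_nonneg _
    set Ψ : StrongDual ℝ (lp E 2) := ∑ k ∈ A, ‖x k‖ • (ψ k).comp (Pk E k) with hΨ
    have hΨval : Φ Ψ = S := by
      rw [hΨ, map_sum, hS]
      apply Finset.sum_congr rfl
      intro k _
      rw [map_smul, ← hx, hψ2, smul_eq_mul, sq]
    have hΨnorm : ‖Ψ‖ ≤ Real.sqrt S := by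
      apply ContinuousLinearMap.opNorm_le_bound _ (Real.sqrt_nonneg _)
      intro u
      have h1 : Ψ u = ∑ k ∈ A, ‖x k‖ * ψ k (u k) := by
        rw [hΨ, _root_.sum_apply]
        rfl
      rw [h1, Real.norm_eq_abs]
      have h2 := abs_sum_mul_le_sqrt (A := A) (fun k => ‖x k‖) (fun k => ψ k (u k))
      refine h2.trans ?_
      apply mul_le_mul_of_nonneg_left _ (Real.sqrt_nonneg _)
      apply Real.sqrt_le_iff.mpr
      refine ⟨norm_nonneg _, ?_⟩
      refine le_trans ?_ (sum_norm_sq_le_lp2 u A)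
      apply Finset.sum_le_sum
      intro k _
      have h3 : |ψ k (u k)| ≤ ‖u k‖ := by
        have := (ψ k).le_opNorm (u k)
        rw [Real.norm_eq_abs] at this
        have h4 : ‖ψ k‖ * ‖u k‖ ≤ 1 * ‖u k‖ :=
          mul_le_mul_of_nonneg_right (hψ1 k) (norm_nonneg _)
        linarith
      rw [← sq_abs]
      exact pow_le_pow_left₀ (abs_nonneg _) h3 2
    have h4 : S ≤ ‖Φ‖ * Real.sqrt S := by
      have h5 : Φ Ψ ≤ ‖Φ‖ * ‖Ψ‖ := (le_abs_self _).trans (Φ.le_opNorm Ψ)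
      rw [hΨval] at h5
      exact h5.trans (mul_le_mul_of_nonneg_left hΨnorm (ContinuousLinearMap.opNorm_nonneg Φ))
    exact le_sq_of_le_mul_sqrt hS0 (ContinuousLinearMap.opNorm_nonneg Φ) h4
  have hmem : Memℓp x 2 := memℓp_two_of_sum_le hbound
  let X : lp E 2 := ⟨x, hmem⟩
  have hXk : ∀ k, X k = x k := fun k => rfl
  refine ⟨X, ?_⟩
  ext χ
  simp only [NormedSpace.dual_def]
  -- it suffices to be close for every ε
  have hforall : ∀ ε : ℝ, 0 < ε → |χ X - Φ χ| ≤ ε * (‖Φ‖ + ‖X‖) := by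
    intro ε hε
    -- choose the finite set
    have hsum : Summable fun k => ‖χ.comp (Jk E k)‖ ^ 2 :=
      summable_of_sum_le (fun _ => sq_nonneg _) (sum_norm_comp_sq_le χ)
    have hlim := hsum.hasSum
    have hev : ∀ᶠ B : Finset ℕ in atTop, (∑' k, ‖χ.comp (Jk E k)‖ ^ 2) - ε ^ 2
        < ∑ k ∈ B, ‖χ.comp (Jk E k)‖ ^ 2 :=
      hlim.eventually (lt_mem_nhds (by nlinarith [sq_pos_of_pos hε]))
    obtain ⟨A, hA⟩ := hev.exists
    have hAtail : ∀ C : Finset ℕ, Disjoint C A → ∑ k ∈ C, ‖χ.comp (Jk E k)‖ ^ 2 ≤ ε ^ 2 := by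
      intro C hC
      have h1 : ∑ k ∈ C ∪ A, ‖χ.comp (Jk E k)‖ ^ 2 ≤ ∑' k, ‖χ.comp (Jk E k)‖ ^ 2 :=
        sum_le_hasSum _ (fun _ _ => sq_nonneg _) hlim
      rw [Finset.sum_union hC] at h1
      linarith
    -- the truncation
    let χA : StrongDual ℝ (lp E 2) := ∑ k ∈ A, (χ.comp (Jk E k)).comp (Pk E k)
    have hχA : ∀ u, χA u = ∑ k ∈ A, (χ.comp (Jk E k)) (u k) := by
      intro u
      simp only [χA, _root_.sum_apply]
      rfl
    have hχAΦ : Φ χA = χA X := by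
      rw [hχA]
      simp only [χA]
      rw [map_sum]
      apply Finset.sum_congr rfl
      intro k _
      rw [← hx, hXk]
    have hR : ‖χ - χA‖ ≤ ε := by
      apply ContinuousLinearMap.opNorm_le_bound _ hε.le
      intro u
      rw [_root_.sub_apply, hχA, Real.norm_eq_abs]
      exact abs_sub_sum_comp_le χ u A hε.le hAtail
    have h1 : χ X - Φ χ = (χ - χA) X - Φ (χ - χA) := by
      rw [map_sub, _root_.sub_apply, hχAΦ]
      ring
    rw [h1]
    have h2 : |(χ - χA) X| ≤ ε * ‖X‖ := by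
      have := (χ - χA).le_opNorm X
      rw [Real.norm_eq_abs] at this
      exact this.trans (mul_le_mul_of_nonneg_right hR (norm_nonneg _))
    have h3 : |Φ (χ - χA)| ≤ ε * ‖Φ‖ := by
      have := Φ.le_opNorm (χ - χA)
      rw [Real.norm_eq_abs] at this
      refine this.trans ?_
      rw [mul_comm ε]
      exact mul_le_mul_of_nonneg_left hR (norm_nonneg _)
    have h4 := abs_sub ((χ - χA) X) (Φ (χ - χA))
    linarith
  have hzero : |χ X - Φ χ| ≤ 0 := by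
    apply le_of_forall_pos_le_add
    intro ε hε
    have := hforall (ε / (‖Φ‖ + ‖X‖ + 1)) (by positivity)
    refine this.trans ?_
    rw [div_mul_eq_mul_div, zero_add, div_le_iff₀ (by positivity)]
    nlinarith [norm_nonneg Φ, norm_nonneg X]
  have := abs_nonpos_iff.mp hzero
  linarith

/-- A pointwise Minkowski type inequality in `ℓ²` sums. -/
theorem lp2_mink (u y : lp E 2) (t : ℝ)
    (h : ∀ k, 2 * Real.sqrt (‖u k‖ ^ 2 + t ^ 2 * ‖y k‖ ^ 2 / 4)
      ≤ ‖(u + t • y) k‖ + ‖(u - t • y) k‖) :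
    2 * Real.sqrt (‖u‖ ^ 2 + t ^ 2 * ‖y‖ ^ 2 / 4) ≤ ‖u + t • y‖ + ‖u - t • y‖ := by
  -- the pointwise square roots
  set r : ℕ → ℝ := fun k => Real.sqrt (‖u k‖ ^ 2 + t ^ 2 * ‖y k‖ ^ 2 / 4) with hr
  have hrsq : ∀ k, ‖r k‖ ^ 2 = ‖u k‖ ^ 2 + t ^ 2 * ‖y k‖ ^ 2 / 4 := by
    intro k
    rw [Real.norm_eq_abs, sq_abs, hr]
    exact Real.sq_sqrt (by positivity)
  have hsumr : HasSum (fun k => ‖r k‖ ^ 2) (‖u‖ ^ 2 + t ^ 2 * ‖y‖ ^ 2 / 4) := by
    have h1 := hasSum_norm_sq_lp2 u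
    have h2 := ((hasSum_norm_sq_lp2 y).mul_left (t ^ 2)).div_const 4
    have h3 := h1.add h2
    have h4 : (fun k => ‖r k‖ ^ 2) = fun k => ‖u k‖ ^ 2 + t ^ 2 * ‖y k‖ ^ 2 / 4 :=
      funext hrsq
    rw [h4]
    exact h3
  have hrmem : Memℓp r 2 := memℓp_two_of_sum_le (C := ‖u‖ ^ 2 + t ^ 2 * ‖y‖ ^ 2 / 4)
    (fun A => sum_le_hasSum A (fun _ _ => sq_nonneg _) hsumr)
  let R : lp (fun _ : ℕ => ℝ) 2 := ⟨r, hrmem⟩
  have hRnorm : ‖R‖ ^ 2 = ‖u‖ ^ 2 + t ^ 2 * ‖y‖ ^ 2 / 4 := by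
    have h1 := hasSum_norm_sq_lp2 R
    exact h1.unique hsumr
  have hRval : Real.sqrt (‖u‖ ^ 2 + t ^ 2 * ‖y‖ ^ 2 / 4) = ‖R‖ := by
    rw [← hRnorm]
    exact Real.sqrt_sq (norm_nonneg _)
  let a : lp (fun _ : ℕ => ℝ) 2 := lp.toNorm (u + t • y)
  let b : lp (fun _ : ℕ => ℝ) 2 := lp.toNorm (u - t • y)
  have h2R : ‖(2:ℝ) • R‖ ≤ ‖a + b‖ := by
    apply lp.norm_mono (by norm_num)
    intro k
    have hak : (a + b) k = ‖(u + t • y) k‖ + ‖(u - t • y) k‖ := rfl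
    have hRk : ((2:ℝ) • R) k = 2 * r k := rfl
    rw [hak, hRk, Real.norm_eq_abs, Real.norm_eq_abs]
    have h1 := h k
    have h0 : 0 ≤ r k := Real.sqrt_nonneg _
    rw [abs_of_nonneg (by positivity), abs_of_nonneg (by positivity)]
    exact h1
  have h3 : ‖a + b‖ ≤ ‖a‖ + ‖b‖ := norm_add_le _ _
  have h4 : ‖a‖ = ‖u + t • y‖ := lp.norm_toNorm
  have h5 : ‖b‖ = ‖u - t • y‖ := lp.norm_toNorm
  have h6 : ‖(2:ℝ) • R‖ = 2 * ‖R‖ := by
    rw [norm_smul]
    simp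
  rw [hRval]
  linarith

end lpsum

end Crest.Agent.Lib.AUC
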