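import Mathlib

set_option autoImplicit false

open MeasureTheory

namespace Crest.Agent.Lib.SquareCover

abbrev E2 := EuclideanSpace ℝ (Fin 2)


/-- Core lattice covering lemma for `a, b ≥ 0`, `a b < 1`. -/
theorem lattice_cover_nonneg (a b : ℝ) (ha : 0 ≤ a) (hb : 0 ≤ b) (hab : a * b < 1) (y₁ y₂ : ℝ) :
    ∃ m n : ℤ, 0 ≤ y₁ - (m + n * b) ∧ y₁ - (m + n * b) ≤ 1 ∧
      0 ≤ y₂ - (m * a + n) ∧ y₂ - (m * a + n) ≤ 1 := by
  set mm : ℤ → ℤ := fun n => ⌊y₁ - n * b⌋ with hmm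
  set ell : ℤ → ℝ := fun n => (mm n : ℝ) * a + n with hell
  have hpos : 0 < 1 - a * b := by linarith
  have hfl1 : ∀ n : ℤ, (mm n : ℝ) ≤ y₁ - n * b := fun n => Int.floor_le _
  have hfl2 : ∀ n : ℤ, y₁ - n * b < (mm n : ℝ) + 1 := fun n => Int.lt_floor_add_one _
  -- bounds on ell
  have hub : ∀ n : ℤ, ell n ≤ y₁ * a + n * (1 - a * b) := by
    intro n
    have := mul_le_mul_of_nonneg_right (hfl1 n) ha
    simp only [hell]
    nlinarith
  have hlb : ∀ n : ℤ, (y₁ - 1) * a + n * (1 - a * b) ≤ ell n := by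
    intro n
    have h := mul_le_mul_of_nonneg_right (le_of_lt (hfl2 n)) ha
    simp only [hell]
    nlinarith
  -- monotonicity of step
  have hstep : ∀ n : ℤ, ell (n + 1) ≤ ell n + 1 := by
    intro n
    have hm : mm (n + 1) ≤ mm n := by
      apply Int.floor_mono
      push_cast
      nlinarith
    have hm' : (mm (n + 1) : ℝ) ≤ mm n := by exact_mod_cast hm
    have := mul_le_mul_of_nonneg_right hm' ha
    simp only [hell]
    push_cast
    linarith
  -- existence of greatest n with ell n ≤ y₂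
  have hbdd : ∃ B : ℤ, ∀ z : ℤ, ell z ≤ y₂ → z ≤ B := by
    refine ⟨⌈(y₂ - (y₁ - 1) * a) / (1 - a * b)⌉, fun z hz => ?_⟩
    have h1 := hlb z
    have h2 : (z : ℝ) * (1 - a * b) ≤ y₂ - (y₁ - 1) * a := by linarith
    have h3 : (z : ℝ) ≤ (y₂ - (y₁ - 1) * a) / (1 - a * b) := by
      rw [le_div_iff₀ hpos]; exact h2
    have h4 := Int.le_ceil ((y₂ - (y₁ - 1) * a) / (1 - a * b))
    have : (z : ℝ) ≤ ((⌈(y₂ - (y₁ - 1) * a) / (1 - a * b)⌉ : ℤ) : ℝ) := le_trans h3 h4
    exact_mod_cast this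
  have hne : ∃ z : ℤ, ell z ≤ y₂ := by
    refine ⟨⌊(y₂ - y₁ * a) / (1 - a * b)⌋, ?_⟩
    have h1 := hub ⌊(y₂ - y₁ * a) / (1 - a * b)⌋
    have h2 := Int.floor_le ((y₂ - y₁ * a) / (1 - a * b))
    have h3 : ((⌊(y₂ - y₁ * a) / (1 - a * b)⌋ : ℤ) : ℝ) * (1 - a * b) ≤ y₂ - y₁ * a := by
      rwa [le_div_iff₀ hpos] at h2
    linarith
  obtain ⟨n, hn, hmax⟩ := Int.exists_greatest_of_bdd hbdd hne
  have hnext : y₂ < ell (n + 1) := by
    by_contra hcon
    have := hmax (n + 1) (not_lt.mp hcon)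
    omega
  refine ⟨mm n, n, ?_, ?_, ?_, ?_⟩
  · have := hfl1 n; linarith
  · have := hfl2 n; linarith
  · simp only [hell] at hn; linarith
  · have := hstep n; simp only [hell] at hn hnext this ⊢; linarith

/-- Lattice covering: if `0 ≤ a b < 1` then translates of the unit square by the lattice spanned by
`(1, a)` and `(b, 1)` cover the plane. -/
theorem lattice_cover (a b : ℝ) (hab0 : 0 ≤ a * b) (hab : a * b < 1) (y₁ y₂ : ℝ) :
    ∃ m n : ℤ, 0 ≤ y₁ - (m + n * b) ∧ y₁ - (m + n * b) ≤ 1 ∧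
      0 ≤ y₂ - (m * a + n) ∧ y₂ - (m * a + n) ≤ 1 := by
  have hcases : (0 ≤ a ∧ 0 ≤ b) ∨ (a ≤ 0 ∧ b ≤ 0) := by
    rcases le_total 0 a with ha | ha
    · rcases le_total 0 b with hb | hb
      · exact Or.inl ⟨ha, hb⟩
      · rcases eq_or_lt_of_le ha with h0 | h0
        · exact Or.inr ⟨h0.symm.le, hb⟩
        · rcases eq_or_lt_of_le hb with h1 | h1
          · exact Or.inl ⟨ha, h1.symm.le⟩
          · nlinarith
    · rcases le_total 0 b with hb | hb
      · rcases eq_or_lt_of_le hb with h0 | h0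
        · exact Or.inr ⟨ha, h0.symm.le⟩
        · rcases eq_or_lt_of_le ha with h1 | h1
          · exact Or.inl ⟨h1.symm.le, hb⟩
          · nlinarith
      · exact Or.inr ⟨ha, hb⟩
  rcases hcases with ⟨ha, hb⟩ | ⟨ha, hb⟩
  · exact lattice_cover_nonneg a b ha hb hab y₁ y₂
  · obtain ⟨m, n, h1, h2, h3, h4⟩ := lattice_cover_nonneg (-a) (-b) (by linarith) (by linarith)
      (by nlinarith) y₁ (1 - y₂)
    refine ⟨m, -n, ?_, ?_, ?_, ?_⟩
    · push_cast; nlinarith
    · push_cast; nlinarith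
    · push_cast; nlinarith
    · push_cast; nlinarith




open scoped InnerProductSpace

theorem trace_eq_inner (A : E2 →L[ℝ] E2) (b : OrthonormalBasis (Fin 2) ℝ E2) :
    LinearMap.trace ℝ _ A.toLinearMap = inner ℝ (b 0) (A (b 0)) + inner ℝ (b 1) (A (b 1)) := by
  rw [LinearMap.trace_eq_matrix_trace ℝ b.toBasis A.toLinearMap, Matrix.trace_fin_two]
  simp [LinearMap.toMatrix_apply, OrthonormalBasis.repr_apply_apply]

theorem det_eq_inner (A : E2 →L[ℝ] E2) (b : OrthonormalBasis (Fin 2) ℝ E2) :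
    LinearMap.det A.toLinearMap =
      inner ℝ (b 0) (A (b 0)) * inner ℝ (b 1) (A (b 1)) -
        inner ℝ (b 0) (A (b 1)) * inner ℝ (b 1) (A (b 0)) := by
  rw [← LinearMap.det_toMatrix b.toBasis A.toLinearMap, Matrix.det_fin_two]
  simp [LinearMap.toMatrix_apply, OrthonormalBasis.repr_apply_apply]

/-- The rotated frame with angle `θ`. -/
noncomputable def rotFrame (θ : ℝ) : OrthonormalBasis (Fin 2) ℝ E2 :=
  OrthonormalBasis.mk (v := ![!₂[Real.cos θ, Real.sin θ], !₂[-Real.sin θ, Real.cos θ]])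
    (by
      rw [orthonormal_iff_ite]
      intro i j
      fin_cases i <;> fin_cases j <;>
        simp [PiLp.inner_apply, Fin.sum_univ_two]
      · left
        rw [EuclideanSpace.norm_eq, Real.sqrt_eq_one]
        simp [Fin.sum_univ_two]
      · ring
      · ring
      · left
        rw [EuclideanSpace.norm_eq, Real.sqrt_eq_one]
        simp [Fin.sum_univ_two])
    (by
      intro x _
      have h : x = (x 0 * Real.cos θ + x 1 * Real.sin θ) • (![!₂[Real.cos θ, Real.sin θ], !₂[-Real.sin θ, Real.cos θ]] 0)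
          + (-x 0 * Real.sin θ + x 1 * Real.cos θ) • (![!₂[Real.cos θ, Real.sin θ], !₂[-Real.sin θ, Real.cos θ]] 1) := by
        ext i
        fin_cases i
        · simp
          linear_combination (-(x 0)) * Real.sin_sq_add_cos_sq θ
        · simp
          linear_combination (-(x 1)) * Real.sin_sq_add_cos_sq θ
      rw [h]
      refine Submodule.add_mem _ (Submodule.smul_mem _ _ (Submodule.subset_span ⟨0, rfl⟩))
        (Submodule.smul_mem _ _ (Submodule.subset_span ⟨1, rfl⟩)))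

theorem rotFrame_zero (θ : ℝ) : rotFrame θ 0 = !₂[Real.cos θ, Real.sin θ] := by
  simp [rotFrame]

theorem rotFrame_one (θ : ℝ) : rotFrame θ 1 = !₂[-Real.sin θ, Real.cos θ] := by
  simp [rotFrame]

theorem exists_frame (A : E2 →L[ℝ] E2) (htr : LinearMap.trace ℝ _ A.toLinearMap = 0) :
    ∃ b : OrthonormalBasis (Fin 2) ℝ E2,
      inner ℝ (b 0) (A (b 0)) = 0 ∧ inner ℝ (b 1) (A (b 1)) = 0 ∧
      inner ℝ (b 0) (A (b 1)) * inner ℝ (b 1) (A (b 0)) = - LinearMap.det A.toLinearMap := by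
  -- the function θ ↦ ⟪f θ, A (f θ)⟫
  set q : ℝ → ℝ := fun θ => inner ℝ (!₂[Real.cos θ, Real.sin θ] : E2) (A !₂[Real.cos θ, Real.sin θ]) with hq
  have hqc : Continuous q := by
    have : Continuous fun θ : ℝ => (!₂[Real.cos θ, Real.sin θ] : E2) := by
      refine (PiLp.continuous_toLp 2 _).comp ?_
      refine continuous_pi fun i => ?_
      fin_cases i
      · simpa using Real.continuous_cos
      · simpa using Real.continuous_sin
    exact this.inner (A.continuous.comp this)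
  have h0 : q 0 = inner ℝ (rotFrame 0 0) (A (rotFrame 0 0)) := by
    simp [hq, rotFrame_zero]
  have h1 : q (Real.pi / 2) = inner ℝ (rotFrame 0 1) (A (rotFrame 0 1)) := by
    have e : (!₂[Real.cos (Real.pi / 2), Real.sin (Real.pi / 2)] : E2) = rotFrame 0 1 := by
      rw [rotFrame_one]; simp
    simp only [hq]
    rw [e]
  have hsum : q 0 + q (Real.pi / 2) = 0 := by
    rw [h0, h1, ← trace_eq_inner A (rotFrame 0)]; exact htr
  have hzero : ∃ θ, q θ = 0 := by
    have hmem : (0 : ℝ) ∈ Set.uIcc (q 0) (q (Real.pi / 2)) := by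
      rw [Set.mem_uIcc]
      rcases le_total 0 (q 0) with h | h
      · right; constructor <;> linarith
      · left; constructor <;> linarith
    obtain ⟨θ, _, hθ⟩ := intermediate_value_uIcc (hqc.continuousOn) hmem
    exact ⟨θ, hθ⟩
  obtain ⟨θ, hθ⟩ := hzero
  refine ⟨rotFrame θ, ?_, ?_, ?_⟩
  · rw [rotFrame_zero]; exact hθ
  · have h := trace_eq_inner A (rotFrame θ)
    rw [htr, rotFrame_zero, ] at h
    have h2 : inner ℝ (!₂[Real.cos θ, Real.sin θ] : E2) (A !₂[Real.cos θ, Real.sin θ]) = 0 := hθ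
    rw [h2] at h
    linarith
  · have h := det_eq_inner A (rotFrame θ)
    have h2 : inner ℝ (rotFrame θ 0) (A (rotFrame θ 0)) = 0 := by rw [rotFrame_zero]; exact hθ
    rw [h, h2]; ring





theorem expand2 (b : OrthonormalBasis (Fin 2) ℝ E2) (x : E2) :
    x = (inner ℝ (b 0) x) • b 0 + (inner ℝ (b 1) x) • b 1 := by
  have := b.sum_repr' x
  rw [Fin.sum_univ_two] at this
  exact this.symm

/-- The lattice point with index `(m, n)`. -/
noncomputable def latticePt (p₀ : E2) (b : OrthonormalBasis (Fin 2) ℝ E2) (r : ℝ) (m n : ℤ) : E2 :=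
  p₀ + r • ((m : ℝ) • b 0 + (n : ℝ) • b 1)

theorem abs_inner_basis_le (b : OrthonormalBasis (Fin 2) ℝ E2) (i : Fin 2) (x : E2) :
    |inner ℝ (b i) x| ≤ ‖x‖ := by
  have h := abs_real_inner_le_norm (b i) x
  rwa [b.orthonormal.1 i, one_mul] at h

/-- Local covering lemma. -/
theorem local_cover (V : E2 → E2) (A : E2 →L[ℝ] E2) (b : OrthonormalBasis (Fin 2) ℝ E2)
    (hb0 : inner ℝ (b 0) (A (b 0)) = 0) (hb1 : inner ℝ (b 1) (A (b 1)) = 0)
    (L c₀ B η η' : ℝ) (hc₀ : 0 < c₀) (hL : 0 < L) (hB : 0 ≤ B) (hη : 0 < η) (hη' : 0 ≤ η')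
    (h0 : 0 ≤ inner ℝ (b 0) (A (b 1)) * inner ℝ (b 1) (A (b 0)))
    (h1 : c₀ ≤ 1 - L ^ 2 * (inner ℝ (b 0) (A (b 1)) * inner ℝ (b 1) (A (b 0))))
    (hβ : |inner ℝ (b 0) (A (b 1))| ≤ B) (hγ : |inner ℝ (b 1) (A (b 0))| ≤ B)
    (hsmall : L * η' * (2 * ((1 + L * B) / c₀)) ≤ η)
    (p₀ p : E2) (s r : ℝ) (hs : |s| ≤ L) (hr : 0 < r)
    (hE : ∀ q : E2, ‖q - p‖ ≤ (2 * ((1 + L * B) / c₀)) * r →
      ‖V q - V p - A (q - p)‖ ≤ η' * ‖q - p‖) :
    ∃ m n : ℤ, ‖latticePt p₀ b r m n - p‖ ≤ (2 * ((1 + L * B) / c₀)) * r ∧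
      ∃ x ∈ Set.Icc (0 : ℝ) 1, ∃ y ∈ Set.Icc (0 : ℝ) 1,
        p + s • V p = (latticePt p₀ b r m n - (η * r) • (b 0 + b 1))
          + x • ((r * (1 + 2 * η)) • b 0) + y • ((r * (1 + 2 * η)) • b 1)
          + s • V (latticePt p₀ b r m n) := by
  set β := inner ℝ (b 0) (A (b 1)) with hβdef
  set γ := inner ℝ (b 1) (A (b 0)) with hγdef
  set C₁ := (1 + L * B) / c₀ with hC₁
  have hC₁nn : 0 ≤ C₁ := by positivity
  have hAb0 : A (b 0) = γ • b 1 := by
    have := expand2 b (A (b 0))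
    rw [hb0, zero_smul, zero_add] at this
    exact this
  have hAb1 : A (b 1) = β • b 0 := by
    have := expand2 b (A (b 1))
    rw [hb1, zero_smul, add_zero] at this
    exact this
  have hs2 : s ^ 2 ≤ L ^ 2 := by
    have := abs_le.mp hs
    nlinarith
  have hab0 : 0 ≤ (s * γ) * (s * β) := by
    have : (s * γ) * (s * β) = s ^ 2 * (β * γ) := by ring
    rw [this]; positivity
  have hab1 : c₀ ≤ 1 - (s * γ) * (s * β) := by
    have e : (s * γ) * (s * β) = s ^ 2 * (β * γ) := by ring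
    rw [e]
    have : s ^ 2 * (β * γ) ≤ L ^ 2 * (β * γ) := mul_le_mul_of_nonneg_right hs2 h0
    linarith
  have hab : (s * γ) * (s * β) < 1 := by linarith
  set v := p - p₀ with hv
  set w₀ := inner ℝ (b 0) v / r with hw₀
  set w₁ := inner ℝ (b 1) v / r with hw₁
  obtain ⟨m, n, hu0, hu0', hu1, hu1'⟩ :=
    lattice_cover (s * γ) (s * β) hab0 hab (w₀ + s * β * w₁) (s * γ * w₀ + w₁)
  set ξ₀ := w₀ - m with hξ₀
  set ξ₁ := w₁ - n with hξ₁
  set u₀ := ξ₀ + s * β * ξ₁ with hu₀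
  set u₁ := s * γ * ξ₀ + ξ₁ with hu₁
  have e₀ : w₀ + s * β * w₁ - ((m : ℝ) + n * (s * β)) = u₀ := by simp only [hu₀, hξ₀, hξ₁]; ring
  have e₁ : s * γ * w₀ + w₁ - ((m : ℝ) * (s * γ) + n) = u₁ := by simp only [hu₁, hξ₀, hξ₁]; ring
  rw [e₀] at hu0 hu0'
  rw [e₁] at hu1 hu1'
  -- bounds on ξ
  have habsb : |s * β| ≤ L * B := by
    rw [abs_mul]; exact mul_le_mul hs hβ (abs_nonneg _) hL.le
  have habsa : |s * γ| ≤ L * B := by
    rw [abs_mul]; exact mul_le_mul hs hγ (abs_nonneg _) hL.le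
  have hdet : 0 < 1 - (s * γ) * (s * β) := by linarith
  have hξ₀eq : ξ₀ * (1 - (s * γ) * (s * β)) = u₀ - s * β * u₁ := by simp only [hu₀, hu₁]; ring
  have hξ₁eq : ξ₁ * (1 - (s * γ) * (s * β)) = u₁ - s * γ * u₀ := by simp only [hu₀, hu₁]; ring
  have hbd : ∀ (ξ u u' k : ℝ), |k| ≤ L * B → 0 ≤ u → u ≤ 1 → 0 ≤ u' → u' ≤ 1 →
      ξ * (1 - (s * γ) * (s * β)) = u - k * u' → |ξ| ≤ C₁ := by
    intro ξ u u' k hk h1 h2 h3 h4 hξ
    have hLB : 0 ≤ L * B := by positivity
    have h5 : |u - k * u'| ≤ 1 + L * B := by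
      have : |k * u'| ≤ L * B := by
        rw [abs_mul, abs_of_nonneg h3]
        calc |k| * u' ≤ L * B * u' := mul_le_mul_of_nonneg_right hk h3
          _ ≤ L * B * 1 := mul_le_mul_of_nonneg_left h4 hLB
          _ = L * B := by ring
      have h6 := abs_sub (u) (k * u')
      rw [abs_of_nonneg h1] at h6
      linarith
    have h7 : |ξ| * c₀ ≤ 1 + L * B := by
      calc |ξ| * c₀ ≤ |ξ| * (1 - (s * γ) * (s * β)) := mul_le_mul_of_nonneg_left hab1 (abs_nonneg _)
        _ = |ξ * (1 - (s * γ) * (s * β))| := by rw [abs_mul, abs_of_pos hdet]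
        _ = |u - k * u'| := by rw [hξ]
        _ ≤ 1 + L * B := h5
    rw [hC₁, le_div_iff₀ hc₀]
    exact h7
  have hξ₀bd : |ξ₀| ≤ C₁ := hbd ξ₀ u₀ u₁ (s * β) habsb hu0 hu0' hu1 hu1' hξ₀eq
  have hξ₁bd : |ξ₁| ≤ C₁ := hbd ξ₁ u₁ u₀ (s * γ) habsa hu1 hu1' hu0 hu0' hξ₁eq
  -- the lattice point
  set q := latticePt p₀ b r m n with hq
  have hvexp : v = inner ℝ (b 0) v • b 0 + inner ℝ (b 1) v • b 1 := expand2 b v
  have hrne : r ≠ 0 := hr.ne'
  have hinner0 : inner ℝ (b 0) v = r * w₀ := by rw [hw₀]; field_simp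
  have hinner1 : inner ℝ (b 1) v = r * w₁ := by rw [hw₁]; field_simp
  have hΔ : p - q = (r * ξ₀) • b 0 + (r * ξ₁) • b 1 := by
    have : p = p₀ + v := by rw [hv]; abel
    rw [this, hq, latticePt, hvexp, hinner0, hinner1, hξ₀, hξ₁]
    simp only [smul_add, smul_smul]
    have e1 : (r * (w₀ - m)) • b 0 = (r * w₀) • b 0 - (r * m) • b 0 := by
      rw [← sub_smul]; congr 1; ring
    have e2 : (r * (w₁ - n)) • b 1 = (r * w₁) • b 1 - (r * n) • b 1 := by
      rw [← sub_smul]; congr 1; ring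
    rw [e1, e2]
    abel
  have hΔnorm : ‖q - p‖ ≤ (2 * C₁) * r := by
    rw [norm_sub_rev, hΔ]
    calc ‖(r * ξ₀) • b 0 + (r * ξ₁) • b 1‖ ≤ ‖(r * ξ₀) • b 0‖ + ‖(r * ξ₁) • b 1‖ := norm_add_le _ _
      _ = r * |ξ₀| + r * |ξ₁| := by
          rw [norm_smul, norm_smul, b.orthonormal.1 0, b.orthonormal.1 1, Real.norm_eq_abs,
            Real.norm_eq_abs, abs_mul, abs_mul, abs_of_pos hr]; ring
      _ ≤ r * C₁ + r * C₁ := by gcongr
      _ = (2 * C₁) * r := by ring
  have hEq := hE q hΔnorm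
  set E := V q - V p - A (q - p) with hEdef
  -- s E components
  have hAΔ : A (p - q) = (r * ξ₀ * γ) • b 1 + (r * ξ₁ * β) • b 0 := by
    rw [hΔ, map_add, map_smul, map_smul, hAb0, hAb1, smul_smul, smul_smul]
  have hmain : p - q + s • (V p - V q) =
      (r * u₀ - s * inner ℝ (b 0) E) • b 0 + (r * u₁ - s * inner ℝ (b 1) E) • b 1 := by
    have hVdiff : V p - V q = A (p - q) - E := by
      rw [hEdef]
      have : A (q - p) = - A (p - q) := by rw [← map_neg, neg_sub]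
      rw [this]; abel
    have hEexp := expand2 b E
    rw [hVdiff, hAΔ, hΔ, smul_sub, smul_add]
    conv_lhs => rw [hEexp]
    simp only [smul_add, smul_smul, hu₀, hu₁]
    have e0 : (r * (ξ₀ + s * β * ξ₁) - s * inner ℝ (b 0) E) • b 0 =
        (r * ξ₀) • b 0 + (s * (r * ξ₁ * β)) • b 0 - (s * inner ℝ (b 0) E) • b 0 := by
      rw [← add_smul, ← sub_smul]; congr 1; ring
    have e1 : (r * (s * γ * ξ₀ + ξ₁) - s * inner ℝ (b 1) E) • b 1 =
        (r * ξ₁) • b 1 + (s * (r * ξ₀ * γ)) • b 1 - (s * inner ℝ (b 1) E) • b 1 := by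
      rw [← add_smul, ← sub_smul]; congr 1; ring
    rw [e0, e1]
    abel
  -- error bounds
  have hsEbd : ∀ i : Fin 2, |s * inner ℝ (b i) E| ≤ η * r := by
    intro i
    have h1 := abs_inner_basis_le b i E
    have h2 : ‖q - p‖ ≤ (2 * C₁) * r := hΔnorm
    calc |s * inner ℝ (b i) E| = |s| * |inner ℝ (b i) E| := abs_mul _ _
      _ ≤ L * (η' * ((2 * C₁) * r)) := by
          apply mul_le_mul hs _ (abs_nonneg _) hL.le
          calc |inner ℝ (b i) E| ≤ ‖E‖ := h1
            _ ≤ η' * ‖q - p‖ := hEq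
            _ ≤ η' * ((2 * C₁) * r) := mul_le_mul_of_nonneg_left h2 hη'
      _ = (L * η' * (2 * C₁)) * r := by ring
      _ ≤ η * r := mul_le_mul_of_nonneg_right hsmall hr.le
  have hsE0 := abs_le.mp (hsEbd 0)
  have hsE1 := abs_le.mp (hsEbd 1)
  set X₀ := r * u₀ - s * inner ℝ (b 0) E with hX₀
  set X₁ := r * u₁ - s * inner ℝ (b 1) E with hX₁
  have hr2 : 0 < r * (1 + 2 * η) := by positivity
  have hmem : ∀ (X u : ℝ) (e : ℝ), 0 ≤ u → u ≤ 1 → -(η * r) ≤ e → e ≤ η * r → X = r * u - e →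
      (X + η * r) / (r * (1 + 2 * η)) ∈ Set.Icc (0 : ℝ) 1 := by
    intro X u e h1 h2 h3 h4 h5
    constructor
    · apply div_nonneg _ hr2.le
      have : 0 ≤ r * u := by positivity
      linarith
    · rw [div_le_one hr2]
      have : r * u ≤ r * 1 := mul_le_mul_of_nonneg_left h2 hr.le
      linarith
  refine ⟨m, n, hΔnorm, (X₀ + η * r) / (r * (1 + 2 * η)),
    hmem X₀ u₀ _ hu0 hu0' hsE0.1 hsE0.2 rfl, (X₁ + η * r) / (r * (1 + 2 * η)),
    hmem X₁ u₁ _ hu1 hu1' hsE1.1 hsE1.2 rfl, ?_⟩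
  have hx : (((X₀ + η * r) / (r * (1 + 2 * η))) • ((r * (1 + 2 * η)) • b 0)) = (X₀ + η * r) • b 0 := by
    rw [smul_smul]; congr 1; field_simp
  have hy : (((X₁ + η * r) / (r * (1 + 2 * η))) • ((r * (1 + 2 * η)) • b 1)) = (X₁ + η * r) • b 1 := by
    rw [smul_smul]; congr 1; field_simp
  rw [hx, hy]
  have hfin : p + s • V p = q + s • V q + (p - q + s • (V p - V q)) := by
    rw [smul_sub]; abel
  rw [hfin, hmain, smul_add, add_smul, add_smul]
  abel





/-- volume of a coordinate box -/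
theorem volume_box (a b : Fin 2 → ℝ) :
    volume {x : E2 | ∀ i, a i ≤ x i ∧ x i < b i} =
      ENNReal.ofReal (b 0 - a 0) * ENNReal.ofReal (b 1 - a 1) := by
  have h := (EuclideanSpace.volume_preserving_symm_measurableEquiv_toLp (Fin 2)).measure_preimage
    (s := Set.univ.pi fun i => Set.Ico (a i) (b i))
    (MeasurableSet.univ_pi fun i => measurableSet_Ico).nullMeasurableSet
  have e : (⇑(MeasurableEquiv.toLp 2 (Fin 2 → ℝ)).symm ⁻¹' (Set.univ.pi fun i => Set.Ico (a i) (b i)))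
      = {x : E2 | ∀ i, a i ≤ x i ∧ x i < b i} := by
    ext x
    simp [Set.mem_pi]
  rw [e, Real.volume_pi_Ico, Fin.prod_univ_two] at h
  exact h

/-- The half-open lattice cell. -/
def latticeCell (p₀ : E2) (b : OrthonormalBasis (Fin 2) ℝ E2) (r : ℝ) (m n : ℤ) : Set E2 :=
  {x | (m : ℝ) * r ≤ inner ℝ (b 0) (x - p₀) ∧ inner ℝ (b 0) (x - p₀) < ((m : ℝ) + 1) * r ∧
       (n : ℝ) * r ≤ inner ℝ (b 1) (x - p₀) ∧ inner ℝ (b 1) (x - p₀) < ((n : ℝ) + 1) * r}

theorem measurableSet_latticeCell (p₀ : E2) (b : OrthonormalBasis (Fin 2) ℝ E2) (r : ℝ) (m n : ℤ) :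
    MeasurableSet (latticeCell p₀ b r m n) := by
  have h : ∀ i : Fin 2, Continuous fun x : E2 => inner ℝ (b i) (x - p₀) := fun i =>
    continuous_const.inner (continuous_id.sub continuous_const)
  refine MeasurableSet.inter (measurableSet_le continuous_const.measurable (h 0).measurable) ?_
  refine MeasurableSet.inter (measurableSet_lt (h 0).measurable continuous_const.measurable) ?_
  refine MeasurableSet.inter (measurableSet_le continuous_const.measurable (h 1).measurable) ?_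
  exact measurableSet_lt (h 1).measurable continuous_const.measurable

theorem volume_latticeCell (p₀ : E2) (b : OrthonormalBasis (Fin 2) ℝ E2) (r : ℝ) (hr : 0 < r)
    (m n : ℤ) : volume (latticeCell p₀ b r m n) = ENNReal.ofReal (r ^ 2) := by
  have h1 := (volume_box (fun i => (if i = 0 then (m : ℝ) else n) * r)
    (fun i => ((if i = 0 then (m : ℝ) else n) + 1) * r))
  have h2 : volume (⇑b.repr ⁻¹' {x : E2 | ∀ i, (if i = 0 then (m : ℝ) else n) * r ≤ x i ∧
      x i < ((if i = 0 then (m : ℝ) else n) + 1) * r}) = _ :=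
    (b.measurePreserving_repr).measure_preimage (by
      have hc : ∀ i : Fin 2, Continuous fun x : E2 => x i := fun i => by fun_prop
      have : {x : E2 | ∀ i, (if i = 0 then (m : ℝ) else n) * r ≤ x i ∧
          x i < ((if i = 0 then (m : ℝ) else n) + 1) * r} =
          ⋂ i, ({x : E2 | (if i = 0 then (m : ℝ) else n) * r ≤ x i} ∩
            {x : E2 | x i < ((if i = 0 then (m : ℝ) else n) + 1) * r}) := by
        ext x; simp
      rw [this]
      exact (MeasurableSet.iInter fun i =>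
        (measurableSet_le continuous_const.measurable (hc i).measurable).inter
          (measurableSet_lt (hc i).measurable continuous_const.measurable)).nullMeasurableSet)
  have h3 : latticeCell p₀ b r m n = (fun x => x - p₀) ⁻¹'
      (⇑b.repr ⁻¹' {x : E2 | ∀ i, (if i = 0 then (m : ℝ) else n) * r ≤ x i ∧
      x i < ((if i = 0 then (m : ℝ) else n) + 1) * r}) := by
    ext x
    have k0 : (b.repr (x - p₀)) 0 = inner ℝ (b 0) (x - p₀) := b.repr_apply_apply _ _
    have k1 : (b.repr (x - p₀)) 1 = inner ℝ (b 1) (x - p₀) := b.repr_apply_apply _ _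
    constructor
    · rintro ⟨h1, h2, h3, h4⟩
      show ∀ i : Fin 2, (if i = 0 then (m : ℝ) else n) * r ≤ (b.repr (x - p₀)) i ∧
        (b.repr (x - p₀)) i < ((if i = 0 then (m : ℝ) else n) + 1) * r
      intro i
      fin_cases i
      · simp only [Fin.zero_eta, Fin.isValue, if_true]
        rw [k0]; exact ⟨h1, h2⟩
      · simp only [Fin.mk_one, Fin.isValue, one_ne_zero, if_false]
        rw [k1]; exact ⟨h3, h4⟩
    · intro h
      have h0 := h 0
      have h1 := h 1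
      simp only [k0, k1, if_true, Fin.isValue, one_ne_zero, if_false] at h0 h1
      exact ⟨h0.1, h0.2, h1.1, h1.2⟩
  have hpre : ∀ S : Set E2, volume ((fun x : E2 => x - p₀) ⁻¹' S) = volume S := by
    intro S
    have : (fun x : E2 => x - p₀) = fun x => x + (-p₀) := by
      funext x; exact sub_eq_add_neg x p₀
    rw [this, measure_preimage_add_right]
  rw [h3, hpre, h2, h1]
  simp only [if_true]
  have e0 : (((m : ℝ) + 1) * r - (m : ℝ) * r) = r := by ring
  have e1 : (((n : ℝ) + 1) * r - (n : ℝ) * r) = r := by ring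
  simp only [Fin.isValue, one_ne_zero, if_false]
  rw [e0, e1, ← ENNReal.ofReal_mul hr.le, pow_two]

theorem latticeCell_pairwise_disjoint (p₀ : E2) (b : OrthonormalBasis (Fin 2) ℝ E2) (r : ℝ) (hr : 0 < r)
    (i j : ℤ × ℤ) (hij : i ≠ j) :
    Disjoint (latticeCell p₀ b r i.1 i.2) (latticeCell p₀ b r j.1 j.2) := by
  rw [Set.disjoint_left]
  rintro x ⟨h1, h2, h3, h4⟩ ⟨h5, h6, h7, h8⟩
  apply hij
  have key : ∀ (u v : ℤ) (w : ℝ), (u : ℝ) * r ≤ w → w < ((u : ℝ) + 1) * r → (v : ℝ) * r ≤ w →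
      w < ((v : ℝ) + 1) * r → u = v := by
    intro u v w a1 a2 a3 a4
    have b1 : (u : ℝ) < (v : ℝ) + 1 := by
      by_contra hc
      have : ((v : ℝ) + 1) * r ≤ (u : ℝ) * r := mul_le_mul_of_nonneg_right (not_lt.mp hc) hr.le
      linarith
    have b2 : (v : ℝ) < (u : ℝ) + 1 := by
      by_contra hc
      have : ((u : ℝ) + 1) * r ≤ (v : ℝ) * r := mul_le_mul_of_nonneg_right (not_lt.mp hc) hr.le
      linarith
    have b1' : u < v + 1 := by exact_mod_cast b1
    have b2' : v < u + 1 := by exact_mod_cast b2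
    omega
  exact Prod.ext (key _ _ _ h1 h2 h5 h6) (key _ _ _ h3 h4 h7 h8)

theorem card_mul_le_volume (p₀ : E2) (b : OrthonormalBasis (Fin 2) ℝ E2) (r : ℝ) (hr : 0 < r)
    (Q : Set E2) (I : Finset (ℤ × ℤ)) (hI : ∀ i ∈ I, latticeCell p₀ b r i.1 i.2 ⊆ Q) :
    (I.card : ENNReal) * ENNReal.ofReal (r ^ 2) ≤ volume Q := by
  have h1 : volume (⋃ i ∈ I, latticeCell p₀ b r i.1 i.2) =
      ∑ i ∈ I, volume (latticeCell p₀ b r i.1 i.2) := by
    apply measure_biUnion_finset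
    · intro i _ j _ hij
      exact latticeCell_pairwise_disjoint p₀ b r hr i j hij
    · intro i _
      exact measurableSet_latticeCell _ _ _ _ _
  have h2 : ∑ i ∈ I, volume (latticeCell p₀ b r i.1 i.2) =
      (I.card : ENNReal) * ENNReal.ofReal (r ^ 2) := by
    simp_rw [volume_latticeCell p₀ b r hr]
    rw [Finset.sum_const, nsmul_eq_mul]
  rw [← h2, ← h1]
  exact measure_mono (Set.iUnion₂_subset hI)

/-- the lattice point belongs to its cell and the cell lies near the lattice point -/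
theorem latticeCell_subset_ball (p₀ : E2) (b : OrthonormalBasis (Fin 2) ℝ E2) (r : ℝ) (hr : 0 < r)
    (m n : ℤ) : latticeCell p₀ b r m n ⊆ Metric.closedBall (latticePt p₀ b r m n) (2 * r) := by
  rintro x ⟨h1, h2, h3, h4⟩
  rw [Metric.mem_closedBall, dist_eq_norm]
  have hexp : x - latticePt p₀ b r m n =
      (inner ℝ (b 0) (x - p₀) - m * r) • b 0 + (inner ℝ (b 1) (x - p₀) - n * r) • b 1 := by
    have h := b.sum_repr' (x - p₀)
    rw [Fin.sum_univ_two] at h
    have e : x - latticePt p₀ b r m n = (x - p₀) - r • ((m : ℝ) • b 0 + (n : ℝ) • b 1) := by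
      rw [latticePt]; abel
    rw [e]
    conv_lhs => rw [← h]
    simp only [smul_add, smul_smul, sub_smul]
    rw [mul_comm r (m : ℝ), mul_comm r (n : ℝ)]
    abel
  rw [hexp]
  calc _ ≤ ‖(inner ℝ (b 0) (x - p₀) - m * r) • b 0‖ + ‖(inner ℝ (b 1) (x - p₀) - n * r) • b 1‖ :=
        norm_add_le _ _
    _ = |inner ℝ (b 0) (x - p₀) - m * r| + |inner ℝ (b 1) (x - p₀) - n * r| := by
        rw [norm_smul, norm_smul, b.orthonormal.1 0, b.orthonormal.1 1, Real.norm_eq_abs,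
          Real.norm_eq_abs, mul_one, mul_one]
    _ ≤ r + r := by
        apply add_le_add
        · rw [abs_of_nonneg (by linarith)]; linarith
        · rw [abs_of_nonneg (by linarith)]; linarith
    _ = 2 * r := by ring

theorem latticePt_mem_cell (p₀ : E2) (b : OrthonormalBasis (Fin 2) ℝ E2) (r : ℝ) (hr : 0 < r)
    (m n : ℤ) : latticePt p₀ b r m n ∈ latticeCell p₀ b r m n := by
  have e : latticePt p₀ b r m n - p₀ = (r * m) • b 0 + (r * n) • b 1 := by
    rw [latticePt, smul_add, smul_smul, smul_smul]; abel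
  have h00 : inner ℝ (b 0) (b 0) = (1 : ℝ) := by
    rw [real_inner_self_eq_norm_sq, b.orthonormal.1 0]; norm_num
  have h11 : inner ℝ (b 1) (b 1) = (1 : ℝ) := by
    rw [real_inner_self_eq_norm_sq, b.orthonormal.1 1]; norm_num
  have h01 : inner ℝ (b 0) (b 1) = (0 : ℝ) := b.orthonormal.2 (by decide)
  have h10 : inner ℝ (b 1) (b 0) = (0 : ℝ) := b.orthonormal.2 (by decide)
  refine ⟨?_, ?_, ?_, ?_⟩ <;>
  · rw [e, inner_add_right, inner_smul_right, inner_smul_right]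
    simp only [h00, h11, h01, h10]
    nlinarith

/-- finiteness of the index set -/
theorem finite_index (p₀ : E2) (b : OrthonormalBasis (Fin 2) ℝ E2) (r : ℝ) (hr : 0 < r)
    (Q : Set E2) (hQ : Bornology.IsBounded Q) :
    {i : ℤ × ℤ | latticeCell p₀ b r i.1 i.2 ⊆ Q}.Finite := by
  obtain ⟨R, hR⟩ := hQ.subset_closedBall p₀
  have hkey : ∀ i : ℤ × ℤ, latticeCell p₀ b r i.1 i.2 ⊆ Q → |(i.1 : ℝ)| * r ≤ R ∧ |(i.2 : ℝ)| * r ≤ R := by
    intro i hi
    have hmem := hR (hi (latticePt_mem_cell p₀ b r hr i.1 i.2))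
    rw [Metric.mem_closedBall, dist_eq_norm] at hmem
    have e : latticePt p₀ b r i.1 i.2 - p₀ = (r * i.1) • b 0 + (r * i.2) • b 1 := by
      rw [latticePt, smul_add, smul_smul, smul_smul]; abel
    have h00 : inner ℝ (b 0) (b 0) = (1 : ℝ) := by
      rw [real_inner_self_eq_norm_sq, b.orthonormal.1 0]; norm_num
    have h11 : inner ℝ (b 1) (b 1) = (1 : ℝ) := by
      rw [real_inner_self_eq_norm_sq, b.orthonormal.1 1]; norm_num
    have h01 : inner ℝ (b 0) (b 1) = (0 : ℝ) := b.orthonormal.2 (by decide)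
    have h10 : inner ℝ (b 1) (b 0) = (0 : ℝ) := b.orthonormal.2 (by decide)
    have i0 : inner ℝ (b 0) (latticePt p₀ b r i.1 i.2 - p₀) = r * i.1 := by
      rw [e, inner_add_right, inner_smul_right, inner_smul_right, h00, h01]; ring
    have i1 : inner ℝ (b 1) (latticePt p₀ b r i.1 i.2 - p₀) = r * i.2 := by
      rw [e, inner_add_right, inner_smul_right, inner_smul_right, h11, h10]; ring
    have a0 := abs_real_inner_le_norm (b 0) (latticePt p₀ b r i.1 i.2 - p₀)
    have a1 := abs_real_inner_le_norm (b 1) (latticePt p₀ b r i.1 i.2 - p₀)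
    rw [b.orthonormal.1 0, one_mul, i0, abs_mul, abs_of_pos hr] at a0
    rw [b.orthonormal.1 1, one_mul, i1, abs_mul, abs_of_pos hr] at a1
    constructor <;> nlinarith
  set K : ℤ := ⌈R / r⌉ with hK
  refine Set.Finite.subset (Set.finite_Icc ((-K, -K) : ℤ × ℤ) (K, K)) ?_
  intro i hi
  obtain ⟨h1, h2⟩ := hkey i hi
  have hR' : ∀ z : ℤ, |(z : ℝ)| * r ≤ R → -K ≤ z ∧ z ≤ K := by
    intro z hz
    have h3 : |(z : ℝ)| ≤ R / r := by rwa [le_div_iff₀ hr]
    have h4 : R / r ≤ (K : ℝ) := Int.le_ceil _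
    have h5 := abs_le.mp (le_trans h3 h4)
    constructor
    · have : ((-K : ℤ) : ℝ) ≤ z := by push_cast; linarith [h5.1]
      exact_mod_cast this
    · have : (z : ℝ) ≤ (K : ℝ) := h5.2
      exact_mod_cast this
  obtain ⟨a1, a2⟩ := hR' _ h1
  obtain ⟨a3, a4⟩ := hR' _ h2
  exact ⟨⟨a1, a3⟩, ⟨a2, a4⟩⟩


end Crest.Agent.Lib.SquareCover
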