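import Crest.Agent.Lib.SquareCover

set_option autoImplicit false

open MeasureTheory

namespace Crest.Agent.Lib.SquareCover

/-- Family of (inflated) squares for one cell. -/
theorem cell_family (V : E2 → E2) (J : E2 → ℝ) (A : E2 →L[ℝ] E2) (b : OrthonormalBasis (Fin 2) ℝ E2)
    (hb0 : inner ℝ (b 0) (A (b 0)) = 0) (hb1 : inner ℝ (b 1) (A (b 1)) = 0)
    (L c₀ B η η' : ℝ) (hc₀ : 0 < c₀) (hL : 0 < L) (hB : 0 ≤ B) (hη : 0 < η) (hη' : 0 ≤ η')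
    (h0 : 0 ≤ inner ℝ (b 0) (A (b 1)) * inner ℝ (b 1) (A (b 0)))
    (h1 : c₀ ≤ 1 - L ^ 2 * (inner ℝ (b 0) (A (b 1)) * inner ℝ (b 1) (A (b 0))))
    (hβ : |inner ℝ (b 0) (A (b 1))| ≤ B) (hγ : |inner ℝ (b 1) (A (b 0))| ≤ B)
    (hsmall : L * η' * (2 * ((1 + L * B) / c₀)) ≤ η)
    (p₀ : E2) (r : ℝ) (hr : 0 < r) (W Q : Set E2) (hQb : Bornology.IsBounded Q) (J₁ : ℝ)
    (hJ₁ : 0 ≤ J₁) (hJ : ∀ q ∈ Q, J (V q) ≤ J₁) (hJ0 : ∀ q, 0 ≤ J q)
    (hgeom : ∀ p ∈ W, ∀ q : E2, ‖q - p‖ ≤ (2 * ((1 + L * B) / c₀)) * r →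
      Metric.closedBall q (2 * r) ⊆ Q)
    (hE : ∀ p ∈ W, ∀ q : E2, ‖q - p‖ ≤ (2 * ((1 + L * B) / c₀)) * r →
      ‖V q - V p - A (q - p)‖ ≤ η' * ‖q - p‖) :
    ∃ I : Finset (ℤ × ℤ),
      (∀ p ∈ W, ∀ s : ℝ, |s| ≤ L → ∃ i ∈ I, ∃ x ∈ Set.Icc (0 : ℝ) 1, ∃ y ∈ Set.Icc (0 : ℝ) 1,
        p + s • V p = (latticePt p₀ b r i.1 i.2 - (η * r) • (b 0 + b 1))
          + x • ((r * (1 + 2 * η)) • b 0) + y • ((r * (1 + 2 * η)) • b 1)
          + s • V (latticePt p₀ b r i.1 i.2)) ∧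
      ∑ i ∈ I, (r * (1 + 2 * η)) ^ 2 * J (V (latticePt p₀ b r i.1 i.2)) ≤
        (volume Q).toReal * (1 + 2 * η) ^ 2 * J₁ := by
  classical
  set I := (finite_index p₀ b r hr Q hQb).toFinset with hI
  have hImem : ∀ i, i ∈ I ↔ latticeCell p₀ b r i.1 i.2 ⊆ Q := by
    intro i; simp [hI]
  refine ⟨I, ?_, ?_⟩
  · intro p hp s hs
    obtain ⟨m, n, hq, x, hx, y, hy, he⟩ := local_cover V A b hb0 hb1 L c₀ B η η' hc₀ hL hB hη hη'
      h0 h1 hβ hγ hsmall p₀ p s r hs hr (hE p hp)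
    refine ⟨(m, n), ?_, x, hx, y, hy, he⟩
    rw [hImem]
    exact (latticeCell_subset_ball p₀ b r hr m n).trans (hgeom p hp _ hq)
  · have hcard := card_mul_le_volume p₀ b r hr Q I (fun i hi => (hImem i).1 hi)
    have hfin : volume Q ≠ ⊤ := hQb.measure_lt_top.ne
    have hcard' : (I.card : ℝ) * r ^ 2 ≤ (volume Q).toReal := by
      have := ENNReal.toReal_mono hfin hcard
      rw [ENNReal.toReal_mul, ENNReal.toReal_natCast,
        ENNReal.toReal_ofReal (by positivity)] at this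
      exact this
    calc ∑ i ∈ I, (r * (1 + 2 * η)) ^ 2 * J (V (latticePt p₀ b r i.1 i.2))
        ≤ ∑ _i ∈ I, (r * (1 + 2 * η)) ^ 2 * J₁ := by
          apply Finset.sum_le_sum
          intro i hi
          apply mul_le_mul_of_nonneg_left _ (by positivity)
          exact hJ _ ((hImem i).1 hi (latticePt_mem_cell p₀ b r hr i.1 i.2))
      _ = ((I.card : ℝ) * r ^ 2) * ((1 + 2 * η) ^ 2 * J₁) := by
          rw [Finset.sum_const, nsmul_eq_mul]; ring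
      _ ≤ (volume Q).toReal * ((1 + 2 * η) ^ 2 * J₁) :=
          mul_le_mul_of_nonneg_right hcard' (by positivity)
      _ = (volume Q).toReal * (1 + 2 * η) ^ 2 * J₁ := by ring

/-- grid cell -/
def gridCell (δ : ℝ) (k : ℤ × ℤ) : Set E2 :=
  {x | (k.1 : ℝ) * δ ≤ x 0 ∧ x 0 < ((k.1 : ℝ) + 1) * δ ∧ (k.2 : ℝ) * δ ≤ x 1 ∧ x 1 < ((k.2 : ℝ) + 1) * δ}

/-- enlarged grid cell -/
def gridCellE (δ ρ : ℝ) (k : ℤ × ℤ) : Set E2 :=
  {x | (k.1 : ℝ) * δ - ρ ≤ x 0 ∧ x 0 < ((k.1 : ℝ) + 1) * δ + ρ ∧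
       (k.2 : ℝ) * δ - ρ ≤ x 1 ∧ x 1 < ((k.2 : ℝ) + 1) * δ + ρ}

theorem volume_gridCellE (δ ρ : ℝ) (hδ : 0 ≤ δ) (hρ : 0 ≤ ρ) (k : ℤ × ℤ) :
    volume (gridCellE δ ρ k) = ENNReal.ofReal ((δ + 2 * ρ) ^ 2) := by
  have h := volume_box ![(k.1 : ℝ) * δ - ρ, (k.2 : ℝ) * δ - ρ] ![((k.1 : ℝ) + 1) * δ + ρ, ((k.2 : ℝ) + 1) * δ + ρ]
  have e : {x : E2 | ∀ i, (![(k.1 : ℝ) * δ - ρ, (k.2 : ℝ) * δ - ρ] : Fin 2 → ℝ) i ≤ x i ∧
      x i < (![((k.1 : ℝ) + 1) * δ + ρ, ((k.2 : ℝ) + 1) * δ + ρ] : Fin 2 → ℝ) i} = gridCellE δ ρ k := by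
    ext x
    simp [gridCellE, Fin.forall_fin_two, and_assoc]
  rw [e] at h
  rw [h]
  simp only [Matrix.cons_val_zero, Matrix.cons_val_one, Matrix.cons_val_fin_one]
  have e0 : ((k.1 : ℝ) + 1) * δ + ρ - ((k.1 : ℝ) * δ - ρ) = δ + 2 * ρ := by ring
  have e1 : ((k.2 : ℝ) + 1) * δ + ρ - ((k.2 : ℝ) * δ - ρ) = δ + 2 * ρ := by ring
  rw [e0, e1, ← ENNReal.ofReal_mul (by positivity), pow_two]

theorem gridCell_eq_E (δ : ℝ) (k : ℤ × ℤ) : gridCell δ k = gridCellE δ 0 k := by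
  ext x
  simp [gridCell, gridCellE]

theorem volume_gridCell (δ : ℝ) (hδ : 0 ≤ δ) (k : ℤ × ℤ) :
    volume (gridCell δ k) = ENNReal.ofReal (δ ^ 2) := by
  rw [gridCell_eq_E, volume_gridCellE δ 0 hδ le_rfl]
  simp

theorem measurableSet_gridCell (δ : ℝ) (k : ℤ × ℤ) : MeasurableSet (gridCell δ k) := by
  have hc : ∀ i : Fin 2, Continuous fun x : E2 => x i := fun i => by fun_prop
  refine MeasurableSet.inter (measurableSet_le continuous_const.measurable (hc 0).measurable) ?_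
  refine MeasurableSet.inter (measurableSet_lt (hc 0).measurable continuous_const.measurable) ?_
  refine MeasurableSet.inter (measurableSet_le continuous_const.measurable (hc 1).measurable) ?_
  exact measurableSet_lt (hc 1).measurable continuous_const.measurable

theorem gridCell_disjoint (δ : ℝ) (hδ : 0 < δ) (i j : ℤ × ℤ) (hij : i ≠ j) :
    Disjoint (gridCell δ i) (gridCell δ j) := by
  rw [Set.disjoint_left]
  rintro x ⟨h1, h2, h3, h4⟩ ⟨h5, h6, h7, h8⟩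
  apply hij
  have key : ∀ (u v : ℤ) (w : ℝ), (u : ℝ) * δ ≤ w → w < ((u : ℝ) + 1) * δ → (v : ℝ) * δ ≤ w →
      w < ((v : ℝ) + 1) * δ → u = v := by
    intro u v w a1 a2 a3 a4
    have b1 : (u : ℝ) < (v : ℝ) + 1 := by
      by_contra hc
      have : ((v : ℝ) + 1) * δ ≤ (u : ℝ) * δ := mul_le_mul_of_nonneg_right (not_lt.mp hc) hδ.le
      linarith
    have b2 : (v : ℝ) < (u : ℝ) + 1 := by
      by_contra hc
      have : ((u : ℝ) + 1) * δ ≤ (v : ℝ) * δ := mul_le_mul_of_nonneg_right (not_lt.mp hc) hδ.le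
      linarith
    have b1' : u < v + 1 := by exact_mod_cast b1
    have b2' : v < u + 1 := by exact_mod_cast b2
    omega
  exact Prod.ext (key _ _ _ h1 h2 h5 h6) (key _ _ _ h3 h4 h7 h8)

/-- Every point lies in a grid cell. -/
theorem mem_gridCell_floor (δ : ℝ) (hδ : 0 < δ) (x : E2) :
    x ∈ gridCell δ (⌊x 0 / δ⌋, ⌊x 1 / δ⌋) := by
  have key : ∀ w : ℝ, ((⌊w / δ⌋ : ℤ) : ℝ) * δ ≤ w ∧ w < (((⌊w / δ⌋ : ℤ) : ℝ) + 1) * δ := by
    intro w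
    constructor
    · have := Int.floor_le (w / δ)
      rwa [le_div_iff₀ hδ] at this
    · have := Int.lt_floor_add_one (w / δ)
      rwa [div_lt_iff₀ hδ] at this
  exact ⟨(key _).1, (key _).2, (key _).1, (key _).2⟩

/-- The set of cells meeting a bounded set is finite. -/
theorem finite_cells (δ : ℝ) (hδ : 0 < δ) (D : Set E2) (hD : Bornology.IsBounded D) :
    {k : ℤ × ℤ | (gridCell δ k ∩ D).Nonempty}.Finite := by
  obtain ⟨R, hR⟩ := hD.subset_closedBall (0 : E2)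
  set K : ℤ := ⌈R / δ⌉ + 1 with hK
  refine Set.Finite.subset (Set.finite_Icc ((-K, -K) : ℤ × ℤ) (K, K)) ?_
  rintro k ⟨x, ⟨h1, h2, h3, h4⟩, hx⟩
  have hxR := hR hx
  rw [mem_closedBall_zero_iff] at hxR
  have hc : ∀ i : Fin 2, |x i| ≤ R := by
    intro i
    have := PiLp.norm_apply_le x i
    rw [Real.norm_eq_abs] at this
    linarith
  have hbd : ∀ (u : ℤ) (w : ℝ), |w| ≤ R → (u : ℝ) * δ ≤ w → w < ((u : ℝ) + 1) * δ → -K ≤ u ∧ u ≤ K := by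
    intro u w hw a1 a2
    have hw' := abs_le.mp hw
    have h5 : R / δ ≤ ((⌈R / δ⌉ : ℤ) : ℝ) := Int.le_ceil _
    have h6 : (u : ℝ) ≤ R / δ := by
      rw [le_div_iff₀ hδ]; linarith
    have h7 : -(R / δ) < (u : ℝ) + 1 := by
      have h8 : -R < ((u : ℝ) + 1) * δ := by linarith
      have h9 : -(R / δ) = (-R) / δ := by ring
      rw [h9, div_lt_iff₀ hδ]
      exact h8
    constructor
    · have : ((-K : ℤ) : ℝ) ≤ (u : ℝ) := by
        rw [hK]; push_cast; linarith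
      exact_mod_cast this
    · have : (u : ℝ) ≤ (K : ℝ) := by
        rw [hK]; push_cast; linarith
      exact_mod_cast this
  obtain ⟨a1, a2⟩ := hbd k.1 _ (hc 0) h1 h2
  obtain ⟨a3, a4⟩ := hbd k.2 _ (hc 1) h3 h4
  exact ⟨⟨a1, a3⟩, ⟨a2, a4⟩⟩

/-- Geometry: a point of the enlarged cell is close to any point of the cell. -/
theorem norm_le_of_mem_grid (δ ρ : ℝ) (hδ : 0 ≤ δ) (hρ : 0 ≤ ρ) (k : ℤ × ℤ) (x y : E2)
    (hx : x ∈ gridCellE δ ρ k) (hy : y ∈ gridCell δ k) : ‖x - y‖ ≤ 2 * (δ + ρ) := by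
  obtain ⟨h1, h2, h3, h4⟩ := hx
  obtain ⟨h5, h6, h7, h8⟩ := hy
  have hn : ‖x - y‖ ≤ |x 0 - y 0| + |x 1 - y 1| := by
    rw [EuclideanSpace.norm_eq, Real.sqrt_le_left (by positivity)]
    simp only [Fin.sum_univ_two, PiLp.sub_apply, Real.norm_eq_abs, sq_abs]
    nlinarith [abs_nonneg (x 0 - y 0), abs_nonneg (x 1 - y 1), sq_abs (x 0 - y 0), sq_abs (x 1 - y 1),
      mul_nonneg (abs_nonneg (x 0 - y 0)) (abs_nonneg (x 1 - y 1))]
  have h00 : |x 0 - y 0| ≤ δ + ρ := by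
    rw [abs_le]; constructor <;> nlinarith
  have h11 : |x 1 - y 1| ≤ δ + ρ := by
    rw [abs_le]; constructor <;> nlinarith
  linarith

/-- Geometry: if `p` is in the cell and `x` close to `p` then `x` is in the enlarged cell. -/
theorem mem_gridCellE_of_close (δ ρ : ℝ) (k : ℤ × ℤ) (x p : E2) (hp : p ∈ gridCell δ k)
    (hx : ‖x - p‖ ≤ ρ) : x ∈ gridCellE δ ρ k := by
  obtain ⟨h5, h6, h7, h8⟩ := hp
  have hc : ∀ i : Fin 2, |x i - p i| ≤ ρ := by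
    intro i
    have := PiLp.norm_apply_le (x - p) i
    rw [Real.norm_eq_abs] at this
    simpa using le_trans this hx
  have h0 := abs_le.mp (hc 0)
  have h1 := abs_le.mp (hc 1)
  refine ⟨by linarith, by linarith, by linarith, by linarith⟩

theorem bounded_gridCellE (δ ρ : ℝ) (k : ℤ × ℤ) : Bornology.IsBounded (gridCellE δ ρ k) := by
  rw [isBounded_iff_forall_norm_le]
  refine ⟨|(k.1 : ℝ) * δ - ρ| + |((k.1 : ℝ) + 1) * δ + ρ| + |(k.2 : ℝ) * δ - ρ| + |((k.2 : ℝ) + 1) * δ + ρ|, ?_⟩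
  rintro x ⟨h1, h2, h3, h4⟩
  have a1 : |x 0| ≤ |(k.1 : ℝ) * δ - ρ| + |((k.1 : ℝ) + 1) * δ + ρ| := by
    rw [abs_le]
    constructor
    · have := neg_abs_le ((k.1 : ℝ) * δ - ρ)
      have := abs_nonneg (((k.1 : ℝ) + 1) * δ + ρ)
      linarith
    · have := le_abs_self (((k.1 : ℝ) + 1) * δ + ρ)
      have := abs_nonneg ((k.1 : ℝ) * δ - ρ)
      linarith
  have a2 : |x 1| ≤ |(k.2 : ℝ) * δ - ρ| + |((k.2 : ℝ) + 1) * δ + ρ| := by
    rw [abs_le]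
    constructor
    · have := neg_abs_le ((k.2 : ℝ) * δ - ρ)
      have := abs_nonneg (((k.2 : ℝ) + 1) * δ + ρ)
      linarith
    · have := le_abs_self (((k.2 : ℝ) + 1) * δ + ρ)
      have := abs_nonneg ((k.2 : ℝ) * δ - ρ)
      linarith
  have hn : ‖x‖ ≤ |x 0| + |x 1| := by
    rw [EuclideanSpace.norm_eq, Real.sqrt_le_left (by positivity)]
    simp only [Fin.sum_univ_two, Real.norm_eq_abs, sq_abs]
    nlinarith [abs_nonneg (x 0), abs_nonneg (x 1), sq_abs (x 0), sq_abs (x 1),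
      mul_nonneg (abs_nonneg (x 0)) (abs_nonneg (x 1))]
  linarith

end Crest.Agent.Lib.SquareCover
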