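import Crest.Agent.Lib.SquareCover2

set_option autoImplicit false

open MeasureTheory

namespace Crest.Agent.Lib.SquareCover

/-- The weight `J`. -/
noncomputable def Jw (h : ℝ) (g : E2) : ℝ := 1 / Real.sqrt (1 + (g 0) ^ 2 + h ^ 2 * (g 1) ^ 2)

theorem Jw_nonneg (h : ℝ) (g : E2) : 0 ≤ Jw h g := by
  unfold Jw; positivity

theorem Jw_le_one (h : ℝ) (g : E2) : Jw h g ≤ 1 := by
  unfold Jw
  have hs : 1 ≤ Real.sqrt (1 + (g 0) ^ 2 + h ^ 2 * (g 1) ^ 2) := by
    rw [Real.one_le_sqrt]; nlinarith [sq_nonneg (g 0), mul_nonneg (sq_nonneg h) (sq_nonneg (g 1))]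
  rw [div_le_one (by linarith)]
  exact hs

theorem continuous_Jw (h : ℝ) : Continuous (Jw h) := by
  unfold Jw
  have hc : ∀ i : Fin 2, Continuous fun x : E2 => x i := fun i => by fun_prop
  refine Continuous.div continuous_const ?_ ?_
  · exact Real.continuous_sqrt.comp (by fun_prop)
  · intro g
    apply ne_of_gt
    apply Real.sqrt_pos.mpr
    positivity

/-- Conversion from a finset-indexed family to a `Fin`-indexed family. -/
theorem fin_of_finset {α : Type*} (S : Finset α) (c a b g : α → E2) (Z : Set (ℝ × E2)) (T : ℝ)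
    (F : E2 → E2 → ℝ)
    (h1 : ∀ i ∈ S, a i ≠ 0 ∧ ‖b i‖ = ‖a i‖ ∧ inner ℝ (a i) (b i) = 0)
    (h2 : ∀ z ∈ Z, ∃ i ∈ S, ∃ x ∈ Set.Icc (0 : ℝ) 1, ∃ y ∈ Set.Icc (0 : ℝ) 1,
      z.2 = c i + x • a i + y • b i + z.1 • g i)
    (h3 : ∑ i ∈ S, F (a i) (g i) ≤ T) :
    ∃ (k : ℕ) (c' a' b' g' : Fin k → E2),
      (∀ i, a' i ≠ 0 ∧ ‖b' i‖ = ‖a' i‖ ∧ inner ℝ (a' i) (b' i) = 0) ∧
      Z ⊆ ⋃ i, {z : ℝ × E2 | ∃ x ∈ Set.Icc (0 : ℝ) 1, ∃ y ∈ Set.Icc (0 : ℝ) 1,
          z.2 = c' i + x • a' i + y • b' i + z.1 • g' i} ∧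
      ∑ i, F (a' i) (g' i) ≤ T := by
  classical
  let e := S.equivFin
  refine ⟨S.card, fun i => c (e.symm i), fun i => a (e.symm i), fun i => b (e.symm i),
    fun i => g (e.symm i), fun i => h1 _ (e.symm i).2, ?_, ?_⟩
  · intro z hz
    obtain ⟨i, hi, x, hx, y, hy, he⟩ := h2 z hz
    refine Set.mem_iUnion.2 ⟨e ⟨i, hi⟩, x, hx, y, hy, ?_⟩
    simpa using he
  · have : ∑ i : Fin S.card, F (a (e.symm i)) (g (e.symm i)) = ∑ i ∈ S, F (a i) (g i) := by
      rw [← Finset.sum_coe_sort S (fun i => F (a i) (g i))]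
      exact Equiv.sum_comp e.symm (fun i : S => F (a i) (g i))
    rw [this]
    exact h3

/-- Summation over grid cells. -/
theorem sum_cells (D : Set E2) (hDm : MeasurableSet D) (hDf : volume D ≠ ⊤) (δ t : ℝ) (hδ : 0 < δ)
    (K : Finset (ℤ × ℤ)) (hcov : D ⊆ ⋃ k ∈ K, gridCell δ k) (G : E2 → ℝ)
    (hG : IntegrableOn G D) (Jk : ℤ × ℤ → ℝ) (hJ1 : ∀ k ∈ K, Jk k ≤ 1)
    (hJG : ∀ k ∈ K, ∀ x ∈ gridCell δ k ∩ D, Jk k ≤ G x + t) :
    ∑ k ∈ K, δ ^ 2 * Jk k ≤ (∫ x in D, G x) + t * (volume D).toReal +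
      (∑ _k ∈ K, δ ^ 2 - (volume D).toReal) := by
  classical
  have hmeas : ∀ k, MeasurableSet (gridCell δ k ∩ D) := fun k =>
    (measurableSet_gridCell δ k).inter hDm
  have hfinite : ∀ k, volume (gridCell δ k ∩ D) ≠ ⊤ := fun k =>
    ne_top_of_le_ne_top hDf (measure_mono Set.inter_subset_right)
  have hUnion : D = ⋃ k ∈ K, (gridCell δ k ∩ D) := by
    ext x
    simp only [Set.mem_iUnion, Set.mem_inter_iff, exists_prop]
    constructor
    · intro hx
      obtain ⟨k, hk⟩ := Set.mem_iUnion.1 (hcov hx)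
      obtain ⟨hk1, hk2⟩ := Set.mem_iUnion.1 hk
      exact ⟨k, hk1, hk2, hx⟩
    · rintro ⟨k, _, _, hx⟩; exact hx
  have hdisj : (↑K : Set (ℤ × ℤ)).PairwiseDisjoint fun k => gridCell δ k ∩ D := by
    intro i _ j _ hij
    exact (gridCell_disjoint δ hδ i j hij).mono Set.inter_subset_left Set.inter_subset_left
  -- sum of the areas
  have hsumv : ∑ k ∈ K, (volume (gridCell δ k ∩ D)).toReal = (volume D).toReal := by
    conv_rhs => rw [hUnion, measure_biUnion_finset hdisj (fun k _ => hmeas k)]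
    rw [ENNReal.toReal_sum (fun k _ => hfinite k)]
  -- sum of the integrals
  have hsumI : ∑ k ∈ K, ∫ x in gridCell δ k ∩ D, G x = ∫ x in D, G x := by
    conv_rhs => rw [hUnion]
    rw [integral_biUnion_finset K (fun k _ => hmeas k) hdisj
      (fun k _ => hG.mono_set Set.inter_subset_right)]
  have hvolQ : ∀ k, (volume (gridCell δ k)).toReal = δ ^ 2 := by
    intro k
    rw [volume_gridCell δ hδ.le, ENNReal.toReal_ofReal (by positivity)]
  have hstep : ∀ k ∈ K, δ ^ 2 * Jk k ≤ (∫ x in gridCell δ k ∩ D, G x) +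
      t * (volume (gridCell δ k ∩ D)).toReal + (δ ^ 2 - (volume (gridCell δ k ∩ D)).toReal) := by
    intro k hk
    set a := (volume (gridCell δ k ∩ D)).toReal with ha
    have ha0 : 0 ≤ a := ENNReal.toReal_nonneg
    have ha1 : a ≤ δ ^ 2 := by
      rw [← hvolQ k]
      apply ENNReal.toReal_mono _ (measure_mono Set.inter_subset_left)
      rw [volume_gridCell δ hδ.le]; exact ENNReal.ofReal_ne_top
    have hint1 : a * Jk k ≤ (∫ x in gridCell δ k ∩ D, G x) + t * a := by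
      have hfin' : volume (gridCell δ k ∩ D) < ⊤ := lt_top_iff_ne_top.2 (hfinite k)
      have hiG : IntegrableOn G (gridCell δ k ∩ D) := hG.mono_set Set.inter_subset_right
      have hc1 : IntegrableOn (fun _ : E2 => Jk k) (gridCell δ k ∩ D) :=
        integrableOn_const hfin'.ne
      have hc2 : IntegrableOn (fun _ : E2 => t) (gridCell δ k ∩ D) :=
        integrableOn_const hfin'.ne
      have hc3 : IntegrableOn (fun x => G x + t) (gridCell δ k ∩ D) := hiG.add hc2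
      have h := setIntegral_mono_on hc1 hc3 (hmeas k) (fun x hx => hJG k hk x hx)
      have e1 : ∫ _x in gridCell δ k ∩ D, Jk k = a * Jk k := by
        rw [setIntegral_const, smul_eq_mul]; rfl
      have e2 : ∫ x in gridCell δ k ∩ D, (G x + t) = (∫ x in gridCell δ k ∩ D, G x) + t * a := by
        rw [integral_add hiG hc2, setIntegral_const, smul_eq_mul]
        rw [mul_comm]; rfl
      rw [e1, e2] at h
      exact h
    have hint2 : (δ ^ 2 - a) * Jk k ≤ δ ^ 2 - a := by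
      have := mul_le_mul_of_nonneg_left (hJ1 k hk) (sub_nonneg.2 ha1)
      linarith
    nlinarith
  calc ∑ k ∈ K, δ ^ 2 * Jk k
      ≤ ∑ k ∈ K, ((∫ x in gridCell δ k ∩ D, G x) + t * (volume (gridCell δ k ∩ D)).toReal +
          (δ ^ 2 - (volume (gridCell δ k ∩ D)).toReal)) := Finset.sum_le_sum hstep
    _ = (∫ x in D, G x) + t * (volume D).toReal + (∑ _k ∈ K, δ ^ 2 - (volume D).toReal) := by
        rw [Finset.sum_add_distrib, Finset.sum_add_distrib, hsumI, ← Finset.mul_sum, hsumv,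
          Finset.sum_sub_distrib, hsumv]

end Crest.Agent.Lib.SquareCover
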