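import Crest.Agent.Lib.SquareCover3

set_option autoImplicit false
set_option maxHeartbeats 4000000

open MeasureTheory

namespace Crest.Agent.Lib.SquareCover

theorem fct_le (t : ℝ) (ht : 0 < t) (ht1 : t ≤ 1) :
    (1 + t / 30) ^ 2 * (1 + 2 * (t / 30)) ^ 2 ≤ 1 + t := by
  have hη : 0 < t / 30 := by positivity
  set η := t / 30 with hηdef
  have hx : 2 * η ≤ 1 := by rw [hηdef]; linarith
  have hpow : (1 + 2 * η) ^ 4 ≤ 1 + 15 * (2 * η) := by
    have h2 : 0 ≤ 2 * η := by positivity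
    nlinarith [mul_nonneg h2 h2, mul_nonneg (mul_nonneg h2 h2) h2,
      mul_nonneg (mul_nonneg h2 h2) (mul_nonneg h2 h2)]
  have h3 : (1 + η) ^ 2 * (1 + 2 * η) ^ 2 ≤ (1 + 2 * η) ^ 4 := by
    have : (1 + η) ^ 2 ≤ (1 + 2 * η) ^ 2 := by
      apply pow_le_pow_left₀ (by positivity); linarith
    calc (1 + η) ^ 2 * (1 + 2 * η) ^ 2 ≤ (1 + 2 * η) ^ 2 * (1 + 2 * η) ^ 2 :=
          mul_le_mul_of_nonneg_right this (by positivity)
      _ = (1 + 2 * η) ^ 4 := by ring
  have h4 : 1 + 15 * (2 * η) = 1 + t := by rw [hηdef]; ring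
  linarith

theorem final_arith (II v t ε : ℝ) (hII0 : 0 ≤ II) (hIIv : II ≤ v) (hv : 0 ≤ v) (ht : 0 < t)
    (ht1 : t ≤ 1) (htε : t * (5 * v + 4) ≤ ε) :
    (1 + t) * (II + t * v + t + t * (v + t)) ≤ II + ε := by
  have h1 : t * II ≤ t * v := mul_le_mul_of_nonneg_left hIIv ht.le
  have h2 : t * (t * v) ≤ 1 * (t * v) := by
    apply mul_le_mul_of_nonneg_right ht1 (by positivity)
  have h3 : t * t ≤ 1 * t := mul_le_mul_of_nonneg_right ht1 ht.le
  have h4 : t * (t * t) ≤ 1 * (t * t) := mul_le_mul_of_nonneg_right ht1 (by positivity)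
  nlinarith

theorem main_theorem
    (D : Set E2) (hD : IsCompact D)
    (V : E2 → E2) (U : Set E2)
    (hU : IsOpen U) (hDU : D ⊆ U) (hV : ContDiffOn ℝ 1 V U) (L h : ℝ) (hL : 0 < L)
    (htr : ∀ p ∈ D, LinearMap.trace ℝ _ (fderiv ℝ V p).toLinearMap = 0)
    (hdet : ∀ p ∈ D, -(L ^ 2)⁻¹ < LinearMap.det (fderiv ℝ V p).toLinearMap ∧
      LinearMap.det (fderiv ℝ V p).toLinearMap ≤ 0)
    (ε : ℝ) (hε : 0 < ε) :
    ∃ (k : ℕ) (c a b g : Fin k → E2),
      (∀ i, a i ≠ 0 ∧ ‖b i‖ = ‖a i‖ ∧ inner ℝ (a i) (b i) = 0) ∧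
      {z : ℝ × E2 | ∃ p ∈ D, abs z.1 ≤ L ∧ z.2 = p + z.1 • V p} ⊆
        ⋃ i, {z : ℝ × E2 | ∃ x ∈ Set.Icc (0 : ℝ) 1, ∃ y ∈ Set.Icc (0 : ℝ) 1,
          z.2 = c i + x • a i + y • b i + z.1 • g i} ∧
      ∑ i, ‖a i‖ ^ 2 / Real.sqrt (1 + (g i 0) ^ 2 + h ^ 2 * (g i 1) ^ 2) ≤
        (∫ p in D, 1 / Real.sqrt (1 + (V p 0) ^ 2 + h ^ 2 * (V p 1) ^ 2)) + ε := by
  classical
  rcases D.eq_empty_or_nonempty with rfl | hDne
  · refine ⟨0, Fin.elim0, Fin.elim0, Fin.elim0, Fin.elim0, fun i => i.elim0, ?_, ?_⟩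
    · rintro z ⟨p, hp, -⟩; exact hp.elim
    · simp only [Finset.univ_eq_empty, Finset.sum_empty, Measure.restrict_empty, integral_zero_measure,
        zero_add]
      exact hε.le
  set f := fderiv ℝ V with hfdef
  have hfc : ContinuousOn f U := hV.continuousOn_fderiv_of_isOpen hU le_rfl
  have hVc : ContinuousOn V U := hV.continuousOn
  obtain ⟨ρ₀, hρ₀, hK⟩ := hD.exists_cthickening_subset_open hU hDU
  set K := Metric.cthickening ρ₀ D with hKdef
  have hKc : IsCompact K := hD.cthickening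
  have hDK : D ⊆ K := Metric.self_subset_cthickening D
  -- bound for the derivative
  obtain ⟨B₀, hB₀⟩ := hD.exists_bound_of_continuousOn (hfc.mono hDU)
  set B := max B₀ 0 with hBdef
  have hB : 0 ≤ B := le_max_right _ _
  have hBb : ∀ p ∈ D, ‖f p‖ ≤ B := fun p hp => (hB₀ p hp).trans (le_max_left _ _)
  -- lower bound for 1 + L² det
  have hdetc : ContinuousOn (fun p => 1 + L ^ 2 * (f p).det) D :=
    continuousOn_const.add (continuousOn_const.mul
      (ContinuousLinearMap.continuous_det.comp_continuousOn (hfc.mono hDU)))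
  obtain ⟨p₁, hp₁, hmin⟩ := hD.exists_isMinOn hDne hdetc
  set c₀ := 1 + L ^ 2 * (f p₁).det with hc₀def
  have hL2 : 0 < L ^ 2 := by positivity
  have hc₀ : 0 < c₀ := by
    have h1 : -(L ^ 2)⁻¹ < (f p₁).det := (hdet p₁ hp₁).1
    have h2 : L ^ 2 * (-(L ^ 2)⁻¹) < L ^ 2 * (f p₁).det := mul_lt_mul_of_pos_left h1 hL2
    have h3 : L ^ 2 * (-(L ^ 2)⁻¹) = -1 := by field_simp
    rw [hc₀def]; linarith
  have hc₀le : ∀ p ∈ D, c₀ ≤ 1 + L ^ 2 * (f p).det := fun p hp => hmin hp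
  set C₁ := (1 + L * B) / c₀ with hC₁def
  have hC₁ : 0 ≤ C₁ := by positivity
  set C := 2 * C₁ with hCdef
  have hC : 0 ≤ C := by positivity
  -- main parameters
  set v := (volume D).toReal with hvdef
  have hv : 0 ≤ v := ENNReal.toReal_nonneg
  have hDfin : volume D ≠ ⊤ := hD.measure_lt_top.ne
  have hDm : MeasurableSet D := hD.isClosed.measurableSet
  set G : E2 → ℝ := fun p => Jw h (V p) with hGdef
  have hGc : ContinuousOn G U := (continuous_Jw h).comp_continuousOn hVc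
  have hGi : IntegrableOn G D := (hGc.mono hDU).integrableOn_compact hD
  set II := ∫ x in D, G x with hII
  have hII0 : 0 ≤ II := setIntegral_nonneg hDm (fun x _ => Jw_nonneg h _)
  have hIIv : II ≤ v := by
    have h1 : IntegrableOn (fun _ : E2 => (1 : ℝ)) D := integrableOn_const hDfin
    have h2 := setIntegral_mono_on hGi h1 hDm (fun x _ => Jw_le_one h (V x))
    rw [setIntegral_const, smul_eq_mul, mul_one] at h2
    exact h2
  set t := min 1 (ε / (5 * v + 4)) with htdef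
  have hden : 0 < 5 * v + 4 := by positivity
  have ht : 0 < t := lt_min one_pos (by positivity)
  have ht1 : t ≤ 1 := min_le_left _ _
  have htε : t * (5 * v + 4) ≤ ε := by
    have := min_le_right 1 (ε / (5 * v + 4))
    rw [← htdef, le_div_iff₀ hden] at this
    exact this
  set η := t / 30 with hηdef
  have hη : 0 < η := by positivity
  have hη1 : η ≤ 1 := by rw [hηdef]; linarith
  set η' := η / (L * C + 1) with hη'def
  have hLC : 0 ≤ L * C := by positivity
  have hη' : 0 < η' := by positivity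
  have hsmall : L * η' * (2 * ((1 + L * B) / c₀)) ≤ η := by
    have e : L * η' * (2 * ((1 + L * B) / c₀)) = η * ((L * C) / (L * C + 1)) := by
      rw [hη'def, hCdef, hC₁def]; field_simp
    rw [e]
    have : (L * C) / (L * C + 1) ≤ 1 := by
      rw [div_le_one (by positivity)]; linarith
    nlinarith
  -- uniform continuity
  have huf := hKc.uniformContinuousOn_of_continuous (hfc.mono hK)
  rw [Metric.uniformContinuousOn_iff] at huf
  obtain ⟨δ₁, hδ₁, hf⟩ := huf η' hη'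
  have huG := hKc.uniformContinuousOn_of_continuous (hGc.mono hK)
  rw [Metric.uniformContinuousOn_iff] at huG
  obtain ⟨δ₂, hδ₂, hGu⟩ := huG t ht
  -- thickening
  have htend := tendsto_measure_cthickening_of_isClosed (μ := (volume : Measure E2)) (s := D)
    ⟨1, one_pos, (hD.cthickening).measure_lt_top.ne⟩ hD.isClosed
  have hlt : volume D < volume D + ENNReal.ofReal t := by
    exact ENNReal.lt_add_right hDfin (by simpa using ht)
  have hev := htend.eventually_lt_const hlt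
  obtain ⟨δ₄, hδ₄, hthick⟩ := Metric.eventually_nhds_iff.1 hev
  -- grid size
  set δ := min (min δ₁ δ₂) (min ρ₀ δ₄) / 4 with hδdef
  have hδ : 0 < δ := by
    have : 0 < min (min δ₁ δ₂) (min ρ₀ δ₄) := lt_min (lt_min hδ₁ hδ₂) (lt_min hρ₀ hδ₄)
    positivity
  have hmin4 : 4 * δ = min (min δ₁ δ₂) (min ρ₀ δ₄) := by rw [hδdef]; ring
  have hδ₁' : 4 * δ ≤ δ₁ := by rw [hmin4]; exact (min_le_left _ _).trans (min_le_left _ _)
  have hδ₂' : 4 * δ ≤ δ₂ := by rw [hmin4]; exact (min_le_left _ _).trans (min_le_right _ _)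
  have hρ₀' : 4 * δ ≤ ρ₀ := by rw [hmin4]; exact (min_le_right _ _).trans (min_le_left _ _)
  have hδ₄' : 4 * δ ≤ δ₄ := by rw [hmin4]; exact (min_le_right _ _).trans (min_le_right _ _)
  -- lattice scale
  set r := η * δ / (2 * (C + 2)) with hrdef
  have hr : 0 < r := by positivity
  set ρ' := (C + 2) * r with hρ'def
  have hρ'eq : ρ' = η * δ / 2 := by
    rw [hρ'def, hrdef]; field_simp
  have hρ'0 : 0 ≤ ρ' := by positivity
  have hρ'δ : ρ' ≤ δ / 2 := by
    rw [hρ'eq]; nlinarith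
  -- closeness: points in an enlarged cell are near the base point
  have hclose : ∀ (k : ℤ × ℤ) (pk x : E2), pk ∈ gridCell δ k ∩ D → x ∈ gridCellE δ ρ' k →
      dist x pk ≤ 3 * δ ∧ x ∈ K ∧ pk ∈ K := by
    intro k pk x hpk hx
    have h1 := norm_le_of_mem_grid δ ρ' hδ.le hρ'0 k x pk hx hpk.1
    have h2 : dist x pk ≤ 3 * δ := by
      rw [dist_eq_norm]; linarith
    refine ⟨h2, ?_, hDK hpk.2⟩
    exact Metric.mem_cthickening_of_dist_le x pk ρ₀ D hpk.2 (by linarith)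
  -- per cell statement
  have hcell : ∀ k : ℤ × ℤ, ∃ (pk : E2) (bk : OrthonormalBasis (Fin 2) ℝ E2) (Ik : Finset (ℤ × ℤ)),
      (gridCell δ k ∩ D).Nonempty → (pk ∈ gridCell δ k ∩ D ∧
        (∀ p ∈ gridCell δ k ∩ D, ∀ s : ℝ, |s| ≤ L → ∃ i ∈ Ik, ∃ x ∈ Set.Icc (0 : ℝ) 1,
          ∃ y ∈ Set.Icc (0 : ℝ) 1,
          p + s • V p = (latticePt pk bk r i.1 i.2 - (η * r) • (bk 0 + bk 1))
            + x • ((r * (1 + 2 * η)) • bk 0) + y • ((r * (1 + 2 * η)) • bk 1)
            + s • V (latticePt pk bk r i.1 i.2)) ∧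
        ∑ i ∈ Ik, (r * (1 + 2 * η)) ^ 2 * Jw h (V (latticePt pk bk r i.1 i.2)) ≤
          (δ + 2 * ρ') ^ 2 * (1 + 2 * η) ^ 2 * (Jw h (V pk) + t)) := by
    intro k
    by_cases hne : (gridCell δ k ∩ D).Nonempty
    swap
    · exact ⟨0, rotFrame 0, ∅, fun h => absurd h hne⟩
    obtain ⟨pk, hpk⟩ := hne
    have hpkD : pk ∈ D := hpk.2
    set A := f pk with hAdef
    obtain ⟨b, hb0, hb1, hbdet⟩ := exists_frame A (htr pk hpkD)
    have hdetpk := hdet pk hpkD
    have hAunit : ∀ i j : Fin 2, |inner ℝ (b i) (A (b j))| ≤ B := by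
      intro i j
      have h1 := abs_real_inner_le_norm (b i) (A (b j))
      rw [b.orthonormal.1 i, one_mul] at h1
      have h2 := A.le_opNorm (b j)
      rw [b.orthonormal.1 j, mul_one] at h2
      exact h1.trans (h2.trans (hBb pk hpkD))
    have h0 : 0 ≤ inner ℝ (b 0) (A (b 1)) * inner ℝ (b 1) (A (b 0)) := by
      rw [hbdet]; linarith [hdetpk.2]
    have h1 : c₀ ≤ 1 - L ^ 2 * (inner ℝ (b 0) (A (b 1)) * inner ℝ (b 1) (A (b 0))) := by
      rw [hbdet]
      have := hc₀le pk hpkD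
      have e : (f pk).det = LinearMap.det (A.toLinearMap) := rfl
      rw [e] at this
      linarith
    have hQb := bounded_gridCellE δ ρ' k
    have hJ : ∀ q ∈ gridCellE δ ρ' k, Jw h (V q) ≤ Jw h (V pk) + t := by
      intro q hq
      obtain ⟨h2, h3, h4⟩ := hclose k pk q hpk hq
      have h5 := hGu q h3 pk h4 (by linarith)
      rw [Real.dist_eq] at h5
      have := (abs_lt.mp h5).2
      simp only [hGdef] at this
      linarith
    have hgeom : ∀ p ∈ gridCell δ k ∩ D, ∀ q : E2, ‖q - p‖ ≤ (2 * ((1 + L * B) / c₀)) * r →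
        Metric.closedBall q (2 * r) ⊆ gridCellE δ ρ' k := by
      intro p hp q hq x hx
      apply mem_gridCellE_of_close δ ρ' k x p hp.1
      rw [Metric.mem_closedBall, dist_eq_norm] at hx
      have e : x - p = (x - q) + (q - p) := by abel
      rw [e]
      calc ‖(x - q) + (q - p)‖ ≤ ‖x - q‖ + ‖q - p‖ := norm_add_le _ _
        _ ≤ 2 * r + C * r := add_le_add hx hq
        _ = ρ' := by rw [hρ'def]; ring
    have hE : ∀ p ∈ gridCell δ k ∩ D, ∀ q : E2, ‖q - p‖ ≤ (2 * ((1 + L * B) / c₀)) * r →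
        ‖V q - V p - A (q - p)‖ ≤ η' * ‖q - p‖ := by
      intro p hp q hq
      have hqE : q ∈ gridCellE δ ρ' k := hgeom p hp q hq (Metric.mem_closedBall_self (by positivity))
      have hpE : p ∈ gridCellE δ ρ' k := by
        apply mem_gridCellE_of_close δ ρ' k p p hp.1
        simpa using hρ'0
      set s := Metric.closedBall pk (3 * δ) with hs
      have hsK : s ⊆ K := by
        intro x hx
        rw [hs, Metric.mem_closedBall] at hx
        exact Metric.mem_cthickening_of_dist_le x pk ρ₀ D hpkD (by linarith)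
      have hder : ∀ x ∈ s, HasFDerivWithinAt V (f x) s x := by
        intro x hx
        have hxU : x ∈ U := hK (hsK hx)
        have hd : DifferentiableAt ℝ V x :=
          (hV.contDiffAt (hU.mem_nhds hxU)).differentiableAt (by norm_num)
        exact hd.hasFDerivAt.hasFDerivWithinAt
      have hbound : ∀ x ∈ s, ‖f x - A‖ ≤ η' := by
        intro x hx
        have hxK := hsK hx
        have hx' : dist x pk ≤ 3 * δ := by
          rw [hs, Metric.mem_closedBall] at hx; exact hx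
        have := hf x hxK pk (hDK hpkD) (by linarith)
        rw [dist_eq_norm] at this
        exact this.le
      have hps : p ∈ s := by
        rw [hs, Metric.mem_closedBall]; exact (hclose k pk p hpk hpE).1
      have hqs : q ∈ s := by
        rw [hs, Metric.mem_closedBall]; exact (hclose k pk q hpk hqE).1
      exact Convex.norm_image_sub_le_of_norm_hasFDerivWithin_le' hder hbound
        (convex_closedBall _ _) hps hqs
    have hJ₁ : 0 ≤ Jw h (V pk) + t := by
      have := Jw_nonneg h (V pk); linarith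
    obtain ⟨I, hI1, hI2⟩ := cell_family V (Jw h) A b hb0 hb1 L c₀ B η η' hc₀ hL hB hη hη'.le h0 h1
      (hAunit 0 1) (hAunit 1 0) hsmall pk r hr (gridCell δ k ∩ D) (gridCellE δ ρ' k) hQb
      (Jw h (V pk) + t) hJ₁ hJ (fun q => Jw_nonneg h q) hgeom hE
    refine ⟨pk, b, I, fun _ => ⟨hpk, hI1, ?_⟩⟩
    have hvol : (volume (gridCellE δ ρ' k)).toReal = (δ + 2 * ρ') ^ 2 := by
      rw [volume_gridCellE δ ρ' hδ.le hρ'0, ENNReal.toReal_ofReal (by positivity)]
    rw [hvol] at hI2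
    exact hI2
  choose pk bk Ik hcell' using hcell
  set KK := (finite_cells δ hδ D hD.isBounded).toFinset with hKKdef
  have hKK : ∀ k, k ∈ KK ↔ (gridCell δ k ∩ D).Nonempty := by
    intro k; simp [hKKdef]
  set S := KK.sigma Ik with hSdef
  set cc : (Σ _ : ℤ × ℤ, ℤ × ℤ) → E2 := fun x =>
    latticePt (pk x.1) (bk x.1) r x.2.1 x.2.2 - (η * r) • (bk x.1 0 + bk x.1 1) with hcc
  set aa : (Σ _ : ℤ × ℤ, ℤ × ℤ) → E2 := fun x => (r * (1 + 2 * η)) • bk x.1 0 with haa
  set bb : (Σ _ : ℤ × ℤ, ℤ × ℤ) → E2 := fun x => (r * (1 + 2 * η)) • bk x.1 1 with hbb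
  set gg : (Σ _ : ℤ × ℤ, ℤ × ℤ) → E2 := fun x => V (latticePt (pk x.1) (bk x.1) r x.2.1 x.2.2) with hgg
  have hrη : 0 < r * (1 + 2 * η) := by positivity
  have hnorm : ∀ x, ‖aa x‖ = r * (1 + 2 * η) := by
    intro x
    simp only [haa]
    rw [norm_smul, (bk x.1).orthonormal.1 0, mul_one, Real.norm_eq_abs, abs_of_pos hrη]
  have hnormb : ∀ x, ‖bb x‖ = r * (1 + 2 * η) := by
    intro x
    simp only [hbb]
    rw [norm_smul, (bk x.1).orthonormal.1 1, mul_one, Real.norm_eq_abs, abs_of_pos hrη]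
  -- the set `Z`
  refine fin_of_finset S cc aa bb gg _ _
    (fun a g => ‖a‖ ^ 2 / Real.sqrt (1 + (g 0) ^ 2 + h ^ 2 * (g 1) ^ 2)) ?_ ?_ ?_
  · intro x _
    refine ⟨?_, ?_, ?_⟩
    · rw [← norm_ne_zero_iff, hnorm]; exact hrη.ne'
    · rw [hnorm, hnormb]
    · simp only [haa, hbb]
      rw [inner_smul_left, inner_smul_right, (bk x.1).orthonormal.2 (by decide)]
      simp
  · rintro z ⟨p, hp, hs, hz⟩
    set k : ℤ × ℤ := (⌊p 0 / δ⌋, ⌊p 1 / δ⌋) with hk
    have hpk : p ∈ gridCell δ k ∩ D := ⟨mem_gridCell_floor δ hδ p, hp⟩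
    have hkK : k ∈ KK := (hKK k).2 ⟨p, hpk⟩
    obtain ⟨i, hi, x, hx, y, hy, he⟩ := (hcell' k ⟨p, hpk⟩).2.1 p hpk z.1 hs
    refine ⟨⟨k, i⟩, ?_, x, hx, y, hy, ?_⟩
    · rw [hSdef, Finset.mem_sigma]; exact ⟨hkK, hi⟩
    · rw [hz]; exact he
  · -- the sum
    have hT : (∫ p in D, 1 / Real.sqrt (1 + (V p 0) ^ 2 + h ^ 2 * (V p 1) ^ 2)) = II := rfl
    rw [hT, hSdef, Finset.sum_sigma]
    set Jk : ℤ × ℤ → ℝ := fun k => Jw h (V (pk k)) with hJk
    have hJ0 : ∀ k, 0 ≤ Jk k := fun k => Jw_nonneg h _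
    have hstep : ∀ k ∈ KK, ∑ i ∈ Ik k, ‖aa ⟨k, i⟩‖ ^ 2 /
          Real.sqrt (1 + (gg ⟨k, i⟩ 0) ^ 2 + h ^ 2 * (gg ⟨k, i⟩ 1) ^ 2) ≤
        (δ + 2 * ρ') ^ 2 * (1 + 2 * η) ^ 2 * (Jk k + t) := by
      intro k hk
      have h1 := (hcell' k ((hKK k).1 hk)).2.2
      refine le_trans (le_of_eq ?_) h1
      apply Finset.sum_congr rfl
      intro i _
      rw [hnorm]
      simp only [Jw, hgg]
      ring
    have hrewrite : (δ + 2 * ρ') = δ * (1 + η) := by rw [hρ'eq]; ring
    set Fct := (1 + η) ^ 2 * (1 + 2 * η) ^ 2 with hFct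
    have hsum1 : ∑ k ∈ KK, ∑ i ∈ Ik k, ‖aa ⟨k, i⟩‖ ^ 2 /
          Real.sqrt (1 + (gg ⟨k, i⟩ 0) ^ 2 + h ^ 2 * (gg ⟨k, i⟩ 1) ^ 2) ≤
        Fct * (∑ k ∈ KK, δ ^ 2 * Jk k + t * ∑ _k ∈ KK, δ ^ 2) := by
      refine le_trans (Finset.sum_le_sum hstep) (le_of_eq ?_)
      rw [Finset.mul_sum _ _ t, ← Finset.sum_add_distrib, Finset.mul_sum]
      apply Finset.sum_congr rfl
      intro k _
      rw [hrewrite, hFct]
      ring
    have hcov : D ⊆ ⋃ k ∈ KK, gridCell δ k := by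
      intro p hp
      have hpk : p ∈ gridCell δ (⌊p 0 / δ⌋, ⌊p 1 / δ⌋) ∩ D := ⟨mem_gridCell_floor δ hδ p, hp⟩
      exact Set.mem_biUnion ((hKK _).2 ⟨p, hpk⟩) hpk.1
    have hJG : ∀ k ∈ KK, ∀ x ∈ gridCell δ k ∩ D, Jk k ≤ G x + t := by
      intro k hk x hx
      have hxE : x ∈ gridCellE δ ρ' k := by
        apply mem_gridCellE_of_close δ ρ' k x x hx.1
        simpa using hρ'0
      have hpk := (hcell' k ((hKK k).1 hk)).1
      obtain ⟨h2, h3, h4⟩ := hclose k (pk k) x hpk hxE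
      have h6 : dist (pk k) x < δ₂ := by
        rw [dist_comm]; linarith only [h2, hδ₂', hδ]
      have h5 := hGu (pk k) h4 x h3 h6
      rw [Real.dist_eq] at h5
      have h7 := (abs_lt.mp h5).2
      simp only [hJk, hGdef]
      simp only [hGdef] at h7
      linarith only [h7]
    have hcells := sum_cells D hDm hDfin δ t hδ KK hcov G hGi Jk (fun k _ => Jw_le_one h _) hJG
    have hS2 : ∑ _k ∈ KK, δ ^ 2 ≤ v + t := by
      have hdisj : (↑KK : Set (ℤ × ℤ)).PairwiseDisjoint fun k => gridCell δ k := by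
        intro i _ j _ hij
        exact gridCell_disjoint δ hδ i j hij
      have h1 : volume (⋃ k ∈ KK, gridCell δ k) = ∑ k ∈ KK, ENNReal.ofReal (δ ^ 2) := by
        rw [measure_biUnion_finset hdisj (fun k _ => measurableSet_gridCell δ k)]
        simp_rw [volume_gridCell δ hδ.le]
      have h2 : (⋃ k ∈ KK, gridCell δ k) ⊆ Metric.cthickening (2 * δ) D := by
        intro x hx
        obtain ⟨k, hk⟩ := Set.mem_iUnion.1 hx
        obtain ⟨hk1, hk2⟩ := Set.mem_iUnion.1 hk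
        have hpk := (hcell' k ((hKK k).1 hk1)).1
        have hxE : x ∈ gridCellE δ 0 k := by rw [← gridCell_eq_E]; exact hk2
        have h3 := norm_le_of_mem_grid δ 0 hδ.le le_rfl k x (pk k) hxE hpk.1
        refine Metric.mem_cthickening_of_dist_le x (pk k) _ D hpk.2 ?_
        rw [dist_eq_norm]; linarith
      have h3 : volume (Metric.cthickening (2 * δ) D) < volume D + ENNReal.ofReal t := by
        apply hthick
        rw [Real.dist_eq, sub_zero, abs_of_pos (by positivity)]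
        linarith
      have h4 : ∑ k ∈ KK, ENNReal.ofReal (δ ^ 2) < volume D + ENNReal.ofReal t := by
        rw [← h1]; exact lt_of_le_of_lt (measure_mono h2) h3
      have h5 : (∑ k ∈ KK, ENNReal.ofReal (δ ^ 2)).toReal ≤ (volume D + ENNReal.ofReal t).toReal :=
        ENNReal.toReal_mono (ENNReal.add_ne_top.2 ⟨hDfin, ENNReal.ofReal_ne_top⟩) h4.le
      rw [ENNReal.toReal_sum (fun _ _ => ENNReal.ofReal_ne_top),
        ENNReal.toReal_add hDfin ENNReal.ofReal_ne_top, ENNReal.toReal_ofReal ht.le] at h5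
      simpa [ENNReal.toReal_ofReal (sq_nonneg δ)] using h5
    -- final arithmetic
    set S1 := ∑ k ∈ KK, δ ^ 2 * Jk k with hS1def
    set S2 := ∑ _k ∈ KK, δ ^ 2 with hS2def
    have hS10 : 0 ≤ S1 := Finset.sum_nonneg fun k _ => mul_nonneg (sq_nonneg _) (hJ0 k)
    have hS20 : 0 ≤ S2 := Finset.sum_nonneg fun k _ => sq_nonneg _
    have hFctle : Fct ≤ 1 + t := by
      rw [hFct, hηdef]
      exact fct_le t ht ht1
    have hbr0 : 0 ≤ S1 + t * S2 := by positivity
    have hbr : S1 + t * S2 ≤ II + t * v + t + t * (v + t) := by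
      have := mul_le_mul_of_nonneg_left hS2 ht.le
      linarith
    calc _ ≤ Fct * (S1 + t * S2) := hsum1
      _ ≤ (1 + t) * (S1 + t * S2) := mul_le_mul_of_nonneg_right hFctle hbr0
      _ ≤ (1 + t) * (II + t * v + t + t * (v + t)) := mul_le_mul_of_nonneg_left hbr (by positivity)
      _ ≤ II + ε := by
          exact final_arith II v t ε hII0 hIIv hv ht ht1 htε

end Crest.Agent.Lib.SquareCover
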