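import Mathlib

set_option autoImplicit false
open MeasureTheory Set
open scoped ENNReal

namespace Crest.Agent.Lib.TetraArea

/-- The model plane. -/
abbrev R2 := EuclideanSpace ℝ (Fin 2)

/-- The closed unit square in the model plane. -/
def unitSq : Set R2 := {x | ∀ i, x i ∈ Icc (0 : ℝ) 1}

/-- The standard triangle in the model plane. -/
def stdTri : Set R2 := {x | 0 ≤ x 0 ∧ 0 ≤ x 1 ∧ x 0 + x 1 ≤ 1}

lemma unitSq_eq_preimage :
    unitSq = (WithLp.ofLp : R2 → (Fin 2 → ℝ)) ⁻¹' Icc (fun _ => 0) (fun _ => 1) := by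
  ext x
  simp [unitSq, Set.mem_preimage, Set.mem_Icc, Pi.le_def, forall_and]

lemma measurableSet_unitSq : MeasurableSet unitSq := by
  rw [unitSq_eq_preimage]
  exact (PiLp.volume_preserving_ofLp (Fin 2)).measurable measurableSet_Icc

lemma volume_unitSq : volume unitSq = 1 := by
  rw [unitSq_eq_preimage, (PiLp.volume_preserving_ofLp (Fin 2)).measure_preimage
    measurableSet_Icc.nullMeasurableSet, Real.volume_Icc_pi]
  simp

lemma isClosed_stdTri : IsClosed stdTri := by
  have h0 : Continuous fun x : R2 => x 0 := by fun_prop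
  have h1 : Continuous fun x : R2 => x 1 := by fun_prop
  exact (isClosed_le continuous_const h0).inter
    ((isClosed_le continuous_const h1).inter (isClosed_le (h0.add h1) continuous_const))

/-- the reflection `x ↦ (1,1) - x` -/
noncomputable def sqRefl (x : R2) : R2 := (!₂[1, 1] : R2) - x

lemma sqRefl_apply (x : R2) (i : Fin 2) : sqRefl x i = 1 - x i := by
  fin_cases i <;> simp [sqRefl]

lemma measurePreserving_sqRefl : MeasurePreserving sqRefl volume volume := by
  have h1 : MeasurePreserving (fun x : R2 => -x) volume volume :=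
    Measure.measurePreserving_neg _
  have h2 : MeasurePreserving (fun x : R2 => (!₂[1, 1] : R2) + x) volume volume :=
    measurePreserving_add_left _ _
  have := h2.comp h1
  convert this using 1
  ext x i
  simp [sqRefl, sub_eq_add_neg]

lemma volume_line_null : volume {x : R2 | x 0 + x 1 = 1} = 0 := by
  -- translate of a proper subspace
  let f : R2 →ₗ[ℝ] ℝ :=
    { toFun := fun x => x 0 + x 1
      map_add' := by intro x y; simp; ring
      map_smul' := by intro c x; simp; ring }
  have hne : LinearMap.ker f ≠ ⊤ := by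
    intro h
    have : (!₂[1, 0] : R2) ∈ LinearMap.ker f := by rw [h]; trivial
    simp [f, LinearMap.mem_ker] at this
  have h0 := Measure.addHaar_submodule (volume : Measure R2) (LinearMap.ker f) hne
  have hset : {x : R2 | x 0 + x 1 = 1} =
      (fun y : R2 => (!₂[1, 0] : R2) + y) '' (LinearMap.ker f : Set R2) := by
    ext x
    constructor
    · intro hx
      refine ⟨x - !₂[1, 0], ?_, by simp⟩
      simp only [Set.mem_ofPred_eq] at hx
      simp [f, LinearMap.mem_ker]
      linarith
    · rintro ⟨y, hy, rfl⟩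
      have : y 0 + y 1 = 0 := by simpa [f, LinearMap.mem_ker] using hy
      simp
      linarith
  rw [hset, Set.image_add_left, measure_preimage_add]
  exact h0

lemma stdTri_subset_unitSq : stdTri ⊆ unitSq := by
  rintro x ⟨h0, h1, h2⟩ i
  fin_cases i
  · exact ⟨h0, by simp; linarith⟩
  · exact ⟨h1, by simp; linarith⟩

lemma unitSq_eq_union : unitSq = stdTri ∪ (sqRefl ⁻¹' stdTri) := by
  ext x
  constructor
  · intro hx
    have h0 := hx 0
    have h1 := hx 1
    by_cases h : x 0 + x 1 ≤ 1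
    · exact Or.inl ⟨h0.1, h1.1, h⟩
    · refine Or.inr ⟨?_, ?_, ?_⟩
      · rw [sqRefl_apply]; linarith [h0.2]
      · rw [sqRefl_apply]; linarith [h1.2]
      · rw [sqRefl_apply, sqRefl_apply]; linarith
  · rintro (hx | hx)
    · exact stdTri_subset_unitSq hx
    · obtain ⟨h0, h1, h2⟩ := hx
      rw [sqRefl_apply] at h0 h1
      rw [sqRefl_apply, sqRefl_apply] at h2
      intro i
      fin_cases i
      · exact ⟨by simp; linarith, by simp; linarith⟩
      · exact ⟨by simp; linarith, by simp; linarith⟩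

lemma volume_stdTri : volume stdTri = 2⁻¹ := by
  have hm : MeasurableSet stdTri := isClosed_stdTri.measurableSet
  have hm' : MeasurableSet (sqRefl ⁻¹' stdTri) :=
    measurePreserving_sqRefl.measurable hm
  have h1 : volume (sqRefl ⁻¹' stdTri) = volume stdTri :=
    measurePreserving_sqRefl.measure_preimage hm.nullMeasurableSet
  have hinter : volume (stdTri ∩ sqRefl ⁻¹' stdTri) = 0 := by
    apply measure_mono_null _ volume_line_null
    rintro x ⟨⟨h0, h1, h2⟩, ⟨h3, h4, h5⟩⟩
    rw [sqRefl_apply, sqRefl_apply] at h5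
    simp only [Set.mem_ofPred_eq]
    linarith
  have hunion := measure_union_add_inter (μ := volume) stdTri hm'
  rw [← unitSq_eq_union, volume_unitSq, hinter, add_zero, h1] at hunion
  -- now `1 = a + a`
  have h2 : (2 : ℝ≥0∞) * volume stdTri = 1 := by rw [two_mul]; exact hunion.symm
  exact ENNReal.eq_inv_of_mul_eq_one_left (by rw [mul_comm]; exact h2)

/-- A linear map of the model plane given by a matrix with entries `A B / C D`. -/
noncomputable def matMap (A B C D : ℝ) : R2 →ₗ[ℝ] R2 :=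
  { toFun := fun x => !₂[A * x 0 + B * x 1, C * x 0 + D * x 1]
    map_add' := by
      intro x y
      ext i
      fin_cases i <;> simp <;> ring
    map_smul' := by
      intro c x
      ext i
      fin_cases i <;> simp <;> ring }

lemma matMap_apply (A B C D : ℝ) (x : R2) :
    matMap A B C D x = !₂[A * x 0 + B * x 1, C * x 0 + D * x 1] := rfl

lemma det_matMap (A B C D : ℝ) : LinearMap.det (matMap A B C D) = A * D - B * C := by
  classical
  have h : matMap A B C D = Matrix.toEuclideanLin !![A, B; C, D] := by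
    apply LinearMap.ext
    intro x
    ext i
    fin_cases i <;> simp [matMap, Matrix.toLpLin_apply, dotProduct, Fin.sum_univ_two]
  rw [h, Matrix.toEuclideanLin_eq_toLin_orthonormal, LinearMap.det_toLin,
    Matrix.det_fin_two_of]

section General

variable {E : Type*} [NormedAddCommGroup E] [InnerProductSpace ℝ E]

/-- The linear map of the model plane into `E` determined by two vectors. -/
noncomputable def planeMap (e₁ e₂ : E) : R2 →ₗ[ℝ] E :=
  { toFun := fun x => x 0 • e₁ + x 1 • e₂
    map_add' := by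
      intro x y
      simp only [PiLp.add_apply, add_smul]
      abel
    map_smul' := by
      intro c x
      simp only [PiLp.smul_apply, smul_eq_mul, mul_smul, RingHom.id_apply, smul_add] }

lemma planeMap_apply (e₁ e₂ : E) (x : R2) : planeMap e₁ e₂ x = x 0 • e₁ + x 1 • e₂ := rfl

lemma norm_sq_R2 (x : R2) : ‖x‖ ^ 2 = x 0 ^ 2 + x 1 ^ 2 := by
  rw [EuclideanSpace.norm_sq_eq]
  simp [Fin.sum_univ_two]

lemma norm_planeMap {e₁ e₂ : E} (h₁ : ‖e₁‖ = 1) (h₂ : ‖e₂‖ = 1) (h : inner ℝ e₁ e₂ = 0) (x : R2) :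
    ‖planeMap e₁ e₂ x‖ = ‖x‖ := by
  have hh : ‖planeMap e₁ e₂ x‖ ^ 2 = ‖x‖ ^ 2 := by
    rw [norm_sq_R2, planeMap_apply, @norm_add_sq_real, norm_smul, norm_smul, inner_smul_left,
      inner_smul_right, h, h₁, h₂]
    simp
  exact (sq_eq_sq₀ (norm_nonneg _) (norm_nonneg _)).1 hh

lemma isometry_planeMap {e₁ e₂ : E} (h₁ : ‖e₁‖ = 1) (h₂ : ‖e₂‖ = 1) (h : inner ℝ e₁ e₂ = 0) :
    Isometry (planeMap e₁ e₂) :=
  AddMonoidHomClass.isometry_of_norm _ (norm_planeMap h₁ h₂ h)

/-- The Gram determinant of two vectors. -/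
noncomputable def gram (a b : E) : ℝ := ‖a‖ ^ 2 * ‖b‖ ^ 2 - inner ℝ a b ^ 2

lemma gram_nonneg (a b : E) : 0 ≤ gram a b := by
  have := abs_real_inner_le_norm a b
  have h2 : (inner ℝ a b) ^ 2 ≤ (‖a‖ * ‖b‖) ^ 2 := by
    rw [← sq_abs (inner ℝ a b)]
    exact pow_le_pow_left₀ (abs_nonneg _) this 2
  unfold gram
  nlinarith

/-- The parallelogram spanned by `a, b` at the corner `c`. -/
def parallelogram (c a b : E) : Set E :=
  {x | ∃ s ∈ Icc (0 : ℝ) 1, ∃ t ∈ Icc (0 : ℝ) 1, x = c + s • a + t • b}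

/-- The triangle with corner `c` spanned by `a, b`. -/
def triSet (c a b : E) : Set E :=
  {x | ∃ s t : ℝ, 0 ≤ s ∧ 0 ≤ t ∧ s + t ≤ 1 ∧ x = c + s • a + t • b}

lemma convexHull_three_eq (p q r : E) :
    convexHull ℝ {p, q, r} = triSet p (q - p) (r - p) := by
  apply Subset.antisymm
  · apply convexHull_min
    · rintro x (rfl | rfl | rfl)
      · exact ⟨0, 0, le_rfl, le_rfl, by norm_num, by simp⟩
      · exact ⟨1, 0, by norm_num, le_rfl, by norm_num, by simp⟩
      · exact ⟨0, 1, le_rfl, by norm_num, by norm_num, by simp⟩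
    · rintro x ⟨s₁, t₁, h₁, h₂, h₃, rfl⟩ y ⟨s₂, t₂, h₄, h₅, h₆, rfl⟩ α β hα hβ hαβ
      refine ⟨α * s₁ + β * s₂, α * t₁ + β * t₂, by positivity, by positivity, ?_, ?_⟩
      · nlinarith
      · have : β = 1 - α := by linarith
        subst this
        simp only [smul_add, add_smul, smul_sub, sub_smul, mul_smul, one_smul]
        abel
  · rintro x ⟨s, t, hs, ht, hst, rfl⟩
    have hC := convex_convexHull ℝ ({p, q, r} : Set E)
    have hp : p ∈ convexHull ℝ ({p, q, r} : Set E) := subset_convexHull ℝ _ (by simp)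
    have hq : q ∈ convexHull ℝ ({p, q, r} : Set E) := subset_convexHull ℝ _ (by simp)
    have hr : r ∈ convexHull ℝ ({p, q, r} : Set E) := subset_convexHull ℝ _ (by simp)
    have := hC.sum_mem (t := Finset.univ) (w := ![1 - s - t, s, t]) (z := ![p, q, r])
      (by intro i _; fin_cases i <;> simp <;> linarith)
      (by simp [Fin.sum_univ_three]; ring)
      (by intro i _; fin_cases i <;> simp [hp, hq, hr])
    convert this using 1
    simp only [Fin.sum_univ_three]
    simp [smul_sub, sub_smul]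
    abel

variable [MeasurableSpace E] [BorelSpace E]

/-- Subsets of a line are null for the 2-dimensional measure. -/
lemma hausdorff2_line_null (c d : E) {S : Set E} (hS : S ⊆ {x | ∃ t : ℝ, x = c + t • d}) :
    (μH[(2 : ℝ)] S) = 0 := by
  have hsub : S ⊆ (fun t : ℝ => c + t • d) '' univ := by
    intro x hx
    obtain ⟨t, rfl⟩ := hS hx
    exact ⟨t, trivial, rfl⟩
  have hL : LipschitzWith ‖d‖₊ (fun t : ℝ => c + t • d) := by
    apply LipschitzWith.of_dist_le_mul
    intro x y
    rw [dist_eq_norm, dist_eq_norm, add_sub_add_left_eq_sub, ← sub_smul, norm_smul, mul_comm]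
    exact le_rfl
  have h0 : μH[(2 : ℝ)] (univ : Set ℝ) = 0 := by
    have h := hausdorffMeasure_of_dimH_lt (X := ℝ) (s := univ) (d := (2 : NNReal))
      (by rw [Real.dimH_univ]; norm_num)
    simpa using h
  have := hL.hausdorffMeasure_image_le (d := 2) (by norm_num) univ
  rw [h0, mul_zero] at this
  exact le_antisymm ((measure_mono hsub).trans this) zero_le

lemma euclid2_line_null (c d : E) {S : Set E} (hS : S ⊆ {x | ∃ t : ℝ, x = c + t • d}) :
    (μHE[2] S) = 0 := by
  rw [Measure.euclideanHausdorffMeasure_def, Measure.smul_apply]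
  have := hausdorff2_line_null c d hS
  have h2 : μH[((2 : ℕ) : ℝ)] S = 0 := by simpa using this
  rw [h2]
  simp

omit [MeasurableSpace E] [BorelSpace E] in
/-- If the Gram determinant vanishes, then `a, b` lie on a common line through `0`. -/
lemma exists_dir_of_gram_eq_zero {a b : E} (h : gram a b = 0) :
    ∃ d : E, (∃ κ : ℝ, a = κ • d) ∧ ∃ κ : ℝ, b = κ • d := by
  by_cases ha : a = 0
  · exact ⟨b, ⟨0, by simp [ha]⟩, ⟨1, by simp⟩⟩
  · refine ⟨a, ⟨1, by simp⟩, ⟨inner ℝ a b / ‖a‖ ^ 2, ?_⟩⟩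
    have hn : 0 < ‖a‖ ^ 2 := by positivity
    have h1 : ‖b - (inner ℝ a b / ‖a‖ ^ 2) • a‖ ^ 2 = 0 := by
      have hI : inner ℝ b a = inner ℝ a b := real_inner_comm a b
      rw [@norm_sub_sq_real, norm_smul, inner_smul_right, hI, mul_pow, Real.norm_eq_abs, sq_abs]
      unfold gram at h
      have h3 : ‖b‖ ^ 2 = (inner ℝ a b) ^ 2 / ‖a‖ ^ 2 := by
        field_simp
        linarith
      rw [h3]
      field_simp
      ring
    have h2 : b - (inner ℝ a b / ‖a‖ ^ 2) • a = 0 := by
      have := pow_eq_zero_iff (n := 2) (by norm_num) |>.1 h1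
      exact norm_eq_zero.1 this
    exact sub_eq_zero.1 h2

omit [MeasurableSpace E] [BorelSpace E] in
lemma parallelogram_subset_line_of_gram {c a b : E} (h : gram a b = 0) :
    ∃ d : E, parallelogram c a b ⊆ {x | ∃ t : ℝ, x = c + t • d} := by
  obtain ⟨d, ⟨κ₁, rfl⟩, ⟨κ₂, rfl⟩⟩ := exists_dir_of_gram_eq_zero h
  refine ⟨d, ?_⟩
  rintro x ⟨s, _, t, _, rfl⟩
  exact ⟨s * κ₁ + t * κ₂, by simp only [add_smul, mul_smul, add_assoc]⟩

omit [MeasurableSpace E] [BorelSpace E] in
lemma triSet_subset_line_of_gram {c a b : E} (h : gram a b = 0) :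
    ∃ d : E, triSet c a b ⊆ {x | ∃ t : ℝ, x = c + t • d} := by
  obtain ⟨d, ⟨κ₁, rfl⟩, ⟨κ₂, rfl⟩⟩ := exists_dir_of_gram_eq_zero h
  refine ⟨d, ?_⟩
  rintro x ⟨s, t, _, _, _, rfl⟩
  exact ⟨s * κ₁ + t * κ₂, by simp only [add_smul, mul_smul, add_assoc]⟩

/-- Nondegenerate case: the common transformation of a subset of the model plane. -/
lemma area_image_of_gram_pos {a b : E} (h : 0 < gram a b) (c : E) (T : Set R2) :
    μHE[2] ((fun x : R2 => c + x 0 • a + x 1 • b) '' T) =
      ENNReal.ofReal (Real.sqrt (gram a b)) * volume T := by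
  have ha : a ≠ 0 := by
    rintro rfl
    simp [gram] at h
  have hna : 0 < ‖a‖ := norm_pos_iff.2 ha
  set α : ℝ := inner ℝ a b / ‖a‖ with hα
  set e₁ : E := (‖a‖)⁻¹ • a with he₁
  have he₁n : ‖e₁‖ = 1 := by
    rw [he₁, norm_smul, norm_inv, norm_norm, inv_mul_cancel₀ hna.ne']
  set b' : E := b - α • e₁ with hb'
  have hinner : inner ℝ e₁ b = α := by
    rw [he₁, inner_smul_left, hα]
    simp
    field_simp
  have hb'sq : ‖b'‖ ^ 2 = ‖b‖ ^ 2 - α ^ 2 := by
    rw [hb', @norm_sub_sq_real, norm_smul, he₁n, inner_smul_right, real_inner_comm,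
      hinner]
    simp
    ring
  have hgram : gram a b = ‖a‖ ^ 2 * ‖b'‖ ^ 2 := by
    rw [hb'sq, gram, hα]
    field_simp
  have hnb' : 0 < ‖b'‖ := by
    by_contra hcon
    have : ‖b'‖ = 0 := le_antisymm (not_lt.1 hcon) (norm_nonneg _)
    rw [hgram, this] at h
    simp at h
  set e₂ : E := (‖b'‖)⁻¹ • b' with he₂
  have he₂n : ‖e₂‖ = 1 := by
    rw [he₂, norm_smul, norm_inv, norm_norm, inv_mul_cancel₀ hnb'.ne']
  have horth : inner ℝ e₁ e₂ = 0 := by
    rw [he₂, inner_smul_right, hb', inner_sub_right, inner_smul_right, hinner]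
    have : inner ℝ e₁ e₁ = 1 := by
      rw [real_inner_self_eq_norm_sq, he₁n]; norm_num
    rw [this]
    ring
  have hae : a = ‖a‖ • e₁ := by
    rw [he₁, smul_smul, mul_inv_cancel₀ hna.ne', one_smul]
  have hbe : b = α • e₁ + ‖b'‖ • e₂ := by
    have h5 : ‖b'‖ • e₂ = b' := by rw [he₂, smul_smul, mul_inv_cancel₀ hnb'.ne', one_smul]
    rw [h5, hb']
    abel
  have hiso := isometry_planeMap he₁n he₂n horth
  have hset : (fun x : R2 => c + x 0 • a + x 1 • b) '' T =
      (fun y : E => c + y) '' (planeMap e₁ e₂ '' (matMap ‖a‖ α 0 ‖b'‖ '' T)) := by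
    rw [Set.image_image, Set.image_image]
    apply Set.image_congr
    intro x _
    rw [planeMap_apply]
    have e0 : (matMap ‖a‖ α 0 ‖b'‖ x) 0 = ‖a‖ * x 0 + α * x 1 := by simp [matMap_apply]
    have e1 : (matMap ‖a‖ α 0 ‖b'‖ x) 1 = 0 * x 0 + ‖b'‖ * x 1 := by simp [matMap_apply]
    rw [e0, e1]
    have h6 : c + x 0 • a + x 1 • b = c + x 0 • (‖a‖ • e₁) + x 1 • (α • e₁ + ‖b'‖ • e₂) := by
      rw [← hae, ← hbe]
    rw [h6]
    module
  rw [hset]
  have htr : Isometry (fun y : E => c + y) := isometry_add_left c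
  rw [htr.euclideanHausdorffMeasure_image, hiso.euclideanHausdorffMeasure_image,
    EuclideanSpace.euclideanHausdorffMeasure_eq_volume, Measure.addHaar_image_linearMap,
    det_matMap]
  congr 2
  have : ‖a‖ * ‖b'‖ - α * 0 = ‖a‖ * ‖b'‖ := by ring
  rw [this, abs_of_pos (by positivity), hgram, ← mul_pow, Real.sqrt_sq (by positivity)]

/-- Area of a parallelogram. -/
theorem area_parallelogram (c a b : E) :
    μHE[2] (parallelogram c a b) = ENNReal.ofReal (Real.sqrt (gram a b)) := by
  rcases (gram_nonneg a b).lt_or_eq with h | h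
  · have hset : parallelogram c a b = (fun x : R2 => c + x 0 • a + x 1 • b) '' unitSq := by
      ext x
      constructor
      · rintro ⟨s, hs, t, ht, rfl⟩
        refine ⟨!₂[s, t], ?_, by simp⟩
        intro i
        fin_cases i
        · simpa using hs
        · simpa using ht
      · rintro ⟨y, hy, rfl⟩
        exact ⟨y 0, hy 0, y 1, hy 1, rfl⟩
    rw [hset, area_image_of_gram_pos h, volume_unitSq, mul_one]
  · obtain ⟨d, hd⟩ := parallelogram_subset_line_of_gram (c := c) h.symm
    rw [euclid2_line_null c d hd, ← h]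
    simp

/-- Area of a triangle given by a corner and two edge vectors. -/
theorem area_triSet (c a b : E) :
    μHE[2] (triSet c a b) = ENNReal.ofReal (Real.sqrt (gram a b) / 2) := by
  rcases (gram_nonneg a b).lt_or_eq with h | h
  · have hset : triSet c a b = (fun x : R2 => c + x 0 • a + x 1 • b) '' stdTri := by
      ext x
      constructor
      · rintro ⟨s, t, hs, ht, hst, rfl⟩
        refine ⟨!₂[s, t], ⟨by simpa using hs, by simpa using ht, by simpa using hst⟩, by simp⟩
      · rintro ⟨y, ⟨h0, h1, h2⟩, rfl⟩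
        exact ⟨y 0, y 1, h0, h1, h2, rfl⟩
    rw [hset, area_image_of_gram_pos h, volume_stdTri, div_eq_mul_inv,
      ENNReal.ofReal_mul (Real.sqrt_nonneg _)]
    congr 1
    rw [ENNReal.ofReal_inv_of_pos (by norm_num)]
    norm_num
  · obtain ⟨d, hd⟩ := triSet_subset_line_of_gram (c := c) h.symm
    rw [euclid2_line_null c d hd, ← h]
    simp

/-- Area of a triangle given by its vertices. -/
theorem area_triangle (p q r : E) :
    μHE[2] (convexHull ℝ {p, q, r}) = ENNReal.ofReal (Real.sqrt (gram (q - p) (r - p)) / 2) := by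
  rw [convexHull_three_eq, area_triSet]

end General

end Crest.Agent.Lib.TetraArea
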