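import Crest.Agent.Lib.SquareCover4
import Crest.Agent.Lib.TetraArea

set_option autoImplicit false
set_option maxHeartbeats 4000000

open MeasureTheory

namespace Crest.Agent.Lib.SquareCover

open Crest.Agent.Lib.TetraArea (gram area_image_of_gram_pos)

abbrev E3 := EuclideanSpace ℝ (Fin 3)

/-- The direction of the sheared cylinder in space. -/
noncomputable def dvec (h : ℝ) (g : E2) : E3 := !₂[1, g 0, h * g 1]

theorem dvec_norm_sq (h : ℝ) (g : E2) : ‖dvec h g‖ ^ 2 = 1 + (g 0) ^ 2 + h ^ 2 * (g 1) ^ 2 := by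
  rw [EuclideanSpace.norm_sq_eq]
  simp [dvec, Fin.sum_univ_three]
  ring

theorem dvec_norm (h : ℝ) (g : E2) : ‖dvec h g‖ = Real.sqrt (1 + (g 0) ^ 2 + h ^ 2 * (g 1) ^ 2) := by
  rw [← dvec_norm_sq, Real.sqrt_sq (norm_nonneg _)]

theorem dvec_pos (h : ℝ) (g : E2) : 0 < ‖dvec h g‖ := by
  rw [dvec_norm]
  apply Real.sqrt_pos.mpr
  positivity

/-- The left inverse map. -/
noncomputable def Hmap (h : ℝ) (g : E2) (y : E3) : E2 := !₂[y 1 - g 0 * y 0, y 2 / h - g 1 * y 0]

theorem continuous_Hmap (h : ℝ) (g : E2) : Continuous (Hmap h g) := by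
  unfold Hmap
  refine (PiLp.continuous_toLp 2 _).comp ?_
  refine continuous_pi fun i => ?_
  fin_cases i
  · simp only [Matrix.cons_val_zero, Fin.zero_eta]
    fun_prop
  · simp only [Matrix.cons_val_one, Fin.mk_one, Matrix.cons_val_fin_one]
    fun_prop

/-- The projection of the plane map. -/
noncomputable def proj (u y : E3) : E3 := y - (inner ℝ y u) • u

theorem inner_proj_proj (u : E3) (hu : ‖u‖ = 1) (x y : E3) :
    inner ℝ (proj u x) (proj u y) = inner ℝ x y - inner ℝ x u * inner ℝ y u := by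
  have huu : inner ℝ u u = (1 : ℝ) := by rw [real_inner_self_eq_norm_sq, hu]; norm_num
  simp only [proj, inner_sub_left, inner_sub_right, inner_smul_left, inner_smul_right, huu]
  simp only [conj_trivial, real_inner_comm u x, real_inner_comm u y]
  ring

/-- The area factor. -/
theorem gram_proj (h : ℝ) (hh : 0 < h) (g : E2) :
    let u : E3 := (‖dvec h g‖)⁻¹ • dvec h g
    gram (proj u !₂[0, 1, 0]) (proj u !₂[0, 0, h]) = h ^ 2 / ‖dvec h g‖ ^ 2 := by
  intro u
  have hd := dvec_pos h g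
  have hu : ‖u‖ = 1 := by
    simp only [u]
    rw [norm_smul, norm_inv, norm_norm, inv_mul_cancel₀ hd.ne']
  have hn := dvec_norm_sq h g
  unfold gram
  rw [← real_inner_self_eq_norm_sq, ← real_inner_self_eq_norm_sq, inner_proj_proj u hu,
    inner_proj_proj u hu, inner_proj_proj u hu]
  have i1 : inner ℝ (!₂[0, 1, 0] : E3) u = g 0 / ‖dvec h g‖ := by
    simp only [u]
    rw [inner_smul_right]
    simp [dvec, PiLp.inner_apply, Fin.sum_univ_three]
    field_simp
  have i2 : inner ℝ (!₂[0, 0, h] : E3) u = h * (h * g 1) / ‖dvec h g‖ := by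
    simp only [u]
    rw [inner_smul_right]
    simp [dvec, PiLp.inner_apply, Fin.sum_univ_three]
    field_simp
  have i11 : inner ℝ (!₂[0, 1, 0] : E3) (!₂[0, 1, 0] : E3) = 1 := by
    rw [real_inner_self_eq_norm_sq, EuclideanSpace.norm_sq_eq]
    simp [Fin.sum_univ_three]
  have i22 : inner ℝ (!₂[0, 0, h] : E3) (!₂[0, 0, h] : E3) = h ^ 2 := by
    rw [real_inner_self_eq_norm_sq, EuclideanSpace.norm_sq_eq]
    simp [Fin.sum_univ_three]
  have i12 : inner ℝ (!₂[0, 1, 0] : E3) (!₂[0, 0, h] : E3) = 0 := by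
    simp [PiLp.inner_apply, Fin.sum_univ_three]
  rw [i1, i2, i11, i22, i12]
  have hD : ‖dvec h g‖ ^ 2 ≠ 0 := by positivity
  field_simp
  rw [hn]
  ring

theorem proj_add (u x y : E3) : proj u (x + y) = proj u x + proj u y := by
  simp only [proj, inner_add_left, add_smul]; abel

theorem proj_smul (u x : E3) (r : ℝ) : proj u (r • x) = r • proj u x := by
  simp only [proj, inner_smul_left, smul_sub, mul_smul]; simp

theorem proj_of_inner (u y : E3) (hy : inner ℝ y u = 0) : proj u y = y := by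
  simp [proj, hy]

theorem proj_dvec (h : ℝ) (g : E2) :
    proj ((‖dvec h g‖)⁻¹ • dvec h g) (dvec h g) = 0 := by
  have hd := dvec_pos h g
  have hI : inner ℝ (dvec h g) (dvec h g) = ‖dvec h g‖ ^ 2 := real_inner_self_eq_norm_sq _
  simp only [proj]
  rw [inner_smul_right, hI, smul_smul]
  have : ‖dvec h g‖⁻¹ * ‖dvec h g‖ ^ 2 * ‖dvec h g‖⁻¹ = 1 := by field_simp
  rw [this, one_smul, sub_self]

theorem Hmap_sub_smul (h : ℝ) (hh : 0 < h) (g : E2) (z : E3) (τ : ℝ) :
    Hmap h g (z - τ • ((‖dvec h g‖)⁻¹ • dvec h g)) = Hmap h g z := by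
  ext i
  fin_cases i
  · simp [Hmap, dvec]
    ring
  · simp [Hmap, dvec]
    field_simp
    ring

/-- Expansion in a planar frame of orthogonal vectors with equal length. -/
theorem expand_frame (a b : E2) (ha : a ≠ 0) (hb : ‖b‖ = ‖a‖) (hab : inner ℝ a b = 0) (v : E2) :
    v = (inner ℝ a v / ‖a‖ ^ 2) • a + (inner ℝ b v / ‖a‖ ^ 2) • b := by
  have hn : 0 < ‖a‖ := norm_pos_iff.2 ha
  have hon : Orthonormal ℝ ![(‖a‖)⁻¹ • a, (‖a‖)⁻¹ • b] := by
    rw [orthonormal_iff_ite]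
    intro i j
    fin_cases i <;> fin_cases j
    · simp
      left
      rw [norm_smul, Real.norm_eq_abs, abs_of_pos (by positivity)]
      field_simp
    · simp [inner_smul_left, inner_smul_right, hab]
    · simp [inner_smul_left, inner_smul_right, real_inner_comm a b, hab]
    · simp
      left
      rw [norm_smul, Real.norm_eq_abs, abs_of_pos (by positivity), hb]
      field_simp
  have hcard : Fintype.card (Fin 2) = Module.finrank ℝ E2 := by simp
  let B := (basisOfOrthonormalOfCardEqFinrank hon hcard).toOrthonormalBasis (by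
    rw [coe_basisOfOrthonormalOfCardEqFinrank]; exact hon)
  have hB0 : B 0 = (‖a‖)⁻¹ • a := by
    simp [B]
  have hB1 : B 1 = (‖a‖)⁻¹ • b := by
    simp [B]
  have h := expand2 B v
  rw [hB0, hB1] at h
  conv_lhs => rw [h]
  simp only [inner_smul_left, smul_smul]
  simp only [conj_trivial]
  have e1 : (‖a‖)⁻¹ * inner ℝ a v * (‖a‖)⁻¹ = inner ℝ a v / ‖a‖ ^ 2 := by
    field_simp
  have e2 : (‖a‖)⁻¹ * inner ℝ b v * (‖a‖)⁻¹ = inner ℝ b v / ‖a‖ ^ 2 := by
    field_simp
  rw [e1, e2]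

theorem cylinder_of_square (h : ℝ) (hh : 0 < h) (c a b g : E2) (ha : a ≠ 0) (hb : ‖b‖ = ‖a‖)
    (hab : inner ℝ a b = 0) (η : ℝ) (hη : 0 < η) :
    ∃ (u : E3) (B : Set E3), ‖u‖ = 1 ∧
      (Bornology.IsBounded B ∧ ∃ O : Set E3, IsOpen O ∧ B = O ∩ {x | inner ℝ x u = 0}) ∧
      (∀ (x s t : ℝ) (w : E2), s ∈ Set.Icc (0 : ℝ) 1 → t ∈ Set.Icc (0 : ℝ) 1 →
        w = c + s • a + t • b + x • g →
        ∃ y ∈ B, ∃ τ : ℝ, (!₂[x, w 0, h * w 1] : E3) = y + τ • u) ∧
      μHE[2] B ≤ ENNReal.ofReal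
        ((1 + 2 * η) ^ 2 * ‖a‖ ^ 2 * h / Real.sqrt (1 + (g 0) ^ 2 + h ^ 2 * (g 1) ^ 2)) := by
  have hℓ : 0 < ‖a‖ := norm_pos_iff.2 ha
  have hd := dvec_pos h g
  set u : E3 := (‖dvec h g‖)⁻¹ • dvec h g with hu
  have hun : ‖u‖ = 1 := by
    rw [hu, norm_smul, norm_inv, norm_norm, inv_mul_cancel₀ hd.ne']
  set sf : E2 → ℝ := fun ξ => inner ℝ a (ξ - c) / ‖a‖ ^ 2 with hsf
  set tf : E2 → ℝ := fun ξ => inner ℝ b (ξ - c) / ‖a‖ ^ 2 with htf
  have hsfc : Continuous sf := by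
    simp only [hsf]; exact (continuous_const.inner (continuous_id.sub continuous_const)).div_const _
  have htfc : Continuous tf := by
    simp only [htf]; exact (continuous_const.inner (continuous_id.sub continuous_const)).div_const _
  set W : Set E2 := {ξ | -η < sf ξ ∧ sf ξ < 1 + η ∧ -η < tf ξ ∧ tf ξ < 1 + η} with hW
  have hWo : IsOpen W := by
    have h1 : IsOpen {ξ : E2 | -η < sf ξ} := isOpen_lt continuous_const hsfc
    have h2 : IsOpen {ξ : E2 | sf ξ < 1 + η} := isOpen_lt hsfc continuous_const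
    have h3 : IsOpen {ξ : E2 | -η < tf ξ} := isOpen_lt continuous_const htfc
    have h4 : IsOpen {ξ : E2 | tf ξ < 1 + η} := isOpen_lt htfc continuous_const
    exact h1.inter (h2.inter (h3.inter h4))
  set O : Set E3 := Hmap h g ⁻¹' W with hO
  have hOo : IsOpen O := hWo.preimage (continuous_Hmap h g)
  set B : Set E3 := O ∩ {x | inner ℝ x u = 0} with hB
  -- planar parametrisation
  set e₁ : E3 := proj u !₂[0, 1, 0] with he₁
  set e₂ : E3 := proj u !₂[0, 0, h] with he₂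
  have hHG : ∀ y ∈ B, y = (0 : E3) + (Hmap h g y) 0 • e₁ + (Hmap h g y) 1 • e₂ := by
    rintro y ⟨_, hy⟩
    have hy' : inner ℝ y u = 0 := hy
    have e : (Hmap h g y) 0 • e₁ + (Hmap h g y) 1 • e₂ =
        proj u (y - (y 0) • dvec h g) := by
      rw [he₁, he₂, ← proj_smul, ← proj_smul, ← proj_add]
      congr 1
      ext i
      fin_cases i
      · simp [Hmap, dvec]
      · simp [Hmap, dvec]
        ring
      · simp [Hmap, dvec]
        field_simp
    have e2 : proj u (y - (y 0) • dvec h g) = y := by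
      have : y - (y 0) • dvec h g = y + (-(y 0)) • dvec h g := by
        rw [neg_smul, sub_eq_add_neg]
      rw [this, proj_add, proj_smul, proj_dvec, smul_zero, add_zero, proj_of_inner u y hy']
    rw [zero_add, e, e2]
  have hWsub : ∀ ξ ∈ W, ξ = c + sf ξ • a + tf ξ • b := by
    intro ξ _
    have := expand_frame a b ha hb hab (ξ - c)
    have e : ξ = c + (ξ - c) := by abel
    conv_lhs => rw [e, this]
    simp only [hsf, htf]
    abel
  have hcnorm : ∀ ξ ∈ W, ‖ξ‖ ≤ ‖c‖ + (1 + η) * ‖a‖ + (1 + η) * ‖a‖ := by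
    intro ξ hξ
    obtain ⟨h1, h2, h3, h4⟩ := hξ
    rw [hWsub ξ ⟨h1, h2, h3, h4⟩]
    have hsabs : |sf ξ| ≤ 1 + η := abs_le.2 ⟨by linarith, h2.le⟩
    have htabs : |tf ξ| ≤ 1 + η := abs_le.2 ⟨by linarith, h4.le⟩
    calc ‖c + sf ξ • a + tf ξ • b‖ ≤ ‖c‖ + ‖sf ξ • a‖ + ‖tf ξ • b‖ := norm_add₃_le
      _ = ‖c‖ + |sf ξ| * ‖a‖ + |tf ξ| * ‖a‖ := by
          rw [norm_smul, norm_smul, hb, Real.norm_eq_abs, Real.norm_eq_abs]
      _ ≤ ‖c‖ + (1 + η) * ‖a‖ + (1 + η) * ‖a‖ := by gcongr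
  refine ⟨u, B, hun, ⟨?_, O, hOo, rfl⟩, ?_, ?_⟩
  · -- boundedness
    rw [isBounded_iff_forall_norm_le]
    refine ⟨(‖c‖ + (1 + η) * ‖a‖ + (1 + η) * ‖a‖) * ‖e₁‖ +
      (‖c‖ + (1 + η) * ‖a‖ + (1 + η) * ‖a‖) * ‖e₂‖, ?_⟩
    intro y hy
    rw [hHG y hy]
    have hW' : Hmap h g y ∈ W := hy.1
    have hbd := hcnorm _ hW'
    have hcoord : ∀ i : Fin 2, |Hmap h g y i| ≤ ‖c‖ + (1 + η) * ‖a‖ + (1 + η) * ‖a‖ := by
      intro i
      have := PiLp.norm_apply_le (Hmap h g y) i
      rw [Real.norm_eq_abs] at this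
      exact this.trans hbd
    calc ‖(0 : E3) + (Hmap h g y) 0 • e₁ + (Hmap h g y) 1 • e₂‖
        ≤ ‖(Hmap h g y) 0 • e₁‖ + ‖(Hmap h g y) 1 • e₂‖ := by
          rw [zero_add]; exact norm_add_le _ _
      _ = |Hmap h g y 0| * ‖e₁‖ + |Hmap h g y 1| * ‖e₂‖ := by
          rw [norm_smul, norm_smul, Real.norm_eq_abs, Real.norm_eq_abs]
      _ ≤ _ := by
          gcongr
          · exact hcoord 0
          · exact hcoord 1
  · -- covering
    intro x s t w hs ht hw
    set z : E3 := !₂[x, w 0, h * w 1] with hz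
    refine ⟨z - (inner ℝ z u) • u, ⟨?_, ?_⟩, inner ℝ z u, by abel⟩
    · show Hmap h g (z - (inner ℝ z u) • u) ∈ W
      rw [hu, Hmap_sub_smul h hh g z _]
      have hHz : Hmap h g z = c + s • a + t • b := by
        have hw0 : c + s • a + t • b = w - x • g := by rw [hw]; abel
        rw [hw0]
        ext i
        fin_cases i
        · simp [Hmap, hz]
          ring
        · simp [Hmap, hz]
          field_simp
      rw [hHz]
      have haa : inner ℝ a a = ‖a‖ ^ 2 := real_inner_self_eq_norm_sq a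
      have hbb : inner ℝ b b = ‖a‖ ^ 2 := by rw [real_inner_self_eq_norm_sq, hb]
      have hba : inner ℝ b a = (0 : ℝ) := by rw [real_inner_comm]; exact hab
      have hne : ‖a‖ ^ 2 ≠ 0 := by positivity
      have es : sf (c + s • a + t • b) = s := by
        simp only [hsf]
        have : c + s • a + t • b - c = s • a + t • b := by abel
        rw [this, inner_add_right, inner_smul_right, inner_smul_right, haa, hab]
        field_simp
        ring
      have et : tf (c + s • a + t • b) = t := by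
        simp only [htf]
        have : c + s • a + t • b - c = s • a + t • b := by abel
        rw [this, inner_add_right, inner_smul_right, inner_smul_right, hba, hbb]
        field_simp
        ring
      have hs' := hs
      have ht' := ht
      refine ⟨?_, ?_, ?_, ?_⟩
      · rw [es]; linarith [hs'.1]
      · rw [es]; linarith [hs'.2]
      · rw [et]; linarith [ht'.1]
      · rw [et]; linarith [ht'.2]
    · show inner ℝ (z - (inner ℝ z u) • u) u = 0
      have huu : inner ℝ u u = (1 : ℝ) := by rw [real_inner_self_eq_norm_sq, hun]; norm_num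
      rw [inner_sub_left, inner_smul_left, huu]
      simp
  · -- area
    have hBsub : B ⊆ (fun x : E2 => (0 : E3) + x 0 • e₁ + x 1 • e₂) '' W :=
      fun y hy => ⟨Hmap h g y, hy.1, (hHG y hy).symm⟩
    have hgram : gram e₁ e₂ = h ^ 2 / ‖dvec h g‖ ^ 2 := gram_proj h hh g
    have hgrampos : 0 < gram e₁ e₂ := by rw [hgram]; positivity
    have harea := area_image_of_gram_pos hgrampos (0 : E3) W
    have hsqrt : Real.sqrt (gram e₁ e₂) = h / ‖dvec h g‖ := by
      rw [hgram, ← div_pow, Real.sqrt_sq (by positivity)]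
    rw [hsqrt] at harea
    -- the planar area
    set T : Set E2 := {x | ∀ i, (fun _ => -η : Fin 2 → ℝ) i ≤ x i ∧ x i < (fun _ => 1 + η : Fin 2 → ℝ) i} with hT
    have hvolT : volume T = ENNReal.ofReal (1 + 2 * η) * ENNReal.ofReal (1 + 2 * η) := by
      rw [hT, volume_box]
      have : (1 + η - (-η)) = 1 + 2 * η := by ring
      simp only [this]
    have hWT : W ⊆ (fun x : E2 => c + x 0 • a + x 1 • b) '' T := by
      intro ξ hξ
      refine ⟨!₂[sf ξ, tf ξ], ?_, ?_⟩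
      · obtain ⟨h1, h2, h3, h4⟩ := hξ
        intro i
        fin_cases i
        · exact ⟨by simpa using h1.le, by simpa using h2⟩
        · exact ⟨by simpa using h3.le, by simpa using h4⟩
      · have e := (hWsub ξ hξ).symm
        simpa using e
    have hgab : gram a b = ‖a‖ ^ 2 * ‖a‖ ^ 2 := by
      unfold gram; rw [hb, hab]; ring
    have hgabpos : 0 < gram a b := by rw [hgab]; positivity
    have harea2 := area_image_of_gram_pos hgabpos c T
    rw [EuclideanSpace.euclideanHausdorffMeasure_eq_volume] at harea2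
    have hsqrt2 : Real.sqrt (gram a b) = ‖a‖ ^ 2 := by
      rw [hgab, ← pow_two, Real.sqrt_sq (by positivity)]
    rw [hsqrt2] at harea2
    have hvolW : volume W ≤ ENNReal.ofReal (‖a‖ ^ 2) * (ENNReal.ofReal (1 + 2 * η) * ENNReal.ofReal (1 + 2 * η)) := by
      calc volume W ≤ volume ((fun x : E2 => c + x 0 • a + x 1 • b) '' T) := measure_mono hWT
        _ = _ := by rw [harea2, hvolT]
    calc μHE[2] B ≤ μHE[2] ((fun x : E2 => (0 : E3) + x 0 • e₁ + x 1 • e₂) '' W) := measure_mono hBsub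
      _ = ENNReal.ofReal (h / ‖dvec h g‖) * volume W := harea
      _ ≤ ENNReal.ofReal (h / ‖dvec h g‖) *
          (ENNReal.ofReal (‖a‖ ^ 2) * (ENNReal.ofReal (1 + 2 * η) * ENNReal.ofReal (1 + 2 * η))) := by
          gcongr
      _ = ENNReal.ofReal ((1 + 2 * η) ^ 2 * ‖a‖ ^ 2 * h / Real.sqrt (1 + (g 0) ^ 2 + h ^ 2 * (g 1) ^ 2)) := by
          rw [← ENNReal.ofReal_mul (by positivity), ← ENNReal.ofReal_mul (by positivity),
            ← ENNReal.ofReal_mul (by positivity), dvec_norm]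
          congr 1
          ring

/-- Main theorem for `S0329`. -/
theorem main_theorem_open
    (h M : ℝ) (hh : 0 < h) (hM : 0 < M) (D : Set E2) (hD : IsCompact D)
    (V : E2 → E2) (U : Set E2)
    (hU : IsOpen U) (hDU : D ⊆ U) (hV : ContDiffOn ℝ 1 V U)
    (htr : ∀ p ∈ D, LinearMap.trace ℝ _ (fderiv ℝ V p).toLinearMap = 0)
    (hdet : ∀ p ∈ D, -(M ^ 2)⁻¹ < LinearMap.det (fderiv ℝ V p).toLinearMap ∧
      LinearMap.det (fderiv ℝ V p).toLinearMap < 0)
    (ε : ℝ) (hε : 0 < ε) :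
    ∃ (k : ℕ) (u : Fin k → E3) (B : Fin k → Set E3),
      (∀ i, ‖u i‖ = 1) ∧
      (∀ i, Bornology.IsBounded (B i) ∧ ∃ O : Set E3, IsOpen O ∧
        B i = O ∩ {x | inner ℝ x (u i) = 0}) ∧
      {z : E3 | ∃ p ∈ D, ∃ x : ℝ, abs x ≤ M ∧
          z = !₂[x, p 0 + x * V p 0, h * (p 1 + x * V p 1)]} ⊆
        ⋃ i, {z : E3 | ∃ y ∈ B i, ∃ τ : ℝ, z = y + τ • u i} ∧
      ∑ i, (μHE[2] (B i)).toReal ≤
        h * (∫ p in D, 1 / Real.sqrt (1 + (V p 0) ^ 2 + h ^ 2 * (V p 1) ^ 2)) + ε := by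
  set II := ∫ p in D, 1 / Real.sqrt (1 + (V p 0) ^ 2 + h ^ 2 * (V p 1) ^ 2) with hII
  have hII0 : 0 ≤ II := integral_nonneg (fun x => by positivity)
  obtain ⟨k, c, a, b, g, hab, hcov, hsum⟩ := main_theorem D hD V U hU hDU hV M h hM htr
    (fun p hp => ⟨(hdet p hp).1, (hdet p hp).2.le⟩) (ε / (2 * h)) (by positivity)
  -- inflation
  set X := h * (II + ε / (2 * h)) with hX
  have hX0 : 0 ≤ X := by positivity
  have hXeq : X = h * II + ε / 2 := by rw [hX]; field_simp
  set η := min 1 (ε / (16 * (X + 1))) with hηdef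
  have hη : 0 < η := lt_min one_pos (by positivity)
  have hη1 : η ≤ 1 := min_le_left _ _
  have hηX : η * (16 * (X + 1)) ≤ ε := by
    have := min_le_right 1 (ε / (16 * (X + 1)))
    rw [← hηdef, le_div_iff₀ (by positivity)] at this
    exact this
  have hcyl := fun i => cylinder_of_square h hh (c i) (a i) (b i) (g i) (hab i).1 (hab i).2.1 (hab i).2.2 η hη
  choose u B hun hBb hBc hBa using hcyl
  refine ⟨k, u, B, hun, hBb, ?_, ?_⟩
  · rintro z ⟨p, hp, x, hx, rfl⟩
    have hz : ((x, p + x • V p) : ℝ × E2) ∈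
        {z : ℝ × E2 | ∃ p ∈ D, abs z.1 ≤ M ∧ z.2 = p + z.1 • V p} := ⟨p, hp, hx, rfl⟩
    obtain ⟨i, s, hs, t, ht, he⟩ := Set.mem_iUnion.1 (hcov hz)
    obtain ⟨y, hy, τ, hyτ⟩ := hBc i x s t (p + x • V p) hs ht he
    refine Set.mem_iUnion.2 ⟨i, y, hy, τ, ?_⟩
    rw [← hyτ]
    simp
  · have hstep : ∀ i, (μHE[2] (B i)).toReal ≤ (1 + 2 * η) ^ 2 * h *
        (‖a i‖ ^ 2 / Real.sqrt (1 + (g i 0) ^ 2 + h ^ 2 * (g i 1) ^ 2)) := by
      intro i
      have h1 := hBa i
      have h2 := ENNReal.toReal_mono ENNReal.ofReal_ne_top h1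
      rw [ENNReal.toReal_ofReal (by positivity)] at h2
      refine h2.trans (le_of_eq ?_)
      ring
    calc ∑ i, (μHE[2] (B i)).toReal
        ≤ ∑ i, (1 + 2 * η) ^ 2 * h * (‖a i‖ ^ 2 / Real.sqrt (1 + (g i 0) ^ 2 + h ^ 2 * (g i 1) ^ 2)) :=
          Finset.sum_le_sum fun i _ => hstep i
      _ = (1 + 2 * η) ^ 2 * h * ∑ i, (‖a i‖ ^ 2 / Real.sqrt (1 + (g i 0) ^ 2 + h ^ 2 * (g i 1) ^ 2)) := by
          rw [Finset.mul_sum]
      _ ≤ (1 + 2 * η) ^ 2 * h * (II + ε / (2 * h)) :=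
          mul_le_mul_of_nonneg_left hsum (by positivity)
      _ = (1 + 2 * η) ^ 2 * X := by rw [hX]; ring
      _ ≤ h * II + ε := by
          have h1 : (1 + 2 * η) ^ 2 ≤ 1 + 8 * η := by nlinarith
          have h2 : (1 + 2 * η) ^ 2 * X ≤ (1 + 8 * η) * X := mul_le_mul_of_nonneg_right h1 hX0
          have h3 : 8 * η * X ≤ ε / 2 := by
            nlinarith
          rw [hXeq] at h2 ⊢
          nlinarith

end Crest.Agent.Lib.SquareCover
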