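import Mathlib

set_option autoImplicit false

namespace Crest.Agent.Lib.TetraReal

/-- Root of the quadratic describing the fan line through a point. -/
lemma exists_root (A σ y : ℝ) (hσ : 0 ≤ σ) (hy : |y| ≤ σ) :
    ∃ t ρ : ℝ, |t| ≤ 1 / 2 ∧ 0 ≤ ρ ∧ y = ρ * t + A * (t ^ 2 + 1 / 4) ∧ σ = ρ / 2 + A * t := by
  obtain ⟨hy1, hy2⟩ := abs_le.1 hy
  rcases lt_trichotomy A 0 with hA | hA | hA
  · -- negative `A`
    set B := -A with hB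
    have hBpos : 0 < B := by rw [hB]; linarith
    have hAB : A = -B := by rw [hB]; ring
    set D := σ ^ 2 + B * y + B ^ 2 / 4 with hD
    have h1 : 0 ≤ D := by rw [hD]; nlinarith [sq_nonneg (σ - B / 2), mul_nonneg hBpos.le (by linarith : 0 ≤ y + σ)]
    set s := Real.sqrt D with hs
    have hs0 : 0 ≤ s := Real.sqrt_nonneg _
    have hs2 : s ^ 2 = D := Real.sq_sqrt h1
    have hub : s ≤ σ + B / 2 := by
      apply abs_le_of_sq_le_sq' _ (by linarith) |>.2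
      rw [hs2, hD]
      nlinarith [mul_nonneg hBpos.le (by linarith : 0 ≤ σ - y)]
    have hlb : σ - B / 2 ≤ s := by
      by_cases hc : σ - B / 2 ≤ 0
      · linarith
      · push Not at hc
        apply abs_le_of_sq_le_sq' _ hs0 |>.2
        rw [hs2, hD]
        nlinarith [mul_nonneg hBpos.le (by linarith : 0 ≤ y + σ)]
    refine ⟨(s - σ) / B, 2 * s, ?_, by linarith, ?_, ?_⟩
    · rw [abs_le]
      constructor
      · rw [le_div_iff₀ hBpos]; linarith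
      · rw [div_le_iff₀ hBpos]; linarith
    · rw [hAB]
      field_simp
      rw [hD] at hs2
      nlinarith
    · rw [hAB]
      field_simp
      ring
  · -- zero `A`
    subst hA
    by_cases hσ0 : σ = 0
    · subst hσ0
      have : y = 0 := by linarith
      exact ⟨0, 0, by norm_num, le_rfl, by simp [this], by simp⟩
    · have hσp : 0 < σ := lt_of_le_of_ne hσ (Ne.symm hσ0)
      refine ⟨y / (2 * σ), 2 * σ, ?_, by linarith, ?_, ?_⟩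
      · rw [abs_le]
        constructor
        · rw [le_div_iff₀ (by linarith)]; linarith
        · rw [div_le_iff₀ (by linarith)]; linarith
      · field_simp
        ring
      · ring
  · -- positive `A`
    set D := σ ^ 2 - A * y + A ^ 2 / 4 with hD
    have h1 : 0 ≤ D := by rw [hD]; nlinarith [sq_nonneg (σ - A / 2), mul_nonneg hA.le (by linarith : 0 ≤ σ - y)]
    set s := Real.sqrt D with hs
    have hs0 : 0 ≤ s := Real.sqrt_nonneg _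
    have hs2 : s ^ 2 = D := Real.sq_sqrt h1
    have hub : s ≤ σ + A / 2 := by
      apply abs_le_of_sq_le_sq' _ (by linarith) |>.2
      rw [hs2, hD]
      nlinarith [mul_nonneg hA.le (by linarith : 0 ≤ y + σ)]
    have hlb : σ - A / 2 ≤ s := by
      by_cases hc : σ - A / 2 ≤ 0
      · linarith
      · push Not at hc
        apply abs_le_of_sq_le_sq' _ hs0 |>.2
        rw [hs2, hD]
        nlinarith [mul_nonneg hA.le (by linarith : 0 ≤ σ - y)]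
    refine ⟨(σ - s) / A, 2 * s, ?_, by linarith, ?_, ?_⟩
    · rw [abs_le]
      constructor
      · rw [le_div_iff₀ hA]; linarith
      · rw [div_le_iff₀ hA]; linarith
    · field_simp
      rw [hD] at hs2
      nlinarith
    · field_simp
      ring

/-- The algebra behind the covering: both parameters cannot overflow simultaneously. -/
lemma cover_alg {C κ a a' t t' : ℝ} (hC : 0 ≤ C) (hC2 : C ≤ 1) (hκ : 2 * C ^ 2 ≤ κ * (1 - C / 2))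
    (ht : |t| ≤ 1 / 2) (ht' : |t'| ≤ 1 / 2)
    (ha_nn : 0 ≤ a) (ha'_nn : 0 ≤ a')
    (hE : a * (1 - 2 * C * (t * t') - 2 * C ^ 2 * ((t' ^ 2 + 1 / 4) * (t ^ 2 / 2 - 1 / 8))) +
      a' * (1 + 2 * C * (t * t') - 2 * C ^ 2 * ((t ^ 2 + 1 / 4) * (t' ^ 2 / 2 - 1 / 8))) =
      2 * C ^ 2 * (2 * t ^ 2 * t' ^ 2 + (t ^ 2 + t' ^ 2) / 4)) :
    a + a' ≤ κ * ((t ^ 4 + t ^ 2 / 4) + (t' ^ 4 + t' ^ 2 / 4)) := by
  have ht2 : t ^ 2 ≤ 1 / 4 := by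
    have := sq_le_sq' (abs_le.1 ht).1 (abs_le.1 ht).2
    linarith
  have ht'2 : t' ^ 2 ≤ 1 / 4 := by
    have := sq_le_sq' (abs_le.1 ht').1 (abs_le.1 ht').2
    linarith
  have hTt0 : 0 ≤ t ^ 2 + 1 / 4 := by positivity
  have hTp0 : 0 ≤ t' ^ 2 + 1 / 4 := by positivity
  have hC3 : 0 < 1 - C / 2 := by linarith
  have htt : |t * t'| ≤ 1 / 4 := by
    rw [abs_mul]
    calc |t| * |t'| ≤ (1 / 2) * (1 / 2) := mul_le_mul ht ht' (abs_nonneg _) (by norm_num)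
      _ = 1 / 4 := by norm_num
  obtain ⟨htt1, htt2⟩ := abs_le.1 htt
  have hc1 : 0 ≤ -(2 * C ^ 2 * ((t' ^ 2 + 1 / 4) * (t ^ 2 / 2 - 1 / 8))) := by
    have : 0 ≤ 2 * C ^ 2 * ((t' ^ 2 + 1 / 4) * (1 / 8 - t ^ 2 / 2)) := by
      apply mul_nonneg (by positivity) (mul_nonneg hTp0 (by linarith))
    linarith
  have hc2 : 0 ≤ -(2 * C ^ 2 * ((t ^ 2 + 1 / 4) * (t' ^ 2 / 2 - 1 / 8))) := by
    have : 0 ≤ 2 * C ^ 2 * ((t ^ 2 + 1 / 4) * (1 / 8 - t' ^ 2 / 2)) := by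
      apply mul_nonneg (by positivity) (mul_nonneg hTt0 (by linarith))
    linarith
  have hl1 : 0 ≤ 2 * C * (1 / 4 - t * t') := mul_nonneg (by positivity) (by linarith)
  have hl2 : 0 ≤ 2 * C * (1 / 4 + t * t') := mul_nonneg (by positivity) (by linarith)
  have h1 : a * (1 - C / 2) ≤ a * (1 - 2 * C * (t * t') - 2 * C ^ 2 * ((t' ^ 2 + 1 / 4) * (t ^ 2 / 2 - 1 / 8))) :=
    mul_le_mul_of_nonneg_left (by linarith) ha_nn
  have h2 : a' * (1 - C / 2) ≤ a' * (1 + 2 * C * (t * t') - 2 * C ^ 2 * ((t ^ 2 + 1 / 4) * (t' ^ 2 / 2 - 1 / 8))) :=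
    mul_le_mul_of_nonneg_left (by linarith) ha'_nn
  have hRHS : 2 * C ^ 2 * (2 * t ^ 2 * t' ^ 2 + (t ^ 2 + t' ^ 2) / 4) ≤
      2 * C ^ 2 * ((t ^ 4 + t ^ 2 / 4) + (t' ^ 4 + t' ^ 2 / 4)) := by
    apply mul_le_mul_of_nonneg_left _ (by positivity)
    have := sq_nonneg (t ^ 2 - t' ^ 2)
    have e : (t ^ 2 - t' ^ 2) ^ 2 = t ^ 4 + t' ^ 4 - 2 * t ^ 2 * t' ^ 2 := by ring
    linarith
  have hr0 : 0 ≤ (t ^ 4 + t ^ 2 / 4) + (t' ^ 4 + t' ^ 2 / 4) := by positivity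
  have h3 : 2 * C ^ 2 * ((t ^ 4 + t ^ 2 / 4) + (t' ^ 4 + t' ^ 2 / 4)) ≤
      (κ * (1 - C / 2)) * ((t ^ 4 + t ^ 2 / 4) + (t' ^ 4 + t' ^ 2 / 4)) :=
    mul_le_mul_of_nonneg_right hκ hr0
  have h4 : (1 - C / 2) * (a + a') ≤ (1 - C / 2) * (κ * ((t ^ 4 + t ^ 2 / 4) + (t' ^ 4 + t' ^ 2 / 4))) := by
    have e1 : (1 - C / 2) * (a + a') = a * (1 - C / 2) + a' * (1 - C / 2) := by ring
    have e2 : (1 - C / 2) * (κ * ((t ^ 4 + t ^ 2 / 4) + (t' ^ 4 + t' ^ 2 / 4))) =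
      (κ * (1 - C / 2)) * ((t ^ 4 + t ^ 2 / 4) + (t' ^ 4 + t' ^ 2 / 4)) := by ring
    rw [e1, e2]
    linarith
  exact le_of_mul_le_mul_left h4 hC3

/-- The two fans cover the tetrahedron (in the coordinates `x, y, σ`). -/
lemma real_cover {C κ : ℝ} (hC : 0 ≤ C) (hC2 : C ≤ 1) (hκ : 2 * C ^ 2 ≤ κ * (1 - C / 2))
    {x y σ : ℝ} (h0 : 0 ≤ σ) (h1 : σ ≤ 1) (hx : |x| ≤ 1 - σ) (hy : |y| ≤ σ) :
    (∃ t ρ : ℝ, |t| ≤ 1 / 2 ∧ 0 ≤ ρ ∧ ρ ≤ 1 + κ * (t ^ 4 + t ^ 2 / 4) ∧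
      y = ρ * t + (x * C) * (t ^ 2 + 1 / 4) ∧ σ = ρ / 2 + (x * C) * t) ∨
    (∃ t ρ : ℝ, |t| ≤ 1 / 2 ∧ 0 ≤ ρ ∧ ρ ≤ 1 + κ * (t ^ 4 + t ^ 2 / 4) ∧
      x = ρ * t + (y * (-C)) * (t ^ 2 + 1 / 4) ∧ 1 - σ = ρ / 2 + (y * (-C)) * t) := by
  obtain ⟨t, ρ, ht, hρ, e1, e2⟩ := exists_root (x * C) σ y h0 hy
  obtain ⟨t', ρ', ht', hρ', e1', e2'⟩ := exists_root (y * (-C)) (1 - σ) x (by linarith) hx
  by_cases hA : ρ ≤ 1 + κ * (t ^ 4 + t ^ 2 / 4)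
  · exact Or.inl ⟨t, ρ, ht, hρ, hA, e1, e2⟩
  by_cases hB : ρ' ≤ 1 + κ * (t' ^ 4 + t' ^ 2 / 4)
  · exact Or.inr ⟨t', ρ', ht', hρ', hB, e1', e2'⟩
  exfalso
  push Not at hA hB
  have hκ0 : 0 ≤ κ := by
    have h3 : 0 < 1 - C / 2 := by linarith
    have h4 : 0 ≤ κ * (1 - C / 2) := le_trans (by positivity) hκ
    exact nonneg_of_mul_nonneg_left h4 h3
  have hr0 : 0 ≤ t ^ 4 + t ^ 2 / 4 := by positivity
  have hr'0 : 0 ≤ t' ^ 4 + t' ^ 2 / 4 := by positivity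
  have hq0 := mul_nonneg hκ0 hr0
  have hq1 := mul_nonneg hκ0 hr'0
  have hE : (ρ - 1) * (1 - 2 * C * (t * t') - 2 * C ^ 2 * ((t' ^ 2 + 1 / 4) * (t ^ 2 / 2 - 1 / 8))) +
      (ρ' - 1) * (1 + 2 * C * (t * t') - 2 * C ^ 2 * ((t ^ 2 + 1 / 4) * (t' ^ 2 / 2 - 1 / 8))) =
      2 * C ^ 2 * (2 * t ^ 2 * t' ^ 2 + (t ^ 2 + t' ^ 2) / 4) := by
    linear_combination (2*C*t' + 2*C^2*t*(t'^2+1/4)) * e1 + (-2*C*t + 2*C^2*t'*(t^2+1/4)) * e1' -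
      (2 + 2*C^2*(t^2+1/4)*(t'^2+1/4)) * (e2 + e2')
  have := cover_alg (a := ρ - 1) (a' := ρ' - 1) hC hC2 hκ ht ht' (by linarith) (by linarith) hE
  have e : κ * ((t ^ 4 + t ^ 2 / 4) + (t' ^ 4 + t' ^ 2 / 4)) = κ * (t ^ 4 + t ^ 2 / 4) + κ * (t' ^ 4 + t' ^ 2 / 4) := by ring
  linarith

end Crest.Agent.Lib.TetraReal
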