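import Crest.Agent.Lib.TetraProj
import Crest.Agent.Lib.TetraReal

set_option autoImplicit false
open MeasureTheory Set
open scoped ENNReal

namespace Crest.Agent.Lib.TetraArea

/-- The unit vector along `u`. -/
noncomputable def hat (u : E3) : E3 := ‖u‖⁻¹ • u

lemma norm_hat {u : E3} (hu : u ≠ 0) : ‖hat u‖ = 1 := by
  rw [hat, norm_smul, norm_inv, norm_norm, inv_mul_cancel₀ (norm_ne_zero_iff.2 hu)]

lemma norm_smul_hat {u : E3} (hu : u ≠ 0) : ‖u‖ • hat u = u := by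
  rw [hat, smul_smul, mul_inv_cancel₀ (norm_ne_zero_iff.2 hu), one_smul]

/-- A point of the solid cylinder with data `(P, A, B, u)` lies on a line through the projected
triangle. -/
lemma cyl_mem {u P A B X : E3} (hu : u ≠ 0) {s t τ : ℝ} (hs : 0 ≤ s) (ht : 0 ≤ t) (hst : s + t ≤ 1)
    (hX : X = P + s • A + t • B + τ • u) :
    ∃ b ∈ convexHull ℝ {projL (hat u) P, projL (hat u) (P + A), projL (hat u) (P + B)},
      ∃ τ' : ℝ, X = b + τ' • hat u := by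
  refine ⟨projL (hat u) (P + s • A + t • B), ?_, inner ℝ (P + s • A + t • B) (hat u) + τ * ‖u‖, ?_⟩
  · rw [convexHull_three_eq]
    refine ⟨s, t, hs, ht, hst, ?_⟩
    simp only [map_add, map_smul, add_sub_cancel_left]
  · rw [projL_apply, add_smul, mul_smul, norm_smul_hat hu, hX]
    abel

lemma inner_projL_hat {u : E3} (hu : u ≠ 0) (y : E3) : inner ℝ (projL (hat u) y) (hat u) = 0 :=
  inner_projL (norm_hat hu) y

lemma area_base {u : E3} (hu : u ≠ 0) (P A B : E3) :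
    μHE[2] (convexHull ℝ {projL (hat u) P, projL (hat u) (P + A), projL (hat u) (P + B)}) =
      ENNReal.ofReal (|det3 A B (hat u)| / 2) := by
  rw [area_projL_triangle (norm_hat hu)]
  simp only [add_sub_cancel_left]

/-- Barycentric coordinates in the wedge: the real-variable core of the fan covering. -/
lemma wedge_real {A C₀ Δ t₁ t s ρ Lb : ℝ} (hA : |C₀| ≤ A) (hΔ : 0 < Δ) (ht₁ : t₁ ≤ t)
    (ht₂ : t ≤ t₁ + Δ) (hs : |s| ≤ 1) (hρ : 0 ≤ ρ) (hLbpos : 0 < Lb)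
    (hLb : ρ + 7 / 2 * A * Δ ≤ Lb) :
    ∃ a b : ℝ, 0 ≤ a ∧ 0 ≤ b ∧ a + b ≤ 1 ∧
      ρ + 2 * (s * C₀) * (t - (t₁ + Δ / 2)) = -(5 / 2 * A * Δ) + Lb * (a + b) ∧
      ρ * t + s * C₀ * (t ^ 2 - (t₁ + Δ / 2) ^ 2) =
        t₁ * (-(5 / 2 * A * Δ)) - 5 / 4 * A * Δ ^ 2 + Lb * (a * t₁ + b * (t₁ + Δ)) := by
  set q := s * C₀ with hq
  have hqA : |q| ≤ A := by
    rw [hq, abs_mul]
    calc |s| * |C₀| ≤ 1 * A := mul_le_mul hs hA (abs_nonneg _) (by norm_num)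
      _ = A := one_mul A
  have hA0 : 0 ≤ A := le_trans (abs_nonneg _) hA
  set c := t₁ + Δ / 2 with hc
  set h := t - c with hh
  have hh1 : |h| ≤ Δ / 2 := by
    rw [abs_le, hh, hc]
    constructor <;> linarith
  have hq1 := (abs_le.1 hqA).1
  have hq2 := (abs_le.1 hqA).2
  have hh2 := (abs_le.1 hh1).1
  have hh3 := (abs_le.1 hh1).2
  have hqh : |q * h| ≤ A * (Δ / 2) := by
    rw [abs_mul]
    exact mul_le_mul hqA hh1 (abs_nonneg _) hA0
  have hqh1 := (abs_le.1 hqh).1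
  have hqh2 := (abs_le.1 hqh).2
  have hqh2' : |q * h ^ 2| ≤ A * (Δ ^ 2 / 4) := by
    rw [abs_mul, abs_pow]
    refine mul_le_mul hqA ?_ (by positivity) hA0
    calc |h| ^ 2 ≤ (Δ / 2) ^ 2 := pow_le_pow_left₀ (abs_nonneg _) hh1 2
      _ = Δ ^ 2 / 4 := by ring
  have hqh3 := (abs_le.1 hqh2').1
  have hqh4 := (abs_le.1 hqh2').2
  set α := ρ + 2 * q * h with hα
  have hαl : -(A * Δ) ≤ α := by
    rw [hα]
    nlinarith
  have hαu : α ≤ ρ + A * Δ := by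
    rw [hα]
    nlinarith
  set m := 5 / 4 * A * Δ ^ 2 with hm
  set β := ρ * t + q * (t ^ 2 - c ^ 2) with hβ
  have hβ' : β = α * t - q * h ^ 2 := by
    rw [hβ, hα, hh]
    ring
  have hAΔ : 0 ≤ A * Δ := by positivity
  have hbnd1 : 0 ≤ β - t₁ * α + m := by
    have h1 : -(A * Δ) * Δ ≤ α * (t - t₁) := by
      have h2 : -(A * Δ) * (t - t₁) ≤ α * (t - t₁) :=
        mul_le_mul_of_nonneg_right hαl (by linarith)
      have h3 : (A * Δ) * (t - t₁) ≤ (A * Δ) * Δ :=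
        mul_le_mul_of_nonneg_left (by linarith) hAΔ
      linarith
    rw [hβ', hm]
    have e : α * t - q * h ^ 2 - t₁ * α + 5 / 4 * A * Δ ^ 2 =
      α * (t - t₁) - q * h ^ 2 + 5 / 4 * A * Δ ^ 2 := by ring
    rw [e]
    nlinarith
  have hbnd2 : 0 ≤ (t₁ + Δ) * α - β + m := by
    have h1 : -(A * Δ) * Δ ≤ α * (t₁ + Δ - t) := by
      have h2 : -(A * Δ) * (t₁ + Δ - t) ≤ α * (t₁ + Δ - t) :=
        mul_le_mul_of_nonneg_right hαl (by linarith)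
      have h3 : (A * Δ) * (t₁ + Δ - t) ≤ (A * Δ) * Δ :=
        mul_le_mul_of_nonneg_left (by linarith) hAΔ
      linarith
    rw [hβ', hm]
    have e : (t₁ + Δ) * α - (α * t - q * h ^ 2) + 5 / 4 * A * Δ ^ 2 =
      α * (t₁ + Δ - t) + q * h ^ 2 + 5 / 4 * A * Δ ^ 2 := by ring
    rw [e]
    nlinarith
  have hLΔ : 0 < Lb * Δ := mul_pos hLbpos hΔ
  have hLne : Lb ≠ 0 := hLbpos.ne'
  have hΔne : Δ ≠ 0 := hΔ.ne'
  refine ⟨((t₁ + Δ) * α - β + m) / (Lb * Δ), (β - t₁ * α + m) / (Lb * Δ), by positivity,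
    by positivity, ?_, ?_, ?_⟩
  · rw [← add_div, div_le_one hLΔ]
    have e : (t₁ + Δ) * α - β + m + (β - t₁ * α + m) = Δ * (α + 5 / 2 * A * Δ) := by
      rw [hm]; ring
    rw [e, mul_comm Lb]
    apply mul_le_mul_of_nonneg_left _ hΔ.le
    linarith
  · field_simp
    rw [hm]
    ring
  · have e : Lb * (((t₁ + Δ) * α - β + m) / (Lb * Δ) * t₁ + (β - t₁ * α + m) / (Lb * Δ) * (t₁ + Δ)) =
       (((t₁ + Δ) * α - β + m) * t₁ + (β - t₁ * α + m) * (t₁ + Δ)) / Δ := by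
      field_simp
    rw [e]
    field_simp
    rw [hm]
    ring

/-! ### The grid and the two fans -/

/-- The slope constant. -/
noncomputable def cC : ℝ := 1 / 20
/-- The overflow constant. -/
noncomputable def cK : ℝ := 1 / 195
/-- The number of wedges in each fan. -/
def gridN : ℕ := 1000000
/-- The grid step. -/
noncomputable def gD : ℝ := 1 / 1000000

lemma gridN_cast : (gridN : ℝ) = 1000000 := by norm_num [gridN]
lemma gD_pos : 0 < gD := by norm_num [gD]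
lemma cC_pos : 0 < cC := by norm_num [cC]

/-- Left end point of a wedge. -/
noncomputable def tL (i : ℕ) : ℝ := -1 / 2 + i * gD
/-- Mid point of a wedge. -/
noncomputable def cM (i : ℕ) : ℝ := tL i + gD / 2
/-- The radial extent of the fan. -/
noncomputable def fanR (t : ℝ) : ℝ := 1 + cK * (t ^ 4 + t ^ 2 / 4)
/-- The length of a wedge. -/
noncomputable def Lb (i : ℕ) : ℝ := fanR (cM i) + gD / 5

lemma tL_ge (i : ℕ) : -1 / 2 ≤ tL i := by
  have : 0 ≤ (i : ℝ) * gD := mul_nonneg (Nat.cast_nonneg _) gD_pos.le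
  rw [tL]; linarith

lemma tL_add_le {i : ℕ} (hi : i < gridN) : tL i + gD ≤ 1 / 2 := by
  have h1 : ((i : ℝ) + 1) ≤ gridN := by exact_mod_cast hi
  rw [gridN_cast] at h1
  rw [tL, gD]
  linarith

lemma abs_cM_le {i : ℕ} (hi : i < gridN) : |cM i| ≤ 1 / 2 := by
  have h1 := tL_ge i
  have h2 := tL_add_le hi
  have h3 := gD_pos
  rw [abs_le, cM]
  constructor <;> linarith

lemma exists_wedge {t : ℝ} (ht : |t| ≤ 1 / 2) : ∃ i : ℕ, i < gridN ∧ tL i ≤ t ∧ t ≤ tL i + gD := by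
  obtain ⟨h1, h2⟩ := abs_le.1 ht
  rcases lt_or_eq_of_le h2 with h2 | h2
  · refine ⟨⌊(t + 1 / 2) * 1000000⌋₊, ?_, ?_, ?_⟩
    · rw [Nat.floor_lt (by linarith), gridN_cast]
      linarith
    · have := Nat.floor_le (a := (t + 1 / 2) * 1000000) (by linarith)
      rw [tL, gD]
      linarith
    · have := Nat.lt_floor_add_one ((t + 1 / 2) * 1000000)
      rw [tL, gD]
      linarith
  · refine ⟨999999, by norm_num [gridN], ?_, ?_⟩
    · rw [tL, gD, h2]; norm_num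
    · rw [tL, gD, h2]; norm_num

lemma fanR_le_Lb {i : ℕ} (hi : i < gridN) {t : ℝ} (ht₁ : tL i ≤ t) (ht₂ : t ≤ tL i + gD) :
    fanR t + 7 / 2 * cC * gD ≤ Lb i := by
  have hc := abs_cM_le hi
  have h1 := tL_ge i
  have h2 := tL_add_le hi
  have hD := gD_pos
  have hc1 := (abs_le.1 hc).1
  have hc2 := (abs_le.1 hc).2
  have htl : -1 / 2 ≤ t := by linarith
  have htu : t ≤ 1 / 2 := by linarith
  set c := cM i with hcdef
  have hdiff : |t - c| ≤ gD / 2 := by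
    rw [abs_le, hcdef, cM]
    constructor <;> linarith
  have hsum : |t + c| ≤ 1 := by
    rw [abs_le]; constructor <;> linarith
  have ht2 : t ^ 2 ≤ 1 / 4 := by nlinarith
  have hc2' : c ^ 2 ≤ 1 / 4 := by nlinarith
  have hprod : |(t - c) * (t + c)| ≤ gD / 2 := by
    rw [abs_mul]
    calc |t - c| * |t + c| ≤ (gD / 2) * 1 := mul_le_mul hdiff hsum (abs_nonneg _) (by linarith)
      _ = gD / 2 := mul_one _
  have hprod1 := (abs_le.1 hprod).2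
  have hprod4 : (t - c) * (t + c) * (t ^ 2 + c ^ 2) ≤ gD / 2 * (1 / 2) := by
    have := le_trans (le_abs_self _) (show |(t - c) * (t + c) * (t ^ 2 + c ^ 2)| ≤ gD / 2 * (1 / 2) by
      rw [abs_mul, abs_of_nonneg (by positivity : 0 ≤ t ^ 2 + c ^ 2)]
      exact mul_le_mul hprod (by linarith) (by positivity) (by linarith))
    exact this
  have hmain : t ^ 4 + t ^ 2 / 4 - (c ^ 4 + c ^ 2 / 4) ≤ 3 / 8 * gD := by
    have e : t ^ 4 + t ^ 2 / 4 - (c ^ 4 + c ^ 2 / 4) =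
      (t - c) * (t + c) * (t ^ 2 + c ^ 2) + (t - c) * (t + c) / 4 := by ring
    rw [e]
    linarith
  rw [Lb, fanR, fanR, cK, cC]
  norm_num
  linarith

/-- The real lower bound on the fan radius. -/
lemma fanR_nonneg (t : ℝ) : 1 ≤ fanR t := by
  have : 0 ≤ cK * (t ^ 4 + t ^ 2 / 4) := by
    have : 0 < cK := by norm_num [cK]
    positivity
  rw [fanR]; linarith

lemma Lb_pos (i : ℕ) : 0 < Lb i := by
  have := fanR_nonneg (cM i)
  have := gD_pos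
  rw [Lb]; linarith

/-- The direction of a lower cylinder. -/
noncomputable def uL (c : ℝ) : E3 := !₂[1, cC * (c ^ 2 + 1 / 4), Real.sqrt 2 * cC * c]
/-- The direction of an upper cylinder. -/
noncomputable def uU (c : ℝ) : E3 := !₂[-cC * (c ^ 2 + 1 / 4), 1, Real.sqrt 2 * cC * c]

/-- The apex of a lower wedge. -/
noncomputable def PL (i : ℕ) : E3 :=
  !₂[0, tL i * (-(5 / 2 * cC * gD)) - 5 / 4 * cC * gD ^ 2, Real.sqrt 2 / 2 * (-(5 / 2 * cC * gD))]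
/-- First edge of a lower wedge. -/
noncomputable def AL (i : ℕ) : E3 := !₂[0, Lb i * tL i, Real.sqrt 2 / 2 * Lb i]
/-- Second edge of a lower wedge. -/
noncomputable def BL (i : ℕ) : E3 := !₂[0, Lb i * (tL i + gD), Real.sqrt 2 / 2 * Lb i]

/-- The apex of an upper wedge. -/
noncomputable def PU (i : ℕ) : E3 :=
  !₂[tL i * (-(5 / 2 * cC * gD)) - 5 / 4 * cC * gD ^ 2, 0,
    Real.sqrt 2 - Real.sqrt 2 / 2 * (-(5 / 2 * cC * gD))]
/-- First edge of an upper wedge. -/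
noncomputable def AU (i : ℕ) : E3 := !₂[Lb i * tL i, 0, -(Real.sqrt 2 / 2 * Lb i)]
/-- Second edge of an upper wedge. -/
noncomputable def BU (i : ℕ) : E3 := !₂[Lb i * (tL i + gD), 0, -(Real.sqrt 2 / 2 * Lb i)]

lemma norm_sq_uL (c : ℝ) : ‖uL c‖ ^ 2 = 1 + cC ^ 2 * (c ^ 4 + 5 / 2 * c ^ 2 + 1 / 16) := by
  rw [norm_sq_E3]
  simp only [uL, PiLp.toLp_apply, Matrix.cons_val_zero, Matrix.cons_val_one, Matrix.cons_val]
  have := sqrt2_sq
  linear_combination (cC ^ 2 * c ^ 2) * this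

lemma norm_sq_uU (c : ℝ) : ‖uU c‖ ^ 2 = 1 + cC ^ 2 * (c ^ 4 + 5 / 2 * c ^ 2 + 1 / 16) := by
  rw [norm_sq_E3]
  simp only [uU, PiLp.toLp_apply, Matrix.cons_val_zero, Matrix.cons_val_one, Matrix.cons_val]
  have := sqrt2_sq
  linear_combination (cC ^ 2 * c ^ 2) * this

lemma uL_ne (c : ℝ) : uL c ≠ 0 := by
  intro h
  have := norm_sq_uL c
  rw [h, norm_zero] at this
  have h2 : 0 ≤ cC ^ 2 * (c ^ 4 + 5 / 2 * c ^ 2 + 1 / 16) := by positivity
  norm_num at this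
  linarith

lemma uU_ne (c : ℝ) : uU c ≠ 0 := by
  intro h
  have := norm_sq_uU c
  rw [h, norm_zero] at this
  have h2 : 0 ≤ cC ^ 2 * (c ^ 4 + 5 / 2 * c ^ 2 + 1 / 16) := by positivity
  norm_num at this
  linarith

lemma norm_uU_eq (c : ℝ) : ‖uU c‖ = ‖uL c‖ := by
  have h := (norm_sq_uU c).trans (norm_sq_uL c).symm
  exact (pow_left_inj₀ (norm_nonneg _) (norm_nonneg _) (by norm_num)).1 h

lemma lower_decomp {i : ℕ} (hi : i < gridN) {x y σ t ρ : ℝ} (hx : |x| ≤ 1) (ht₁ : tL i ≤ t)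
    (ht₂ : t ≤ tL i + gD) (hρ : 0 ≤ ρ) (hρ2 : ρ ≤ fanR t)
    (e1 : y = ρ * t + (x * cC) * (t ^ 2 + 1 / 4)) (e2 : σ = ρ / 2 + (x * cC) * t) :
    ∃ a b : ℝ, 0 ≤ a ∧ 0 ≤ b ∧ a + b ≤ 1 ∧
      (!₂[x, y, Real.sqrt 2 * σ] : E3) = PL i + a • AL i + b • BL i + x • uL (cM i) := by
  have hLb := fanR_le_Lb hi ht₁ ht₂
  obtain ⟨a, b, ha, hb, hab, E1, E2⟩ := wedge_real (A := cC) (C₀ := cC) (s := x) (ρ := ρ) (Lb := Lb i)
    (abs_of_pos cC_pos).le gD_pos ht₁ ht₂ hx hρ (Lb_pos i) (by linarith)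
  refine ⟨a, b, ha, hb, hab, ?_⟩
  ext j
  fin_cases j
  · simp [PL, AL, BL, uL]
  · simp [PL, AL, BL, uL, cM]
    rw [e1]
    linear_combination E2
  · simp [PL, AL, BL, uL, cM]
    rw [e2]
    linear_combination (Real.sqrt 2 / 2) * E1

lemma upper_decomp {i : ℕ} (hi : i < gridN) {x y σ t ρ : ℝ} (hy : |y| ≤ 1) (ht₁ : tL i ≤ t)
    (ht₂ : t ≤ tL i + gD) (hρ : 0 ≤ ρ) (hρ2 : ρ ≤ fanR t)
    (e1 : x = ρ * t + (y * (-cC)) * (t ^ 2 + 1 / 4)) (e2 : 1 - σ = ρ / 2 + (y * (-cC)) * t) :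
    ∃ a b : ℝ, 0 ≤ a ∧ 0 ≤ b ∧ a + b ≤ 1 ∧
      (!₂[x, y, Real.sqrt 2 * σ] : E3) = PU i + a • AU i + b • BU i + y • uU (cM i) := by
  have hLb := fanR_le_Lb hi ht₁ ht₂
  obtain ⟨a, b, ha, hb, hab, E1, E2⟩ := wedge_real (A := cC) (C₀ := -cC) (s := y) (ρ := ρ) (Lb := Lb i)
    (by rw [abs_neg, abs_of_pos cC_pos]) gD_pos ht₁ ht₂ hy hρ (Lb_pos i) (by linarith)
  refine ⟨a, b, ha, hb, hab, ?_⟩
  ext j
  fin_cases j
  · simp [PU, AU, BU, uU, cM]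
    rw [e1]
    linear_combination E2
  · simp [PU, AU, BU, uU]
  · simp [PU, AU, BU, uU, cM]
    have e3 : σ = 1 - (ρ / 2 + (y * (-cC)) * t) := by linarith
    rw [e3]
    linear_combination (-(Real.sqrt 2 / 2)) * E1

/-- Half-space bounds for the tetrahedron. -/
lemma Ktet_halfspace {a b c d : ℝ} (h1 : a * V₁ 0 + b * V₁ 1 + c * V₁ 2 ≤ d)
    (h2 : a * V₂ 0 + b * V₂ 1 + c * V₂ 2 ≤ d) (h3 : a * V₃ 0 + b * V₃ 1 + c * V₃ 2 ≤ d)
    (h4 : a * V₄ 0 + b * V₄ 1 + c * V₄ 2 ≤ d) {X : E3} (hX : X ∈ Ktet) :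
    a * X 0 + b * X 1 + c * X 2 ≤ d := by
  have hconv : Convex ℝ {X : E3 | a * X 0 + b * X 1 + c * X 2 ≤ d} := by
    intro x hx y hy α β hα hβ hαβ
    simp only [mem_setOf_eq, PiLp.add_apply, PiLp.smul_apply, smul_eq_mul] at *
    have h1 := mul_le_mul_of_nonneg_left hx hα
    have h2 := mul_le_mul_of_nonneg_left hy hβ
    have e : α * d + β * d = d := by rw [← add_mul, hαβ, one_mul]
    linarith
  have hsub : ({V₁, V₂, V₃, V₄} : Set E3) ⊆ {X : E3 | a * X 0 + b * X 1 + c * X 2 ≤ d} := by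
    rintro x (rfl | rfl | rfl | rfl)
    · exact h1
    · exact h2
    · exact h3
    · exact h4
  exact convexHull_min hsub hconv hX

lemma Ktet_coords {X : E3} (hX : X ∈ Ktet) :
    0 ≤ Real.sqrt 2 / 2 * X 2 ∧ Real.sqrt 2 / 2 * X 2 ≤ 1 ∧
      |X 0| ≤ 1 - Real.sqrt 2 / 2 * X 2 ∧ |X 1| ≤ Real.sqrt 2 / 2 * X 2 := by
  have hr := sqrt2_sq
  have hrp := sqrt2_pos
  have e : Real.sqrt 2 / 2 * Real.sqrt 2 = 1 := by nlinarith
  have h1 : 0 * X 0 + 0 * X 1 + (-(Real.sqrt 2 / 2)) * X 2 ≤ 0 := by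
    apply Ktet_halfspace _ _ _ _ hX <;> simp [V₁, V₂, V₃, V₄] <;> nlinarith
  have h2 : 1 * X 0 + 0 * X 1 + (Real.sqrt 2 / 2) * X 2 ≤ 1 := by
    apply Ktet_halfspace _ _ _ _ hX <;> simp [V₁, V₂, V₃, V₄] <;> nlinarith
  have h3 : (-1) * X 0 + 0 * X 1 + (Real.sqrt 2 / 2) * X 2 ≤ 1 := by
    apply Ktet_halfspace _ _ _ _ hX <;> simp [V₁, V₂, V₃, V₄] <;> nlinarith
  have h4 : 0 * X 0 + 1 * X 1 + (-(Real.sqrt 2 / 2)) * X 2 ≤ 0 := by
    apply Ktet_halfspace _ _ _ _ hX <;> simp [V₁, V₂, V₃, V₄] <;> nlinarith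
  have h5 : 0 * X 0 + (-1) * X 1 + (-(Real.sqrt 2 / 2)) * X 2 ≤ 0 := by
    apply Ktet_halfspace _ _ _ _ hX <;> simp [V₁, V₂, V₃, V₄] <;> nlinarith
  refine ⟨by linarith, ?_, ?_, ?_⟩
  · have := abs_nonneg (X 0)
    linarith
  · rw [abs_le]; constructor <;> linarith
  · rw [abs_le]; constructor <;> linarith

/-- Elementary bound for the reciprocal of the norm. -/
lemma inv_bound {n W : ℝ} (hn : 0 < n) (hW0 : 0 ≤ W) (hW1 : W ≤ 3 / 1600) (hn2 : n ^ 2 = 1 + W) :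
    n⁻¹ ≤ 1 - 499 / 1000 * W := by
  have hn1 : 1 ≤ n := by
    by_contra h
    push Not at h
    have : n ^ 2 < 1 := by
      have := mul_lt_mul'' h h hn.le hn.le
      nlinarith
    linarith
  have hn3 : n ≤ 1001 / 1000 := by
    by_contra h
    push Not at h
    have := mul_lt_mul'' h h (by norm_num) (by norm_num)
    nlinarith
  rw [inv_le_iff_one_le_mul₀ hn]
  have e : W = n ^ 2 - 1 := by linarith
  rw [e]
  have h2 : n ^ 2 + n ≤ 2003 / 1000 + 1 / 1000 := by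
    have : n ^ 2 ≤ 1 + 3 / 1600 := by linarith
    linarith
  have h1 : 0 ≤ (n - 1) * (1 - 499 / 1000 * (n ^ 2 + n)) :=
    mul_nonneg (by linarith) (by linarith)
  have e2 : (1 - 499 / 1000 * (n ^ 2 - 1)) * n - 1 = (n - 1) * (1 - 499 / 1000 * (n ^ 2 + n)) := by ring
  linarith

lemma sq_L_bound {r : ℝ} (hr0 : 0 ≤ r) (hr1 : r ≤ 1 / 8) :
    (1 + 1 / 195 * r + 1 / 1000000 / 5) ^ 2 ≤ 1 + 3 * (1 / 1000000 / 5) + (2 * (1 / 195) + (1 / 195) ^ 2 / 8) * r := by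
  have h : r ^ 2 ≤ r / 8 := by nlinarith
  nlinarith

lemma term_bound {c n : ℝ} (hc : |c| ≤ 1 / 2) (hn : 0 < n)
    (hn2 : n ^ 2 = 1 + cC ^ 2 * (c ^ 4 + 5 / 2 * c ^ 2 + 1 / 16)) :
    (fanR c + gD / 5) ^ 2 * n⁻¹ ≤ 1 + 3 * (gD / 5) + (2 * cK + cK ^ 2 / 8) * (c ^ 4 + c ^ 2 / 4)
      - 499 / 1000 * (cC ^ 2 * (c ^ 4 + 5 / 2 * c ^ 2 + 1 / 16)) := by
  have hc2 : c ^ 2 ≤ 1 / 4 := by
    have := sq_le_sq' (abs_le.1 hc).1 (abs_le.1 hc).2
    linarith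
  have hc4 : c ^ 4 ≤ 1 / 16 := by
    have e : c ^ 4 = c ^ 2 * c ^ 2 := by ring
    rw [e]
    calc c ^ 2 * c ^ 2 ≤ (1 / 4) * (1 / 4) := mul_le_mul hc2 hc2 (by positivity) (by norm_num)
      _ = 1 / 16 := by norm_num
  have hc0 : 0 ≤ c ^ 2 := by positivity
  have hc40 : 0 ≤ c ^ 4 := by positivity
  have hr0 : 0 ≤ c ^ 4 + c ^ 2 / 4 := by positivity
  have hr1 : c ^ 4 + c ^ 2 / 4 ≤ 1 / 8 := by linarith
  have hw0 : 0 ≤ c ^ 4 + 5 / 2 * c ^ 2 + 1 / 16 := by positivity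
  have hw1 : c ^ 4 + 5 / 2 * c ^ 2 + 1 / 16 ≤ 3 / 4 := by linarith
  have hCv : cC ^ 2 = 1 / 400 := by norm_num [cC]
  rw [hCv] at hn2 ⊢
  have hW0 : 0 ≤ 1 / 400 * (c ^ 4 + 5 / 2 * c ^ 2 + 1 / 16) := by positivity
  have hW1 : 1 / 400 * (c ^ 4 + 5 / 2 * c ^ 2 + 1 / 16) ≤ 3 / 1600 := by linarith
  have hinv := inv_bound hn hW0 hW1 hn2
  have hDv : gD = 1 / 1000000 := rfl
  have hR : fanR c = 1 + cK * (c ^ 4 + c ^ 2 / 4) := rfl
  have hK : cK = 1 / 195 := rfl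
  rw [hR, hK, hDv]
  have hL2 := sq_L_bound hr0 hr1
  have hL1 : 1 ≤ (1 + 1 / 195 * (c ^ 4 + c ^ 2 / 4) + 1 / 1000000 / 5) ^ 2 := by
    apply one_le_pow₀
    have : 0 ≤ 1 / 195 * (c ^ 4 + c ^ 2 / 4) := by positivity
    linarith
  generalize (1 + 1 / 195 * (c ^ 4 + c ^ 2 / 4) + 1 / 1000000 / 5) ^ 2 = L at hL1 hL2 ⊢
  generalize 1 / 400 * (c ^ 4 + 5 / 2 * c ^ 2 + 1 / 16) = W at hW0 hinv ⊢
  have hstep : L * n⁻¹ ≤ L * (1 - 499 / 1000 * W) :=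
    mul_le_mul_of_nonneg_left hinv (by linarith)
  have hstep2 : 1 * W ≤ L * W := mul_le_mul_of_nonneg_right hL1 hW0
  have e : L * (1 - 499 / 1000 * W) = L - 499 / 1000 * (L * W) := by ring
  rw [e] at hstep
  linarith

lemma sum_c2 (n : ℕ) : ∑ i ∈ Finset.range n, gD * cM i ^ 2 =
    tL n ^ 3 / 3 - tL 0 ^ 3 / 3 - n * gD ^ 3 / 12 := by
  induction n with
  | zero => simp
  | succ n ih =>
    rw [Finset.sum_range_succ, ih]
    have e : tL (n + 1) = tL n + gD := by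
      simp only [tL]; push_cast; ring
    rw [e, cM]
    push_cast
    ring

lemma sum_c4 (n : ℕ) : ∑ i ∈ Finset.range n, gD * cM i ^ 4 =
    tL n ^ 5 / 5 - tL 0 ^ 5 / 5 - gD ^ 2 / 2 * (∑ i ∈ Finset.range n, gD * cM i ^ 2) - n * gD ^ 5 / 80 := by
  induction n with
  | zero => simp
  | succ n ih =>
    rw [Finset.sum_range_succ, Finset.sum_range_succ, ih]
    have e : tL (n + 1) = tL n + gD := by
      simp only [tL]; push_cast; ring
    rw [e, cM]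
    push_cast
    ring

lemma sum_bound : ∑ i ∈ Finset.range gridN, gD * (1 + 3 * (gD / 5) + (2 * cK + cK ^ 2 / 8) * (cM i ^ 4 + cM i ^ 2 / 4)
      - 499 / 1000 * (cC ^ 2 * (cM i ^ 4 + 5 / 2 * cM i ^ 2 + 1 / 16))) ≤ 1 - 1 / 100000 := by
  have e : ∀ i, gD * (1 + 3 * (gD / 5) + (2 * cK + cK ^ 2 / 8) * (cM i ^ 4 + cM i ^ 2 / 4)
      - 499 / 1000 * (cC ^ 2 * (cM i ^ 4 + 5 / 2 * cM i ^ 2 + 1 / 16))) =
      gD * (1 + 3 * (gD / 5) - 499 / 1000 * (cC ^ 2 * (1 / 16))) +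
      ((2 * cK + cK ^ 2 / 8) - 499 / 1000 * cC ^ 2) * (gD * cM i ^ 4) +
      ((2 * cK + cK ^ 2 / 8) / 4 - 499 / 1000 * cC ^ 2 * (5 / 2)) * (gD * cM i ^ 2) := by
    intro i; ring
  simp_rw [e]
  have hs : ∑ i ∈ Finset.range gridN, (gD * (1 + 3 * (gD / 5) - 499 / 1000 * (cC ^ 2 * (1 / 16))) +
      ((2 * cK + cK ^ 2 / 8) - 499 / 1000 * cC ^ 2) * (gD * cM i ^ 4) +
      ((2 * cK + cK ^ 2 / 8) / 4 - 499 / 1000 * cC ^ 2 * (5 / 2)) * (gD * cM i ^ 2)) =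
      gridN * (gD * (1 + 3 * (gD / 5) - 499 / 1000 * (cC ^ 2 * (1 / 16)))) +
      ((2 * cK + cK ^ 2 / 8) - 499 / 1000 * cC ^ 2) * (∑ i ∈ Finset.range gridN, gD * cM i ^ 4) +
      ((2 * cK + cK ^ 2 / 8) / 4 - 499 / 1000 * cC ^ 2 * (5 / 2)) * (∑ i ∈ Finset.range gridN, gD * cM i ^ 2) := by
    rw [Finset.sum_add_distrib, Finset.sum_add_distrib, Finset.sum_const, Finset.card_range, nsmul_eq_mul,
      Finset.mul_sum, Finset.mul_sum]
  rw [hs, sum_c4, sum_c2]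
  have h1 : tL gridN = 1 / 2 := by
    rw [tL, gridN_cast, gD]; norm_num
  have h2 : tL 0 = -1 / 2 := by
    simp [tL]
  rw [h1, h2, gridN_cast, gD, cK, cC]
  norm_num

/-! ### The master family -/

/-- Index set of the family of cylinders. -/
abbrev FamIdx := Fin gridN ⊕ Fin gridN

/-- Direction data. -/
noncomputable def dU : FamIdx → E3 := Sum.elim (fun i => uL (cM i)) (fun i => uU (cM i))
/-- Apex data. -/
noncomputable def dP : FamIdx → E3 := Sum.elim (fun i => PL i) (fun i => PU i)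
/-- Edge data. -/
noncomputable def dA : FamIdx → E3 := Sum.elim (fun i => AL i) (fun i => AU i)
/-- Edge data. -/
noncomputable def dB : FamIdx → E3 := Sum.elim (fun i => BL i) (fun i => BU i)

/-- Unit direction. -/
noncomputable def fU (j : FamIdx) : E3 := hat (dU j)
/-- First base vertex. -/
noncomputable def fP (j : FamIdx) : E3 := projL (fU j) (dP j)
/-- Second base vertex. -/
noncomputable def fQ (j : FamIdx) : E3 := projL (fU j) (dP j + dA j)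
/-- Third base vertex. -/
noncomputable def fR (j : FamIdx) : E3 := projL (fU j) (dP j + dB j)

lemma dU_ne (j : FamIdx) : dU j ≠ 0 := by
  cases j with
  | inl i => exact uL_ne _
  | inr i => exact uU_ne _

lemma fU_norm (j : FamIdx) : ‖fU j‖ = 1 := norm_hat (dU_ne j)

lemma fam_inner (j : FamIdx) :
    inner ℝ (fP j) (fU j) = 0 ∧ inner ℝ (fQ j) (fU j) = 0 ∧ inner ℝ (fR j) (fU j) = 0 :=
  ⟨inner_projL (fU_norm j) _, inner_projL (fU_norm j) _, inner_projL (fU_norm j) _⟩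

theorem fam_cover :
    Ktet ⊆ ⋃ j, {x : E3 | ∃ b ∈ convexHull ℝ {fP j, fQ j, fR j}, ∃ t : ℝ, x = b + t • fU j} := by
  intro X hX
  obtain ⟨h0, h1, hx, hy⟩ := Ktet_coords hX
  have hr := sqrt2_sq
  have hXe : X = !₂[X 0, X 1, Real.sqrt 2 * (Real.sqrt 2 / 2 * X 2)] := by
    ext j
    fin_cases j
    · simp
    · simp
    · simp
      linear_combination (-(X 2) / 2) * hr
  have hx1 : |X 0| ≤ 1 := by linarith
  have hy1 : |X 1| ≤ 1 := by linarith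
  have hκ : 2 * cC ^ 2 ≤ cK * (1 - cC / 2) := by norm_num [cC, cK]
  rcases TetraReal.real_cover cC_pos.le (by norm_num [cC]) hκ h0 h1 hx hy with
    ⟨t, ρ, ht, hρ, hρ2, e1, e2⟩ | ⟨t, ρ, ht, hρ, hρ2, e1, e2⟩
  · obtain ⟨i, hi, ht1, ht2⟩ := exists_wedge ht
    obtain ⟨a, b, ha, hb, hab, hE⟩ := lower_decomp hi hx1 ht1 ht2 hρ hρ2 e1 e2
    refine mem_iUnion.2 ⟨Sum.inl ⟨i, hi⟩, ?_⟩
    exact cyl_mem (uL_ne _) ha hb hab (hXe.trans hE)
  · obtain ⟨i, hi, ht1, ht2⟩ := exists_wedge ht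
    obtain ⟨a, b, ha, hb, hab, hE⟩ := upper_decomp hi hy1 ht1 ht2 hρ hρ2 e1 e2
    refine mem_iUnion.2 ⟨Sum.inr ⟨i, hi⟩, ?_⟩
    exact cyl_mem (uU_ne _) ha hb hab (hXe.trans hE)

/-- The area of one wedge base. -/
noncomputable def termA (i : ℕ) : ℝ :=
  Real.sqrt 2 / 4 * (gD * ((fanR (cM i) + gD / 5) ^ 2 * ‖uL (cM i)‖⁻¹))

lemma termA_nonneg (i : ℕ) : 0 ≤ termA i := by
  have := gD_pos
  rw [termA]
  positivity

lemma det_L (i : ℕ) : |det3 (AL i) (BL i) (hat (uL (cM i)))| / 2 = termA i := by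
  have hD := gD_pos
  have e : det3 (AL i) (BL i) (hat (uL (cM i))) =
      -(Real.sqrt 2 / 2 * (gD * ((fanR (cM i) + gD / 5) ^ 2 * ‖uL (cM i)‖⁻¹))) := by
    simp only [det3, AL, BL, hat, PiLp.smul_apply, smul_eq_mul, uL, Lb]
    simp
    ring
  rw [e, abs_neg, abs_of_nonneg (by positivity), termA]
  ring

lemma det_U (i : ℕ) : |det3 (AU i) (BU i) (hat (uU (cM i)))| / 2 = termA i := by
  have hD := gD_pos
  have e : det3 (AU i) (BU i) (hat (uU (cM i))) =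
      -(Real.sqrt 2 / 2 * (gD * ((fanR (cM i) + gD / 5) ^ 2 * ‖uL (cM i)‖⁻¹))) := by
    simp only [det3, AU, BU, hat, PiLp.smul_apply, smul_eq_mul, uU, Lb, ← norm_uU_eq]
    simp
    ring
  rw [e, abs_neg, abs_of_nonneg (by positivity), termA]
  ring

lemma fam_area (j : FamIdx) : μHE[2] (convexHull ℝ {fP j, fQ j, fR j}) =
    ENNReal.ofReal (Sum.elim (fun i : Fin gridN => termA i) (fun i : Fin gridN => termA i) j) := by
  rw [fP, fQ, fR, fU, area_base (dU_ne j)]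
  cases j with
  | inl i => exact congrArg _ (det_L i)
  | inr i => exact congrArg _ (det_U i)

lemma fam_toReal (j : FamIdx) : (μHE[2] (convexHull ℝ {fP j, fQ j, fR j})).toReal =
    Sum.elim (fun i : Fin gridN => termA i) (fun i : Fin gridN => termA i) j := by
  rw [fam_area, ENNReal.toReal_ofReal]
  cases j with
  | inl i => exact termA_nonneg _
  | inr i => exact termA_nonneg _

lemma termA_le {i : ℕ} (hi : i < gridN) : termA i ≤ Real.sqrt 2 / 4 * (gD *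
    (1 + 3 * (gD / 5) + (2 * cK + cK ^ 2 / 8) * (cM i ^ 4 + cM i ^ 2 / 4)
      - 499 / 1000 * (cC ^ 2 * (cM i ^ 4 + 5 / 2 * cM i ^ 2 + 1 / 16)))) := by
  have hn : 0 < ‖uL (cM i)‖ := norm_pos_iff.2 (uL_ne _)
  have := term_bound (abs_cM_le hi) hn (norm_sq_uL _)
  have hD := gD_pos
  rw [termA]
  apply mul_le_mul_of_nonneg_left _ (by positivity)
  exact mul_le_mul_of_nonneg_left this hD.le

/-- The total area of the master family. -/
theorem fam_sum_le : ∑ j, (μHE[2] (convexHull ℝ {fP j, fQ j, fR j})).toReal ≤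
    Real.sqrt 2 / 2 * (1 - 1 / 100000) := by
  simp_rw [fam_toReal]
  rw [Fintype.sum_sum_type]
  simp only [Sum.elim_inl, Sum.elim_inr]
  rw [Fin.sum_univ_eq_sum_range (fun i => termA i) gridN]
  have h : ∑ i ∈ Finset.range gridN, termA i ≤ Real.sqrt 2 / 4 * (1 - 1 / 100000) := by
    calc ∑ i ∈ Finset.range gridN, termA i ≤ ∑ i ∈ Finset.range gridN, Real.sqrt 2 / 4 * (gD *
        (1 + 3 * (gD / 5) + (2 * cK + cK ^ 2 / 8) * (cM i ^ 4 + cM i ^ 2 / 4)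
          - 499 / 1000 * (cC ^ 2 * (cM i ^ 4 + 5 / 2 * cM i ^ 2 + 1 / 16)))) :=
          Finset.sum_le_sum (fun i hi => termA_le (Finset.mem_range.1 hi))
      _ = Real.sqrt 2 / 4 * ∑ i ∈ Finset.range gridN, gD *
        (1 + 3 * (gD / 5) + (2 * cK + cK ^ 2 / 8) * (cM i ^ 4 + cM i ^ 2 / 4)
          - 499 / 1000 * (cC ^ 2 * (cM i ^ 4 + 5 / 2 * cM i ^ 2 + 1 / 16))) := by
          rw [Finset.mul_sum]
      _ ≤ _ := mul_le_mul_of_nonneg_left sum_bound (by positivity)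
  linarith

end Crest.Agent.Lib.TetraArea
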