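import Crest.Agent.Lib.TetraCover

set_option autoImplicit false
open MeasureTheory Set
open scoped ENNReal

namespace Crest.Agent.Lib.TetraArea

/-- The orthogonal complement of a unit vector in `E3` has dimension two. -/
lemma finrank_orth {u : E3} (hu : ‖u‖ = 1) :
    Module.finrank ℝ ((ℝ ∙ u)ᗮ : Submodule ℝ E3) = 2 := by
  have : Fact (Module.finrank ℝ E3 = 2 + 1) := ⟨by simp⟩
  have hu0 : u ≠ 0 := by
    intro h
    rw [h, norm_zero] at hu
    norm_num at hu
  exact Submodule.finrank_orthogonal_span_singleton hu0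

/-- Bounded subsets of a plane have finite area. -/
theorem area_lt_top_of_bounded {u : E3} (hu : ‖u‖ = 1) {S : Set E3}
    (hS : ∀ x ∈ S, inner ℝ x u = 0) (hb : Bornology.IsBounded S) : μHE[2] S < ∞ := by
  set W : Submodule ℝ E3 := (ℝ ∙ u)ᗮ with hW
  have hfr : Module.finrank ℝ W = 2 := finrank_orth hu
  set S' : Set W := Subtype.val ⁻¹' S with hS'
  have himg : Subtype.val '' S' = S := by
    apply Set.image_preimage_eq_of_subset
    intro x hx
    refine ⟨⟨x, ?_⟩, rfl⟩
    rw [hW, Submodule.mem_orthogonal_singleton_iff_inner_left]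
    exact hS x hx
  have hiso : Isometry (Subtype.val : W → E3) := isometry_subtype_coe
  rw [← himg, hiso.euclideanHausdorffMeasure_image]
  have hb' : Bornology.IsBounded S' := by
    obtain ⟨C, hC⟩ := Metric.isBounded_iff.1 hb
    exact Metric.isBounded_iff.2 ⟨C, fun x hx y hy => by
      rw [Subtype.dist_eq]
      exact hC hx hy⟩
  have hHaar : (μHE[Module.finrank ℝ W] : Measure W).IsAddHaarMeasure := inferInstance
  rw [hfr] at hHaar
  exact hb'.measure_lt_top

/-- Projections of the tetrahedron are bounded planar sets. -/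
lemma isBounded_proj_hull4 (v A B C D : E3) :
    Bornology.IsBounded (projL v '' convexHull ℝ {A, B, C, D}) := by
  rw [image_projL_hull4]
  apply isBounded_convexHull.2
  exact (Set.toFinite _).isBounded

lemma inner_proj_image {v : E3} (hv : ‖v‖ = 1) (S : Set E3) :
    ∀ x ∈ projL v '' S, inner ℝ x v = 0 := by
  rintro x ⟨y, -, rfl⟩
  exact inner_projL hv y

/-- The projections of the tetrahedron have finite area. -/
lemma area_proj_Ktet_lt_top {v : E3} (hv : ‖v‖ = 1) : μHE[2] (projL v '' Ktet) < ∞ :=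
  area_lt_top_of_bounded hv (inner_proj_image hv _) (isBounded_proj_hull4 v _ _ _ _)

lemma area_proj_Ktet_toReal_ge {v : E3} (hv : ‖v‖ = 1) :
    Real.sqrt 2 ≤ (μHE[2] (projL v '' Ktet)).toReal :=
  (ENNReal.ofReal_le_iff_le_toReal (area_proj_Ktet_lt_top hv).ne).1 (area_proj_Ktet_ge hv)

/-- The Euclidean and raw Hausdorff measures differ by a positive finite factor. -/
lemma exists_factor : ∃ c : ℝ, 0 < c ∧ ∀ S : Set E3, (μH[(2 : ℝ)] S).toReal = c * (μHE[2] S).toReal := by
  set k := Measure.addHaarScalarFactor (volume : Measure (EuclideanSpace ℝ (Fin 2))) μH[((2 : ℕ) : ℝ)] with hk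
  have hk0 : k ≠ 0 := Measure.addHaarScalarFactor_volume_hausdorffMeasure_ne_zero 2
  have hk1 : (0 : ℝ) < (k : ℝ) := by
    have : 0 < k := pos_iff_ne_zero.2 hk0
    exact_mod_cast this
  refine ⟨(k : ℝ)⁻¹, inv_pos.2 hk1, fun S => ?_⟩
  have h : (μHE[2] S : ℝ≥0∞) = k • (μH[((2 : ℕ) : ℝ)] S) := by
    rw [Measure.euclideanHausdorffMeasure_def]
    rfl
  rw [h]
  have e2 : ((2 : ℕ) : ℝ) = 2 := by norm_num
  rw [e2, ENNReal.smul_def, smul_eq_mul, ENNReal.toReal_mul, ENNReal.coe_toReal]
  field_simp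

end Crest.Agent.Lib.TetraArea
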