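import Crest.Agent.Lib.TetraArea

set_option autoImplicit false
open MeasureTheory Set
open scoped ENNReal

namespace Crest.Agent.Lib.TetraArea

/-- Euclidean three-space. -/
abbrev E3 := EuclideanSpace ℝ (Fin 3)

/-- The triple product in coordinates. -/
noncomputable def det3 (a b c : E3) : ℝ :=
  a 0 * (b 1 * c 2 - b 2 * c 1) - a 1 * (b 0 * c 2 - b 2 * c 0) + a 2 * (b 0 * c 1 - b 1 * c 0)

lemma inner_E3 (a b : E3) : inner ℝ a b = a 0 * b 0 + a 1 * b 1 + a 2 * b 2 := by
  simp [PiLp.inner_apply, Fin.sum_univ_three]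
  ring

lemma norm_sq_E3 (a : E3) : ‖a‖ ^ 2 = a 0 ^ 2 + a 1 ^ 2 + a 2 ^ 2 := by
  rw [← real_inner_self_eq_norm_sq, inner_E3]
  ring

/-- Orthogonal projection along a unit vector, as a linear map. -/
noncomputable def projL (v : E3) : E3 →ₗ[ℝ] E3 :=
  { toFun := fun y => y - inner ℝ y v • v
    map_add' := by
      intro x y
      simp only [inner_add_left, add_smul]
      abel
    map_smul' := by
      intro c x
      simp only [inner_smul_left, RingHom.id_apply, conj_trivial, smul_sub, mul_smul] }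

lemma projL_apply (v y : E3) : projL v y = y - inner ℝ y v • v := rfl

lemma projL_coe (v : E3) : (fun y => y - inner ℝ y v • v) = projL v := rfl

lemma inner_projL {v : E3} (hv : ‖v‖ = 1) (y : E3) : inner ℝ (projL v y) v = 0 := by
  rw [projL_apply, inner_sub_left, inner_smul_left, real_inner_self_eq_norm_sq, hv]
  simp

lemma gram_eq_coords (a b : E3) :
    gram a b = (a 0 ^ 2 + a 1 ^ 2 + a 2 ^ 2) * (b 0 ^ 2 + b 1 ^ 2 + b 2 ^ 2)
      - (a 0 * b 0 + a 1 * b 1 + a 2 * b 2) ^ 2 := by
  rw [gram, norm_sq_E3, norm_sq_E3, inner_E3]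

/-- The Gram determinant of the projections is the square of the triple product. -/
lemma gram_projL {v : E3} (hv : ‖v‖ = 1) (a b : E3) :
    gram (projL v a) (projL v b) = det3 a b v ^ 2 := by
  have hV : v 0 ^ 2 + v 1 ^ 2 + v 2 ^ 2 = 1 := by
    rw [← norm_sq_E3, hv]; norm_num
  rw [gram_eq_coords]
  simp only [projL_apply, inner_E3, PiLp.sub_apply, PiLp.smul_apply, smul_eq_mul, det3]
  generalize a 0 = a0
  generalize a 1 = a1
  generalize a 2 = a2
  generalize b 0 = b0
  generalize b 1 = b1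
  generalize b 2 = b2
  generalize v 0 = v0 at hV ⊢
  generalize v 1 = v1 at hV ⊢
  generalize v 2 = v2 at hV ⊢
  have h1 : (a0 - (a0 * v0 + a1 * v1 + a2 * v2) * v0) ^ 2 + (a1 - (a0 * v0 + a1 * v1 + a2 * v2) * v1) ^ 2 +
        (a2 - (a0 * v0 + a1 * v1 + a2 * v2) * v2) ^ 2 =
      (a0 ^ 2 + a1 ^ 2 + a2 ^ 2) - (a0 * v0 + a1 * v1 + a2 * v2) ^ 2 := by
    linear_combination (a0 * v0 + a1 * v1 + a2 * v2) ^ 2 * hV
  have h2 : (b0 - (b0 * v0 + b1 * v1 + b2 * v2) * v0) ^ 2 + (b1 - (b0 * v0 + b1 * v1 + b2 * v2) * v1) ^ 2 +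
        (b2 - (b0 * v0 + b1 * v1 + b2 * v2) * v2) ^ 2 =
      (b0 ^ 2 + b1 ^ 2 + b2 ^ 2) - (b0 * v0 + b1 * v1 + b2 * v2) ^ 2 := by
    linear_combination (b0 * v0 + b1 * v1 + b2 * v2) ^ 2 * hV
  have h3 : (a0 - (a0 * v0 + a1 * v1 + a2 * v2) * v0) * (b0 - (b0 * v0 + b1 * v1 + b2 * v2) * v0) +
          (a1 - (a0 * v0 + a1 * v1 + a2 * v2) * v1) * (b1 - (b0 * v0 + b1 * v1 + b2 * v2) * v1) +
          (a2 - (a0 * v0 + a1 * v1 + a2 * v2) * v2) * (b2 - (b0 * v0 + b1 * v1 + b2 * v2) * v2) =
      (a0 * b0 + a1 * b1 + a2 * b2) - (a0 * v0 + a1 * v1 + a2 * v2) * (b0 * v0 + b1 * v1 + b2 * v2) := by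
    linear_combination (a0 * v0 + a1 * v1 + a2 * v2) * (b0 * v0 + b1 * v1 + b2 * v2) * hV
  rw [h1, h2, h3]
  linear_combination (-((a0 ^ 2 + a1 ^ 2 + a2 ^ 2) * (b0 ^ 2 + b1 ^ 2 + b2 ^ 2) - (a0 * b0 + a1 * b1 + a2 * b2) ^ 2)) * hV

lemma sqrt_gram_projL {v : E3} (hv : ‖v‖ = 1) (a b : E3) :
    Real.sqrt (gram (projL v a) (projL v b)) = |det3 a b v| := by
  rw [gram_projL hv, Real.sqrt_sq_eq_abs]

/-- The area of the projection of a triangle along a unit vector. -/
lemma area_projL_triangle {v : E3} (hv : ‖v‖ = 1) (P Q R : E3) :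
    μHE[2] (convexHull ℝ {projL v P, projL v Q, projL v R}) =
      ENNReal.ofReal (|det3 (Q - P) (R - P) v| / 2) := by
  rw [area_triangle, ← map_sub, ← map_sub, sqrt_gram_projL hv]

lemma image_projL_hull3 (v P Q R : E3) :
    projL v '' convexHull ℝ {P, Q, R} = convexHull ℝ {projL v P, projL v Q, projL v R} := by
  rw [LinearMap.image_convexHull, Set.image_insert_eq, Set.image_pair]

lemma image_projL_hull4 (v A B C D : E3) :
    projL v '' convexHull ℝ {A, B, C, D} =
      convexHull ℝ {projL v A, projL v B, projL v C, projL v D} := by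
  rw [LinearMap.image_convexHull, Set.image_insert_eq, Set.image_insert_eq, Set.image_pair]

/-- Bilinearity-type identities for the triple product. -/
lemma det3_add_smul (b c v : E3) (s t : ℝ) :
    det3 b (s • b + t • c) v = t * det3 b c v := by
  simp only [det3, PiLp.add_apply, PiLp.smul_apply, smul_eq_mul]
  ring

lemma det3_projL (v a b : E3) :
    det3 (projL v a) (projL v b) v = det3 a b v := by
  simp only [det3, projL_apply, PiLp.sub_apply, PiLp.smul_apply, smul_eq_mul]
  ring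

/-- Two triangles with a common side whose third vertices lie on opposite sides:
the measure of the union is the sum. -/
lemma area_union_two_triangles {v : E3} (hv : ‖v‖ = 1) (A B C D : E3)
    (h₁ : det3 (B - A) (C - A) v ≠ 0) (h₂ : det3 (B - A) (D - A) v ≠ 0)
    (hopp : det3 (B - A) (C - A) v * det3 (B - A) (D - A) v ≤ 0) :
    μHE[2] (convexHull ℝ {projL v A, projL v B, projL v C} ∪
        convexHull ℝ {projL v A, projL v B, projL v D}) =
      ENNReal.ofReal (|det3 (B - A) (C - A) v| / 2) +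
        ENNReal.ofReal (|det3 (B - A) (D - A) v| / 2) := by
  set T₁ := convexHull ℝ {projL v A, projL v B, projL v C} with hT₁
  set T₂ := convexHull ℝ {projL v A, projL v B, projL v D} with hT₂
  have hm₂ : MeasurableSet T₂ := by
    rw [hT₂]
    exact (Set.Finite.isCompact_convexHull (𝕜 := ℝ) (Set.toFinite _)).isClosed.measurableSet
  have hadd := measure_union_add_inter (μ := (μHE[2] : Measure E3)) T₁ hm₂
  have hnull : (μHE[2] : Measure E3) (T₁ ∩ T₂) = 0 := by
    apply euclid2_line_null (projL v A) (projL v B - projL v A)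
    rintro x ⟨hx₁, hx₂⟩
    rw [hT₁, convexHull_three_eq] at hx₁
    rw [hT₂, convexHull_three_eq] at hx₂
    obtain ⟨s₁, t₁, hs₁, ht₁, -, rfl⟩ := hx₁
    obtain ⟨s₂, t₂, hs₂, ht₂, -, hx⟩ := hx₂
    have hd₁ : det3 (projL v B - projL v A) (projL v C - projL v A) v = det3 (B - A) (C - A) v := by
      rw [← map_sub, ← map_sub, det3_projL]
    have hd₂ : det3 (projL v B - projL v A) (projL v D - projL v A) v = det3 (B - A) (D - A) v := by
      rw [← map_sub, ← map_sub, det3_projL]
    have hX : s₁ • (projL v B - projL v A) + t₁ • (projL v C - projL v A) =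
        s₂ • (projL v B - projL v A) + t₂ • (projL v D - projL v A) := by
      have := hx
      have h' := congrArg (fun z => z - projL v A) this
      simp only [add_assoc, add_sub_cancel_left] at h'
      exact h'
    have hE : t₁ * det3 (B - A) (C - A) v = t₂ * det3 (B - A) (D - A) v := by
      have h3 := congrArg (fun z => det3 (projL v B - projL v A) z v) hX
      simp only [det3_add_smul] at h3
      rwa [hd₁, hd₂] at h3
    -- so `t₁ = 0`
    have ht0 : t₁ = 0 := by
      set d₁ := det3 (B - A) (C - A) v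
      set d₂ := det3 (B - A) (D - A) v
      have hsq : t₁ * d₁ ^ 2 = t₂ * (d₁ * d₂) := by
        calc t₁ * d₁ ^ 2 = (t₁ * d₁) * d₁ := by ring
          _ = (t₂ * d₂) * d₁ := by rw [hE]
          _ = t₂ * (d₁ * d₂) := by ring
      have hpos : 0 < d₁ ^ 2 := by positivity
      have hle : t₂ * (d₁ * d₂) ≤ 0 := mul_nonpos_of_nonneg_of_nonpos ht₂ hopp
      have : t₁ * d₁ ^ 2 ≤ 0 := hsq ▸ hle
      have h0 : t₁ ≤ 0 := by
        by_contra hcon
        push Not at hcon
        have := mul_pos hcon hpos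
        linarith
      exact le_antisymm h0 ht₁
    refine ⟨s₁, ?_⟩
    rw [ht0]
    simp
  rw [hnull, add_zero] at hadd
  rw [hadd, hT₁, hT₂, area_projL_triangle hv, area_projL_triangle hv]

/-- Lower bound from a single face. -/
lemma area_proj_hull4_ge_face {v : E3} (hv : ‖v‖ = 1) (A B C D : E3) :
    ENNReal.ofReal (|det3 (B - A) (C - A) v| / 2) ≤
      μHE[2] (projL v '' convexHull ℝ {A, B, C, D}) := by
  rw [← area_projL_triangle hv]
  apply measure_mono
  rw [image_projL_hull4]
  apply convexHull_mono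
  intro x hx
  rcases hx with rfl | rfl | rfl
  · simp
  · simp
  · simp

/-- Lower bound from two faces on opposite sides of a common edge. -/
lemma area_proj_hull4_ge_two {v : E3} (hv : ‖v‖ = 1) (A B C D : E3)
    (hopp : det3 (B - A) (C - A) v * det3 (B - A) (D - A) v ≤ 0) :
    ENNReal.ofReal (|det3 (B - A) (C - A) v| / 2) + ENNReal.ofReal (|det3 (B - A) (D - A) v| / 2) ≤
      μHE[2] (projL v '' convexHull ℝ {A, B, C, D}) := by
  by_cases h₁ : det3 (B - A) (C - A) v = 0
  · rw [h₁]
    simp only [abs_zero, zero_div, ENNReal.ofReal_zero, zero_add]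
    have := area_proj_hull4_ge_face hv A B D C
    have hs : ({A, B, D, C} : Set E3) = {A, B, C, D} := by
      ext x; simp; tauto
    rwa [hs] at this
  by_cases h₂ : det3 (B - A) (D - A) v = 0
  · rw [h₂]
    simp only [abs_zero, zero_div, ENNReal.ofReal_zero, add_zero]
    exact area_proj_hull4_ge_face hv A B C D
  rw [← area_union_two_triangles hv A B C D h₁ h₂ hopp]
  apply measure_mono
  rw [image_projL_hull4]
  apply union_subset
  · apply convexHull_mono
    intro x hx
    rcases hx with rfl | rfl | rfl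
    · simp
    · simp
    · simp
  · apply convexHull_mono
    intro x hx
    rcases hx with rfl | rfl | rfl
    · simp
    · simp
    · simp

/-- Vertices of the standard regular tetrahedron. -/
noncomputable def V₁ : E3 := !₂[1, 0, 0]
/-- Vertices of the standard regular tetrahedron. -/
noncomputable def V₂ : E3 := !₂[-1, 0, 0]
/-- Vertices of the standard regular tetrahedron. -/
noncomputable def V₃ : E3 := !₂[0, 1, Real.sqrt 2]
/-- Vertices of the standard regular tetrahedron. -/
noncomputable def V₄ : E3 := !₂[0, -1, Real.sqrt 2]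

/-- The standard regular tetrahedron. -/
noncomputable def Ktet : Set E3 := convexHull ℝ {V₁, V₂, V₃, V₄}

lemma sqrt2_sq : Real.sqrt 2 ^ 2 = 2 := Real.sq_sqrt (by norm_num)
lemma sqrt2_pos : 0 < Real.sqrt 2 := Real.sqrt_pos.2 (by norm_num)

section dets
variable (v : E3)

lemma det_134 : det3 (V₃ - V₁) (V₄ - V₁) v =
    Real.sqrt 2 * ((v 0 + v 1) + (v 0 - v 1) + Real.sqrt 2 * v 2) := by
  simp [det3, V₁, V₃, V₄]
  linear_combination (- v 2) * sqrt2_sq

lemma det_234 : det3 (V₃ - V₂) (V₄ - V₂) v =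
    Real.sqrt 2 * ((v 0 + v 1) + (v 0 - v 1) - Real.sqrt 2 * v 2) := by
  simp [det3, V₂, V₃, V₄]
  linear_combination (v 2) * sqrt2_sq

lemma det_123 : det3 (V₂ - V₁) (V₃ - V₁) v =
    Real.sqrt 2 * ((v 0 + v 1) - (v 0 - v 1) - Real.sqrt 2 * v 2) := by
  simp [det3, V₁, V₂, V₃]
  norm_num
  linear_combination (v 2) * sqrt2_sq

lemma det_124 : det3 (V₂ - V₁) (V₄ - V₁) v =
    Real.sqrt 2 * ((v 0 + v 1) - (v 0 - v 1) + Real.sqrt 2 * v 2) := by
  simp [det3, V₁, V₂, V₄]
  norm_num
  linear_combination (- v 2) * sqrt2_sq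

lemma det3_swap (a b : E3) : det3 b a v = - det3 a b v := by
  simp only [det3]
  ring

end dets

/-- Real-variable core of the projection bound, with `r = √2`. -/
lemma min_proj_real {p q g : ℝ} (h : p ^ 2 + q ^ 2 + g ^ 2 = 2) :
    (1 ≤ |p| ∧ |q + g| ≤ |p|) ∨ (1 ≤ |q| ∧ |p + g| ≤ |q|) ∨ (1 ≤ |g| ∧ |p - q| ≤ |g|) ∨
    (2 ≤ |p + q + g| ∨ 2 ≤ |p + q - g| ∨ 2 ≤ |p - q - g| ∨ 2 ≤ |p - q + g|) := by
  have hP : p ^ 2 = |p| ^ 2 := (sq_abs p).symm
  have hQ : q ^ 2 = |q| ^ 2 := (sq_abs q).symm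
  have hG : g ^ 2 = |g| ^ 2 := (sq_abs g).symm
  have hP0 := abs_nonneg p
  have hQ0 := abs_nonneg q
  have hG0 := abs_nonneg g
  rw [hP, hQ, hG] at h
  generalize hPP : |p| = P at *
  generalize hQQ : |q| = Q at *
  generalize hGG : |g| = G at *
  by_cases h1 : Q + G ≤ P
  · left
    refine ⟨by nlinarith, ?_⟩
    calc |q + g| ≤ |q| + |g| := abs_add_le _ _
      _ = Q + G := by rw [hQQ, hGG]
      _ ≤ P := h1
  by_cases h2 : P + G ≤ Q
  · right; left
    refine ⟨by nlinarith, ?_⟩
    calc |p + g| ≤ |p| + |g| := abs_add_le _ _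
      _ = P + G := by rw [hPP, hGG]
      _ ≤ Q := h2
  by_cases h3 : P + Q ≤ G
  · right; right; left
    refine ⟨by nlinarith, ?_⟩
    calc |p - q| ≤ |p| + |q| := abs_sub _ _
      _ = P + Q := by rw [hPP, hQQ]
      _ ≤ G := h3
  right; right; right
  push Not at h1 h2 h3
  have hsum : 2 ≤ P + Q + G := by nlinarith [mul_nonneg hP0 hQ0, mul_nonneg hQ0 hG0, mul_nonneg hP0 hG0]
  -- sign analysis
  rcases le_total 0 p with hp | hp <;> rcases le_total 0 q with hq | hq <;>
    rcases le_total 0 g with hg | hg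
  · left
    rw [abs_of_nonneg (by linarith)]
    rw [abs_of_nonneg hp] at hPP; rw [abs_of_nonneg hq] at hQQ; rw [abs_of_nonneg hg] at hGG
    linarith
  · right; left
    rw [abs_of_nonneg (by linarith)]
    rw [abs_of_nonneg hp] at hPP; rw [abs_of_nonneg hq] at hQQ; rw [abs_of_nonpos hg] at hGG
    linarith
  · right; right; right
    rw [abs_of_nonneg (by linarith)]
    rw [abs_of_nonneg hp] at hPP; rw [abs_of_nonpos hq] at hQQ; rw [abs_of_nonneg hg] at hGG
    linarith
  · right; right; left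
    rw [abs_of_nonneg (by linarith)]
    rw [abs_of_nonneg hp] at hPP; rw [abs_of_nonpos hq] at hQQ; rw [abs_of_nonpos hg] at hGG
    linarith
  · right; right; left
    rw [abs_of_nonpos (by linarith)]
    rw [abs_of_nonpos hp] at hPP; rw [abs_of_nonneg hq] at hQQ; rw [abs_of_nonneg hg] at hGG
    linarith
  · right; right; right
    rw [abs_of_nonpos (by linarith)]
    rw [abs_of_nonpos hp] at hPP; rw [abs_of_nonneg hq] at hQQ; rw [abs_of_nonpos hg] at hGG
    linarith
  · right; left
    rw [abs_of_nonpos (by linarith)]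
    rw [abs_of_nonpos hp] at hPP; rw [abs_of_nonpos hq] at hQQ; rw [abs_of_nonneg hg] at hGG
    linarith
  · left
    rw [abs_of_nonpos (by linarith)]
    rw [abs_of_nonpos hp] at hPP; rw [abs_of_nonpos hq] at hQQ; rw [abs_of_nonpos hg] at hGG
    linarith

/-- Sum of two faces, real form. -/
lemma two_abs_sum (a b : ℝ) (h : |b| ≤ |a|) : 2 * |a| ≤ |a + b| + |a - b| := by
  have : |a + b + (a - b)| ≤ |a + b| + |a - b| := abs_add_le _ _
  have h2 : a + b + (a - b) = 2 * a := by ring
  rw [h2, abs_mul] at this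
  simpa using this

/-- Every projection of the regular tetrahedron has area at least `√2`. -/
theorem area_proj_Ktet_ge {v : E3} (hv : ‖v‖ = 1) :
    ENNReal.ofReal (Real.sqrt 2) ≤ μHE[2] (projL v '' Ktet) := by
  have hV : v 0 ^ 2 + v 1 ^ 2 + v 2 ^ 2 = 1 := by
    rw [← norm_sq_E3, hv]; norm_num
  set p : ℝ := v 0 + v 1 with hp
  set q : ℝ := v 0 - v 1 with hq
  set g : ℝ := Real.sqrt 2 * v 2 with hg
  have hr := sqrt2_pos
  have hr2 := sqrt2_sq
  have hsum : p ^ 2 + q ^ 2 + g ^ 2 = 2 := by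
    rw [hp, hq, hg, mul_pow, hr2]
    linear_combination 2 * hV
  have habs : ∀ x : ℝ, |Real.sqrt 2 * x| = Real.sqrt 2 * |x| := fun x => by
    rw [abs_mul, abs_of_pos hr]
  have hnegabs : ∀ x : ℝ, |-(Real.sqrt 2 * x)| = Real.sqrt 2 * |x| := fun x => by
    rw [abs_neg, habs]
  rcases min_proj_real hsum with ⟨h1, h2⟩ | ⟨h1, h2⟩ | ⟨h1, h2⟩ | hface
  · -- `p` case : common edge `V₁ V₃`
    have hopp : det3 (V₃ - V₁) (V₄ - V₁) v * det3 (V₃ - V₁) (V₂ - V₁) v ≤ 0 := by
      rw [det3_swap v (V₂ - V₁) (V₃ - V₁), det_134, det_123, ← hp, ← hq, ← hg]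
      have hsq : (q + g) ^ 2 ≤ p ^ 2 := by
        rw [← sq_abs (q + g), ← sq_abs p]
        exact pow_le_pow_left₀ (abs_nonneg _) h2 2
      have h0 : 0 ≤ Real.sqrt 2 ^ 2 := by positivity
      nlinarith [mul_nonneg h0 (sub_nonneg.2 hsq)]
    have := area_proj_hull4_ge_two hv V₁ V₃ V₄ V₂ hopp
    rw [det3_swap v (V₂ - V₁) (V₃ - V₁), det_134, det_123, ← hp, ← hq, ← hg] at this
    refine le_trans ?_ (this.trans ?_)
    · rw [← ENNReal.ofReal_add (by positivity) (by positivity)]
      apply ENNReal.ofReal_le_ofReal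
      rw [habs, hnegabs]
      have h3 := two_abs_sum p (q + g) h2
      have e1 : p + q + g = p + (q + g) := by ring
      have e2 : p - q - g = p - (q + g) := by ring
      rw [e1, e2]
      have h4 : Real.sqrt 2 * (2 * |p|) ≤ Real.sqrt 2 * (|p + (q + g)| + |p - (q + g)|) :=
        mul_le_mul_of_nonneg_left h3 hr.le
      nlinarith
    · apply measure_mono
      apply Set.image_mono
      apply convexHull_mono
      intro x hx
      simp only [Set.mem_insert_iff, Set.mem_singleton_iff] at hx ⊢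
      tauto
  · -- `q` case : common edge `V₁ V₄`
    have hopp : det3 (V₄ - V₁) (V₃ - V₁) v * det3 (V₄ - V₁) (V₂ - V₁) v ≤ 0 := by
      rw [det3_swap v (V₃ - V₁) (V₄ - V₁), det3_swap v (V₂ - V₁) (V₄ - V₁), det_134, det_124,
        ← hp, ← hq, ← hg]
      have hsq : (p + g) ^ 2 ≤ q ^ 2 := by
        rw [← sq_abs (p + g), ← sq_abs q]
        exact pow_le_pow_left₀ (abs_nonneg _) h2 2
      have h0 : 0 ≤ Real.sqrt 2 ^ 2 := by positivity
      nlinarith [mul_nonneg h0 (sub_nonneg.2 hsq)]
    have := area_proj_hull4_ge_two hv V₁ V₄ V₃ V₂ hopp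
    rw [det3_swap v (V₃ - V₁) (V₄ - V₁), det3_swap v (V₂ - V₁) (V₄ - V₁), det_134, det_124,
        ← hp, ← hq, ← hg] at this
    refine le_trans ?_ (this.trans ?_)
    · rw [← ENNReal.ofReal_add (by positivity) (by positivity)]
      apply ENNReal.ofReal_le_ofReal
      rw [hnegabs, hnegabs]
      have h3 := two_abs_sum q (p + g) h2
      have e1 : p + q + g = q + (p + g) := by ring
      have e2 : p - q + g = -(q - (p + g)) := by ring
      rw [e1, e2, abs_neg]
      have h4 : Real.sqrt 2 * (2 * |q|) ≤ Real.sqrt 2 * (|q + (p + g)| + |q - (p + g)|) :=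
        mul_le_mul_of_nonneg_left h3 hr.le
      nlinarith
    · apply measure_mono
      apply Set.image_mono
      apply convexHull_mono
      intro x hx
      simp only [Set.mem_insert_iff, Set.mem_singleton_iff] at hx ⊢
      tauto
  · -- `g` case : common edge `V₁ V₂`
    have hopp : det3 (V₂ - V₁) (V₃ - V₁) v * det3 (V₂ - V₁) (V₄ - V₁) v ≤ 0 := by
      rw [det_123, det_124, ← hp, ← hq, ← hg]
      have hsq : (p - q) ^ 2 ≤ g ^ 2 := by
        rw [← sq_abs (p - q), ← sq_abs g]
        exact pow_le_pow_left₀ (abs_nonneg _) h2 2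
      have h0 : 0 ≤ Real.sqrt 2 ^ 2 := by positivity
      nlinarith [mul_nonneg h0 (sub_nonneg.2 hsq)]
    have := area_proj_hull4_ge_two hv V₁ V₂ V₃ V₄ hopp
    rw [det_123, det_124, ← hp, ← hq, ← hg] at this
    refine le_trans ?_ this
    rw [← ENNReal.ofReal_add (by positivity) (by positivity)]
    apply ENNReal.ofReal_le_ofReal
    rw [habs, habs]
    have h3 := two_abs_sum g (p - q) h2
    have e1 : p - q - g = -(g - (p - q)) := by ring
    have e2 : p - q + g = g + (p - q) := by ring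
    rw [e1, e2, abs_neg]
    have h4 : Real.sqrt 2 * (2 * |g|) ≤ Real.sqrt 2 * (|g + (p - q)| + |g - (p - q)|) :=
      mul_le_mul_of_nonneg_left h3 hr.le
    nlinarith
  · -- a single face
    have hgoal : ∀ x : ℝ, 2 ≤ |x| → Real.sqrt 2 ≤ |Real.sqrt 2 * x| / 2 := fun x hx => by
      rw [habs]
      nlinarith
    rcases hface with h | h | h | h
    · have := area_proj_hull4_ge_face hv V₁ V₃ V₄ V₂
      rw [det_134, ← hp, ← hq, ← hg] at this
      refine le_trans (ENNReal.ofReal_le_ofReal (hgoal _ h)) (this.trans ?_)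
      apply measure_mono
      apply Set.image_mono
      apply convexHull_mono
      intro x hx
      simp only [Set.mem_insert_iff, Set.mem_singleton_iff] at hx ⊢
      tauto
    · have := area_proj_hull4_ge_face hv V₂ V₃ V₄ V₁
      rw [det_234, ← hp, ← hq, ← hg] at this
      refine le_trans (ENNReal.ofReal_le_ofReal (hgoal _ h)) (this.trans ?_)
      apply measure_mono
      apply Set.image_mono
      apply convexHull_mono
      intro x hx
      simp only [Set.mem_insert_iff, Set.mem_singleton_iff] at hx ⊢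
      tauto
    · have := area_proj_hull4_ge_face hv V₁ V₂ V₃ V₄
      rw [det_123, ← hp, ← hq, ← hg] at this
      exact le_trans (ENNReal.ofReal_le_ofReal (hgoal _ h)) this
    · have := area_proj_hull4_ge_face hv V₁ V₂ V₄ V₃
      rw [det_124, ← hp, ← hq, ← hg] at this
      refine le_trans (ENNReal.ofReal_le_ofReal (hgoal _ h)) (this.trans ?_)
      apply measure_mono
      apply Set.image_mono
      apply convexHull_mono
      intro x hx
      simp only [Set.mem_insert_iff, Set.mem_singleton_iff] at hx ⊢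
      tauto

end Crest.Agent.Lib.TetraArea
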