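import Crest.Agent.Lib.TetraFinite

set_option autoImplicit false
open MeasureTheory Set
open scoped ENNReal Pointwise

namespace Crest.Agent.Lib.TetraArea

/-! ### Gram determinants and parallelograms -/

section gramlemmas
variable {E : Type*} [NormedAddCommGroup E] [InnerProductSpace ℝ E]

lemma gram_smul_smul (s t : ℝ) (a b : E) : gram (s • a) (t • b) = (s * t) ^ 2 * gram a b := by
  simp only [gram, norm_smul, inner_smul_left, inner_smul_right, Real.norm_eq_abs, mul_pow, sq_abs,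
    conj_trivial]
  ring

lemma gram_add_right (a b : E) : gram a (a + b) = gram a b := by
  simp only [gram, inner_add_right, real_inner_self_eq_norm_sq]
  rw [norm_add_sq_real]
  ring

variable [MeasurableSpace E] [BorelSpace E]

/-- The area of a parallelogram slice of a triangle. -/
lemma para_area (p q r : E) {M : ℝ} (hM : 0 < M) {k : ℝ} (hk : 0 ≤ k) :
    (μHE[2] (parallelogram (p + (k / M) • (q - p)) ((1 / M) • (q - p)) (((k + 1) / M) • (r - q)))).toReal =
      (k + 1) / M ^ 2 * (2 * (μHE[2] (convexHull ℝ {p, q, r})).toReal) := by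
  rw [area_parallelogram, area_triangle, gram_smul_smul]
  have e : r - p = (q - p) + (r - q) := by abel
  rw [e, gram_add_right, Real.sqrt_mul (by positivity), Real.sqrt_sq (by positivity),
    ENNReal.toReal_ofReal (by positivity), ENNReal.toReal_ofReal (by positivity)]
  field_simp

omit [MeasurableSpace E] [BorelSpace E] in
/-- A triangle is covered by parallelogram slices. -/
lemma para_cover (p q r : E) {M : ℕ} (hM : 0 < M) {x : E} (hx : x ∈ convexHull ℝ {p, q, r}) :
    ∃ k : Fin M, x ∈ parallelogram (p + (((k : ℕ) : ℝ) / M) • (q - p)) ((1 / (M : ℝ)) • (q - p))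
      ((((k : ℕ) + 1 : ℝ) / M) • (r - q)) := by
  rw [convexHull_three_eq] at hx
  obtain ⟨s, t, hs, ht, hst, rfl⟩ := hx
  have hM' : (0 : ℝ) < M := by exact_mod_cast hM
  -- the index
  obtain ⟨k, hk1, hk2, hk3⟩ : ∃ k : ℕ, k < M ∧ (k : ℝ) ≤ (s + t) * M ∧ (s + t) * M ≤ k + 1 := by
    rcases lt_or_eq_of_le hst with h | h
    · refine ⟨⌊(s + t) * M⌋₊, ?_, Nat.floor_le (by positivity), (Nat.lt_floor_add_one _).le⟩
      rw [Nat.floor_lt (by positivity)]
      nlinarith
    · refine ⟨M - 1, by omega, ?_, ?_⟩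
      · rw [h, one_mul]
        exact_mod_cast Nat.sub_le M 1
      · rw [h, one_mul]
        have : ((M - 1 : ℕ) : ℝ) + 1 = M := by
          have : 1 ≤ M := hM
          push_cast [Nat.cast_sub this]
          ring
        rw [this]
  refine ⟨⟨k, hk1⟩, (s + t) * M - k, ⟨by linarith, by linarith⟩, t * M / (k + 1), ⟨by positivity, ?_⟩, ?_⟩
  · rw [div_le_one (by positivity)]
    nlinarith
  · simp only [smul_smul]
    have h1 : ((s + t) * M - k) * (1 / (M : ℝ)) = s + t - k / M := by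
      field_simp
    have h2 : t * M / (k + 1) * ((k + 1) / (M : ℝ)) = t := by
      have : (k : ℝ) + 1 ≠ 0 := by positivity
      field_simp
    rw [h1, h2]
    have h3 : r - p = (q - p) + (r - q) := by abel
    rw [h3]
    module

/-- The total area of the parallelogram slices of a triangle. -/
lemma para_sum (p q r : E) {M : ℕ} (hM : 0 < M) :
    ∑ k : Fin M, (μHE[2] (parallelogram (p + (((k : ℕ) : ℝ) / M) • (q - p)) ((1 / (M : ℝ)) • (q - p))
      ((((k : ℕ) + 1 : ℝ) / M) • (r - q)))).toReal =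
    (1 + 1 / (M : ℝ)) * (μHE[2] (convexHull ℝ {p, q, r})).toReal := by
  have hM' : (0 : ℝ) < M := by exact_mod_cast hM
  have h : ∀ k : Fin M, (μHE[2] (parallelogram (p + (((k : ℕ) : ℝ) / M) • (q - p)) ((1 / (M : ℝ)) • (q - p))
      ((((k : ℕ) + 1 : ℝ) / M) • (r - q)))).toReal =
      (((k : ℕ) : ℝ) + 1) / (M : ℝ) ^ 2 * (2 * (μHE[2] (convexHull ℝ {p, q, r})).toReal) :=
    fun k => para_area p q r hM' (Nat.cast_nonneg _)
  simp_rw [h]
  rw [← Finset.sum_mul, ← Finset.sum_div, Fin.sum_univ_eq_sum_range (fun k => (k : ℝ) + 1) M]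
  have hs : ∀ n : ℕ, ∑ k ∈ Finset.range n, ((k : ℝ) + 1) = (n : ℝ) * (n + 1) / 2 := by
    intro n
    induction n with
    | zero => simp
    | succ n ih =>
      rw [Finset.sum_range_succ, ih]
      push_cast
      ring
  rw [hs]
  field_simp

end gramlemmas

/-! ### Similarities -/

/-- A similarity scales the area by the square of the ratio. -/
lemma area_sim (T : E3 ≃ₗᵢ[ℝ] E3) {lam : ℝ} (hlam : 0 < lam) (d : E3) (S : Set E3) :
    (μHE[2] ((fun x => d + lam • T x) '' S)).toReal = lam ^ 2 * (μHE[2] S).toReal := by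
  have e : (fun x => d + lam • T x) '' S = (fun y => d + y) '' (lam • (T '' S)) := by
    rw [← Set.image_smul, Set.image_image, Set.image_image]
  have hiso : Isometry (fun y : E3 => d + y) := (IsometryEquiv.addLeft d).isometry
  rw [e, hiso.euclideanHausdorffMeasure_image,
    Measure.euclideanHausdorffMeasure_smul₀ 2 hlam.ne', T.isometry.euclideanHausdorffMeasure_image,
    ENNReal.toReal_smul, NNReal.smul_def]
  simp [sq_abs]

/-- Projection of a similar image. -/
lemma proj_sim (T : E3 ≃ₗᵢ[ℝ] E3) (lam : ℝ) (d v x : E3) :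
    projL v (d + lam • T x) = projL v d + lam • T (projL (T.symm v) x) := by
  have h1 : T (T.symm v) = v := T.apply_symm_apply v
  have h2 : inner ℝ (T x) v = inner ℝ x (T.symm v) := by
    conv_lhs => rw [← h1]
    exact T.inner_map_map _ _
  rw [map_add, map_smul, projL_apply (T.symm v), map_sub, map_smul, h1, projL_apply v (T x), h2]

/-- The projection of a similar image of `Ktet`. -/
lemma proj_image_sim (T : E3 ≃ₗᵢ[ℝ] E3) (lam : ℝ) (d v : E3) (S : Set E3) :
    projL v '' ((fun x => d + lam • T x) '' S) =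
      (fun y => projL v d + lam • T y) '' (projL (T.symm v) '' S) := by
  rw [Set.image_image, Set.image_image]
  exact Set.image_congr fun x _ => proj_sim T lam d v x

/-- The area of every projection of a similar image of `Ktet`. -/
lemma area_proj_sim_ge (T : E3 ≃ₗᵢ[ℝ] E3) {lam : ℝ} (hlam : 0 < lam) (d : E3) {v : E3} (hv : ‖v‖ = 1) :
    lam ^ 2 * Real.sqrt 2 ≤ (μHE[2] (projL v '' ((fun x => d + lam • T x) '' Ktet))).toReal := by
  rw [proj_image_sim, area_sim T hlam]
  have hv' : ‖T.symm v‖ = 1 := by rw [T.symm.norm_map, hv]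
  exact mul_le_mul_of_nonneg_left (area_proj_Ktet_toReal_ge hv') (by positivity)

/-- Transferring the master family: the family of unit directions. -/
noncomputable def sU (T : E3 ≃ₗᵢ[ℝ] E3) (j : FamIdx) : E3 := T (fU j)

/-- The image of a base point. -/
noncomputable def sG (T : E3 ≃ₗᵢ[ℝ] E3) (lam : ℝ) (d : E3) (j : FamIdx) (x : E3) : E3 :=
  projL (sU T j) d + lam • T x

lemma sU_norm (T : E3 ≃ₗᵢ[ℝ] E3) (j : FamIdx) : ‖sU T j‖ = 1 := by
  rw [sU, T.norm_map, fU_norm]

lemma inner_sG (T : E3 ≃ₗᵢ[ℝ] E3) (lam : ℝ) (d : E3) (j : FamIdx) {x : E3}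
    (hx : inner ℝ x (fU j) = 0) : inner ℝ (sG T lam d j x) (sU T j) = 0 := by
  rw [sG, inner_add_left, inner_projL (sU_norm T j), inner_smul_left, sU, T.inner_map_map, hx]
  simp

lemma hull_sG (T : E3 ≃ₗᵢ[ℝ] E3) (lam : ℝ) (d : E3) (j : FamIdx) (P Q R : E3) :
    convexHull ℝ {sG T lam d j P, sG T lam d j Q, sG T lam d j R} =
      (fun x => projL (sU T j) d + lam • T x) '' convexHull ℝ {P, Q, R} := by
  set L : E3 →ₗ[ℝ] E3 := lam • T.toLinearEquiv.toLinearMap with hL
  let F : E3 →ᵃ[ℝ] E3 := AffineMap.const ℝ E3 (projL (sU T j) d) + L.toAffineMap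
  have hF : ∀ x, F x = projL (sU T j) d + lam • T x := by
    intro x
    simp [F, L]
  have : (fun x => projL (sU T j) d + lam • T x) = F := by
    ext1 x
    exact (hF x).symm
  rw [this, F.image_convexHull, Set.image_insert_eq, Set.image_pair]
  simp only [hF, sG]

/-- The transferred family covers the similar image. -/
lemma sim_cover (T : E3 ≃ₗᵢ[ℝ] E3) (lam : ℝ) (d : E3) :
    (fun x => d + lam • T x) '' Ktet ⊆ ⋃ j, {x : E3 | ∃ b ∈ convexHull ℝ {sG T lam d j (fP j),
      sG T lam d j (fQ j), sG T lam d j (fR j)}, ∃ t : ℝ, x = b + t • sU T j} := by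
  rintro _ ⟨Y, hY, rfl⟩
  obtain ⟨j, b, hb, τ, rfl⟩ := mem_iUnion.1 (fam_cover hY)
  refine mem_iUnion.2 ⟨j, ?_⟩
  refine ⟨sG T lam d j b, ?_, inner ℝ d (sU T j) + lam * τ, ?_⟩
  · rw [hull_sG]
    exact ⟨b, hb, rfl⟩
  · simp only [sG, projL_apply, map_add, map_smul, sU, add_smul, mul_smul, smul_add]
    abel

lemma sim_area (T : E3 ≃ₗᵢ[ℝ] E3) {lam : ℝ} (hlam : 0 < lam) (d : E3) (j : FamIdx) :
    (μHE[2] (convexHull ℝ {sG T lam d j (fP j), sG T lam d j (fQ j), sG T lam d j (fR j)})).toReal =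
      lam ^ 2 * (μHE[2] (convexHull ℝ {fP j, fQ j, fR j})).toReal := by
  rw [hull_sG, area_sim T hlam]

/-- The transferred family has small total area. -/
lemma sim_sum (T : E3 ≃ₗᵢ[ℝ] E3) {lam : ℝ} (hlam : 0 < lam) (d : E3) :
    ∑ j, (μHE[2] (convexHull ℝ {sG T lam d j (fP j), sG T lam d j (fQ j), sG T lam d j (fR j)})).toReal ≤
      lam ^ 2 * (Real.sqrt 2 / 2 * (1 - 1 / 100000)) := by
  simp_rw [sim_area T hlam]
  rw [← Finset.mul_sum]
  exact mul_le_mul_of_nonneg_left fam_sum_le (by positivity)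

/-- A compact planar set has a relatively open bounded neighbourhood in the plane of almost the
same area. -/
lemma exists_open_base {u : E3} (hu : ‖u‖ = 1) {B : Set E3} (hBc : IsCompact B)
    (hB : ∀ x ∈ B, inner ℝ x u = 0) {e : ℝ} (he : 0 < e) :
    ∃ O : Set E3, IsOpen O ∧ B ⊆ O ∧ Bornology.IsBounded (O ∩ {x | inner ℝ x u = 0}) ∧
      μHE[2] (O ∩ {x | inner ℝ x u = 0}) ≤ μHE[2] B + ENNReal.ofReal e := by
  obtain ⟨R, hR⟩ := hBc.isBounded.subset_ball (0 : E3)
  set Pl : Set E3 := {x | inner ℝ x u = 0} with hPl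
  have hPlm : IsClosed Pl := isClosed_eq (by fun_prop) continuous_const
  set S : Set E3 := Metric.ball (0 : E3) R ∩ Pl with hS
  have hSm : MeasurableSet S := measurableSet_ball.inter hPlm.measurableSet
  have hSfin : μHE[2] S < ∞ :=
    area_lt_top_of_bounded hu (fun x hx => hx.2) (Metric.isBounded_ball.subset inter_subset_left)
  let ν : Measure E3 := (μHE[2] : Measure E3).restrict S
  have : IsFiniteMeasure ν := ⟨by simpa [ν] using hSfin⟩
  have hBS : B ⊆ S := fun x hx => ⟨hR hx, hB x hx⟩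
  have hνB : ν B = μHE[2] B := by
    simp only [ν]
    rw [Measure.restrict_apply hBc.measurableSet, inter_eq_left.2 hBS]
  have hBfin : μHE[2] B < ∞ := lt_of_le_of_lt (measure_mono hBS) hSfin
  have hlt : ν B < μHE[2] B + ENNReal.ofReal e := by
    rw [hνB]
    exact ENNReal.lt_add_right hBfin.ne (by simpa using he)
  obtain ⟨U, hUB, hUo, hUlt⟩ := Set.exists_isOpen_lt_of_lt (μ := ν) B _ hlt
  refine ⟨U ∩ Metric.ball 0 R, hUo.inter Metric.isOpen_ball, fun x hx => ⟨hUB hx, hR hx⟩,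
    Metric.isBounded_ball.subset (fun x hx => hx.1.2), ?_⟩
  have e1 : (U ∩ Metric.ball 0 R) ∩ Pl = U ∩ S := by
    rw [hS, inter_assoc]
  rw [e1]
  have : μHE[2] (U ∩ S) = ν U := by
    simp only [ν]
    rw [Measure.restrict_apply hUo.measurableSet]
  rw [this]
  exact hUlt.le

/-- Similar images of convex hulls are convex hulls of the images. -/
lemma image_hull_sim (T : E3 ≃ₗᵢ[ℝ] E3) (lam : ℝ) (d : E3) (S : Set E3) :
    (fun x => d + lam • T x) '' convexHull ℝ S = convexHull ℝ ((fun x => d + lam • T x) '' S) := by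
  set L : E3 →ₗ[ℝ] E3 := lam • T.toLinearEquiv.toLinearMap with hL
  let F : E3 →ᵃ[ℝ] E3 := AffineMap.const ℝ E3 d + L.toAffineMap
  have hF : ∀ x, F x = d + lam • T x := by
    intro x
    simp [F, L]
  have : (fun x => d + lam • T x) = F := by
    ext1 x
    exact (hF x).symm
  rw [this, F.image_convexHull]

/-- Linear combinations of the edge vectors of a regular tetrahedron of edge two. -/
lemma norm_comb {a₁ a₂ a₃ : E3} (h11 : inner ℝ a₁ a₁ = 4) (h22 : inner ℝ a₂ a₂ = 4)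
    (h33 : inner ℝ a₃ a₃ = 4) (h12 : inner ℝ a₁ a₂ = 2) (h13 : inner ℝ a₁ a₃ = 2)
    (h23 : inner ℝ a₂ a₃ = 2) (x : E3) :
    ‖(-(x 0 + Real.sqrt 2 / 2 * x 2) / 2) • a₁ + ((x 1 + Real.sqrt 2 / 2 * x 2) / 2) • a₂ +
      ((Real.sqrt 2 / 2 * x 2 - x 1) / 2) • a₃‖ = ‖x‖ := by
  have h21 : inner ℝ a₂ a₁ = 2 := by rw [real_inner_comm]; exact h12
  have h31 : inner ℝ a₃ a₁ = 2 := by rw [real_inner_comm]; exact h13
  have h32 : inner ℝ a₃ a₂ = 2 := by rw [real_inner_comm]; exact h23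
  have key : ‖(-(x 0 + Real.sqrt 2 / 2 * x 2) / 2) • a₁ + ((x 1 + Real.sqrt 2 / 2 * x 2) / 2) • a₂ +
      ((Real.sqrt 2 / 2 * x 2 - x 1) / 2) • a₃‖ ^ 2 = ‖x‖ ^ 2 := by
    rw [norm_sq_E3 x, ← real_inner_self_eq_norm_sq]
    simp only [inner_add_left, inner_add_right, real_inner_smul_left, real_inner_smul_right,
      h11, h22, h33, h12, h13, h23, h21, h31, h32]
    have hr := sqrt2_sq
    linear_combination (x 2 ^ 2 / 2) * hr
  exact (pow_left_inj₀ (norm_nonneg _) (norm_nonneg _) (by norm_num)).1 key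

/-- Every regular tetrahedron is a similar image of the standard one. -/
theorem exists_similarity (w : Fin 4 → E3) {l : ℝ} (hl : 0 < l)
    (hw : ∀ i j, i ≠ j → dist (w i) (w j) = l) :
    ∃ (T : E3 ≃ₗᵢ[ℝ] E3) (d : E3), convexHull ℝ (Set.range w) = (fun x => d + (l / 2) • T x) '' Ktet := by
  have hn : ∀ i j, i ≠ j → ‖w i - w j‖ = l := fun i j h => by
    rw [← dist_eq_norm]; exact hw i j h
  have hlne : l ≠ 0 := hl.ne'
  have hself : ∀ i, i ≠ 0 → inner ℝ ((2 / l) • (w i - w 0)) ((2 / l) • (w i - w 0)) = 4 := by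
    intro i hi
    rw [real_inner_self_eq_norm_sq, norm_smul, mul_pow, hn i 0 hi, Real.norm_eq_abs, sq_abs]
    field_simp
    norm_num
  have hcross : ∀ i j, i ≠ 0 → j ≠ 0 → i ≠ j →
      inner ℝ ((2 / l) • (w i - w 0)) ((2 / l) • (w j - w 0)) = 2 := by
    intro i j hi hj hij
    have h1 : ‖(w i - w 0) - (w j - w 0)‖ ^ 2 = l ^ 2 := by
      rw [sub_sub_sub_cancel_right, hn i j hij]
    rw [norm_sub_sq_real, hn i 0 hi, hn j 0 hj] at h1
    have h2 : inner ℝ (w i - w 0) (w j - w 0) = l ^ 2 / 2 := by linarith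
    rw [real_inner_smul_left, real_inner_smul_right, h2]
    field_simp
  set a₁ := (2 / l) • (w 1 - w 0) with ha₁
  set a₂ := (2 / l) • (w 2 - w 0) with ha₂
  set a₃ := (2 / l) • (w 3 - w 0) with ha₃
  have h11 : inner ℝ a₁ a₁ = 4 := hself 1 (by decide)
  have h22 : inner ℝ a₂ a₂ = 4 := hself 2 (by decide)
  have h33 : inner ℝ a₃ a₃ = 4 := hself 3 (by decide)
  have h12 : inner ℝ a₁ a₂ = 2 := hcross 1 2 (by decide) (by decide) (by decide)
  have h13 : inner ℝ a₁ a₃ = 2 := hcross 1 3 (by decide) (by decide) (by decide)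
  have h23 : inner ℝ a₂ a₃ = 2 := hcross 2 3 (by decide) (by decide) (by decide)
  let L : E3 →ₗ[ℝ] E3 :=
    { toFun := fun x => (-(x 0 + Real.sqrt 2 / 2 * x 2) / 2) • a₁ +
        ((x 1 + Real.sqrt 2 / 2 * x 2) / 2) • a₂ + ((Real.sqrt 2 / 2 * x 2 - x 1) / 2) • a₃
      map_add' := by
        intro x y
        simp only [PiLp.add_apply]
        module
      map_smul' := by
        intro c x
        simp only [PiLp.smul_apply, smul_eq_mul, RingHom.id_apply]
        module }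
  have hL : ∀ x, L x = (-(x 0 + Real.sqrt 2 / 2 * x 2) / 2) • a₁ +
        ((x 1 + Real.sqrt 2 / 2 * x 2) / 2) • a₂ + ((Real.sqrt 2 / 2 * x 2 - x 1) / 2) • a₃ :=
    fun _ => rfl
  let Li : E3 →ₗᵢ[ℝ] E3 := ⟨L, fun x => by rw [hL]; exact norm_comb h11 h22 h33 h12 h13 h23 x⟩
  let T : E3 ≃ₗᵢ[ℝ] E3 := Li.toLinearIsometryEquiv rfl
  have hT : ∀ x, T x = L x := fun x => rfl
  have hr := sqrt2_sq
  have hrr : Real.sqrt 2 / 2 * Real.sqrt 2 = 1 := by linarith
  have hT1 : T V₁ = (-(1 / 2) : ℝ) • a₁ := by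
    rw [hT, hL]
    simp [V₁]
    module
  have hT2 : T V₂ = (1 / 2 : ℝ) • a₁ := by
    rw [hT, hL]
    simp [V₂]
  have hT3 : T V₃ = (-(1 / 2) : ℝ) • a₁ + a₂ := by
    rw [hT, hL]
    simp [V₃, hrr]
    module
  have hT4 : T V₄ = (-(1 / 2) : ℝ) • a₁ + a₃ := by
    rw [hT, hL]
    simp [V₄, hrr]
    module
  have hscale : ∀ i : Fin 4, (l / 2) • ((2 / l) • (w i - w 0)) = w i - w 0 := by
    intro i
    rw [smul_smul]
    have : l / 2 * (2 / l) = 1 := by field_simp
    rw [this, one_smul]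
  refine ⟨T, w 0 - (l / 2) • T V₁, ?_⟩
  set d := w 0 - (l / 2) • T V₁ with hd
  have hf1 : d + (l / 2) • T V₁ = w 0 := by rw [hd]; abel
  have hf2 : d + (l / 2) • T V₂ = w 1 := by
    rw [hd, hT1, hT2]
    have := hscale 1
    rw [← ha₁] at this
    have h5 : w 1 = w 0 + (l / 2) • a₁ := by rw [this]; abel
    rw [h5]
    module
  have hf3 : d + (l / 2) • T V₃ = w 2 := by
    rw [hd, hT1, hT3]
    have := hscale 2
    rw [← ha₂] at this
    have h5 : w 2 = w 0 + (l / 2) • a₂ := by rw [this]; abel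
    rw [h5]
    module
  have hf4 : d + (l / 2) • T V₄ = w 3 := by
    rw [hd, hT1, hT4]
    have := hscale 3
    rw [← ha₃] at this
    have h5 : w 3 = w 0 + (l / 2) • a₃ := by rw [this]; abel
    rw [h5]
    module
  rw [Ktet, image_hull_sim]
  congr 1
  ext x
  constructor
  · rintro ⟨i, rfl⟩
    fin_cases i
    · exact ⟨V₁, by simp, hf1⟩
    · exact ⟨V₂, by simp, hf2⟩
    · exact ⟨V₃, by simp, hf3⟩
    · exact ⟨V₄, by simp, hf4⟩
  · rintro ⟨y, (rfl | rfl | rfl | rfl), rfl⟩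
    · exact ⟨0, hf1.symm⟩
    · exact ⟨1, hf2.symm⟩
    · exact ⟨2, hf3.symm⟩
    · exact ⟨3, hf4.symm⟩

end Crest.Agent.Lib.TetraArea
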