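import Mathlib
import Crest.Prelude.Def_TreeProducts
import Crest.Agent.Lib.AUCGame

set_option autoImplicit false

namespace Crest.Agent.Lib.AUC.TreeProd

open MeasureTheory ProbabilityTheory Filter Topology Crest.AnalysisR.TreeProduct

/-- The non-root vertices on the root path of a vertex. -/
def pathSet : List ℕ → Finset (List ℕ)
  | [] => ∅
  | a :: v => insert (a :: v) (pathSet v)

lemma length_le_of_mem_pathSet {v u : List ℕ} (h : u ∈ pathSet v) : u.length ≤ v.length := by
  induction v with
  | nil => simp [pathSet] at h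
  | cons a v ih =>
    rw [pathSet, Finset.mem_insert] at h
    rcases h with rfl | h
    · exact le_rfl
    · have := ih h
      simp only [List.length_cons]
      omega

lemma cons_notMem_pathSet (n : ℕ) (v : List ℕ) : n :: v ∉ pathSet v := by
  intro h
  have := length_le_of_mem_pathSet h
  simp at this

variable {Ω : Type} [MeasurableSpace Ω] {μ : Measure Ω} {ν : Measure ℝ} {W : List ℕ → Ω → ℝ}

lemma pathProduct_eq_prod (W : List ℕ → Ω → ℝ) (v : List ℕ) :
    pathProduct W v = ∏ u ∈ pathSet v, W u := by
  induction v with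
  | nil => ext; simp [pathProduct, pathSet]
  | cons a v ih =>
    rw [pathSet, Finset.prod_insert (cons_notMem_pathSet a v), pathProduct]
    funext z
    rw [ih]
    simp [mul_comm]

/-- The standing hypotheses. -/
structure Hyp (ν : Measure ℝ) (μ : Measure Ω) (W : List ℕ → Ω → ℝ) : Prop where
  meas : ∀ v, Measurable (W v)
  indep : iIndepFun W μ
  law : ∀ v, v ≠ [] → Measure.map (W v) μ = ν
  pos : ν (Set.Ioi 0) = 1
  mean : ∫ x, x ∂ν = 1
  sq : Integrable (fun x : ℝ => x ^ 2) ν

section

variable [IsProbabilityMeasure μ] [IsProbabilityMeasure ν] (h : Hyp ν μ W)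
include h

lemma Hyp.integral_comp {u : List ℕ} (hu : u ≠ []) {φ : ℝ → ℝ} (hφ : Measurable φ) :
    ∫ ω, φ (W u ω) ∂μ = ∫ x, φ x ∂ν := by
  rw [← h.law u hu, integral_map (h.meas u).aemeasurable hφ.aestronglyMeasurable]

lemma Hyp.integrable_comp {u : List ℕ} (hu : u ≠ []) {φ : ℝ → ℝ} (hφ : Measurable φ)
    (hi : Integrable φ ν) : Integrable (fun ω => φ (W u ω)) μ := by
  rw [← h.law u hu] at hi
  exact (integrable_map_measure hφ.aestronglyMeasurable (h.meas u).aemeasurable).mp hi

lemma Hyp.integrable_id : Integrable (fun x : ℝ => x) ν := by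
  by_contra hcon
  have := integral_undef hcon
  rw [h.mean] at this
  norm_num at this

lemma Hyp.integrable_sub_one : Integrable (fun x : ℝ => x - 1) ν :=
  h.integrable_id.sub (integrable_const 1)

lemma Hyp.integrable_abs_sub_one : Integrable (fun x : ℝ => |x - 1|) ν :=
  h.integrable_sub_one.abs

lemma Hyp.integrable_sub_one_sq : Integrable (fun x : ℝ => (x - 1) ^ 2) ν := by
  have : (fun x : ℝ => (x - 1) ^ 2) = fun x => x ^ 2 - 2 * x + 1 := by
    funext x; ring
  rw [this]
  exact (h.sq.sub (h.integrable_id.const_mul 2)).add (integrable_const 1)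

lemma Hyp.integral_sub_one : ∫ x, (x - 1) ∂ν = 0 := by
  rw [integral_sub h.integrable_id (integrable_const 1), h.mean]
  simp

/-- Independence of a path product and a later multiplier. -/
lemma Hyp.indep_path (n : ℕ) (v : List ℕ) :
    IndepFun (pathProduct W v) (W (n :: v)) μ := by
  rw [pathProduct_eq_prod]
  exact h.indep.indepFun_finsetProd_of_notMem h.meas (cons_notMem_pathSet n v)

lemma Hyp.meas_path (v : List ℕ) : Measurable (pathProduct W v) := by
  rw [pathProduct_eq_prod]
  have e : (∏ u ∈ pathSet v, W u) = fun a => ∏ u ∈ pathSet v, W u a := by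
    funext a
    simp [Finset.prod_apply]
  rw [e]
  exact Finset.measurable_prod _ fun u _ => h.meas u

lemma Hyp.path_integrable_and (v : List ℕ) :
    Integrable (pathProduct W v) μ ∧ ∫ ω, pathProduct W v ω ∂μ = 1 := by
  induction v with
  | nil => simp [pathProduct]
  | cons a v ih =>
    have hu : a :: v ≠ [] := by simp
    have hI := h.indep_path a v
    have hW1 : Integrable (W (a :: v)) μ := h.integrable_comp hu measurable_id h.integrable_id
    have e : pathProduct W (a :: v) = pathProduct W v * W (a :: v) := rfl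
    refine ⟨?_, ?_⟩
    · rw [e]
      exact hI.integrable_mul ih.1 hW1
    · have := hI.integral_fun_mul_eq_mul_integral ih.1.aestronglyMeasurable hW1.aestronglyMeasurable
      show ∫ ω, pathProduct W v ω * W (a :: v) ω ∂μ = 1
      rw [this, ih.2]
      have h2 : ∫ ω, W (a :: v) ω ∂μ = 1 := by
        have := h.integral_comp hu measurable_id
        simp only [id] at this
        rw [this, h.mean]
      show (1:ℝ) * ∫ ω, W (a :: v) ω ∂μ = 1
      rw [h2, one_mul]

lemma Hyp.path_integrable (v : List ℕ) : Integrable (pathProduct W v) μ :=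
  (h.path_integrable_and v).1

lemma Hyp.path_integral (v : List ℕ) : ∫ ω, pathProduct W v ω ∂μ = 1 :=
  (h.path_integrable_and v).2

lemma Hyp.path_nonneg (v : List ℕ) : ∀ᵐ ω ∂μ, 0 ≤ pathProduct W v ω := by
  induction v with
  | nil => exact Eventually.of_forall fun _ => by simp [pathProduct]
  | cons a v ih =>
    have hu : a :: v ≠ [] := by simp
    have hpos : ∀ᵐ ω ∂μ, 0 < W (a :: v) ω := by
      have h1 : ∀ᵐ x ∂ν, 0 < x := by
        rw [ae_iff]
        have : ν (Set.Ioi 0)ᶜ = 0 := by
          rw [prob_compl_eq_zero_iff measurableSet_Ioi]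
          exact h.pos
        simpa [Set.compl_def] using this
      rw [← h.law _ hu] at h1
      exact ae_of_ae_map (h.meas _).aemeasurable h1
    filter_upwards [ih, hpos] with ω h1 h2
    show 0 ≤ pathProduct W v ω * W (a :: v) ω
    exact mul_nonneg h1 h2.le

lemma Hyp.path_abs_integral (v : List ℕ) : ∫ ω, |pathProduct W v ω| ∂μ = 1 := by
  rw [← h.path_integral v]
  apply integral_congr_ae
  filter_upwards [h.path_nonneg v] with ω hω
  exact abs_of_nonneg hω

lemma Hyp.path_sq_integrable (v : List ℕ) :
    Integrable (fun ω => pathProduct W v ω ^ 2) μ := by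
  induction v with
  | nil => simp [pathProduct]
  | cons a v ih =>
    have hu : a :: v ≠ [] := by simp
    have hI := h.indep_path a v
    have hsq : Measurable (fun x : ℝ => x ^ 2) := by fun_prop
    have hI2 := hI.comp hsq hsq
    have hW2 : Integrable (fun ω => W (a :: v) ω ^ 2) μ := h.integrable_comp hu hsq h.sq
    have := hI2.integrable_mul ih hW2
    refine this.congr (Eventually.of_forall fun ω => ?_)
    show pathProduct W v ω ^ 2 * W (a :: v) ω ^ 2 = (pathProduct W v ω * W (a :: v) ω) ^ 2
    ring

/-- `κ = E|W - 1|`. -/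
noncomputable def kappa (ν : Measure ℝ) : ℝ := ∫ x, |x - 1| ∂ν

/-- second moment of `W - 1` -/
noncomputable def sigma2 (ν : Measure ℝ) : ℝ := ∫ x, (x - 1) ^ 2 ∂ν

/-- The increment. -/
def incr (W : List ℕ → Ω → ℝ) (v : List ℕ) (n : ℕ) : Ω → ℝ :=
  fun ω => pathProduct W v ω * (W (n :: v) ω - 1)

lemma Hyp.incr_integrable (v : List ℕ) (n : ℕ) : Integrable (incr W v n) μ := by
  have hu : n :: v ≠ [] := by simp
  have hsub : Measurable (fun x : ℝ => x - 1) := by fun_prop
  have hI := (h.indep_path n v).comp measurable_id hsub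
  have hW1 : Integrable (fun ω => W (n :: v) ω - 1) μ :=
    h.integrable_comp hu hsub h.integrable_sub_one
  exact hI.integrable_mul (h.path_integrable v) hW1

lemma Hyp.incr_abs_integral (v : List ℕ) (n : ℕ) : ∫ ω, |incr W v n ω| ∂μ = kappa ν := by
  have hu : n :: v ≠ [] := by simp
  have hsub : Measurable (fun x : ℝ => |x - 1|) := by fun_prop
  have hI := (h.indep_path n v).comp (measurable_id.abs) hsub
  have hM := (h.meas_path v).abs
  have hW1 : Measurable (fun ω => |W (n :: v) ω - 1|) := hsub.comp (h.meas _)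
  have := hI.integral_fun_mul_eq_mul_integral hM.aestronglyMeasurable hW1.aestronglyMeasurable
  have e : ∀ ω, |incr W v n ω| = |pathProduct W v ω| * |W (n :: v) ω - 1| := fun ω => abs_mul _ _
  simp only [e]
  have e2 : ∫ ω, |pathProduct W v ω| * |W (n :: v) ω - 1| ∂μ
      = (∫ ω, |pathProduct W v ω| ∂μ) * ∫ ω, |W (n :: v) ω - 1| ∂μ := this
  rw [e2, h.path_abs_integral, one_mul]
  exact h.integral_comp hu hsub

/-- The integral of a product of two increments with different indices. -/
lemma Hyp.incr_mul_integrable_and (v : List ℕ) {n m : ℕ} (hnm : n ≠ m) :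
    Integrable (fun ω => incr W v n ω * incr W v m ω) μ ∧
      ∫ ω, incr W v n ω * incr W v m ω ∂μ = 0 := by
  classical
  have hun : n :: v ≠ [] := by simp
  have hum : m :: v ≠ [] := by simp
  -- the modified family
  let φ : List ℕ → ℝ → ℝ := fun u x => if u ∈ pathSet v then x ^ 2 else x - 1
  have hφ : ∀ u, Measurable (φ u) := by
    intro u
    by_cases hu : u ∈ pathSet v
    · simp only [φ, hu, if_true]
      fun_prop
    · simp only [φ, hu, if_false]
      fun_prop
  have hW' : iIndepFun (fun u => φ u ∘ W u) μ := h.indep.comp φ hφ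
  have hmeas' : ∀ u, Measurable (φ u ∘ W u) := fun u => (hφ u).comp (h.meas u)
  have hmn : m :: v ∉ insert (n :: v) (pathSet v) := by
    rw [Finset.mem_insert]
    rintro (e | e)
    · apply hnm
      exact (List.cons.inj e).1.symm
    · exact cons_notMem_pathSet m v e
  have hI := hW'.indepFun_finsetProd_of_notMem hmeas' hmn
  have hnotn : n :: v ∉ pathSet v := cons_notMem_pathSet n v
  have hnotm : m :: v ∉ pathSet v := cons_notMem_pathSet m v
  have hprod : (∏ j ∈ insert (n :: v) (pathSet v), φ j ∘ W j)
      = fun ω => (W (n :: v) ω - 1) * pathProduct W v ω ^ 2 := by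
    funext ω
    rw [Finset.prod_insert hnotn, pathProduct_eq_prod]
    simp only [Pi.mul_apply, Finset.prod_apply, Function.comp, φ, if_neg hnotn]
    rw [← Finset.prod_pow]
    congr 1
    apply Finset.prod_congr rfl
    intro u hu
    rw [if_pos hu]
  have hlast : (φ (m :: v) ∘ W (m :: v)) = fun ω => W (m :: v) ω - 1 := by
    funext ω
    simp only [Function.comp, φ, if_neg hnotm]
  rw [hprod, hlast] at hI
  -- integrability of the left factor
  have hsq : Measurable (fun x : ℝ => x ^ 2) := by fun_prop
  have hsub : Measurable (fun x : ℝ => x - 1) := by fun_prop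
  have hIn := (h.indep_path n v).comp hsq hsub
  have hWn : Integrable (fun ω => W (n :: v) ω - 1) μ :=
    h.integrable_comp hun hsub h.integrable_sub_one
  have hWm : Integrable (fun ω => W (m :: v) ω - 1) μ :=
    h.integrable_comp hum hsub h.integrable_sub_one
  have hL : Integrable (fun ω => (W (n :: v) ω - 1) * pathProduct W v ω ^ 2) μ := by
    have := hIn.integrable_mul (h.path_sq_integrable v) hWn
    refine this.congr (Eventually.of_forall fun ω => ?_)
    show pathProduct W v ω ^ 2 * (W (n :: v) ω - 1) = _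
    ring
  have e : (fun ω => incr W v n ω * incr W v m ω)
      = (fun ω => (W (n :: v) ω - 1) * pathProduct W v ω ^ 2) * (fun ω => W (m :: v) ω - 1) := by
    funext ω
    simp only [incr, Pi.mul_apply]
    ring
  refine ⟨?_, ?_⟩
  · rw [e]
    exact hI.integrable_mul hL hWm
  · have h0 := hI.integral_fun_mul_eq_mul_integral hL.aestronglyMeasurable hWm.aestronglyMeasurable
    have h1 : ∫ ω, (W (m :: v) ω - 1) ∂μ = 0 := by
      rw [h.integral_comp hum hsub]
      exact h.integral_sub_one
    have h2 : ∫ ω, incr W v n ω * incr W v m ω ∂μ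
        = ∫ ω, ((W (n :: v) ω - 1) * pathProduct W v ω ^ 2) * (W (m :: v) ω - 1) ∂μ := by
      apply integral_congr_ae
      exact Eventually.of_forall fun ω => congrFun e ω
    rw [h2]
    calc _ = (∫ ω, (W (n :: v) ω - 1) * pathProduct W v ω ^ 2 ∂μ) * ∫ ω, (W (m :: v) ω - 1) ∂μ := h0
      _ = 0 := by rw [h1, mul_zero]

lemma Hyp.incr_sq_integrable_and (v : List ℕ) (n : ℕ) :
    Integrable (fun ω => incr W v n ω * incr W v n ω) μ ∧
      ∫ ω, incr W v n ω * incr W v n ω ∂μ = (∫ ω, pathProduct W v ω ^ 2 ∂μ) * sigma2 ν := by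
  have hu : n :: v ≠ [] := by simp
  have hsq : Measurable (fun x : ℝ => x ^ 2) := by fun_prop
  have hsub : Measurable (fun x : ℝ => (x - 1) ^ 2) := by fun_prop
  have hI := (h.indep_path n v).comp hsq hsub
  have hW : Integrable (fun ω => (W (n :: v) ω - 1) ^ 2) μ :=
    h.integrable_comp hu hsub h.integrable_sub_one_sq
  have e : (fun ω => incr W v n ω * incr W v n ω)
      = (fun ω => pathProduct W v ω ^ 2) * (fun ω => (W (n :: v) ω - 1) ^ 2) := by
    funext ω
    simp only [incr, Pi.mul_apply]
    ring
  refine ⟨?_, ?_⟩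
  · rw [e]
    exact hI.integrable_mul (h.path_sq_integrable v) hW
  · have h0 := hI.integral_fun_mul_eq_mul_integral (h.path_sq_integrable v).aestronglyMeasurable
      hW.aestronglyMeasurable
    have h2 : ∫ ω, incr W v n ω * incr W v n ω ∂μ
        = ∫ ω, pathProduct W v ω ^ 2 * (W (n :: v) ω - 1) ^ 2 ∂μ := by
      apply integral_congr_ae
      exact Eventually.of_forall fun ω => congrFun e ω
    rw [h2]
    calc _ = (∫ ω, pathProduct W v ω ^ 2 ∂μ) * ∫ ω, (W (n :: v) ω - 1) ^ 2 ∂μ := h0
      _ = _ := by rw [h.integral_comp hu hsub]; rfl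

end

lemma path_cons_eq (W : List ℕ → Ω → ℝ) (v : List ℕ) (n : ℕ) (ω : Ω) :
    pathProduct W (n :: v) ω = pathProduct W v ω + incr W v n ω := by
  show pathProduct W v ω * W (n :: v) ω = pathProduct W v ω + pathProduct W v ω * (W (n :: v) ω - 1)
  ring

/-- The first moment is bounded by the square root of the second moment. -/
lemma integral_abs_le_sqrt [IsProbabilityMeasure μ] {f : Ω → ℝ} (hf : Integrable f μ)
    (hf2 : Integrable (fun ω => f ω * f ω) μ) :
    ∫ ω, |f ω| ∂μ ≤ Real.sqrt (∫ ω, f ω * f ω ∂μ) := by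
  apply Real.le_sqrt_of_sq_le
  set m : ℝ := ∫ ω, |f ω| ∂μ with hm
  have h1 : 0 ≤ ∫ ω, (|f ω| - m) ^ 2 ∂μ := integral_nonneg fun _ => sq_nonneg _
  have e : (fun ω => (|f ω| - m) ^ 2) = fun ω => f ω * f ω - 2 * m * |f ω| + m ^ 2 := by
    funext ω
    have : |f ω| ^ 2 = f ω * f ω := by rw [sq_abs, sq]
    nlinarith
  rw [e] at h1
  have hs : Integrable (fun ω => f ω * f ω - 2 * m * |f ω|) μ := hf2.sub (hf.abs.const_mul _)
  rw [integral_add hs (integrable_const _),
    integral_sub hf2 (hf.abs.const_mul _), integral_const_mul, ← hm] at h1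
  simp only [integral_const, probReal_univ, one_smul] at h1
  nlinarith

section

variable [IsProbabilityMeasure μ] [IsProbabilityMeasure ν] (h : Hyp ν μ W)
include h

/-- The `L¹` bound for combinations of increments. -/
theorem Hyp.integral_abs_sum_le (v : List ℕ) (A : Finset ℕ) (a : ℕ → ℝ) :
    ∫ ω, |∑ n ∈ A, a n * incr W v n ω| ∂μ
      ≤ Real.sqrt ((∫ ω, pathProduct W v ω ^ 2 ∂μ) * sigma2 ν) * Real.sqrt (∑ n ∈ A, a n ^ 2) := by
  classical
  set C : ℝ := (∫ ω, pathProduct W v ω ^ 2 ∂μ) * sigma2 ν with hC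
  have hC0 : 0 ≤ C := by
    apply mul_nonneg
    · exact integral_nonneg fun _ => sq_nonneg _
    · exact integral_nonneg fun _ => sq_nonneg _
  have hint : Integrable (fun ω => ∑ n ∈ A, a n * incr W v n ω) μ :=
    integrable_finsetSum _ fun n _ => (h.incr_integrable v n).const_mul _
  have hpair : ∀ n m, Integrable (fun ω => (a n * incr W v n ω) * (a m * incr W v m ω)) μ := by
    intro n m
    have h0 : Integrable (fun ω => incr W v n ω * incr W v m ω) μ := by
      by_cases hnm : n = m
      · subst hnm
        exact (h.incr_sq_integrable_and v n).1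
      · exact (h.incr_mul_integrable_and v hnm).1
    refine (h0.const_mul (a n * a m)).congr (Eventually.of_forall fun ω => ?_)
    show a n * a m * (incr W v n ω * incr W v m ω) = _
    ring
  have hexp : (fun ω => (∑ n ∈ A, a n * incr W v n ω) * (∑ n ∈ A, a n * incr W v n ω))
      = fun ω => ∑ n ∈ A, ∑ m ∈ A, (a n * incr W v n ω) * (a m * incr W v m ω) := by
    funext ω
    rw [Finset.sum_mul_sum]
  have hint2 : Integrable (fun ω => (∑ n ∈ A, a n * incr W v n ω) * (∑ n ∈ A, a n * incr W v n ω)) μ := by
    rw [hexp]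
    exact integrable_finsetSum _ fun n _ => integrable_finsetSum _ fun m _ => hpair n m
  have hval : ∫ ω, (∑ n ∈ A, a n * incr W v n ω) * (∑ n ∈ A, a n * incr W v n ω) ∂μ
      = C * ∑ n ∈ A, a n ^ 2 := by
    rw [hexp, integral_finsetSum _ fun n _ => integrable_finsetSum _ fun m _ => hpair n m,
      Finset.mul_sum]
    apply Finset.sum_congr rfl
    intro n hn
    rw [integral_finsetSum _ fun m _ => hpair n m]
    rw [Finset.sum_eq_single_of_mem n hn]
    · have e : (fun ω => (a n * incr W v n ω) * (a n * incr W v n ω))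
          = fun ω => a n ^ 2 * (incr W v n ω * incr W v n ω) := by
        funext ω; ring
      rw [e, integral_const_mul, (h.incr_sq_integrable_and v n).2, ← hC]
      ring
    · intro m _ hmn
      have e : (fun ω => (a n * incr W v n ω) * (a m * incr W v m ω))
          = fun ω => a n * a m * (incr W v n ω * incr W v m ω) := by
        funext ω; ring
      rw [e, integral_const_mul, (h.incr_mul_integrable_and v (Ne.symm hmn)).2, mul_zero]
  have := integral_abs_le_sqrt hint hint2
  rw [hval, Real.sqrt_mul hC0] at this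
  exact this

end

/-- `κ` is positive unless the law is a point mass. -/
lemma kappa_pos {ν : Measure ℝ} [IsProbabilityMeasure ν] (hnc : ∀ c : ℝ, ν ≠ Measure.dirac c)
    (hi : Integrable (fun x : ℝ => |x - 1|) ν) : 0 < kappa ν := by
  apply lt_of_le_of_ne (integral_nonneg fun _ => abs_nonneg _)
  intro h0
  have h1 : (fun x : ℝ => |x - 1|) =ᵐ[ν] 0 :=
    (integral_eq_zero_iff_of_nonneg (fun _ => abs_nonneg _) hi).mp h0.symm
  have h2 : (fun x : ℝ => x) =ᵐ[ν] fun _ => 1 := by
    filter_upwards [h1] with x hx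
    have : |x - 1| = 0 := hx
    have := abs_eq_zero.mp this
    linarith
  apply hnc 1
  have h3 : ν = ν.map (fun x : ℝ => x) := by
    simp [Measure.map_id']
  rw [h3, Measure.map_congr h2, Measure.map_const]
  simp

end Crest.Agent.Lib.AUC.TreeProd

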