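import Mathlib
import Crest.Prelude.Def_TreePotentials
import Crest.Agent.Lib.AUCGame

set_option autoImplicit false

namespace Crest.Agent.Lib.AUC

open Crest.AnalysisR.TreePotential
open Filter Topology

/-! ### Elementary facts on tests -/

lemma pathPotential_neg (f : List ℕ → ℝ) (s : List ℕ) :
    pathPotential (fun u => - f u) s = - pathPotential f s := by
  induction s with
  | nil => simp [pathPotential]
  | cons a v ih => simp [pathPotential, ih]; ring

lemma isTest_neg {m : PotentialModel} {f : List ℕ → ℝ} (hf : IsTest m f) :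
    IsTest m (fun u => - f u) := by
  refine ⟨fun s => ?_, ?_⟩
  · rw [pathPotential_neg, abs_neg]; exact hf.1 s
  · have h2 := hf.2
    cases m with
    | rootlessSibling =>
      refine ⟨by simpa using h2.1, fun r A => ?_⟩
      simpa using h2.2 r A
    | rootedSibling =>
      intro r A
      simpa using h2 r A
    | antichain =>
      refine ⟨?_, fun A hA => ?_⟩
      · have : Function.support (fun u => - f u) = Function.support f := by
          ext u; simp
        rw [this]; exact h2.1
      · simpa using h2.2 A hA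
    | global =>
      intro A
      simpa using h2 A

lemma isTest_zero (m : PotentialModel) : IsTest m (fun _ => 0) := by
  have hpot : ∀ s, pathPotential (fun _ => (0:ℝ)) s = 0 := by
    intro s
    induction s with
    | nil => simp [pathPotential]
    | cons a v ih => simp [pathPotential, ih]
  refine ⟨fun s => by simp [hpot], ?_⟩
  cases m with
  | rootlessSibling => exact ⟨rfl, fun r A => by simp⟩
  | rootedSibling => exact fun r A => by simp
  | antichain => exact ⟨by simp, fun A _ => by simp⟩
  | global => exact fun A => by simp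

/-- The Dirac family at a vertex. -/
noncomputable def delta (s : List ℕ) : List ℕ → ℝ := fun u => if u = s then 1 else 0

lemma pathPotential_delta (s v : List ℕ) :
    pathPotential (delta s) v = if s <:+ v then 1 else 0 := by
  induction v with
  | nil =>
    by_cases h : s = []
    · subst h; simp [pathPotential, delta]
    · have h' : ¬ s <:+ [] := by
        intro hs
        exact h (List.suffix_nil.mp hs)
      have h'' : ¬ ([] : List ℕ) = s := fun e => h e.symm
      simp [pathPotential, delta, h', h'']
  | cons a v ih =>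
    simp only [pathPotential, ih, delta]
    by_cases h : a :: v = s
    · subst h
      have : ¬ (a :: v) <:+ v := by
        intro hs
        have := hs.length_le
        simp at this
      simp [this]
    · by_cases h2 : s <:+ v
      · have h3 : s <:+ a :: v := h2.trans (List.suffix_cons a v)
        simp [h, h2, h3]
      · have h3 : ¬ s <:+ a :: v := by
          intro hs
          rcases List.suffix_cons_iff.mp hs with e | e
          · exact h e.symm
          · exact h2 e
        simp [h, h2, h3]

lemma delta_sq_sum_le (s : List ℕ) {ι : Type*} (A : Finset ι) (c : ι → List ℕ)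
    (hc : Function.Injective c) :
    ∑ i ∈ A, delta s (c i) ^ 2 ≤ 1 := by
  classical
  by_cases h : ∃ i ∈ A, c i = s
  · obtain ⟨i₀, hi₀, rfl⟩ := h
    have : ∑ i ∈ A, delta (c i₀) (c i) ^ 2 = delta (c i₀) (c i₀) ^ 2 := by
      apply Finset.sum_eq_single_of_mem i₀ hi₀
      intro b _ hb
      have : c b ≠ c i₀ := fun e => hb (hc e)
      simp [delta, this]
    rw [this]; simp [delta]
  · have : ∑ i ∈ A, delta s (c i) ^ 2 = 0 := by
      apply Finset.sum_eq_zero
      intro i hi
      have : c i ≠ s := fun e => h ⟨i, hi, e⟩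
      simp [delta, this]
    rw [this]; norm_num

lemma isTest_delta (m : PotentialModel) (s : List ℕ)
    (h : s ≠ [] ∨ m ≠ PotentialModel.rootlessSibling) : IsTest m (delta s) := by
  refine ⟨fun v => ?_, ?_⟩
  · rw [pathPotential_delta]
    split_ifs <;> simp
  · have hinj : ∀ r : List ℕ, Function.Injective (fun n : ℕ => n :: r) := by
      intro r a b hab
      simpa using hab
    cases m with
    | rootlessSibling =>
      have hs : s ≠ [] := by
        rcases h with h | h
        · exact h
        · exact absurd rfl h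
      refine ⟨?_, fun r A => delta_sq_sum_le s A _ (hinj r)⟩
      have : ([] : List ℕ) ≠ s := fun e => hs e.symm
      simp [delta, this]
    | rootedSibling => exact fun r A => delta_sq_sum_le s A _ (hinj r)
    | antichain =>
      refine ⟨?_, fun A _ => delta_sq_sum_le s A _ Function.injective_id⟩
      apply (Set.finite_singleton s).subset
      intro u hu
      by_contra hne
      apply hu
      have : u ≠ s := hne
      simp [delta, this]
    | global => exact fun A => delta_sq_sum_le s A _ Function.injective_id

open Classical in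
/-- The function underlying `coordTest`. -/
noncomputable def coordFun (m : PotentialModel) (s : List ℕ) : List ℕ → ℝ :=
  if IsTest m (delta s) then delta s else fun _ => 0

lemma isTest_coordFun (m : PotentialModel) (s : List ℕ) : IsTest m (coordFun m s) := by
  unfold coordFun
  split_ifs with h
  · exact h
  · exact isTest_zero m

/-- The test picking out the coordinate at `s` (the zero test for the root in the rootless model). -/
noncomputable def coordTest (m : PotentialModel) (s : List ℕ) : PotentialTest m :=
  ⟨coordFun m s, isTest_coordFun m s⟩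

lemma coordTest_apply_ne (m : PotentialModel) {s w : List ℕ} (h : w ≠ s) :
    (coordTest m s).1 w = 0 := by
  show coordFun m s w = 0
  unfold coordFun
  split_ifs with h1
  · simp [delta, h]
  · rfl

lemma coordTest_apply_self (m : PotentialModel) {s : List ℕ}
    (h : s ≠ [] ∨ m ≠ PotentialModel.rootlessSibling) :
    (coordTest m s).1 s = 1 := by
  show coordFun m s s = 1
  unfold coordFun
  rw [if_pos (isTest_delta m s h)]
  simp [delta]

lemma mul_coordTest_self {m : PotentialModel} {g : List ℕ → ℝ} (hg : IsTest m g) (w : List ℕ) :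
    g w * (coordTest m w).1 w = g w := by
  by_cases h : w ≠ [] ∨ m ≠ PotentialModel.rootlessSibling
  · rw [coordTest_apply_self m h, mul_one]
  · push Not at h
    obtain ⟨rfl, rfl⟩ := h
    have : g [] = 0 := hg.2.1
    simp [this]

lemma sum_mul_coordTest {m : PotentialModel} {g : List ℕ → ℝ} (hg : IsTest m g)
    (S : Finset (List ℕ)) (w : List ℕ) :
    ∑ s ∈ S, g s * (coordTest m s).1 w = if w ∈ S then g w else 0 := by
  classical
  split_ifs with h
  · rw [Finset.sum_eq_single_of_mem w h]
    · exact mul_coordTest_self hg w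
    · intro b _ hb
      rw [coordTest_apply_ne m (Ne.symm hb), mul_zero]
  · apply Finset.sum_eq_zero
    intro s hs
    have : w ≠ s := fun e => h (e ▸ hs)
    rw [coordTest_apply_ne m this, mul_zero]

/-- Every test has the children square sum bound. -/
lemma child_sq_le {m : PotentialModel} {f : List ℕ → ℝ} (hf : IsTest m f) (r : List ℕ)
    (A : Finset ℕ) : ∑ n ∈ A, f (n :: r) ^ 2 ≤ 1 := by
  classical
  have hinj : Set.InjOn (fun n : ℕ => n :: r) (A : Set ℕ) := by
    intro a _ b _ hab
    simpa using hab
  have himg : ∑ n ∈ A, f (n :: r) ^ 2 = ∑ u ∈ A.image (fun n : ℕ => n :: r), f u ^ 2 := by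
    rw [Finset.sum_image hinj]
  have h2 := hf.2
  cases m with
  | rootlessSibling => exact h2.2 r A
  | rootedSibling => exact h2 r A
  | antichain =>
    rw [himg]
    apply h2.2
    intro u hu v hv huv hs
    rcases Finset.mem_image.mp hu with ⟨a, _, rfl⟩
    rcases Finset.mem_image.mp hv with ⟨b, _, rfl⟩
    have := hs.eq_of_length (by simp)
    exact huv this
  | global =>
    rw [himg]
    exact h2 _

/-! ### Combination of two tests -/

/-- A set of vertices containing the root and closed under taking parents. -/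
structure Rooted (S : Set (List ℕ)) : Prop where
  root : [] ∈ S
  closed : ∀ a v, a :: v ∈ S → v ∈ S

open Classical in
/-- The last vertex of `S` on the root path of a vertex. -/
noncomputable def projS (S : Set (List ℕ)) : List ℕ → List ℕ
  | [] => []
  | a :: v => if a :: v ∈ S then a :: v else projS S v

lemma projS_of_mem {S : Set (List ℕ)} {v : List ℕ} (h : v ∈ S) : projS S v = v := by
  cases v with
  | nil => rfl
  | cons a v => simp [projS, h]

lemma projS_cons_of_notMem {S : Set (List ℕ)} {a : ℕ} {v : List ℕ} (h : a :: v ∉ S) :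
    projS S (a :: v) = projS S v := by
  simp [projS, h]

/-- clamp to the interval `[-1-c, 1-c]`. -/
noncomputable def clampC (c P : ℝ) : ℝ := max (-1 - c) (min (1 - c) P)

lemma clampC_zero {c : ℝ} (hc : |c| ≤ 1) : clampC c 0 = 0 := by
  rw [abs_le] at hc
  unfold clampC
  rw [min_eq_right (by linarith), max_eq_right (by linarith)]

lemma abs_add_clampC {c : ℝ} (hc : |c| ≤ 1) (P : ℝ) : |c + clampC c P| ≤ 1 := by
  rw [abs_le] at hc ⊢
  unfold clampC
  constructor
  · have := le_max_left (-1 - c) (min (1 - c) P)
    linarith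
  · have : max (-1 - c) (min (1 - c) P) ≤ 1 - c :=
      max_le (by linarith) (min_le_left _ _)
    linarith

lemma abs_sub_sub_clampC {c P : ℝ} (hc : |c| ≤ 1) (hP : |P| ≤ 2) :
    |c + -(P - clampC c P)| ≤ 1 := by
  rw [abs_le] at hc hP ⊢
  unfold clampC
  rcases le_total (1 - c) P with h1 | h1
  · rw [min_eq_left h1, max_eq_right (by linarith)]
    constructor <;> linarith
  · rw [min_eq_right h1]
    rcases le_total (-1 - c) P with h2 | h2
    · rw [max_eq_right h2]
      constructor <;> linarith
    · rw [max_eq_left h2]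
      constructor <;> linarith

lemma abs_clampC_sub (c P Q : ℝ) (hc : |c| ≤ 1) : |clampC c P - clampC c Q| ≤ |P - Q| := by
  rw [abs_le] at hc
  unfold clampC
  rw [abs_le]
  rcases le_total (1 - c) P with h1 | h1 <;> rcases le_total (-1 - c) P with h2 | h2 <;>
  rcases le_total (1 - c) Q with h3 | h3 <;> rcases le_total (-1 - c) Q with h4 | h4 <;>
  simp only [min_eq_left, min_eq_right, max_eq_left, max_eq_right, h1, h2, h3, h4] <;>
  (try first | rw [max_eq_right (by linarith)] | rw [max_eq_left (by linarith)]) <;>
  (try first | rw [max_eq_right (by linarith)] | rw [max_eq_left (by linarith)]) <;>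
  (rcases abs_cases (P - Q) with ⟨h5, h6⟩ | ⟨h5, h6⟩ <;> rw [h5] <;> constructor <;> linarith)

lemma abs_sub_clampC_sub (c P Q : ℝ) (hc : |c| ≤ 1) :
    |-(P - clampC c P) - -(Q - clampC c Q)| ≤ |P - Q| := by
  rw [abs_le] at hc
  unfold clampC
  rw [abs_le]
  rcases le_total (1 - c) P with h1 | h1 <;> rcases le_total (-1 - c) P with h2 | h2 <;>
  rcases le_total (1 - c) Q with h3 | h3 <;> rcases le_total (-1 - c) Q with h4 | h4 <;>
  simp only [min_eq_left, min_eq_right, max_eq_left, max_eq_right, h1, h2, h3, h4] <;>
  (try first | rw [max_eq_right (by linarith)] | rw [max_eq_left (by linarith)]) <;>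
  (try first | rw [max_eq_right (by linarith)] | rw [max_eq_left (by linarith)]) <;>
  (rcases abs_cases (P - Q) with ⟨h5, h6⟩ | ⟨h5, h6⟩ <;> rw [h5] <;> constructor <;> linarith)

open Classical in
/-- `A f` on `S`, increments of `r` off `S`. -/
noncomputable def buildT (S : Set (List ℕ)) (A : ℝ) (f r : List ℕ → ℝ) : List ℕ → ℝ :=
  fun v => if v ∈ S then A * f v else r v - r v.tail

lemma pathPotential_buildT {S : Set (List ℕ)} (hS : Rooted S) (A : ℝ) (f r : List ℕ → ℝ)
    (hr : ∀ v ∈ S, r v = 0) (v : List ℕ) :
    pathPotential (buildT S A f r) v = A * pathPotential f (projS S v) + r v := by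
  induction v with
  | nil =>
    simp [pathPotential, buildT, hS.root, projS, hr _ hS.root]
  | cons a v ih =>
    by_cases h : a :: v ∈ S
    · have hv : v ∈ S := hS.closed a v h
      rw [projS_of_mem h, hr _ h]
      rw [projS_of_mem hv, hr _ hv] at ih
      simp [pathPotential, buildT, h, ih]
      ring
    · rw [projS_cons_of_notMem h]
      simp [pathPotential, buildT, h, ih]

lemma sum_sq_buildT {S : Set (List ℕ)} {A B : ℝ} (hA2 : A ^ 2 + B ^ 2 ≤ 1) (hB : 0 ≤ B)
    {f g r : List ℕ → ℝ} (hrg : ∀ v, v ∉ S → |r v - r v.tail| ≤ B * |g v|)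
    {ι : Type*} [DecidableEq ι] (s : Finset ι) (c : ι → List ℕ)
    (hf : ∀ t ⊆ s, ∑ i ∈ t, f (c i) ^ 2 ≤ 1) (hg : ∀ t ⊆ s, ∑ i ∈ t, g (c i) ^ 2 ≤ 1) :
    ∑ i ∈ s, buildT S A f r (c i) ^ 2 ≤ 1 := by
  classical
  rw [← Finset.sum_filter_add_sum_filter_not s (fun i => c i ∈ S)]
  have h1 : ∑ i ∈ s.filter (fun i => c i ∈ S), buildT S A f r (c i) ^ 2
      = A ^ 2 * ∑ i ∈ s.filter (fun i => c i ∈ S), f (c i) ^ 2 := by
    rw [Finset.mul_sum]
    apply Finset.sum_congr rfl
    intro i hi
    have := (Finset.mem_filter.mp hi).2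
    simp only [buildT, this, if_true]
    ring
  have h2 : ∑ i ∈ s.filter (fun i => ¬ c i ∈ S), buildT S A f r (c i) ^ 2
      ≤ B ^ 2 * ∑ i ∈ s.filter (fun i => ¬ c i ∈ S), g (c i) ^ 2 := by
    rw [Finset.mul_sum]
    apply Finset.sum_le_sum
    intro i hi
    have hi2 := (Finset.mem_filter.mp hi).2
    simp only [buildT, hi2, if_false]
    have h3 := hrg _ hi2
    have h4 : (r (c i) - r (c i).tail) ^ 2 ≤ (B * |g (c i)|) ^ 2 := by
      rw [← sq_abs]
      exact pow_le_pow_left₀ (abs_nonneg _) h3 2
    calc (r (c i) - r (c i).tail) ^ 2 ≤ (B * |g (c i)|) ^ 2 := h4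
      _ = B ^ 2 * g (c i) ^ 2 := by rw [mul_pow, sq_abs]
  have h3 := hf _ (Finset.filter_subset (fun i => c i ∈ S) s)
  have h4 := hg _ (Finset.filter_subset (fun i => ¬ c i ∈ S) s)
  have hA0 : 0 ≤ A ^ 2 := sq_nonneg _
  have hB0 : 0 ≤ B ^ 2 := sq_nonneg _
  rw [h1]
  nlinarith

lemma isTest_buildT {m : PotentialModel} {S : Set (List ℕ)} (hS : Rooted S) {A B : ℝ}
    (hA2 : A ^ 2 + B ^ 2 ≤ 1) (hB : 0 ≤ B) {f g r : List ℕ → ℝ}
    (hf : IsTest m f) (hg : IsTest m g)
    (hr : ∀ v ∈ S, r v = 0)
    (hpot : ∀ v, |A * pathPotential f (projS S v) + r v| ≤ 1)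
    (hrg : ∀ v, v ∉ S → |r v - r v.tail| ≤ B * |g v|) :
    IsTest m (buildT S A f r) := by
  classical
  refine ⟨fun v => ?_, ?_⟩
  · rw [pathPotential_buildT hS A f r hr]
    exact hpot v
  · have hf2 := hf.2
    have hg2 := hg.2
    cases m with
    | rootlessSibling =>
      refine ⟨?_, fun r' A' => ?_⟩
      · simp [buildT, hS.root, hf2.1]
      · exact sum_sq_buildT hA2 hB hrg A' (fun n => n :: r')
          (fun t _ => hf2.2 r' t) (fun t _ => hg2.2 r' t)
    | rootedSibling =>
      intro r' A'
      exact sum_sq_buildT hA2 hB hrg A' (fun n => n :: r')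
          (fun t _ => hf2 r' t) (fun t _ => hg2 r' t)
    | antichain =>
      refine ⟨?_, fun A' hA' => ?_⟩
      · apply (hf2.1.union hg2.1).subset
        intro v hv
        by_cases hvS : v ∈ S
        · left
          intro hfv
          apply hv
          simp [buildT, hvS, hfv]
        · right
          intro hgv
          apply hv
          have h3 := hrg v hvS
          rw [hgv] at h3
          simp only [abs_zero, mul_zero] at h3
          have h4 : r v - r v.tail = 0 := abs_eq_zero.mp (le_antisymm h3 (abs_nonneg _))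
          simp [buildT, hvS, h4]
      · have hsub : ∀ t ⊆ A', IsTreeAntichain t := fun t ht u hu v hv huv =>
          hA' u (ht hu) v (ht hv) huv
        exact sum_sq_buildT hA2 hB hrg A' id
          (fun t ht => hf2.2 t (hsub t ht)) (fun t ht => hg2.2 t (hsub t ht))
    | global =>
      intro A'
      exact sum_sq_buildT hA2 hB hrg A' id (fun t _ => hf2 t) (fun t _ => hg2 t)

/-- The combination lemma: given tests `f, g` there are two tests agreeing with `A f` on `S`
whose difference off `S` is `B g`. -/
theorem exists_combo {m : PotentialModel} {S : Set (List ℕ)} (hS : Rooted S)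
    {f g : List ℕ → ℝ} (hf : IsTest m f) (hg : IsTest m g) {A B : ℝ} (hA : 0 ≤ A) (hB : 0 ≤ B)
    (hAB : A ^ 2 + B ^ 2 ≤ 1) :
    ∃ h₁ h₂ : List ℕ → ℝ, IsTest m h₁ ∧ IsTest m h₂ ∧ (∀ s ∈ S, h₁ s = A * f s) ∧
      (∀ s ∈ S, h₂ s = A * f s) ∧ ∀ s, s ∉ S → h₁ s - h₂ s = B * g s := by
  classical
  have hA1 : A ≤ 1 := by nlinarith [sq_nonneg B]
  have hB1 : B ≤ 1 := by nlinarith [sq_nonneg A]
  -- the centres and the increments
  set c : List ℕ → ℝ := fun v => A * pathPotential f (projS S v) with hc
  set P : List ℕ → ℝ := fun v => B * (pathPotential g v - pathPotential g (projS S v)) with hP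
  have hc1 : ∀ v, |c v| ≤ 1 := by
    intro v
    have h1 := hf.1 (projS S v)
    simp only [hc, abs_mul, abs_of_nonneg hA]
    nlinarith [abs_nonneg (pathPotential f (projS S v))]
  have hP2 : ∀ v, |P v| ≤ 2 := by
    intro v
    have h1 := hg.1 v
    have h2 := hg.1 (projS S v)
    have h3 : |pathPotential g v - pathPotential g (projS S v)| ≤ 2 := by
      have := abs_sub (pathPotential g v) (pathPotential g (projS S v))
      linarith
    simp only [hP, abs_mul, abs_of_nonneg hB]
    nlinarith [abs_nonneg (pathPotential g v - pathPotential g (projS S v))]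
  have hP0 : ∀ v ∈ S, P v = 0 := by
    intro v hv
    simp [hP, projS_of_mem hv]
  have hPstep : ∀ a v, a :: v ∉ S → P (a :: v) - P v = B * g (a :: v) := by
    intro a v h
    simp only [hP, projS_cons_of_notMem h, pathPotential]
    ring
  have hcstep : ∀ a v, a :: v ∉ S → c (a :: v) = c v := by
    intro a v h
    simp only [hc, projS_cons_of_notMem h]
  set r₁ : List ℕ → ℝ := fun v => clampC (c v) (P v) with hr₁
  set r₂ : List ℕ → ℝ := fun v => -(P v - clampC (c v) (P v)) with hr₂
  have hr₁0 : ∀ v ∈ S, r₁ v = 0 := by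
    intro v hv
    simp only [hr₁, hP0 v hv, clampC_zero (hc1 v)]
  have hr₂0 : ∀ v ∈ S, r₂ v = 0 := by
    intro v hv
    simp only [hr₂, hP0 v hv, clampC_zero (hc1 v)]
    simp
  have hnotroot : ∀ v, v ∉ S → ∃ a w, v = a :: w := by
    intro v hv
    cases v with
    | nil => exact absurd hS.root hv
    | cons a w => exact ⟨a, w, rfl⟩
  refine ⟨buildT S A f r₁, buildT S A f r₂, ?_, ?_, ?_, ?_, ?_⟩
  · apply isTest_buildT hS hAB hB hf hg hr₁0
    · intro v
      exact abs_add_clampC (hc1 v) (P v)
    · intro v hv
      obtain ⟨a, w, rfl⟩ := hnotroot v hv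
      simp only [hr₁, List.tail_cons, hcstep a w hv]
      refine (abs_clampC_sub _ _ _ (hc1 w)).trans ?_
      rw [hPstep a w hv, abs_mul, abs_of_nonneg hB]
  · apply isTest_buildT hS hAB hB hf hg hr₂0
    · intro v
      exact abs_sub_sub_clampC (hc1 v) (hP2 v)
    · intro v hv
      obtain ⟨a, w, rfl⟩ := hnotroot v hv
      simp only [hr₂, List.tail_cons, hcstep a w hv]
      refine (abs_sub_clampC_sub _ _ _ (hc1 w)).trans ?_
      rw [hPstep a w hv, abs_mul, abs_of_nonneg hB]
  · intro s hs
    simp [buildT, hs]
  · intro s hs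
    simp [buildT, hs]
  · intro s hs
    obtain ⟨a, w, rfl⟩ := hnotroot s hs
    simp only [buildT, hs, if_false, hr₁, hr₂, List.tail_cons, hcstep a w hs]
    have := hPstep a w hs
    linarith

end Crest.Agent.Lib.AUC
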