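import Mathlib
import Crest.Prelude.Def_TreePotentials
import Crest.Agent.Lib.AUCGame
import Crest.Agent.Lib.TreeTests

set_option autoImplicit false

namespace Crest.Agent.Lib.AUC

open Crest.AnalysisR.TreePotential
open Filter Topology

/-- The ambient space of a model. -/
abbrev Amb (m : PotentialModel) := lp (fun _ : PotentialTest m => ℝ) ⊤

/-- Evaluation at a test. -/
noncomputable def ev {m : PotentialModel} (h : PotentialTest m) : Amb m →L[ℝ] ℝ :=
  lp.evalCLM ℝ (fun _ : PotentialTest m => ℝ) ⊤ h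

lemma ev_apply {m : PotentialModel} (h : PotentialTest m) (u : Amb m) : ev h u = u h := rfl

lemma ev_coordVector {m : PotentialModel} (h : PotentialTest m) (s : List ℕ) :
    ev h (coordVector m s) = h.1 s := rfl

lemma abs_ev_le {m : PotentialModel} (h : PotentialTest m) (u : Amb m) : |ev h u| ≤ ‖u‖ :=
  lp.norm_apply_le_norm (by simp) u h

instance (m : PotentialModel) : Nonempty (PotentialTest m) := ⟨⟨fun _ => 0, isTest_zero m⟩⟩

lemma norm_le_of_forall_ev {m : PotentialModel} {u : Amb m} {C : ℝ} (hC : 0 ≤ C)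
    (h : ∀ f : PotentialTest m, |ev f u| ≤ C) : ‖u‖ ≤ C :=
  lp.norm_le_of_forall_le hC h

/-- Negation of a test. -/
def negTest {m : PotentialModel} (f : PotentialTest m) : PotentialTest m :=
  ⟨fun u => - f.1 u, isTest_neg f.2⟩

lemma ev_negTest {m : PotentialModel} (f : PotentialTest m) {u : Amb m}
    (hu : u ∈ modelSpace m) : ev (negTest f) u = - ev f u := by
  have hcl : u ∈ closure (Submodule.span ℝ (Set.range (coordVector m)) : Set (Amb m)) := hu
  have := ContinuousLinearMap.eqOn_closure_span (f := ev (negTest f)) (g := -ev f)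
    (s := Set.range (coordVector m)) (by
      rintro _ ⟨s, rfl⟩
      rfl) hcl
  simpa using this

/-- Norming tests. -/
lemma exists_test_norming {m : PotentialModel} {u : Amb m} (hu : u ∈ modelSpace m)
    {ε : ℝ} (hε : 0 < ε) : ∃ f : PotentialTest m, ‖u‖ - ε ≤ ev f u := by
  have hlub : IsLUB (Set.range fun i => ‖(u : PotentialTest m → ℝ) i‖) ‖u‖ := lp.isLUB_norm u
  obtain ⟨_, ⟨f, rfl⟩, hf⟩ := hlub.exists_between (show ‖u‖ - ε < ‖u‖ by linarith)
  simp only [Real.norm_eq_abs] at hf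
  rcases abs_cases (u f) with ⟨h1, h2⟩ | ⟨h1, h2⟩
  · refine ⟨f, ?_⟩
    rw [ev_apply]
    linarith [hf.1]
  · refine ⟨negTest f, ?_⟩
    rw [ev_negTest f hu, ev_apply]
    linarith [hf.1]

lemma span_le_modelSpace (m : PotentialModel) (V : Set (List ℕ)) :
    Submodule.span ℝ (coordVector m '' V) ≤ modelSpace m := by
  refine le_trans (Submodule.span_mono ?_) (Submodule.le_topologicalClosure _)
  rintro _ ⟨s, _, rfl⟩
  exact ⟨s, rfl⟩

/-- The key two-test bound. -/
theorem combo_bound {m : PotentialModel} {S : Finset (List ℕ)} (hS : Rooted (S : Set (List ℕ)))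
    {x y : Amb m} (hx : x ∈ Submodule.span ℝ (coordVector m '' (S : Set (List ℕ))))
    (hy : y ∈ modelSpace m) (hy0 : ∀ s ∈ S, ev (coordTest m s) y = 0) {t : ℝ} (ht : 0 ≤ t)
    {A B : ℝ} (hA : 0 ≤ A) (hB : 0 ≤ B) (hAB : A ^ 2 + B ^ 2 ≤ 1) :
    2 * A * ‖x‖ + t * B * ‖y‖ ≤ ‖x + t • y‖ + ‖x - t • y‖ := by
  classical
  have hxm : x ∈ modelSpace m := span_le_modelSpace m _ hx
  apply le_of_forall_pos_le_add
  intro ε hε
  set C : ℝ := 2 * A + t * B + 1 with hC
  have hCpos : 0 < C := by positivity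
  set δ : ℝ := ε / C with hδ
  have hδpos : 0 < δ := by positivity
  obtain ⟨f, hf⟩ := exists_test_norming hxm hδpos
  obtain ⟨g, hg⟩ := exists_test_norming hy hδpos
  obtain ⟨h₁, h₂, hh₁, hh₂, hS₁, hS₂, hdiff⟩ := exists_combo hS f.2 g.2 hA hB hAB
  let t₁ : PotentialTest m := ⟨h₁, hh₁⟩
  let t₂ : PotentialTest m := ⟨h₂, hh₂⟩
  have E1 : ev t₁ x = A * ev f x := by
    have := LinearMap.eqOn_span (f := (ev t₁ : Amb m →ₗ[ℝ] ℝ)) (g := A • (ev f : Amb m →ₗ[ℝ] ℝ))
      (s := coordVector m '' (S : Set (List ℕ))) (by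
        rintro _ ⟨s, hs, rfl⟩
        show h₁ s = A * f.1 s
        exact hS₁ s hs) hx
    simpa using this
  have E2 : ev t₂ x = A * ev f x := by
    have := LinearMap.eqOn_span (f := (ev t₂ : Amb m →ₗ[ℝ] ℝ)) (g := A • (ev f : Amb m →ₗ[ℝ] ℝ))
      (s := coordVector m '' (S : Set (List ℕ))) (by
        rintro _ ⟨s, hs, rfl⟩
        show h₂ s = A * f.1 s
        exact hS₂ s hs) hx
    simpa using this
  have E3 : ev t₁ y - ev t₂ y = B * (ev g y - ∑ s ∈ S, g.1 s * ev (coordTest m s) y) := by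
    have hcl : y ∈ closure (Submodule.span ℝ (Set.range (coordVector m)) : Set (Amb m)) := hy
    have := ContinuousLinearMap.eqOn_closure_span (f := ev t₁ - ev t₂)
      (g := B • (ev g - ∑ s ∈ S, g.1 s • ev (coordTest m s)))
      (s := Set.range (coordVector m)) (by
        rintro _ ⟨w, rfl⟩
        simp only [ContinuousLinearMap.sub_apply, ContinuousLinearMap.smul_apply,
          ContinuousLinearMap.sum_apply, smul_eq_mul, ev_coordVector]
        rw [sum_mul_coordTest g.2 S w]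
        show h₁ w - h₂ w = _
        by_cases hw : w ∈ S
        · rw [hS₁ w hw, hS₂ w hw, if_pos hw]
          simp
        · rw [hdiff w (by simpa using hw), if_neg hw]
          simp) hcl
    simpa [smul_eq_mul] using this
  have E4 : ev t₁ y - ev t₂ y = B * ev g y := by
    rw [E3, Finset.sum_eq_zero (fun s hs => by rw [hy0 s hs, mul_zero]), sub_zero]
  have N1 : ev t₁ (x + t • y) ≤ ‖x + t • y‖ := (le_abs_self _).trans (abs_ev_le t₁ _)
  have N2 : ev t₂ (x - t • y) ≤ ‖x - t • y‖ := (le_abs_self _).trans (abs_ev_le t₂ _)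
  rw [map_add, map_smul, smul_eq_mul, E1] at N1
  rw [map_sub, map_smul, smul_eq_mul, E2] at N2
  have hCδ : C * δ = ε := by rw [hδ]; field_simp
  have key1 : 2 * A * (‖x‖ - δ) ≤ 2 * A * ev f x :=
    mul_le_mul_of_nonneg_left hf (by positivity)
  have key2 : t * B * (‖y‖ - δ) ≤ t * B * ev g y :=
    mul_le_mul_of_nonneg_left hg (by positivity)
  have key3 : t * (ev t₁ y - ev t₂ y) = t * B * ev g y := by rw [E4]; ring
  nlinarith

/-- The main inequality. -/
theorem main_ineq {m : PotentialModel} {S : Finset (List ℕ)} (hS : Rooted (S : Set (List ℕ)))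
    {x y : Amb m} (hx : x ∈ Submodule.span ℝ (coordVector m '' (S : Set (List ℕ))))
    (hy : y ∈ modelSpace m) (hy0 : ∀ s ∈ S, ev (coordTest m s) y = 0) {t : ℝ} (ht : 0 ≤ t) :
    2 * Real.sqrt (‖x‖ ^ 2 + t ^ 2 * ‖y‖ ^ 2 / 4) ≤ ‖x + t • y‖ + ‖x - t • y‖ := by
  set R : ℝ := Real.sqrt (‖x‖ ^ 2 + t ^ 2 * ‖y‖ ^ 2 / 4) with hR
  have hRsq : R ^ 2 = ‖x‖ ^ 2 + t ^ 2 * ‖y‖ ^ 2 / 4 := Real.sq_sqrt (by positivity)
  by_cases hR0 : R = 0
  · rw [hR0]
    have : 0 ≤ ‖x + t • y‖ + ‖x - t • y‖ := by positivity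
    simpa using this
  have hRpos : 0 < R := lt_of_le_of_ne (Real.sqrt_nonneg _) (Ne.symm hR0)
  have := combo_bound hS hx hy hy0 ht (A := ‖x‖ / R) (B := t * ‖y‖ / 2 / R) (by positivity)
    (by positivity) (by
      have : (‖x‖ / R) ^ 2 + (t * ‖y‖ / 2 / R) ^ 2 = (‖x‖ ^ 2 + t ^ 2 * ‖y‖ ^ 2 / 4) / R ^ 2 := by
        field_simp
        ring
      rw [this, ← hRsq, div_self (by positivity)])
  have h2 : 2 * (‖x‖ / R) * ‖x‖ + t * (t * ‖y‖ / 2 / R) * ‖y‖ = 2 * R := by
    have : 2 * (‖x‖ / R) * ‖x‖ + t * (t * ‖y‖ / 2 / R) * ‖y‖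
        = 2 * (‖x‖ ^ 2 + t ^ 2 * ‖y‖ ^ 2 / 4) / R := by
      field_simp
      ring
    rw [this, ← hRsq]
    field_simp
  linarith

/-- A finite rooted set of vertices containing a given finite set. -/
noncomputable def rootedHull (S₀ : Finset (List ℕ)) : Finset (List ℕ) :=
  insert [] (S₀.biUnion fun v => v.tails.toFinset)

lemma mem_rootedHull {S₀ : Finset (List ℕ)} {u : List ℕ} :
    u ∈ rootedHull S₀ ↔ u = [] ∨ ∃ v ∈ S₀, u <:+ v := by
  simp [rootedHull]

lemma rooted_rootedHull (S₀ : Finset (List ℕ)) :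
    Rooted (rootedHull S₀ : Set (List ℕ)) := by
  refine ⟨by simp [mem_rootedHull], ?_⟩
  intro a v h
  have h' : a :: v ∈ rootedHull S₀ := h
  rw [mem_rootedHull] at h'
  have h2 : v ∈ rootedHull S₀ := by
    rw [mem_rootedHull]
    rcases h' with h' | ⟨w, hw, hs⟩
    · simp at h'
    · exact Or.inr ⟨w, hw, (List.suffix_cons a v).trans hs⟩
  exact h2

lemma subset_rootedHull (S₀ : Finset (List ℕ)) : S₀ ⊆ rootedHull S₀ := by
  intro v hv
  rw [mem_rootedHull]
  exact Or.inr ⟨v, hv, List.suffix_rfl⟩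

lemma rootedHull_subset {V : Set (List ℕ)} (h0 : [] ∈ V) (hV : ∀ a v, a :: v ∈ V → v ∈ V)
    {S₀ : Finset (List ℕ)} (hS₀ : (S₀ : Set (List ℕ)) ⊆ V) :
    (rootedHull S₀ : Set (List ℕ)) ⊆ V := by
  have hsuf : ∀ w : List ℕ, w ∈ V → ∀ u : List ℕ, u <:+ w → u ∈ V := by
    intro w
    induction w with
    | nil =>
      intro hw u hu
      rw [List.suffix_nil.mp hu]
      exact hw
    | cons a w ih =>
      intro hw u hu
      rcases List.suffix_cons_iff.mp hu with e | e
      · rw [e]; exact hw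
      · exact ih (hV a w hw) u e
  intro u hu
  have hu' : u ∈ rootedHull S₀ := hu
  rw [mem_rootedHull] at hu'
  rcases hu' with rfl | ⟨w, hw, hs⟩
  · exact h0
  · exact hsuf w (hS₀ hw) u hs

/-- Approximation by finite combinations on a rooted finite set. -/
lemma exists_rooted_approx {m : PotentialModel} {V : Set (List ℕ)} (h0 : [] ∈ V)
    (hV : ∀ a v, a :: v ∈ V → v ∈ V) {x : Amb m}
    (hx : x ∈ closure (Submodule.span ℝ (coordVector m '' V) : Set (Amb m))) {ε : ℝ} (hε : 0 < ε) :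
    ∃ S : Finset (List ℕ), Rooted (S : Set (List ℕ)) ∧ (S : Set (List ℕ)) ⊆ V ∧
      ∃ xh ∈ Submodule.span ℝ (coordVector m '' (S : Set (List ℕ))), ‖x - xh‖ < ε := by
  classical
  obtain ⟨z, hz, hxz⟩ := Metric.mem_closure_iff.mp hx ε hε
  rw [dist_eq_norm] at hxz
  have himg : coordVector m '' V = Set.range (fun s : V => coordVector m s) := by
    ext u; simp
  rw [himg] at hz
  obtain ⟨c, rfl⟩ := (Finsupp.mem_span_range_iff_exists_finsupp).1 hz
  set S₀ : Finset (List ℕ) := c.support.image (fun s : V => (s : List ℕ)) with hS₀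
  have hS₀V : (S₀ : Set (List ℕ)) ⊆ V := by
    intro u hu
    have hu' : u ∈ S₀ := hu
    rw [hS₀, Finset.mem_image] at hu'
    obtain ⟨s, _, rfl⟩ := hu'
    exact s.2
  refine ⟨rootedHull S₀, rooted_rootedHull S₀, rootedHull_subset h0 hV hS₀V, _, ?_, hxz⟩
  apply Submodule.sum_mem
  intro s hs
  apply Submodule.smul_mem
  apply Submodule.subset_span
  refine ⟨s, ?_, rfl⟩
  apply subset_rootedHull S₀
  rw [hS₀, Finset.mem_image]
  exact ⟨s, hs, rfl⟩

/-- The children estimate. -/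
lemma norm_sum_children_le (m : PotentialModel) (r : List ℕ) (A : Finset ℕ) (a : ℕ → ℝ) :
    ‖∑ n ∈ A, a n • coordVector m (n :: r)‖ ≤ Real.sqrt (∑ n ∈ A, a n ^ 2) := by
  apply norm_le_of_forall_ev (Real.sqrt_nonneg _)
  intro f
  rw [map_sum]
  simp only [map_smul, ev_coordVector, smul_eq_mul]
  apply Real.abs_le_sqrt
  have h1 := Finset.sum_mul_sq_le_sq_mul_sq A a (fun n => f.1 (n :: r))
  have h2 := child_sq_le f.2 r A
  have h3 : 0 ≤ ∑ n ∈ A, a n ^ 2 := Finset.sum_nonneg fun _ _ => sq_nonneg _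
  calc (∑ n ∈ A, a n * f.1 (n :: r)) ^ 2 ≤ (∑ n ∈ A, a n ^ 2) * ∑ n ∈ A, f.1 (n :: r) ^ 2 := h1
    _ ≤ (∑ n ∈ A, a n ^ 2) * 1 := mul_le_mul_of_nonneg_left h2 h3
    _ = ∑ n ∈ A, a n ^ 2 := mul_one _

/-- The sum of the coordinate vectors along a root path. -/
noncomputable def pathSum (m : PotentialModel) : List ℕ → Amb m
  | [] => coordVector m []
  | a :: v => pathSum m v + coordVector m (a :: v)

lemma ev_pathSum {m : PotentialModel} (f : PotentialTest m) (v : List ℕ) :
    ev f (pathSum m v) = pathPotential f.1 v := by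
  induction v with
  | nil => rfl
  | cons a v ih =>
    simp only [pathSum, map_add, ih, ev_coordVector, pathPotential]

lemma norm_pathSum_le (m : PotentialModel) (v : List ℕ) : ‖pathSum m v‖ ≤ 1 := by
  apply norm_le_of_forall_ev zero_le_one
  intro f
  rw [ev_pathSum]
  exact f.2.1 v

lemma norm_coordVector_ge (m : PotentialModel) {s : List ℕ}
    (h : s ≠ [] ∨ m ≠ PotentialModel.rootlessSibling) : 1 ≤ ‖coordVector m s‖ := by
  have := abs_ev_le (coordTest m s) (coordVector m s)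
  rw [ev_coordVector, coordTest_apply_self m h] at this
  simpa using this

lemma norm_coordVector_le (m : PotentialModel) (s : List ℕ) : ‖coordVector m s‖ ≤ 2 := by
  apply norm_le_of_forall_ev (by norm_num)
  intro f
  rw [ev_coordVector]
  have hf := f.2.1
  cases s with
  | nil =>
    have h0 := hf []
    simp only [pathPotential] at h0
    linarith
  | cons a v =>
    have h1 := hf (a :: v)
    have h2 := hf v
    simp only [pathPotential] at h1
    rw [abs_le] at h1 h2 ⊢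
    constructor <;> linarith [h1.1, h1.2, h2.1, h2.2]

end Crest.Agent.Lib.AUC
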