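import Mathlib
import Crest.Prelude.Def_TreePotentials
import Crest.Prelude.Def_Diamond
import Crest.Agent.Lib.AUCGame
import Crest.Agent.Lib.TreeTests
import Crest.Agent.Lib.TreeSpace
import Crest.Agent.Lib.ReflexiveLp
import Crest.Agent.Lib.DiamondGraph

set_option autoImplicit false

namespace Crest.Agent.Lib.AUC

open Crest.AnalysisR.TreePotential
open Filter Topology
open scoped InnerProductSpace

/-- The global model. -/
abbrev gM : PotentialModel := PotentialModel.global

/-- Vertices of depth at most `k`. -/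
def Vk (k : ℕ) : Set (List ℕ) := {s | s.length ≤ k}

lemma Vk_nil (k : ℕ) : [] ∈ Vk k := by simp [Vk]

lemma Vk_tail {k : ℕ} (a : ℕ) (v : List ℕ) (h : a :: v ∈ Vk k) : v ∈ Vk k := by
  simp only [Vk, Set.mem_setOf_eq, List.length_cons] at h ⊢
  omega

/-- The summands. -/
noncomputable def Yk (k : ℕ) : Submodule ℝ (Amb gM) :=
  (Submodule.span ℝ (coordVector gM '' Vk k)).topologicalClosure

instance Yk_complete (k : ℕ) : CompleteSpace (Yk k) :=
  (Submodule.isClosed_topologicalClosure _).completeSpace_coe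

lemma Yk_le_model (k : ℕ) : Yk k ≤ modelSpace gM := by
  apply Submodule.topologicalClosure_mono
  apply Submodule.span_mono
  rintro _ ⟨s, _, rfl⟩
  exact ⟨s, rfl⟩

lemma coord_mem_Yk {k : ℕ} {s : List ℕ} (hs : s ∈ Vk k) : coordVector gM s ∈ Yk k :=
  Submodule.le_topologicalClosure _ (Submodule.subset_span ⟨s, hs, rfl⟩)

lemma span_le_Yk {k : ℕ} {S : Set (List ℕ)} (hS : S ⊆ Vk k) :
    Submodule.span ℝ (coordVector gM '' S) ≤ Yk k := by
  refine le_trans (Submodule.span_mono (Set.image_mono hS)) (Submodule.le_topologicalClosure _)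

/-! ### Hilbert structure of the summands -/

/-- The Hilbert space on the vertices of depth at most `k`. -/
abbrev Hk (k : ℕ) := lp (fun _ : Vk k => ℝ) 2

lemma global_sq_le (f : PotentialTest gM) (A : Finset (List ℕ)) : ∑ u ∈ A, f.1 u ^ 2 ≤ 1 :=
  f.2.2 A

lemma test_sq_subtype (k : ℕ) (f : PotentialTest gM) (A : Finset (Vk k)) :
    ∑ s ∈ A, f.1 s ^ 2 ≤ 1 := by
  classical
  have := global_sq_le f (A.map (Function.Embedding.subtype _))
  rwa [Finset.sum_map] at this

/-- Restriction of a test. -/
noncomputable def restr (k : ℕ) (f : PotentialTest gM) : Hk k :=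
  ⟨fun s => f.1 s, by
    apply memℓp_gen' (C := 1)
    intro A
    simpa [Real.rpow_two] using test_sq_subtype k f A⟩

lemma restr_apply (k : ℕ) (f : PotentialTest gM) (s : Vk k) : restr k f s = f.1 s := rfl

lemma norm_restr_le (k : ℕ) (f : PotentialTest gM) : ‖restr k f‖ ≤ 1 := by
  apply lp.norm_le_of_forall_sum_le (p := 2) (by norm_num) zero_le_one
  intro A
  simpa [Real.rpow_two, restr_apply] using test_sq_subtype k f A

/-- The map from the Hilbert space. -/
noncomputable def Tk (k : ℕ) : Hk k →L[ℝ] Amb gM :=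
  LinearMap.mkContinuous
    { toFun := fun x => ⟨fun f => ⟪restr k f, x⟫_ℝ, memℓp_infty ⟨‖x‖, by
        rintro _ ⟨f, rfl⟩
        simp only [Real.norm_eq_abs]
        refine (abs_real_inner_le_norm _ _).trans ?_
        have := norm_restr_le k f
        nlinarith [norm_nonneg x]⟩⟩
      map_add' := by
        intro x y
        apply lp.ext
        funext f
        show ⟪restr k f, x + y⟫_ℝ = ⟪restr k f, x⟫_ℝ + ⟪restr k f, y⟫_ℝ
        rw [inner_add_right]
      map_smul' := by
        intro c x
        apply lp.ext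
        funext f
        show ⟪restr k f, c • x⟫_ℝ = c • ⟪restr k f, x⟫_ℝ
        rw [real_inner_smul_right]
        rfl } 1 (by
    intro x
    rw [one_mul]
    apply lp.norm_le_of_forall_le (norm_nonneg _)
    intro f
    show ‖⟪restr k f, x⟫_ℝ‖ ≤ ‖x‖
    rw [Real.norm_eq_abs]
    refine (abs_real_inner_le_norm _ _).trans ?_
    have := norm_restr_le k f
    nlinarith [norm_nonneg x])

lemma Tk_apply (k : ℕ) (x : Hk k) (f : PotentialTest gM) : (Tk k x) f = ⟪restr k f, x⟫_ℝ := rfl

lemma Tk_single (k : ℕ) (s : Vk k) : Tk k (lp.single 2 s (1:ℝ)) = coordVector gM s := by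
  apply lp.ext
  funext f
  rw [Tk_apply, lp.inner_single_right]
  show _ = f.1 s
  simp [restr_apply]

/-- The potential as a sum over the root path. -/
lemma pathPotential_eq_sum (f : List ℕ → ℝ) (v : List ℕ) :
    pathPotential f v = ∑ u ∈ v.tails.toFinset, f u := by
  classical
  induction v with
  | nil => simp [pathPotential]
  | cons a v ih =>
    have hnot : a :: v ∉ v.tails.toFinset := by
      simp only [List.mem_toFinset, List.mem_tails]
      intro hs
      have := hs.length_le
      simp at this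
    have htails : (a :: v).tails.toFinset = insert (a :: v) v.tails.toFinset := by
      simp [List.tails]
    rw [htails, Finset.sum_insert hnot, pathPotential, ih]
    ring

/-- A family supported on depth at most `k`, with square sums at most `a²`, has potentials at
most `√(k+1) a`. -/
lemma sq_pathPotential_le {k : ℕ} {f : List ℕ → ℝ} (hf : ∀ u, u ∉ Vk k → f u = 0) {C : ℝ}
    (hC : ∀ A : Finset (List ℕ), ∑ u ∈ A, f u ^ 2 ≤ C) (v : List ℕ) :
    pathPotential f v ^ 2 ≤ (k + 1) * C := by
  classical
  set W : Finset (List ℕ) := v.tails.toFinset.filter (fun u => u ∈ Vk k) with hW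
  have h1 : pathPotential f v = ∑ u ∈ W, f u := by
    rw [pathPotential_eq_sum, hW]
    symm
    apply Finset.sum_filter_of_ne
    intro u _ hu
    by_contra hcon
    exact hu (hf u hcon)
  have hcard : W.card ≤ k + 1 := by
    have : W.card ≤ (Finset.range (k + 1)).card := by
      apply Finset.card_le_card_of_injOn List.length
      · intro u hu
        have hu' : u ∈ W := hu
        rw [hW, Finset.mem_filter] at hu'
        have : u.length ≤ k := hu'.2
        simp only [Finset.coe_range, Set.mem_Iio]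
        omega
      · intro u hu u' hu' hlen
        have hu1 : u ∈ W := hu
        have hu2 : u' ∈ W := hu'
        rw [hW, Finset.mem_filter, List.mem_toFinset, List.mem_tails] at hu1 hu2
        have h3 : u <:+ u' := List.suffix_of_suffix_length_le hu1.1 hu2.1 hlen.le
        exact h3.eq_of_length hlen
    simpa using this
  rw [h1]
  have h2 := sq_sum_le_card_mul_sum_sq (s := W) (f := f)
  have h3 := hC W
  have hC0 : 0 ≤ C := le_trans (Finset.sum_nonneg fun _ _ => sq_nonneg _) h3
  calc (∑ u ∈ W, f u) ^ 2 ≤ (W.card : ℝ) * ∑ u ∈ W, f u ^ 2 := h2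
    _ ≤ (k + 1) * C := by
      apply mul_le_mul _ h3 (Finset.sum_nonneg fun _ _ => sq_nonneg _) (by positivity)
      exact_mod_cast hcard

/-- The lower bound for `Tk`. -/
lemma norm_le_Tk (k : ℕ) (x : Hk k) : ‖x‖ ≤ Real.sqrt (k + 1) * ‖Tk k x‖ := by
  classical
  by_cases hx : x = 0
  · simp [hx]
  have hxpos : 0 < ‖x‖ := norm_pos_iff.mpr hx
  set ρ : ℝ := Real.sqrt (k + 1) with hρ
  have hρpos : 0 < ρ := Real.sqrt_pos.mpr (by positivity)
  have hρsq : ρ ^ 2 = k + 1 := Real.sq_sqrt (by positivity)
  set c : ℝ := 1 / (ρ * ‖x‖) with hc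
  have hcpos : 0 < c := by positivity
  let f : List ℕ → ℝ := fun u => if h : u ∈ Vk k then c * x ⟨u, h⟩ else 0
  have hf0 : ∀ u, u ∉ Vk k → f u = 0 := fun u hu => dif_neg hu
  have hfs : ∀ s : Vk k, f s = c * x s := by
    intro s
    exact dif_pos s.2
  have hsq : ∀ A : Finset (List ℕ), ∑ u ∈ A, f u ^ 2 ≤ 1 / (k + 1) := by
    intro A
    have h1 : ∑ u ∈ A, f u ^ 2 = ∑ u ∈ A with u ∈ Vk k, f u ^ 2 := by
      symm
      apply Finset.sum_filter_of_ne
      intro u _ hu
      by_contra hcon
      apply hu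
      rw [hf0 u hcon]
      norm_num
    rw [h1, ← Finset.sum_subtype_eq_sum_filter]
    have h2 : ∑ s ∈ A.subtype (· ∈ Vk k), f s ^ 2 = c ^ 2 * ∑ s ∈ A.subtype (· ∈ Vk k), (x s) ^ 2 := by
      rw [Finset.mul_sum]
      apply Finset.sum_congr rfl
      intro s _
      rw [hfs, mul_pow]
    rw [h2]
    have h3 : ∑ s ∈ A.subtype (· ∈ Vk k), (x s) ^ 2 ≤ ‖x‖ ^ 2 := by
      have := lp.sum_rpow_le_norm_rpow (p := 2) (by norm_num) x (A.subtype (· ∈ Vk k))
      simpa [Real.rpow_two] using this
    have h4 : c ^ 2 * ‖x‖ ^ 2 = 1 / (k + 1) := by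
      rw [hc, div_pow, one_pow, mul_pow, hρsq]
      field_simp
    calc c ^ 2 * ∑ s ∈ A.subtype (· ∈ Vk k), (x s) ^ 2 ≤ c ^ 2 * ‖x‖ ^ 2 :=
          mul_le_mul_of_nonneg_left h3 (by positivity)
      _ = 1 / (k + 1) := h4
  have htest : IsTest gM f := by
    refine ⟨fun v => ?_, fun A => ?_⟩
    · have h1 := sq_pathPotential_le hf0 hsq v
      have h2 : ((k:ℝ) + 1) * (1 / (k + 1)) = 1 := by
        field_simp
      rw [h2] at h1
      exact abs_le_one_iff_mul_self_le_one.mpr (by nlinarith)
    · have h1 := hsq A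
      have h2 : (1:ℝ) / (k + 1) ≤ 1 := by
        rw [div_le_one (by positivity)]
        have : (0:ℝ) ≤ k := Nat.cast_nonneg k
        linarith
      exact h1.trans h2
  let ft : PotentialTest gM := ⟨f, htest⟩
  have hrestr : restr k ft = c • x := by
    apply lp.ext
    funext s
    exact hfs s
  have hval : (Tk k x) ft = ‖x‖ / ρ := by
    rw [Tk_apply, hrestr, real_inner_smul_left, real_inner_self_eq_norm_sq, hc]
    field_simp
  have hbound : ‖x‖ / ρ ≤ ‖Tk k x‖ := by
    rw [← hval]
    have := abs_ev_le ft (Tk k x)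
    exact (le_abs_self _).trans this
  rw [div_le_iff₀ hρpos] at hbound
  linarith

/-- The range of `Tk`. -/
lemma Tk_mem_Yk (k : ℕ) (x : Hk k) : Tk k x ∈ Yk k := by
  have hsum : HasSum (fun s => lp.single 2 s (x s)) x := lp.hasSum_single (by norm_num) x
  have h2 := hsum.mapL (Tk k)
  have hclosed : IsClosed (Yk k : Set (Amb gM)) := Submodule.isClosed_topologicalClosure _
  refine hclosed.mem_of_tendsto h2 (Eventually.of_forall fun A => ?_)
  apply Submodule.sum_mem
  intro s _
  have h3 : lp.single 2 s (x s) = x s • lp.single (E := fun _ : Vk k => ℝ) 2 s (1 : ℝ) := by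
    rw [← lp.single_smul]
    simp
  rw [h3, map_smul, Tk_single]
  exact Submodule.smul_mem _ _ (coord_mem_Yk s.2)

lemma Yk_le_range (k : ℕ) : Yk k ≤ LinearMap.range (Tk k : Hk k →ₗ[ℝ] Amb gM) := by
  have hanti : AntilipschitzWith (Real.toNNReal (Real.sqrt (k + 1))) (Tk k) := by
    apply ContinuousLinearMap.antilipschitz_of_bound
    intro x
    rw [Real.coe_toNNReal _ (Real.sqrt_nonneg _)]
    exact norm_le_Tk k x
  have hclosed : IsClosed (Set.range (Tk k)) :=
    hanti.isClosed_range (Tk k).uniformContinuous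
  intro z hz
  have hz' : z ∈ closure (Submodule.span ℝ (coordVector gM '' Vk k) : Set (Amb gM)) := hz
  have hsub : (Submodule.span ℝ (coordVector gM '' Vk k) : Set (Amb gM)) ⊆ Set.range (Tk k) := by
    have : Submodule.span ℝ (coordVector gM '' Vk k) ≤ LinearMap.range (Tk k : Hk k →ₗ[ℝ] Amb gM) := by
      apply Submodule.span_le.mpr
      rintro _ ⟨s, hs, rfl⟩
      exact ⟨lp.single 2 ⟨s, hs⟩ (1:ℝ), Tk_single k ⟨s, hs⟩⟩
    exact this
  exact (closure_minimal hsub hclosed) hz'

/-- The summands are reflexive. -/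
theorem Yk_reflexive (k : ℕ) :
    Function.Surjective (NormedSpace.inclusionInDoubleDual ℝ (Yk k)) := by
  let T' : Hk k →L[ℝ] Yk k := (Tk k).codRestrict (Yk k) (Tk_mem_Yk k)
  have hinj : LinearMap.ker (T' : Hk k →ₗ[ℝ] Yk k) = ⊥ := by
    rw [LinearMap.ker_eq_bot]
    intro a b hab
    have h1 : Tk k a = Tk k b := congrArg Subtype.val hab
    have h2 := norm_le_Tk k (a - b)
    rw [map_sub, h1, sub_self, norm_zero, mul_zero] at h2
    exact sub_eq_zero.mp (norm_le_zero_iff.mp h2)
  have hsurj : LinearMap.range (T' : Hk k →ₗ[ℝ] Yk k) = ⊤ := by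
    rw [LinearMap.range_eq_top]
    intro z
    obtain ⟨x, hx⟩ := Yk_le_range k z.2
    exact ⟨x, Subtype.ext hx⟩
  exact reflexive_of_equiv (ContinuousLinearEquiv.ofBijective T' hinj hsurj) (reflexive_hilbert _)

/-! ### The space -/

/-- The space of the example. -/
noncomputable abbrev EX := lp (fun k => Yk k) 2

/-- Reflexivity of the example. -/
theorem EX_reflexive : Function.Surjective (NormedSpace.inclusionInDoubleDual ℝ EX) :=
  reflexive_lp2 Yk_reflexive

/-- Separability of the example. -/
theorem EX_separable : TopologicalSpace.SeparableSpace EX := by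
  have hY : ∀ k, TopologicalSpace.IsSeparable (Set.univ : Set (Yk k)) := by
    intro k
    have h1 : TopologicalSpace.IsSeparable (coordVector gM '' Vk k) :=
      ((Set.to_countable _).image _).isSeparable
    have h2 : TopologicalSpace.IsSeparable (Yk k : Set (Amb gM)) := (h1.span (R := ℝ)).closure
    have h3 : TopologicalSpace.SeparableSpace (Yk k) := h2.separableSpace
    exact TopologicalSpace.isSeparable_univ_iff.mpr h3
  let D : Set EX := ⋃ k, (fun z : Yk k => (lp.single 2 k z : EX)) '' Set.univ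
  have hD : TopologicalSpace.IsSeparable D := by
    apply TopologicalSpace.IsSeparable.iUnion
    intro k
    exact (hY k).image (lp.isometry_single (E := fun k => Yk k) (p := 2) k).continuous
  have hspan : TopologicalSpace.IsSeparable (Submodule.span ℝ D : Set EX) := hD.span
  have hcl := hspan.closure
  have hall : ∀ x : EX, x ∈ closure (Submodule.span ℝ D : Set EX) := by
    intro x
    have hsum : HasSum (fun k => lp.single 2 k (x k)) x := lp.hasSum_single (by norm_num) x
    refine mem_closure_of_tendsto hsum (Eventually.of_forall fun A => ?_)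
    apply Submodule.sum_mem
    intro k _
    apply Submodule.subset_span
    exact Set.mem_iUnion.mpr ⟨k, x k, Set.mem_univ _, rfl⟩
  have huniv : closure (Submodule.span ℝ D : Set EX) = Set.univ :=
    Set.eq_univ_of_forall hall
  rw [huniv] at hcl
  exact TopologicalSpace.isSeparable_univ_iff.mp hcl

end Crest.Agent.Lib.AUC
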