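import Mathlib
import Crest.Agent.Lib.TreeSum

set_option autoImplicit false

namespace Crest.Agent.Lib.AUC

open Crest.AnalysisR.TreePotential
open Filter Topology

lemma sum_single_apply (A : Finset ℕ) (a : ∀ k, Yk k) (k : ℕ) :
    ((∑ j ∈ A, lp.single 2 j (a j) : EX) : ∀ k, Yk k) k = if k ∈ A then a k else 0 := by
  classical
  rw [lp.coeFn_sum, Finset.sum_apply]
  split_ifs with h
  · rw [Finset.sum_eq_single_of_mem k h]
    · exact lp.single_apply_self _ _ _
    · intro j _ hj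
      exact lp.single_apply_ne _ _ _ (Ne.symm hj)
  · apply Finset.sum_eq_zero
    intro j hj
    have : k ≠ j := fun e => h (e ▸ hj)
    exact lp.single_apply_ne _ _ _ this

/-- The core inequality in the example space. -/
theorem core_E (x : EX) {ε : ℝ} (hε : 0 < ε) :
    ∃ xh : EX, ‖x - xh‖ < ε ∧ ∃ F : Set EX, Cof F ∧ ∀ y ∈ F, ∀ t : ℝ, 0 ≤ t →
      2 * Real.sqrt (‖xh‖ ^ 2 + t ^ 2 * ‖y‖ ^ 2 / 4) ≤ ‖xh + t • y‖ + ‖xh - t • y‖ := by
  classical
  -- truncate
  have hsum : HasSum (fun k => lp.single 2 k (x k)) x := lp.hasSum_single (by norm_num) x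
  have hev : ∀ᶠ A : Finset ℕ in atTop, ‖x - ∑ k ∈ A, lp.single 2 k (x k)‖ < ε / 2 := by
    have h1 : Tendsto (fun A : Finset ℕ => ‖x - ∑ k ∈ A, lp.single 2 k (x k)‖) atTop (𝓝 0) := by
      have := (tendsto_const_nhds (x := x)).sub hsum
      have h2 := this.norm
      simpa using h2
    exact h1.eventually (gt_mem_nhds (by positivity))
  obtain ⟨A, hA⟩ := hev.exists
  -- approximate the components
  set δ : ℝ := ε / (2 * (A.card + 1)) with hδ
  have hδpos : 0 < δ := by positivity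
  have happrox : ∀ k, ∃ S : Finset (List ℕ), Rooted (S : Set (List ℕ)) ∧ (S : Set (List ℕ)) ⊆ Vk k ∧
      ∃ xh ∈ Submodule.span ℝ (coordVector gM '' (S : Set (List ℕ))),
        ‖((x k : Yk k) : Amb gM) - xh‖ < δ := by
    intro k
    exact exists_rooted_approx (Vk_nil k) (fun a v => Vk_tail a v) (x k).2 hδpos
  choose S hS hSV a0 ha0 ha0close using happrox
  let a : ∀ k, Yk k := fun k => ⟨a0 k, span_le_Yk (hSV k) (ha0 k)⟩
  let xh : EX := ∑ j ∈ A, lp.single 2 j (a j)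
  refine ⟨xh, ?_, ?_⟩
  · have h1 : x - xh = (x - ∑ k ∈ A, lp.single 2 k (x k))
        + ∑ k ∈ A, lp.single (E := fun k => Yk k) 2 k (x k - a k) := by
      simp only [xh, lp.single_sub, Finset.sum_sub_distrib]
      abel
    rw [h1]
    refine lt_of_le_of_lt (norm_add_le _ _) ?_
    have h2 : ‖∑ k ∈ A, lp.single (E := fun k => Yk k) 2 k (x k - a k)‖ ≤ ∑ k ∈ A, δ := by
      refine (norm_sum_le _ _).trans ?_
      apply Finset.sum_le_sum
      intro k _
      rw [lp.norm_single (by norm_num)]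
      exact (ha0close k).le
    have h3 : ∑ k ∈ A, δ = A.card * δ := by simp
    have h4 : (A.card : ℝ) * δ < ε / 2 := by
      rw [hδ]
      have hc : (0:ℝ) ≤ A.card := Nat.cast_nonneg _
      rw [mul_div_assoc', div_lt_iff₀ (by positivity)]
      nlinarith
    linarith
  · -- the subspace
    let ι := Σ k : {k // k ∈ A}, {s // s ∈ S k}
    let φ : ι → EX →L[ℝ] ℝ := fun i =>
      (ev (coordTest gM i.2.1)).comp ((Yk i.1.1).subtypeL.comp (Pk (fun k => Yk k) i.1.1))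
    refine ⟨{u | ∀ i, φ i u = 0}, cof_of_functionals φ, ?_⟩
    intro y hy t ht
    apply lp2_mink
    intro k
    by_cases hk : k ∈ A
    · have hxh : (xh : ∀ k, Yk k) k = a k := by
        rw [show xh = ∑ j ∈ A, lp.single 2 j (a j) from rfl, sum_single_apply, if_pos hk]
      have hy0 : ∀ s ∈ S k, ev (coordTest gM s) ((y k : Yk k) : Amb gM) = 0 := by
        intro s hs
        exact hy ⟨⟨k, hk⟩, ⟨s, hs⟩⟩
      have hmain := main_ineq (hS k) (ha0 k) (Yk_le_model k (y k).2) hy0 ht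
      have e1 : ‖(xh : ∀ k, Yk k) k‖ = ‖a0 k‖ := by rw [hxh]; rfl
      have e2 : ‖((xh + t • y : EX) : ∀ k, Yk k) k‖ = ‖a0 k + t • ((y k : Yk k) : Amb gM)‖ := by
        have : ((xh + t • y : EX) : ∀ k, Yk k) k = a k + t • y k := by
          rw [← hxh]; rfl
        rw [this]; rfl
      have e3 : ‖((xh - t • y : EX) : ∀ k, Yk k) k‖ = ‖a0 k - t • ((y k : Yk k) : Amb gM)‖ := by
        have : ((xh - t • y : EX) : ∀ k, Yk k) k = a k - t • y k := by
          rw [← hxh]; rfl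
        rw [this]; rfl
      have e4 : ‖y k‖ = ‖((y k : Yk k) : Amb gM)‖ := rfl
      rw [e1, e2, e3, e4]
      exact hmain
    · have hxh : (xh : ∀ k, Yk k) k = 0 := by
        rw [show xh = ∑ j ∈ A, lp.single 2 j (a j) from rfl, sum_single_apply, if_neg hk]
      have e2 : ((xh + t • y : EX) : ∀ k, Yk k) k = t • y k := by
        have : ((xh + t • y : EX) : ∀ k, Yk k) k = (xh : ∀ k, Yk k) k + t • y k := rfl
        rw [this, hxh, zero_add]
      have e3 : ((xh - t • y : EX) : ∀ k, Yk k) k = -(t • y k) := by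
        have : ((xh - t • y : EX) : ∀ k, Yk k) k = (xh : ∀ k, Yk k) k - t • y k := rfl
        rw [this, hxh, zero_sub]
      rw [hxh, e2, e3, norm_neg, norm_zero, norm_smul, Real.norm_eq_abs, abs_of_nonneg ht]
      have h5 : Real.sqrt ((0:ℝ) ^ 2 + t ^ 2 * ‖y k‖ ^ 2 / 4) = t * ‖y k‖ / 2 := by
        have : (0:ℝ) ^ 2 + t ^ 2 * ‖y k‖ ^ 2 / 4 = (t * ‖y k‖ / 2) ^ 2 := by ring
        rw [this]
        exact Real.sqrt_sq (by positivity)
      rw [h5]
      have h6 : 0 ≤ t * ‖y k‖ := by positivity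
      linarith

/-- Finding two far elements of a bounded sequence whose difference is almost in a closed finite
codimensional subspace. -/
lemma Cof.exists_pair_close {X : Type*} [NormedAddCommGroup X] [NormedSpace ℝ X]
    {F : Set X} (hF : Cof F) {w : ℕ → X} {B : ℝ} (hw : ∀ i, ‖w i‖ ≤ B) {ε : ℝ} (hε : 0 < ε) :
    ∃ i j, i ≠ j ∧ ∃ z ∈ F, ‖w i - w j - z‖ ≤ ε := by
  obtain ⟨n, T, C, hC, hT0, hT⟩ := hF.exists_map
  have hmem : ∀ i, T (w i) ∈ Metric.closedBall (0 : EuclideanSpace ℝ (Fin n)) (‖T‖ * B) := by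
    intro i
    rw [mem_closedBall_zero_iff]
    exact (T.le_opNorm _).trans (mul_le_mul_of_nonneg_left (hw i) (norm_nonneg _))
  obtain ⟨p, -, φ, hφ, hlim⟩ := (isCompact_closedBall (0 : EuclideanSpace ℝ (Fin n)) (‖T‖ * B)).tendsto_subseq hmem
  have hCauchy := hlim.cauchySeq
  set δ : ℝ := ε / (C + 1) with hδ
  have hδpos : 0 < δ := by positivity
  obtain ⟨N, hN⟩ := Metric.cauchySeq_iff.mp hCauchy δ hδpos
  have hne : φ N ≠ φ (N + 1) := fun e => by
    have := hφ.injective e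
    omega
  refine ⟨φ N, φ (N + 1), hne, ?_⟩
  obtain ⟨z, hz, hz2⟩ := hT (w (φ N) - w (φ (N + 1)))
  refine ⟨z, hz, hz2.trans ?_⟩
  have h1 := hN N le_rfl (N + 1) (Nat.le_succ N)
  rw [dist_eq_norm] at h1
  have h2 : T (w (φ N) - w (φ (N + 1))) = (T ∘ w ∘ φ) N - (T ∘ w ∘ φ) (N + 1) := by
    simp
  rw [h2]
  have h3 : C * ‖(T ∘ w ∘ φ) N - (T ∘ w ∘ φ) (N + 1)‖ ≤ C * δ :=
    mul_le_mul_of_nonneg_left h1.le hC
  refine h3.trans ?_
  rw [hδ]
  rw [mul_div_assoc', div_le_iff₀ (by positivity)]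
  nlinarith

lemma norm_half_smul {X : Type*} [NormedAddCommGroup X] [NormedSpace ℝ X] (v : X) :
    ‖(1 / 2 : ℝ) • v‖ = ‖v‖ / 2 := by
  rw [norm_smul]
  norm_num
  ring

/-- The midpoint inequality in the example space. -/
theorem midpoint_E (a b : EX) (w : ℕ → EX) (L σ : ℝ) (hσ : 0 ≤ σ) (h1 : ∀ i, ‖a - w i‖ ≤ L)
    (h2 : ∀ i, ‖b - w i‖ ≤ L) (h3 : ∀ i j, i ≠ j → σ ≤ ‖w i - w j‖) :
    ‖a - b‖ ^ 2 / 4 + σ ^ 2 / 16 ≤ L ^ 2 := by
  have hL : 0 ≤ L := (norm_nonneg _).trans (h1 0)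
  set x : EX := (1 / 2 : ℝ) • (b - a) with hx
  have hxnorm : ‖x‖ = ‖a - b‖ / 2 := by
    rw [hx, norm_half_smul, norm_sub_rev]
  -- the bound for the pair
  have hwbd : ∀ i, ‖w i‖ ≤ ‖a‖ + L := by
    intro i
    have : w i = a - (a - w i) := by abel
    rw [this]
    refine (norm_sub_le _ _).trans ?_
    linarith [h1 i]
  -- the main estimate with an error
  have hmain : ∀ ε : ℝ, 0 < ε → ε ≤ 1 →
      ‖x‖ ^ 2 + (σ / 2) ^ 2 / 4 ≤ L ^ 2 + ε * (10 * L + 12) := by
    intro ε hε hε1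
    obtain ⟨xh, hxh, F, hF, hineq⟩ := core_E x hε
    obtain ⟨i, j, hij, z, hzF, hz⟩ := hF.exists_pair_close hwbd hε
    obtain ⟨S, rfl, -, -⟩ := hF
    set y : EX := (1 / 2 : ℝ) • z with hy
    have hyF : y ∈ (S : Set EX) := S.smul_mem _ hzF
    have hmainineq := hineq y hyF 1 zero_le_one
    simp only [one_smul, one_pow, one_mul] at hmainineq
    -- upper bounds
    set d : EX := (1 / 2 : ℝ) • (w i - w j) with hd
    have hdy : ‖d - y‖ ≤ ε / 2 := by
      have : d - y = (1 / 2 : ℝ) • (w i - w j - z) := by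
        rw [hd, hy, smul_sub (1 / 2 : ℝ) (w i - w j) z]
      rw [this, norm_half_smul]
      linarith
    have hxd1 : ‖x + d‖ ≤ L := by
      have e : x + d = (1 / 2 : ℝ) • ((b - w j) + -(a - w i)) := by
        rw [hx, hd]
        simp only [smul_add, smul_sub, smul_neg]
        abel
      rw [e, norm_half_smul]
      have h4 := norm_add_le (b - w j) (-(a - w i))
      rw [norm_neg] at h4
      have h5 := h2 j
      have h6 := h1 i
      linarith
    have hxd2 : ‖x - d‖ ≤ L := by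
      have e : x - d = (1 / 2 : ℝ) • ((b - w i) + -(a - w j)) := by
        rw [hx, hd]
        simp only [smul_add, smul_sub, smul_neg]
        abel
      rw [e, norm_half_smul]
      have h4 := norm_add_le (b - w i) (-(a - w j))
      rw [norm_neg] at h4
      have h5 := h2 i
      have h6 := h1 j
      linarith
    have hA : ‖xh + y‖ ≤ L + 2 * ε := by
      have e : xh + y = (x + d) - (x - xh) - (d - y) := by abel
      rw [e]
      refine (norm_sub_le _ _).trans ?_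
      have := norm_sub_le (x + d) (x - xh)
      linarith
    have hB : ‖xh - y‖ ≤ L + 2 * ε := by
      have e : xh - y = (x - d) - (x - xh) + (d - y) := by abel
      rw [e]
      refine (norm_add_le _ _).trans ?_
      have := norm_sub_le (x - d) (x - xh)
      linarith
    have hR : Real.sqrt (‖xh‖ ^ 2 + ‖y‖ ^ 2 / 4) ≤ L + 2 * ε := by linarith
    have hRsq : ‖xh‖ ^ 2 + ‖y‖ ^ 2 / 4 ≤ (L + 2 * ε) ^ 2 := (Real.sqrt_le_iff.mp hR).2
    -- lower bounds
    have hxA : ‖x‖ ≤ ‖xh‖ + ε := by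
      have := norm_add_le xh (x - xh)
      rw [add_sub_cancel] at this
      linarith
    have hσd : σ / 2 ≤ ‖d‖ := by
      have h4 := h3 i j hij
      rw [hd, norm_half_smul]
      linarith
    have hdY : ‖d‖ ≤ ‖y‖ + ε := by
      have := norm_add_le y (d - y)
      rw [add_sub_cancel] at this
      linarith
    have hA0 : ‖xh‖ ≤ L + 2 * ε := by
      have h4 : ‖xh‖ ^ 2 ≤ (L + 2 * ε) ^ 2 := by nlinarith [sq_nonneg ‖y‖]
      exact (pow_le_pow_iff_left₀ (norm_nonneg _) (by positivity) two_ne_zero).mp h4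
    have hY0 : ‖y‖ ≤ 2 * (L + 2 * ε) := by
      have h4 : ‖y‖ ^ 2 ≤ (2 * (L + 2 * ε)) ^ 2 := by nlinarith [sq_nonneg ‖xh‖]
      exact (pow_le_pow_iff_left₀ (norm_nonneg _) (by positivity) two_ne_zero).mp h4
    have hx2 : ‖x‖ ^ 2 ≤ (‖xh‖ + ε) ^ 2 := pow_le_pow_left₀ (norm_nonneg _) hxA 2
    have hs2 : (σ / 2) ^ 2 ≤ (‖y‖ + ε) ^ 2 :=
      pow_le_pow_left₀ (by positivity) (hσd.trans hdY) 2
    have h7 : ε * (2 * ‖xh‖ + ‖y‖ / 2) ≤ ε * (3 * (L + 2 * ε)) :=
      mul_le_mul_of_nonneg_left (by linarith) hε.le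
    have h8 : ε ^ 2 ≤ ε := by nlinarith
    nlinarith [mul_nonneg hε.le hL]
  have hxsq : ‖x‖ ^ 2 + (σ / 2) ^ 2 / 4 = ‖a - b‖ ^ 2 / 4 + σ ^ 2 / 16 := by
    rw [hxnorm]; ring
  rw [← hxsq]
  apply le_of_forall_pos_le_add
  intro ε hε
  set K : ℝ := 10 * L + 12 with hK
  have hKpos : 0 < K := by positivity
  have h1' : min 1 (ε / K) ≤ 1 := min_le_left _ _
  have h2' : min 1 (ε / K) ≤ ε / K := min_le_right _ _
  have h0 : 0 < min 1 (ε / K) := lt_min one_pos (by positivity)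
  have := hmain _ h0 h1'
  have h3' : min 1 (ε / K) * K ≤ ε / K * K := mul_le_mul_of_nonneg_right h2' hKpos.le
  rw [div_mul_cancel₀ _ hKpos.ne'] at h3'
  linarith

/-- The homogeneous modulus estimate at a unit vector. -/
theorem modulus_E {t : ℝ} (ht : 0 < t) (x : EX) (hx : ‖x‖ = 1) {η : ℝ} (hη : 0 < η) :
    ∃ F : Set EX, Cof F ∧ ∀ y ∈ F, ‖y‖ = 1 →
      Real.sqrt (1 + t ^ 2 / 4) - 1 - η ≤ (‖x + t • y‖ + ‖x - t • y‖) / 2 - 1 := by
  obtain ⟨xh, hclose, F, hF, hineq⟩ := core_E x (show 0 < η / 2 by positivity)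
  refine ⟨F, hF, ?_⟩
  intro y hy hy1
  have hmain := hineq y hy t ht.le
  rw [hy1] at hmain
  have h1 : ‖xh + t • y‖ ≤ ‖x + t • y‖ + η / 2 := by
    have e : xh + t • y = (x + t • y) + (xh - x) := by abel
    rw [e]
    refine (norm_add_le _ _).trans ?_
    rw [norm_sub_rev xh x]
    linarith
  have h2 : ‖xh - t • y‖ ≤ ‖x - t • y‖ + η / 2 := by
    have e : xh - t • y = (x - t • y) + (xh - x) := by abel
    rw [e]
    refine (norm_add_le _ _).trans ?_
    rw [norm_sub_rev xh x]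
    linarith
  have hxh1 : 1 - η / 2 ≤ ‖xh‖ := by
    have := norm_add_le xh (x - xh)
    rw [add_sub_cancel, hx] at this
    linarith
  have hsqrt : Real.sqrt (1 + t ^ 2 / 4) - η / 2 ≤ Real.sqrt (‖xh‖ ^ 2 + t ^ 2 * 1 ^ 2 / 4) := by
    apply sub_le_iff_le_add.mpr
    have hpos : 0 ≤ Real.sqrt (‖xh‖ ^ 2 + t ^ 2 * 1 ^ 2 / 4) + η / 2 := by positivity
    apply Real.sqrt_le_iff.mpr
    refine ⟨hpos, ?_⟩
    have hsq : Real.sqrt (‖xh‖ ^ 2 + t ^ 2 * 1 ^ 2 / 4) ^ 2 = ‖xh‖ ^ 2 + t ^ 2 * 1 ^ 2 / 4 :=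
      Real.sq_sqrt (by positivity)
    have hnn := Real.sqrt_nonneg (‖xh‖ ^ 2 + t ^ 2 * 1 ^ 2 / 4)
    have hge : ‖xh‖ ≤ Real.sqrt (‖xh‖ ^ 2 + t ^ 2 * 1 ^ 2 / 4) := by
      apply Real.le_sqrt_of_sq_le
      nlinarith [sq_nonneg t]
    nlinarith
  linarith

/-! ### The tree in the example -/

lemma pathSum_mem_Yk {k : ℕ} {v : List ℕ} (hv : v.length ≤ k) : pathSum gM v ∈ Yk k := by
  induction v with
  | nil => exact coord_mem_Yk (Vk_nil k)
  | cons a v ih =>
    have hv' : v.length ≤ k := by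
      simp only [List.length_cons] at hv
      omega
    exact Submodule.add_mem _ (ih hv') (coord_mem_Yk hv)

/-- The branch vector inside the example. -/
noncomputable def pathE (k : ℕ) (v : List ℕ) (hv : v.length ≤ k) : EX :=
  lp.single 2 k ⟨pathSum gM v, pathSum_mem_Yk hv⟩

lemma norm_pathE (k : ℕ) (v : List ℕ) (hv : v.length ≤ k) : ‖pathE k v hv‖ = ‖pathSum gM v‖ := by
  rw [pathE, lp.norm_single (by norm_num)]
  rfl

/-- The child vector inside the example. -/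
noncomputable def childE (k : ℕ) (v : List ℕ) (hv : v.length + 1 ≤ k) (n : ℕ) : EX :=
  lp.single 2 k ⟨coordVector gM (n :: v), coord_mem_Yk (by simpa [Vk] using hv)⟩

lemma norm_childE (k : ℕ) (v : List ℕ) (hv : v.length + 1 ≤ k) (n : ℕ) :
    1 ≤ ‖childE k v hv n‖ := by
  rw [childE, lp.norm_single (by norm_num)]
  exact norm_coordVector_ge gM (Or.inl (by simp))

lemma weakNull_childE (k : ℕ) (v : List ℕ) (hv : v.length + 1 ≤ k) (φ : EX →L[ℝ] ℝ) :
    Tendsto (fun n => φ (childE k v hv n)) atTop (𝓝 0) := by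
  apply weakNull_of_ell2 (C := 1) zero_le_one
  intro K c
  rw [one_mul]
  have h1 := norm_sum_children_le gM v (Finset.range K) c
  let z : ℕ → Yk k := fun n => ⟨coordVector gM (n :: v), coord_mem_Yk (by simpa [Vk] using hv)⟩
  have e : ∑ n ∈ Finset.range K, c n • childE k v hv n
      = lp.single 2 k (∑ n ∈ Finset.range K, c n • z n) := by
    have hJ : ∀ w : Yk k, (lp.single 2 k w : EX) = Jk (fun k => Yk k) k w := fun _ => rfl
    rw [hJ, map_sum]
    apply Finset.sum_congr rfl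
    intro n _
    rw [map_smul]
    rfl
  rw [e, lp.norm_single (by norm_num)]
  have e2 : ‖∑ n ∈ Finset.range K, c n • z n‖ = ‖∑ n ∈ Finset.range K, c n • coordVector gM (n :: v)‖ := by
    have : ((∑ n ∈ Finset.range K, c n • z n : Yk k) : Amb gM)
        = ∑ n ∈ Finset.range K, c n • coordVector gM (n :: v) := by
      simp [z]
    rw [← this]
    rfl
  rw [e2]
  exact h1

lemma pathE_add_childE (k : ℕ) (v : List ℕ) (hv : v.length + 1 ≤ k) (n : ℕ) :
    pathE k v (by omega) + childE k v hv n = pathE k (n :: v) (by simpa using hv) := by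
  rw [pathE, childE, ← lp.single_add]
  rfl

/-- No equivalent norm of the example is asymptotically uniformly convex. -/
theorem no_auc_E (N : EX → ℝ)
    (hsub : ∀ x y : EX, N (x + y) ≤ N x + N y)
    (hhom : ∀ (a : ℝ) (x : EX), N (a • x) = |a| * N x)
    {a b : ℝ} (ha : 0 < a) (hab : ∀ x : EX, a * ‖x‖ ≤ N x ∧ N x ≤ b * ‖x‖)
    (hAUC : ∀ t : ℝ, 0 < t → ∃ c : ℝ, 0 < c ∧ ∀ x : EX, N x = 1 → ∃ F : Set EX,
      Cof F ∧ ∀ y ∈ F, N y = 1 → c ≤ N (x + t • y) - 1) : False := by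
  let P : ℕ → EX → Prop := fun j x => ∃ (k : ℕ) (v : List ℕ) (hv : v.length ≤ k),
    v.length + j ≤ k ∧ x = pathE k v hv
  refine not_auc_of_game N hsub hhom ha hab (M := 1) (κ := 1) (κ₀ := 1) one_pos one_pos P ?_ ?_ ?_ hAUC
  · intro j
    refine ⟨pathE j [] (by simp), ⟨j, [], by simp, by simp, rfl⟩, ?_⟩
    rw [norm_pathE]
    exact norm_coordVector_ge gM (Or.inr (by simp [gM]))
  · rintro j x ⟨k, v, hv, -, rfl⟩
    rw [norm_pathE]
    exact norm_pathSum_le gM v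
  · rintro j x ⟨k, v, hv, hj, rfl⟩ _ F hF ε hε
    have hv1 : v.length + 1 ≤ k := by omega
    obtain ⟨n, -, w, hw, hwclose⟩ := hF.exists_close_of_weakNull (weakNull_childE k v hv1) hε 0
    refine ⟨childE k v hv1 n, w, hw, hwclose, norm_childE k v hv1 n, k, n :: v,
      by simpa using hv1, ?_, ?_⟩
    · simp only [List.length_cons]
      omega
    · exact pathE_add_childE k v hv1 n

end Crest.Agent.Lib.AUC
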