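import Mathlib
import Crest.Prelude.Def_TruncExpWeight

/-!
Auxiliary analysis for statement S0423 (part A): the exponential averaging operator `T a`.
`T a h y` is the expectation of `h (y + a X)` for a mean-one exponential variable `X`.
-/

open MeasureTheory Set Filter Topology

namespace Crest.Agent.Lib.TruncExp

/-- `T a h y = E [h (y + a X)]`, `X` a mean-one exponential variable. -/
noncomputable def T (a : ℝ) (h : ℝ → ℝ) (y : ℝ) : ℝ :=
  ∫ s in Ioi (0 : ℝ), Real.exp (-s) * h (y + a * s)

/-- Linear growth. -/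
def LinGrowth (h : ℝ → ℝ) : Prop := ∃ C : ℝ, ∀ y, |h y| ≤ |y| + C

lemma integrableOn_exp_neg : IntegrableOn (fun s : ℝ => Real.exp (-s)) (Ioi 0) := by
  have := exp_neg_integrableOn_Ioi (0 : ℝ) (b := 1) one_pos
  simpa using this

lemma integrableOn_mul_exp_neg (b : ℝ) (hb : 0 < b) :
    IntegrableOn (fun s : ℝ => s * Real.exp (-(b * s))) (Ioi 0) := by
  have := integrableOn_rpow_mul_exp_neg_mul_rpow (s := 1) (p := 1) (b := b)
    (by norm_num) one_pos hb
  refine this.congr_fun (fun x hx => ?_) measurableSet_Ioi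
  simp [Real.rpow_one]

lemma integrableOn_id_mul_exp_neg :
    IntegrableOn (fun s : ℝ => s * Real.exp (-s)) (Ioi 0) := by
  simpa using integrableOn_mul_exp_neg 1 one_pos

lemma integral_exp_neg : ∫ s in Ioi (0 : ℝ), Real.exp (-s) = 1 := integral_exp_neg_Ioi_zero

lemma integral_id_mul_exp_neg : ∫ s in Ioi (0 : ℝ), s * Real.exp (-s) = 1 := by
  have h := Real.integral_rpow_mul_exp_neg_mul_Ioi (a := 2) (r := 1) (by norm_num) one_pos
  simp only [one_mul] at h
  have h2 : ∀ s ∈ Ioi (0 : ℝ), s * Real.exp (-s) = s ^ ((2 : ℝ) - 1) * Real.exp (-s) := by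
    intro s hs
    congr 1
    norm_num
  rw [setIntegral_congr_fun measurableSet_Ioi h2, h]
  norm_num [Real.Gamma_two]

lemma T_integrable {h : ℝ → ℝ} (hc : Continuous h) (hg : LinGrowth h) (a y : ℝ) :
    IntegrableOn (fun s => Real.exp (-s) * h (y + a * s)) (Ioi 0) := by
  obtain ⟨C, hC⟩ := hg
  have hmajor : IntegrableOn
      (fun s => (|y| + C) * Real.exp (-s) + |a| * (s * Real.exp (-s))) (Ioi 0) :=
    (integrableOn_exp_neg.const_mul _).add (integrableOn_id_mul_exp_neg.const_mul _)
  refine Integrable.mono' hmajor ?_ ?_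
  · exact (by fun_prop : Continuous fun s => Real.exp (-s) * h (y + a * s)).aestronglyMeasurable
  · refine (ae_restrict_iff' measurableSet_Ioi).2 (ae_of_all _ fun s hs => ?_)
    have hs0 : (0 : ℝ) < s := hs
    have h1 : |h (y + a * s)| ≤ |y| + |a| * s + C := by
      refine (hC _).trans ?_
      have : |y + a * s| ≤ |y| + |a * s| := abs_add_le _ _
      rw [abs_mul, abs_of_pos hs0] at this
      linarith
    rw [Real.norm_eq_abs, abs_mul, abs_of_pos (Real.exp_pos _)]
    have hexp := Real.exp_pos (-s)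
    calc Real.exp (-s) * |h (y + a * s)| ≤ Real.exp (-s) * (|y| + |a| * s + C) := by
          gcongr
      _ = (|y| + C) * Real.exp (-s) + |a| * (s * Real.exp (-s)) := by ring

lemma T_mono {h k : ℝ → ℝ} (hc : Continuous h) (hg : LinGrowth h)
    (kc : Continuous k) (kg : LinGrowth k) (hle : ∀ y, h y ≤ k y) (a y : ℝ) :
    T a h y ≤ T a k y := by
  refine setIntegral_mono (T_integrable hc hg a y) (T_integrable kc kg a y) (fun s => ?_)
  exact mul_le_mul_of_nonneg_left (hle _) (Real.exp_pos _).le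

lemma T_const (a c y : ℝ) : T a (fun _ => c) y = c := by
  unfold T
  rw [integral_mul_const, integral_exp_neg, one_mul]

lemma T_zero {h : ℝ → ℝ} (y : ℝ) : T 0 h y = h y := by
  simp only [T, zero_mul, add_zero]
  rw [integral_mul_const, integral_exp_neg, one_mul]

lemma integral_Ioi_comp_add (f : ℝ → ℝ) (y : ℝ) :
    ∫ u in Ioi (0 : ℝ), f (y + u) = ∫ v in Ioi y, f v := by
  have h := (measurePreserving_add_left (volume : Measure ℝ) y).setIntegral_preimage_emb
    (measurableEmbedding_addLeft y) f (Ioi y)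
  have hp : (fun x => y + x) ⁻¹' Ioi y = Ioi (0 : ℝ) := by
    ext x; simp
  rw [hp] at h
  exact h

lemma integrableOn_Ioi_comp_add (f : ℝ → ℝ) (y : ℝ) :
    IntegrableOn (fun u => f (y + u)) (Ioi (0 : ℝ)) ↔ IntegrableOn f (Ioi y) := by
  have h := (measurePreserving_add_left (volume : Measure ℝ) y).integrableOn_comp_preimage
    (measurableEmbedding_addLeft y) (f := f) (s := Ioi y)
  have hp : (fun x => y + x) ⁻¹' Ioi y = Ioi (0 : ℝ) := by
    ext x; simp
  rw [hp] at h
  exact h

/-- Representation of `T a h`, `a > 0`, by an integral on a ray. -/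
lemma T_eq_ray {h : ℝ → ℝ} {a : ℝ} (ha : 0 < a) (y : ℝ) :
    T a h y = Real.exp (y / a) * a⁻¹ * ∫ v in Ioi y, Real.exp (-(v / a)) * h v := by
  set f : ℝ → ℝ := fun v => Real.exp (-(v / a)) * h v with hf
  have h1 : ∀ s, Real.exp (-s) * h (y + a * s) =
      Real.exp (y / a) * (fun u => f (y + u)) (a * s) := by
    intro s
    simp only [hf]
    rw [← mul_assoc, ← Real.exp_add]
    congr 2
    field_simp
    ring
  unfold T
  simp_rw [h1]
  rw [integral_const_mul, integral_comp_mul_left_Ioi (fun u => f (y + u)) 0 ha, mul_zero,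
    integral_Ioi_comp_add, smul_eq_mul]
  ring

lemma ray_integrable {h : ℝ → ℝ} (hc : Continuous h) (hg : LinGrowth h) {a : ℝ} (ha : 0 < a)
    (y : ℝ) : IntegrableOn (fun v => Real.exp (-(v / a)) * h v) (Ioi y) := by
  set f : ℝ → ℝ := fun v => Real.exp (-(v / a)) * h v with hf
  have h0 := T_integrable hc hg a y
  have h1 : ∀ s, (fun u => f (y + u)) (a * s) =
      Real.exp (-(y / a)) * (Real.exp (-s) * h (y + a * s)) := by
    intro s
    simp only [hf]
    rw [← mul_assoc, ← Real.exp_add]
    congr 2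
    field_simp
    ring
  have h2 : IntegrableOn (fun s => (fun u => f (y + u)) (a * s)) (Ioi 0) := by
    simp_rw [h1]
    exact h0.const_mul _
  have h3 := (integrableOn_Ioi_comp_mul_left_iff (fun u => f (y + u)) 0 ha).1 h2
  rw [mul_zero] at h3
  exact (integrableOn_Ioi_comp_add f y).1 h3

/-- Derivative of `T a h`, `a > 0`. -/
lemma T_hasDerivAt_pos {h : ℝ → ℝ} (hc : Continuous h) (hg : LinGrowth h) {a : ℝ} (ha : 0 < a)
    (y : ℝ) : HasDerivAt (T a h) ((T a h y - h y) / a) y := by
  set f : ℝ → ℝ := fun v => Real.exp (-(v / a)) * h v with hf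
  have hfc : Continuous f := by fun_prop
  have hfint : ∀ z : ℝ, IntegrableOn f (Ioi z) := ray_integrable hc hg ha
  -- the tail integral
  have hF : ∀ w, ∫ v in Ioi w, f v = (∫ v in Ioi y, f v) - ∫ v in y..w, f v := by
    intro w
    have := intervalIntegral.integral_interval_add_Ioi (hfint y) (hfint w)
    linarith
  have hFd : HasDerivAt (fun w => ∫ v in Ioi w, f v) (- f y) y := by
    have h1 : HasDerivAt (fun w => ∫ v in y..w, f v) (f y) y :=
      intervalIntegral.integral_hasDerivAt_right (hfc.intervalIntegrable _ _)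
        (hfc.stronglyMeasurableAtFilter _ _) hfc.continuousAt
    have h2 : HasDerivAt (fun w => (∫ v in Ioi y, f v) - ∫ v in y..w, f v) (- f y) y := by
      simpa using h1.const_sub (∫ v in Ioi y, f v)
    exact h2.congr_of_eventuallyEq (Eventually.of_forall hF)
  have hE : HasDerivAt (fun w => Real.exp (w / a)) (Real.exp (y / a) * (1 / a)) y := by
    have : HasDerivAt (fun w : ℝ => w / a) (1 / a) y := (hasDerivAt_id y).div_const a
    exact this.exp
  have hT : T a h = fun w => Real.exp (w / a) * a⁻¹ * ∫ v in Ioi w, f v := by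
    funext w
    exact T_eq_ray ha w
  have hd := (hE.mul_const a⁻¹).mul hFd
  have hval : (T a h y - h y) / a =
      Real.exp (y / a) * (1 / a) * a⁻¹ * (∫ v in Ioi y, f v)
        + Real.exp (y / a) * a⁻¹ * (- f y) := by
    rw [T_eq_ray ha y]
    simp only [hf]
    have : Real.exp (y / a) * Real.exp (-(y / a)) = 1 := by
      rw [← Real.exp_add]; simp
    have e2 : Real.exp (y / a) * a⁻¹ * -(Real.exp (-(y / a)) * h y)
        = - a⁻¹ * h y * (Real.exp (y / a) * Real.exp (-(y / a))) := by ring
    rw [e2, this]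
    field_simp
    ring
  rw [hval, hT]
  exact hd

lemma LinGrowth.comp_neg {h : ℝ → ℝ} (hg : LinGrowth h) : LinGrowth (fun v => h (-v)) := by
  obtain ⟨C, hC⟩ := hg
  exact ⟨C, fun y => by simpa using hC (-y)⟩

lemma T_neg_eq (a : ℝ) (h : ℝ → ℝ) (y : ℝ) : T (-a) h y = T a (fun v => h (-v)) (-y) := by
  unfold T
  refine setIntegral_congr_fun measurableSet_Ioi (fun s _ => ?_)
  simp only
  congr 2
  ring

/-- Derivative of `T a h`, `a ≠ 0`. -/
lemma T_hasDerivAt {h : ℝ → ℝ} (hc : Continuous h) (hg : LinGrowth h) {a : ℝ} (ha : a ≠ 0)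
    (y : ℝ) : HasDerivAt (T a h) ((T a h y - h y) / a) y := by
  rcases lt_or_gt_of_ne ha with ha' | ha'
  · -- negative case, by reflection
    have hb : 0 < -a := by linarith
    have hc' : Continuous (fun v => h (-v)) := by fun_prop
    have h1 := T_hasDerivAt_pos hc' hg.comp_neg hb (-y)
    have h2 : HasDerivAt (fun w => T (-a) (fun v => h (-v)) (-w))
        (((T (-a) (fun v => h (-v)) (-y) - h (- -y)) / -a) * (-1)) y :=
      HasDerivAt.comp y (h₂ := T (-a) (fun v => h (-v))) (h := fun w => -w) h1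
        (hasDerivAt_neg y)
    have h3 : ∀ w, T (-a) (fun v => h (-v)) (-w) = T a h w := by
      intro w
      have := T_neg_eq (-a) h w
      rw [neg_neg] at this
      exact this.symm
    have h4 : (fun w => T (-a) (fun v => h (-v)) (-w)) = T a h := funext h3
    rw [h4] at h2
    convert h2 using 1
    rw [h3 y, neg_neg]
    field_simp
  · exact T_hasDerivAt_pos hc hg ha' y

lemma T_continuous {h : ℝ → ℝ} (hc : Continuous h) (hg : LinGrowth h) (a : ℝ) :
    Continuous (T a h) := by
  by_cases ha : a = 0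
  · subst ha
    have : T 0 h = h := funext fun y => T_zero y
    rw [this]; exact hc
  · exact continuous_iff_continuousAt.2 fun y => (T_hasDerivAt hc hg ha y).continuousAt

lemma T_linGrowth {h : ℝ → ℝ} (hc : Continuous h) (hg : LinGrowth h) (a : ℝ) :
    LinGrowth (T a h) := by
  obtain ⟨C, hC⟩ := id hg
  refine ⟨|a| + C, fun y => ?_⟩
  have h1 : |T a h y| ≤ ∫ s in Ioi (0 : ℝ), |Real.exp (-s) * h (y + a * s)| := by
    exact abs_integral_le_integral_abs
  have hmajor : IntegrableOn
      (fun s => (|y| + C) * Real.exp (-s) + |a| * (s * Real.exp (-s))) (Ioi 0) :=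
    (integrableOn_exp_neg.const_mul _).add (integrableOn_id_mul_exp_neg.const_mul _)
  have h2 : ∫ s in Ioi (0 : ℝ), |Real.exp (-s) * h (y + a * s)| ≤
      ∫ s in Ioi (0 : ℝ), ((|y| + C) * Real.exp (-s) + |a| * (s * Real.exp (-s))) := by
    refine setIntegral_mono_on (T_integrable hc hg a y).abs hmajor measurableSet_Ioi ?_
    intro s hs
    have hs0 : (0 : ℝ) < s := hs
    have h3 : |h (y + a * s)| ≤ |y| + |a| * s + C := by
      refine (hC _).trans ?_
      have : |y + a * s| ≤ |y| + |a * s| := abs_add_le _ _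
      rw [abs_mul, abs_of_pos hs0] at this
      linarith
    rw [abs_mul, abs_of_pos (Real.exp_pos _)]
    calc Real.exp (-s) * |h (y + a * s)| ≤ Real.exp (-s) * (|y| + |a| * s + C) := by
          gcongr
      _ = (|y| + C) * Real.exp (-s) + |a| * (s * Real.exp (-s)) := by ring
  have h4 : ∫ s in Ioi (0 : ℝ), ((|y| + C) * Real.exp (-s) + |a| * (s * Real.exp (-s)))
      = |y| + |a| + C := by
    rw [integral_add (integrableOn_exp_neg.const_mul _)
      (integrableOn_id_mul_exp_neg.const_mul _), integral_const_mul, integral_const_mul,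
      integral_exp_neg, integral_id_mul_exp_neg]
    ring
  unfold T at *
  linarith

/-- Bounded functions: `T a h` keeps the bound. -/
lemma T_abs_le {h : ℝ → ℝ} {B : ℝ} (hb : ∀ y, |h y| ≤ B) (a y : ℝ) : |T a h y| ≤ B := by
  have hB : 0 ≤ B := (abs_nonneg _).trans (hb 0)
  unfold T
  have h1 : |∫ s in Ioi (0 : ℝ), Real.exp (-s) * h (y + a * s)| ≤
      ∫ s in Ioi (0 : ℝ), |Real.exp (-s) * h (y + a * s)| := abs_integral_le_integral_abs
  have h2 : ∫ s in Ioi (0 : ℝ), |Real.exp (-s) * h (y + a * s)| ≤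
      ∫ s in Ioi (0 : ℝ), B * Real.exp (-s) := by
    by_cases hi : IntegrableOn (fun s => |Real.exp (-s) * h (y + a * s)|) (Ioi 0)
    · refine setIntegral_mono_on hi (integrableOn_exp_neg.const_mul _) measurableSet_Ioi ?_
      intro s _
      rw [abs_mul, abs_of_pos (Real.exp_pos _), mul_comm]
      exact mul_le_mul_of_nonneg_right (hb _) (Real.exp_pos _).le
    · rw [integral_undef hi]
      rw [integral_const_mul, integral_exp_neg]
      linarith
  rw [integral_const_mul, integral_exp_neg, mul_one] at h2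
  linarith

lemma LinGrowth.of_bounded {h : ℝ → ℝ} {B : ℝ} (hb : ∀ y, |h y| ≤ B) : LinGrowth h :=
  ⟨B, fun y => (hb y).trans (by linarith [abs_nonneg y])⟩

end Crest.Agent.Lib.TruncExp
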