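import Crest.Agent.Lib.TruncExpA

/-!
Auxiliary analysis for statement S0423 (part B): stop-loss transforms are log-concave.
-/

open MeasureTheory Set Filter Topology

namespace Crest.Agent.Lib.TruncExp

/-- The class of functions `y ↦ E (y + W)₊`, as far as is needed. -/
structure Adm (ϱ : ℝ → ℝ) (m : ℝ) : Prop where
  cont : Continuous ϱ
  growth : LinGrowth ϱ
  nonneg : ∀ y, 0 ≤ ϱ y
  mono : Monotone ϱ
  line : ∀ y, y + m ≤ ϱ y
  logc : ConcaveOn ℝ {y | 0 < ϱ y} (fun y => Real.log (ϱ y))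

/-- Positive part. -/
noncomputable def r (y : ℝ) : ℝ := max y 0

lemma r_cont : Continuous r := continuous_id.max continuous_const

lemma r_growth : LinGrowth r := by
  refine ⟨0, fun y => ?_⟩
  unfold r
  rcases le_total y 0 with h | h
  · rw [max_eq_right h]; simp
  · rw [max_eq_left h]; simp

lemma adm_r : Adm r 0 := by
  refine ⟨r_cont, r_growth, fun y => le_max_right _ _, fun x y h => max_le_max_right _ h,
    fun y => by simp [r], ?_⟩
  have hset : {y | 0 < r y} = Ioi (0 : ℝ) := by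
    ext y
    simp [r]
  rw [hset]
  refine strictConcaveOn_log_Ioi.concaveOn.congr ?_
  intro y hy
  have : (0 : ℝ) < y := hy
  simp [r, max_eq_left this.le]

/-- Total positivity of order two. -/
lemma Adm.tp2 {ϱ : ℝ → ℝ} {m : ℝ} (H : Adm ϱ m) {u w d : ℝ} (huw : u ≤ w) (hd : 0 ≤ d) :
    ϱ u * ϱ (w + d) ≤ ϱ w * ϱ (u + d) := by
  rcases (H.nonneg u).eq_or_lt with h0 | hpos
  · rw [← h0, zero_mul]
    exact mul_nonneg (H.nonneg _) (H.nonneg _)
  have hpw : 0 < ϱ w := lt_of_lt_of_le hpos (H.mono huw)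
  have hpud : 0 < ϱ (u + d) := lt_of_lt_of_le hpos (H.mono (by linarith))
  have hpwd : 0 < ϱ (w + d) := lt_of_lt_of_le hpos (H.mono (by linarith))
  rcases eq_or_lt_of_le (show 0 ≤ w + d - u by linarith) with htot | htot
  · have e1 : u = w := by linarith
    have e2 : d = 0 := by linarith
    subst e1; subst e2
    simp
  set t := w + d - u with ht
  have htne : t ≠ 0 := htot.ne'
  have hθ0 : 0 ≤ (w - u) / t := div_nonneg (by linarith) htot.le
  have hθ1 : 0 ≤ d / t := div_nonneg hd htot.le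
  have hsum : (w - u) / t + d / t = 1 := by
    rw [← add_div]
    rw [div_eq_one_iff_eq htne, ht]
    ring
  have hsum' : d / t + (w - u) / t = 1 := by linarith
  have hmu : u ∈ {y | 0 < ϱ y} := hpos
  have hmwd : (w + d) ∈ {y | 0 < ϱ y} := hpwd
  have c1 := H.logc.2 hmu hmwd hθ1 hθ0 hsum'
  have c2 := H.logc.2 hmu hmwd hθ0 hθ1 hsum
  have e1 : (d / t) • u + ((w - u) / t) • (w + d) = w := by
    simp only [smul_eq_mul]
    have h3 : d * u + (w - u) * (w + d) = w * t := by rw [ht]; ring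
    rw [div_mul_eq_mul_div, div_mul_eq_mul_div, ← add_div, h3, mul_div_assoc, div_self htne,
      mul_one]
  have e2 : ((w - u) / t) • u + (d / t) • (w + d) = u + d := by
    simp only [smul_eq_mul]
    have h3 : (w - u) * u + d * (w + d) = (u + d) * t := by rw [ht]; ring
    rw [div_mul_eq_mul_div, div_mul_eq_mul_div, ← add_div, h3, mul_div_assoc, div_self htne,
      mul_one]
  simp only [smul_eq_mul] at e1 e2 c1 c2
  rw [e1] at c1
  rw [e2] at c2
  have hlog : Real.log (ϱ u * ϱ (w + d)) ≤ Real.log (ϱ w * ϱ (u + d)) := by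
    rw [Real.log_mul hpos.ne' hpwd.ne', Real.log_mul hpw.ne' hpud.ne']
    have hk : (d / t + (w - u) / t) * (Real.log (ϱ u) + Real.log (ϱ (w + d)))
        = Real.log (ϱ u) + Real.log (ϱ (w + d)) := by rw [hsum']; ring
    nlinarith
  exact (Real.log_le_log_iff (mul_pos hpos hpwd) (mul_pos hpw hpud)).1 hlog

lemma T_line {m : ℝ} (a y : ℝ) : T a (fun v => v + m) y = y + m + a := by
  unfold T
  have h1 : ∀ s : ℝ, Real.exp (-s) * (y + a * s + m) =
      (y + m) * Real.exp (-s) + a * (s * Real.exp (-s)) := fun s => by ring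
  simp_rw [h1]
  rw [integral_add (integrableOn_exp_neg.const_mul _)
    (integrableOn_id_mul_exp_neg.const_mul _), integral_const_mul, integral_const_mul,
    integral_exp_neg, integral_id_mul_exp_neg]
  ring

lemma line_growth (m : ℝ) : LinGrowth (fun v => v + m) := by
  refine ⟨|m|, fun y => ?_⟩
  exact abs_add_le _ _

/-- Key comparison behind the closure of log-concavity under `T a`, for `a > 0`. -/
lemma key_pos {ϱ : ℝ → ℝ} {m : ℝ} (H : Adm ϱ m) {a : ℝ} (ha : 0 < a) {y y₂ : ℝ} (hy : y ≤ y₂) :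
    ϱ y * T a ϱ y₂ ≤ ϱ y₂ * T a ϱ y := by
  unfold T
  rw [← integral_const_mul, ← integral_const_mul]
  refine setIntegral_mono_on ((T_integrable H.cont H.growth a y₂).const_mul _)
    ((T_integrable H.cont H.growth a y).const_mul _) measurableSet_Ioi ?_
  intro s hs
  have hs0 : (0 : ℝ) < s := hs
  have := H.tp2 hy (mul_pos ha hs0).le
  have hE := Real.exp_pos (-s)
  calc ϱ y * (Real.exp (-s) * ϱ (y₂ + a * s))
      = Real.exp (-s) * (ϱ y * ϱ (y₂ + a * s)) := by ring
    _ ≤ Real.exp (-s) * (ϱ y₂ * ϱ (y + a * s)) := by gcongr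
    _ = ϱ y₂ * (Real.exp (-s) * ϱ (y + a * s)) := by ring

/-- Key comparison behind the closure of log-concavity under `T a`, for `a < 0`. -/
lemma key_neg {ϱ : ℝ → ℝ} {m : ℝ} (H : Adm ϱ m) {a : ℝ} (ha : a < 0) {y y₂ : ℝ} (hy : y ≤ y₂) :
    ϱ y₂ * T a ϱ y ≤ ϱ y * T a ϱ y₂ := by
  unfold T
  rw [← integral_const_mul, ← integral_const_mul]
  refine setIntegral_mono_on ((T_integrable H.cont H.growth a y).const_mul _)
    ((T_integrable H.cont H.growth a y₂).const_mul _) measurableSet_Ioi ?_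
  intro s hs
  have hs0 : (0 : ℝ) < s := hs
  have hd : 0 ≤ -(a * s) := by nlinarith
  have := H.tp2 (u := y + a * s) (w := y₂ + a * s) (d := -(a * s)) (by linarith) hd
  have e1 : y₂ + a * s + -(a * s) = y₂ := by ring
  have e2 : y + a * s + -(a * s) = y := by ring
  rw [e1, e2] at this
  have hE := Real.exp_pos (-s)
  calc ϱ y₂ * (Real.exp (-s) * ϱ (y + a * s))
      = Real.exp (-s) * (ϱ (y + a * s) * ϱ y₂) := by ring
    _ ≤ Real.exp (-s) * (ϱ (y₂ + a * s) * ϱ y) := by gcongr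
    _ = ϱ y * (Real.exp (-s) * ϱ (y₂ + a * s)) := by ring

lemma Adm.T_mono {ϱ : ℝ → ℝ} {m : ℝ} (H : Adm ϱ m) (a : ℝ) : Monotone (T a ϱ) := by
  intro y y₂ hy
  refine setIntegral_mono (T_integrable H.cont H.growth a y)
    (T_integrable H.cont H.growth a y₂) (fun s => ?_)
  exact mul_le_mul_of_nonneg_left (H.mono (by linarith)) (Real.exp_pos _).le

lemma Adm.T_logc {ϱ : ℝ → ℝ} {m : ℝ} (H : Adm ϱ m) {a : ℝ} (ha : a ≠ 0) :
    ConcaveOn ℝ {y | 0 < T a ϱ y} (fun y => Real.log (T a ϱ y)) := by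
  have hcontΦ : Continuous (T a ϱ) := T_continuous H.cont H.growth a
  have hmono : Monotone (T a ϱ) := H.T_mono a
  have hconv : Convex ℝ {y | 0 < T a ϱ y} := by
    have := MonotoneOn.convex_gt (𝕜 := ℝ) (hmono.monotoneOn univ) convex_univ (0 : ℝ)
    simpa using this
  have hopen : IsOpen {y | 0 < T a ϱ y} := isOpen_lt continuous_const hcontΦ
  have hderiv : ∀ y ∈ {y | 0 < T a ϱ y},
      HasDerivAt (fun y => Real.log (T a ϱ y)) (((T a ϱ y - ϱ y) / a) / T a ϱ y) y := by
    intro y hy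
    exact (T_hasDerivAt H.cont H.growth ha y).log (ne_of_gt hy)
  refine AntitoneOn.concaveOn_of_deriv hconv ?_ ?_ ?_
  · intro y hy
    exact (hderiv y hy).continuousAt.continuousWithinAt
  · rw [hopen.interior_eq]
    intro y hy
    exact (hderiv y hy).differentiableAt.differentiableWithinAt
  · rw [hopen.interior_eq]
    intro y hy y₂ hy₂ hle
    rw [(hderiv y hy).deriv, (hderiv y₂ hy₂).deriv]
    have h1 : 0 < T a ϱ y := hy
    have h2 : 0 < T a ϱ y₂ := hy₂
    rcases lt_or_gt_of_ne ha with ha' | ha'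
    · have hk := key_neg H ha' hle
      have hb : 0 < -a := by linarith
      have e1 : (T a ϱ y₂ - ϱ y₂) / a / T a ϱ y₂ = (ϱ y₂ - T a ϱ y₂) / (-a * T a ϱ y₂) := by
        field_simp
        ring
      have e2 : (T a ϱ y - ϱ y) / a / T a ϱ y = (ϱ y - T a ϱ y) / (-a * T a ϱ y) := by
        field_simp
        ring
      rw [e1, e2, div_le_div_iff₀ (mul_pos hb h2) (mul_pos hb h1)]
      nlinarith [mul_le_mul_of_nonneg_left hk hb.le]
    · have hk := key_pos H ha' hle
      rw [div_div, div_div, div_le_div_iff₀ (mul_pos ha' h2) (mul_pos ha' h1)]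
      nlinarith [mul_le_mul_of_nonneg_left hk ha'.le]

/-- The class `Adm` is closed under `T a`. -/
lemma Adm.T {ϱ : ℝ → ℝ} {m : ℝ} (H : Adm ϱ m) (a : ℝ) : Adm (T a ϱ) (m + a) := by
  refine ⟨T_continuous H.cont H.growth a, T_linGrowth H.cont H.growth a, ?_, H.T_mono a, ?_, ?_⟩
  · intro y
    refine setIntegral_nonneg measurableSet_Ioi (fun s _ => ?_)
    exact mul_nonneg (Real.exp_pos _).le (H.nonneg _)
  · intro y
    have h1 := TruncExp.T_mono (h := fun v => v + m) (k := ϱ) (by fun_prop) (line_growth m)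
      H.cont H.growth H.line a y
    rw [T_line] at h1
    linarith
  · by_cases ha : a = 0
    · subst ha
      have : TruncExp.T 0 ϱ = ϱ := funext fun y => T_zero y
      rw [this]
      exact H.logc
    · exact H.T_logc ha

/-- The logarithmic-concavity inequality in usable form: `ϱ` at a convex combination. -/
lemma Adm.log_ge {ϱ : ℝ → ℝ} {m : ℝ} (H : Adm ϱ m) {u v θ : ℝ} (hu : 0 < ϱ u) (hv : 0 < ϱ v)
    (h0 : 0 ≤ θ) (h1 : θ ≤ 1) :
    (1 - θ) * Real.log (ϱ u) + θ * Real.log (ϱ v) ≤ Real.log (ϱ ((1 - θ) * u + θ * v)) := by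
  have := H.logc.2 hu hv (by linarith : (0 : ℝ) ≤ 1 - θ) h0 (by ring)
  simpa only [smul_eq_mul] using this

end Crest.Agent.Lib.TruncExp
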