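import Crest.Agent.Lib.TruncExpB

/-!
Auxiliary analysis for statement S0423 (part C): the representation of the weight by
stop-loss functions, and explicit formulas.
-/

open MeasureTheory Set Filter Topology

namespace Crest.Agent.Lib.TruncExp

open Crest.AlgGeometry (truncExpWeight)

/-- The second derivative of the weight on the positive half line. -/
noncomputable def w (x : ℝ) : ℝ := (x - 1) * Real.exp (-x)

lemma w_cont : Continuous w := by unfold w; fun_prop

lemma integrableOn_sq_mul_exp_neg :
    IntegrableOn (fun s : ℝ => s ^ 2 * Real.exp (-s)) (Ioi 0) := by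
  have := integrableOn_rpow_mul_exp_neg_mul_rpow (s := 2) (p := 1) (b := 1)
    (by norm_num) one_pos one_pos
  refine this.congr_fun (fun x hx => ?_) measurableSet_Ioi
  simp [Real.rpow_one]

lemma integrableOn_w : IntegrableOn w (Ioi 0) := by
  have h := integrableOn_id_mul_exp_neg.sub integrableOn_exp_neg
  refine h.congr_fun (fun x _ => ?_) measurableSet_Ioi
  simp only [w, Pi.sub_apply]
  ring

lemma integrableOn_id_mul_w : IntegrableOn (fun x => x * w x) (Ioi 0) := by
  have h := integrableOn_sq_mul_exp_neg.sub integrableOn_id_mul_exp_neg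
  refine h.congr_fun (fun x _ => ?_) measurableSet_Ioi
  simp only [w, Pi.sub_apply]
  ring

/-- Integrability of `w x * ϱ (y - x)`. -/
lemma w_integrable {ϱ : ℝ → ℝ} (hc : Continuous ϱ) (hg : LinGrowth ϱ) (y : ℝ) :
    IntegrableOn (fun x => w x * ϱ (y - x)) (Ioi 0) := by
  obtain ⟨C, hC⟩ := hg
  have hmajor : IntegrableOn (fun x => (|y| + C) * |w x| + |x * w x|) (Ioi 0) :=
    (integrableOn_w.abs.const_mul _).add integrableOn_id_mul_w.abs
  refine Integrable.mono' hmajor ?_ ?_
  · exact (by have := w_cont; fun_prop : Continuous fun x => w x * ϱ (y - x)).aestronglyMeasurable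
  · refine (ae_restrict_iff' measurableSet_Ioi).2 (ae_of_all _ fun x hx => ?_)
    have hx0 : (0 : ℝ) < x := hx
    have h1 : |ϱ (y - x)| ≤ |y| + x + C := by
      refine (hC _).trans ?_
      have : |y - x| ≤ |y| + |x| := abs_sub _ _
      rw [abs_of_pos hx0] at this
      linarith
    rw [Real.norm_eq_abs, abs_mul, abs_mul, abs_of_pos hx0]
    have hw := abs_nonneg (w x)
    nlinarith [mul_le_mul_of_nonneg_left h1 hw]

/-- Representation of a function by stop-loss transforms. -/
def Rep (h ϱ : ℝ → ℝ) : Prop := ∀ y, h y = 1 + ∫ x in Ioi (0 : ℝ), w x * ϱ (y - x)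

lemma Rep.T {h ϱ : ℝ → ℝ} (H : Rep h ϱ) (hc : Continuous ϱ) (hg : LinGrowth ϱ) (a : ℝ) :
    Rep (T a h) (T a ϱ) := by
  intro y
  obtain ⟨C, hC⟩ := id hg
  set μ : Measure ℝ := volume.restrict (Ioi (0 : ℝ)) with hμ
  set F : ℝ → ℝ → ℝ := fun s x => Real.exp (-s) * (w x * ϱ (y + a * s - x)) with hF
  have hFint : Integrable (Function.uncurry F) (μ.prod μ) := by
    have h1 : Integrable (fun z : ℝ × ℝ => ((|y| + C) * Real.exp (-z.1)) * |w z.2|) (μ.prod μ) :=
      Integrable.mul_prod (integrableOn_exp_neg.const_mul _) integrableOn_w.abs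
    have h2 : Integrable (fun z : ℝ × ℝ => (|a| * (z.1 * Real.exp (-z.1))) * |w z.2|) (μ.prod μ) :=
      Integrable.mul_prod (integrableOn_id_mul_exp_neg.const_mul _) integrableOn_w.abs
    have h3 : Integrable (fun z : ℝ × ℝ => Real.exp (-z.1) * |z.2 * w z.2|) (μ.prod μ) :=
      Integrable.mul_prod integrableOn_exp_neg integrableOn_id_mul_w.abs
    refine Integrable.mono' ((h1.add h2).add h3) ?_ ?_
    · have : Continuous (Function.uncurry F) := by
        have := w_cont
        simp only [hF, Function.uncurry_def]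
        fun_prop
      exact this.aestronglyMeasurable
    · have hm : MeasurableSet (Ioi (0 : ℝ) ×ˢ Ioi (0 : ℝ)) :=
        measurableSet_Ioi.prod measurableSet_Ioi
      have hres : μ.prod μ = (volume.prod volume).restrict (Ioi (0 : ℝ) ×ˢ Ioi (0 : ℝ)) := by
        rw [hμ, Measure.prod_restrict]
      rw [hres]
      refine (ae_restrict_iff' hm).2 (ae_of_all _ fun z hz => ?_)
      obtain ⟨s, x⟩ := z
      have hs0 : (0 : ℝ) < s := hz.1
      have hx0 : (0 : ℝ) < x := hz.2
      have h4 : |ϱ (y + a * s - x)| ≤ |y| + |a| * s + x + C := by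
        refine (hC _).trans ?_
        have e1 : |y + a * s - x| ≤ |y + a * s| + |x| := abs_sub _ _
        have e2 : |y + a * s| ≤ |y| + |a * s| := abs_add_le _ _
        rw [abs_mul, abs_of_pos hs0] at e2
        rw [abs_of_pos hx0] at e1
        linarith
      simp only [hF, Function.uncurry_apply_pair, Pi.add_apply, Real.norm_eq_abs]
      rw [abs_mul, abs_mul, abs_of_pos (Real.exp_pos _), abs_mul, abs_of_pos hx0]
      have hw := abs_nonneg (w x)
      have hE := Real.exp_pos (-s)
      have h5 := mul_le_mul_of_nonneg_left h4 (mul_nonneg hE.le hw)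
      calc Real.exp (-s) * (|w x| * |ϱ (y + a * s - x)|)
          = (Real.exp (-s) * |w x|) * |ϱ (y + a * s - x)| := by ring
        _ ≤ (Real.exp (-s) * |w x|) * (|y| + |a| * s + x + C) := h5
        _ = _ := by ring
  have hIint : Integrable (fun s => ∫ x, F s x ∂μ) μ := hFint.integral_prod_left
  have h1 : ∀ s, Real.exp (-s) * h (y + a * s) = Real.exp (-s) + ∫ x, F s x ∂μ := by
    intro s
    rw [H (y + a * s), mul_add, mul_one]
    congr 1
    rw [hμ, ← integral_const_mul]
  have h2 : TruncExp.T a h y = 1 + ∫ s, ∫ x, F s x ∂μ ∂μ := by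
    unfold TruncExp.T
    simp_rw [h1]
    rw [integral_add integrableOn_exp_neg hIint, integral_exp_neg]
  rw [h2, integral_integral_swap hFint]
  congr 1
  refine integral_congr_ae (ae_of_all _ fun x => ?_)
  simp only [hF, TruncExp.T]
  rw [← integral_const_mul]
  refine integral_congr_ae (ae_of_all _ fun s => ?_)
  simp only
  have e : y + a * s - x = y - x + a * s := by ring
  rw [e]
  ring

end Crest.Agent.Lib.TruncExp
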