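import Crest.Agent.Lib.TruncExpC

/-!
Auxiliary analysis for statement S0423 (part D): explicit formulas for one exponential.
-/

open MeasureTheory Set Filter Topology

namespace Crest.Agent.Lib.TruncExp

open Crest.AlgGeometry (truncExpWeight)

lemma g_of_nonpos {y : ℝ} (hy : y ≤ 0) : truncExpWeight y = 1 := by
  simp [truncExpWeight, hy]

lemma g_of_pos {y : ℝ} (hy : 0 < y) : truncExpWeight y = (1 + y) * Real.exp (-y) := by
  simp [truncExpWeight, not_le.2 hy]

lemma g_cont : Continuous truncExpWeight := by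
  unfold truncExpWeight
  refine Continuous.if_le continuous_const (by fun_prop) continuous_id continuous_const ?_
  intro x hx
  have hx0 : x = 0 := hx
  subst hx0
  simp

lemma g_abs_le (y : ℝ) : |truncExpWeight y| ≤ 1 := by
  rcases le_or_gt y 0 with hy | hy
  · rw [g_of_nonpos hy]; simp
  · rw [g_of_pos hy]
    have hE := Real.exp_pos (-y)
    have h1 : (1 + y) * Real.exp (-y) ≤ 1 := by
      have h2 : 1 + y ≤ Real.exp y := by linarith [Real.add_one_le_exp y]
      have h3 : Real.exp y * Real.exp (-y) = 1 := by rw [← Real.exp_add]; simp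
      nlinarith
    rw [abs_of_nonneg (by positivity)]
    exact h1

lemma g_growth : LinGrowth truncExpWeight := LinGrowth.of_bounded g_abs_le

/-- The weight is represented by the positive part. -/
lemma rep_g : Rep truncExpWeight r := by
  intro y
  rcases le_or_gt y 0 with hy | hy
  · rw [g_of_nonpos hy]
    have : ∀ x ∈ Ioi (0 : ℝ), w x * r (y - x) = 0 := by
      intro x hx
      have hx0 : (0 : ℝ) < x := hx
      have : r (y - x) = 0 := max_eq_right (by linarith)
      rw [this, mul_zero]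
    rw [setIntegral_congr_fun measurableSet_Ioi this]
    simp
  · rw [g_of_pos hy]
    have h1 : ∫ x in Ioi (0 : ℝ), w x * r (y - x) = ∫ x in Ioc (0 : ℝ) y, w x * (y - x) := by
      rw [setIntegral_eq_of_subset_of_forall_sdiff_eq_zero measurableSet_Ioi
        (fun x hx => hx.1 : Ioc (0 : ℝ) y ⊆ Ioi 0)]
      · refine setIntegral_congr_fun measurableSet_Ioc (fun x hx => ?_)
        have : r (y - x) = y - x := max_eq_left (by linarith [hx.2])
        simp only [this]
      · intro x hx
        have hxy : y < x := by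
          by_contra hcon
          exact hx.2 ⟨hx.1, not_lt.1 hcon⟩
        have : r (y - x) = 0 := max_eq_right (by linarith)
        rw [this, mul_zero]
    have h2 : ∫ x in (0 : ℝ)..y, w x * (y - x) =
        ((1 + y) * Real.exp (-y) - y * Real.exp (-y) * (y - y))
          - ((1 + 0) * Real.exp (-0) - 0 * Real.exp (-0) * (y - 0)) := by
      refine intervalIntegral.integral_eq_sub_of_hasDerivAt
        (f := fun x => (1 + x) * Real.exp (-x) - x * Real.exp (-x) * (y - x)) ?_ ?_
      · intro x _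
        have hE : HasDerivAt (fun x : ℝ => Real.exp (-x)) (Real.exp (-x) * (-1)) x :=
          (hasDerivAt_neg x).exp
        have h3 : HasDerivAt (fun x : ℝ => 1 + x) 1 x := (hasDerivAt_id x).const_add 1
        have h4 : HasDerivAt (fun x : ℝ => y - x) (-1) x := (hasDerivAt_id x).const_sub y
        have h5 : HasDerivAt (fun x : ℝ => x) 1 x := hasDerivAt_id x
        have := (h3.mul hE).sub ((h5.mul hE).mul h4)
        exact this.congr_deriv (by simp only [w, Pi.mul_apply]; ring)
      · exact (by have := w_cont; fun_prop : Continuous fun x => w x * (y - x)).intervalIntegrable _ _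
    rw [intervalIntegral.integral_of_le hy.le] at h2
    rw [h1, h2]
    simp

/-- Limit of a linear function times a decaying exponential. -/
lemma tendsto_lin_mul_exp (A B : ℝ) {b : ℝ} (hb : 0 < b) :
    Tendsto (fun s : ℝ => (A + B * s) * Real.exp (-(b * s))) atTop (𝓝 0) := by
  have hb' : Tendsto (fun s : ℝ => b * s) atTop atTop := tendsto_id.const_mul_atTop hb
  have h0 : Tendsto (fun s : ℝ => Real.exp (-(b * s))) atTop (𝓝 0) :=
    Real.tendsto_exp_neg_atTop_nhds_zero.comp hb'
  have h1 : Tendsto (fun s : ℝ => (b * s) ^ 1 * Real.exp (-(b * s))) atTop (𝓝 0) :=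
    (Real.tendsto_pow_mul_exp_neg_atTop_nhds_zero 1).comp hb'
  have h2 : Tendsto (fun s : ℝ => A * Real.exp (-(b * s)) +
      (B / b) * ((b * s) ^ 1 * Real.exp (-(b * s)))) atTop (𝓝 (A * 0 + (B / b) * 0)) :=
    (h0.const_mul A).add (h1.const_mul _)
  simp only [mul_zero, add_zero] at h2
  refine h2.congr (fun s => ?_)
  field_simp

/-- `T ρ r` to the right of zero. -/
lemma T_r_nonneg {ρ y : ℝ} (hρ : 0 < ρ) (hy : 0 ≤ y) : T ρ r y = y + ρ := by
  have h : T ρ r y = T ρ (fun v => v + 0) y := by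
    refine setIntegral_congr_fun measurableSet_Ioi (fun s hs => ?_)
    have hs0 : (0 : ℝ) < s := hs
    have : r (y + ρ * s) = y + ρ * s + 0 := by
      rw [add_zero]
      exact max_eq_left (by positivity)
    simp only [this]
  rw [h, T_line]
  ring

/-- `T ρ r` to the left of zero. -/
lemma T_r_nonpos {ρ y : ℝ} (hρ : 0 < ρ) (hy : y ≤ 0) : T ρ r y = ρ * Real.exp (y / ρ) := by
  set s₀ := -y / ρ with hs₀
  have hs₀0 : 0 ≤ s₀ := div_nonneg (by linarith) hρ.le
  have hmul : ρ * s₀ = -y := by rw [hs₀]; field_simp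
  have h1 : T ρ r y = ∫ s in Ioi s₀, Real.exp (-s) * (y + ρ * s) := by
    unfold T
    rw [setIntegral_eq_of_subset_of_forall_sdiff_eq_zero measurableSet_Ioi
        (Ioi_subset_Ioi hs₀0)]
    · refine setIntegral_congr_fun measurableSet_Ioi (fun s hs => ?_)
      have hs' : s₀ < s := hs
      have : 0 ≤ y + ρ * s := by nlinarith
      simp only [r, max_eq_left this]
    · intro s hs
      have hs' : s ≤ s₀ := not_lt.1 hs.2
      have : y + ρ * s ≤ 0 := by nlinarith
      simp only [r, max_eq_right this, mul_zero]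
  have hint : IntegrableOn (fun s => Real.exp (-s) * (y + ρ * s)) (Ioi s₀) := by
    have := (T_integrable (h := fun v => v + 0) (by fun_prop) (line_growth 0) ρ y).mono_set
      (Ioi_subset_Ioi hs₀0)
    simpa using this
  have hderiv : ∀ s ∈ Ici s₀, HasDerivAt (fun s => -((y + ρ + ρ * s) * Real.exp (-(1 * s))))
      (Real.exp (-s) * (y + ρ * s)) s := by
    intro s _
    have hE : HasDerivAt (fun s : ℝ => Real.exp (-(1 * s))) (Real.exp (-(1 * s)) * (-1)) s := by
      have : HasDerivAt (fun s : ℝ => -(1 * s)) (-1) s :=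
        ((hasDerivAt_id s).const_mul 1).neg.congr_deriv (by simp)
      exact this.exp
    have h3 : HasDerivAt (fun s : ℝ => y + ρ + ρ * s) ρ s :=
      (((hasDerivAt_id s).const_mul ρ).const_add (y + ρ)).congr_deriv (by simp)
    have := (h3.mul hE).neg
    exact this.congr_deriv (by simp only [one_mul]; ring)
  have hlim := tendsto_lin_mul_exp (y + ρ) ρ one_pos
  have h2 := integral_Ioi_of_hasDerivAt_of_tendsto' hderiv hint hlim.neg
  rw [h1, h2]
  simp only [one_mul, neg_zero, zero_sub, neg_neg]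
  have e1 : y + ρ + ρ * s₀ = ρ := by rw [hmul]; ring
  have e2 : -s₀ = y / ρ := by rw [hs₀]; ring
  rw [e1, e2]

/-- Tail integral for the weight. -/
lemma tail_g {ρ z s₀ : ℝ} (hρ : 0 < ρ) (h : 0 ≤ z + ρ * s₀) (hs0 : 0 ≤ s₀) :
    ∫ s in Ioi s₀, Real.exp (-s) * truncExpWeight (z + ρ * s) =
      Real.exp (-(s₀ + (z + ρ * s₀))) * ((1 + z + ρ * s₀) / (1 + ρ) + ρ / (1 + ρ) ^ 2) := by
  have hb : 0 < 1 + ρ := by linarith
  have hcong : ∀ s ∈ Ioi s₀, Real.exp (-s) * truncExpWeight (z + ρ * s) =
      Real.exp (-s) * ((1 + (z + ρ * s)) * Real.exp (-(z + ρ * s))) := by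
    intro s hs
    have hs' : s₀ < s := hs
    have : 0 < z + ρ * s := by nlinarith
    rw [g_of_pos this]
  rw [setIntegral_congr_fun measurableSet_Ioi hcong]
  -- antiderivative
  set F : ℝ → ℝ := fun s => -(((1 + z) / (1 + ρ) + ρ / (1 + ρ) ^ 2 + ρ / (1 + ρ) * s) *
    Real.exp (-((1 + ρ) * s))) * Real.exp (-z) with hF
  have hderiv : ∀ s ∈ Ici s₀, HasDerivAt F
      (Real.exp (-s) * ((1 + (z + ρ * s)) * Real.exp (-(z + ρ * s)))) s := by
    intro s _
    have hE : HasDerivAt (fun s : ℝ => Real.exp (-((1 + ρ) * s)))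
        (Real.exp (-((1 + ρ) * s)) * (-(1 + ρ))) s := by
      have : HasDerivAt (fun s : ℝ => -((1 + ρ) * s)) (-(1 + ρ)) s :=
        ((hasDerivAt_id s).const_mul (1 + ρ)).neg.congr_deriv (by simp)
      exact this.exp
    have h3 : HasDerivAt (fun s : ℝ => (1 + z) / (1 + ρ) + ρ / (1 + ρ) ^ 2 + ρ / (1 + ρ) * s)
        (ρ / (1 + ρ)) s :=
      (((hasDerivAt_id s).const_mul (ρ / (1 + ρ))).const_add
        ((1 + z) / (1 + ρ) + ρ / (1 + ρ) ^ 2)).congr_deriv (by simp)
    have := ((h3.mul hE).neg).mul_const (Real.exp (-z))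
    refine this.congr_deriv ?_
    have e1 : Real.exp (-s) * ((1 + (z + ρ * s)) * Real.exp (-(z + ρ * s))) =
        (1 + (z + ρ * s)) * (Real.exp (-((1 + ρ) * s)) * Real.exp (-z)) := by
      have e2 : Real.exp (-((1 + ρ) * s)) * Real.exp (-z) =
          Real.exp (-s) * Real.exp (-(z + ρ * s)) := by
        rw [← Real.exp_add, ← Real.exp_add]
        congr 1
        ring
      rw [e2]
      ring
    rw [e1]
    field_simp
    ring
  have hlim : Tendsto F atTop (𝓝 0) := by
    have := (tendsto_lin_mul_exp ((1 + z) / (1 + ρ) + ρ / (1 + ρ) ^ 2) (ρ / (1 + ρ)) hb).neg.mul_const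
      (Real.exp (-z))
    simpa [hF] using this
  have hint : IntegrableOn
      (fun s => Real.exp (-s) * ((1 + (z + ρ * s)) * Real.exp (-(z + ρ * s)))) (Ioi s₀) :=
    ((T_integrable g_cont g_growth ρ z).mono_set (Ioi_subset_Ioi hs0)).congr_fun hcong
      measurableSet_Ioi
  rw [integral_Ioi_of_hasDerivAt_of_tendsto' hderiv hint hlim]
  simp only [hF, zero_sub, neg_mul, neg_neg]
  have e1 : Real.exp (-(s₀ + (z + ρ * s₀))) = Real.exp (-((1 + ρ) * s₀)) * Real.exp (-z) := by
    rw [← Real.exp_add]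
    congr 1
    ring
  rw [e1]
  field_simp
  ring

/-- `T ρ g` on the right. -/
lemma T_g_nonneg {ρ z : ℝ} (hρ : 0 < ρ) (hz : 0 ≤ z) :
    T ρ truncExpWeight z = Real.exp (-z) * ((1 + z) / (1 + ρ) + ρ / (1 + ρ) ^ 2) := by
  have := tail_g (ρ := ρ) (z := z) (s₀ := 0) hρ (by simpa using hz) le_rfl
  unfold T
  rw [this]
  simp

/-- `T ρ g` on the left. -/
lemma T_g_nonpos {ρ z : ℝ} (hρ : 0 < ρ) (hz : z ≤ 0) :
    T ρ truncExpWeight z = 1 - (ρ / (1 + ρ)) ^ 2 * Real.exp (z / ρ) := by
  set s₀ := -z / ρ with hs₀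
  have hs₀0 : 0 ≤ s₀ := div_nonneg (by linarith) hρ.le
  have hmul : ρ * s₀ = -z := by rw [hs₀]; field_simp
  have hb : 0 < 1 + ρ := by linarith
  have htail := tail_g (ρ := ρ) (z := z) (s₀ := s₀) hρ (by rw [hmul]; linarith) hs₀0
  have hint := T_integrable g_cont g_growth ρ z
  have hsplit := intervalIntegral.integral_interval_add_Ioi (a := 0) (b := s₀) hint
    (hint.mono_set (Ioi_subset_Ioi hs₀0))
  have hmid : ∫ s in (0 : ℝ)..s₀, Real.exp (-s) * truncExpWeight (z + ρ * s) =
      1 - Real.exp (-s₀) := by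
    have hc : ∫ s in (0 : ℝ)..s₀, Real.exp (-s) * truncExpWeight (z + ρ * s) =
        ∫ s in (0 : ℝ)..s₀, Real.exp (-s) := by
      refine intervalIntegral.integral_congr (fun s hs => ?_)
      rw [uIcc_of_le hs₀0] at hs
      have : z + ρ * s ≤ 0 := by nlinarith [hs.2]
      simp only [g_of_nonpos this, mul_one]
    rw [hc]
    have : ∫ s in (0 : ℝ)..s₀, Real.exp (-s) = (-Real.exp (-s₀)) - (-Real.exp (-0)) := by
      refine intervalIntegral.integral_eq_sub_of_hasDerivAt
        (f := fun s => -Real.exp (-s)) (fun s _ => ?_) ?_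
      · have h1 : HasDerivAt (fun s : ℝ => Real.exp (-s)) (Real.exp (-s) * (-1)) s :=
          (hasDerivAt_neg s).exp
        exact h1.neg.congr_deriv (by ring)
      · exact (by fun_prop : Continuous fun s : ℝ => Real.exp (-s)).intervalIntegrable _ _
    rw [this]
    simp
    ring
  unfold T
  rw [← hsplit, hmid, htail]
  have e1 : z + ρ * s₀ = 0 := by rw [hmul]; ring
  have e2 : 1 + z + ρ * s₀ = 1 := by rw [hmul]; ring
  have e3 : -s₀ = z / ρ := by rw [hs₀]; ring
  rw [e2, e1, add_zero, e3]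
  have hne : (1 + ρ) ≠ 0 := hb.ne'
  field_simp
  ring

end Crest.Agent.Lib.TruncExp
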