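import Crest.Agent.Lib.TruncExpD

/-!
Auxiliary analysis for statement S0423 (part E): the crossing argument and the upper bound.
-/

open MeasureTheory Set Filter Topology

namespace Crest.Agent.Lib.TruncExp

open Crest.AlgGeometry (truncExpWeight)

/-- Choice of the comparison scale. -/
lemma exists_rho {b : ℝ} (hb : 1 / 3 ≤ b) :
    ∃ ρ : ℝ, 1 / 3 ≤ ρ ∧ ρ * Real.exp ((1 / 3 - ρ) / ρ) = b := by
  have he : 0 < Real.exp 1 := Real.exp_pos 1
  set ρ₁ : ℝ := 1 / 3 + Real.exp 1 * b with hρ₁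
  have hbpos : 0 < b := by linarith
  have h1 : (1 / 3 : ℝ) ≤ ρ₁ := by
    have : 0 < Real.exp 1 * b := mul_pos he hbpos
    linarith
  have hcont : ContinuousOn (fun ρ : ℝ => ρ * Real.exp ((1 / 3 - ρ) / ρ)) (Icc (1 / 3) ρ₁) := by
    refine continuousOn_id.mul (Real.continuous_exp.comp_continuousOn ?_)
    refine ContinuousOn.div (by fun_prop) continuousOn_id ?_
    intro x hx
    have : (1 / 3 : ℝ) ≤ x := hx.1
    exact ne_of_gt (by linarith)
  have hivt := intermediate_value_Icc h1 hcont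
  have hleft : (fun ρ : ℝ => ρ * Real.exp ((1 / 3 - ρ) / ρ)) (1 / 3) = 1 / 3 := by
    simp
  have hright : b ≤ (fun ρ : ℝ => ρ * Real.exp ((1 / 3 - ρ) / ρ)) ρ₁ := by
    simp only
    have hρ₁pos : 0 < ρ₁ := by linarith
    have h2 : (-1 : ℝ) ≤ (1 / 3 - ρ₁) / ρ₁ := by
      rw [le_div_iff₀ hρ₁pos]
      linarith
    have h3 : Real.exp (-1) ≤ Real.exp ((1 / 3 - ρ₁) / ρ₁) := Real.exp_le_exp.2 h2
    have h4 : Real.exp 1 * Real.exp (-1) = 1 := by rw [← Real.exp_add]; simp
    have h5 : b ≤ ρ₁ * Real.exp (-1) := by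
      have : ρ₁ * Real.exp (-1) = 1 / 3 * Real.exp (-1) + b * (Real.exp 1 * Real.exp (-1)) := by
        rw [hρ₁]; ring
      rw [this, h4]
      have := Real.exp_pos (-1)
      nlinarith
    exact h5.trans (mul_le_mul_of_nonneg_left h3 (by linarith))
  have hmem : b ∈ Icc ((fun ρ : ℝ => ρ * Real.exp ((1 / 3 - ρ) / ρ)) (1 / 3))
      ((fun ρ : ℝ => ρ * Real.exp ((1 / 3 - ρ) / ρ)) ρ₁) := by
    rw [hleft]
    exact ⟨hb, hright⟩
  obtain ⟨ρ, hρ, hval⟩ := hivt hmem
  exact ⟨ρ, hρ.1, hval⟩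

/-- Crossing, right of the pivot. -/
lemma cross_right {ϱ : ℝ → ℝ} (H : Adm ϱ 0) {ρ : ℝ} (hρ : 1 / 3 ≤ ρ)
    (hb : ϱ (1 / 3) = ρ * Real.exp ((1 / 3 - ρ) / ρ)) {Y : ℝ} (hY : 1 / 3 ≤ Y) :
    T ρ r (Y - ρ) ≤ ϱ Y := by
  have hρ0 : 0 < ρ := by linarith
  rcases le_or_gt ρ Y with hle | hlt
  · rw [T_r_nonneg hρ0 (by linarith)]
    have := H.line Y
    linarith
  · rw [T_r_nonpos hρ0 (by linarith)]
    have hρ3 : 1 / 3 < ρ := lt_of_le_of_lt hY hlt
    have hd : 0 < ρ - 1 / 3 := by linarith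
    set θ := (Y - 1 / 3) / (ρ - 1 / 3) with hθ
    have hθ0 : 0 ≤ θ := div_nonneg (by linarith) hd.le
    have hθ1 : θ ≤ 1 := by
      rw [hθ, div_le_one hd]
      linarith
    have hpos13 : 0 < ϱ (1 / 3) := by
      rw [hb]; positivity
    have hposρ : ρ ≤ ϱ ρ := by
      have := H.line ρ
      linarith
    have hposρ' : 0 < ϱ ρ := by linarith
    have hθm : θ * (ρ - 1 / 3) = Y - 1 / 3 := by
      rw [hθ]
      exact div_mul_cancel₀ _ hd.ne'
    have hcomb : (1 - θ) * (1 / 3) + θ * ρ = Y := by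
      linear_combination hθm
    have hlog := H.log_ge hpos13 hposρ' hθ0 hθ1
    rw [hcomb] at hlog
    have hposY : 0 < ϱ Y := lt_of_lt_of_le hpos13 (H.mono hY)
    have h1 : Real.log (ϱ (1 / 3)) = Real.log ρ + (1 / 3 - ρ) / ρ := by
      rw [hb, Real.log_mul hρ0.ne' (Real.exp_pos _).ne', Real.log_exp]
    have h2 : Real.log ρ ≤ Real.log (ϱ ρ) := Real.log_le_log hρ0 hposρ
    have h3 : (1 - θ) * ((1 / 3 - ρ) / ρ) = (Y - ρ) / ρ := by
      have h3' : (1 - θ) * (1 / 3 - ρ) = Y - ρ := by linear_combination hθm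
      rw [← h3']
      ring
    have h4 : Real.log (ρ * Real.exp ((Y - ρ) / ρ)) ≤ Real.log (ϱ Y) := by
      rw [Real.log_mul hρ0.ne' (Real.exp_pos _).ne', Real.log_exp, ← h3]
      rw [h1] at hlog
      nlinarith
    exact (Real.log_le_log_iff (by positivity) hposY).1 h4

/-- Crossing, left of the pivot. -/
lemma cross_left {ϱ : ℝ → ℝ} (H : Adm ϱ 0) {ρ : ℝ} (hρ : 1 / 3 ≤ ρ)
    (hb : ϱ (1 / 3) = ρ * Real.exp ((1 / 3 - ρ) / ρ)) {Y : ℝ} (hY : Y ≤ 1 / 3) :
    ϱ Y ≤ T ρ r (Y - ρ) := by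
  have hρ0 : 0 < ρ := by linarith
  rw [T_r_nonpos hρ0 (by linarith)]
  have hRpos : 0 < ρ * Real.exp ((Y - ρ) / ρ) := by positivity
  rcases (H.nonneg Y).eq_or_lt with h0 | hposY
  · rw [← h0]; exact hRpos.le
  rcases hY.eq_or_lt with rfl | hYlt
  · exact hb.le
  have hpos13 : 0 < ϱ (1 / 3) := lt_of_lt_of_le hposY (H.mono hY)
  have h1 : Real.log (ϱ (1 / 3)) = Real.log ρ + (1 / 3 - ρ) / ρ := by
    rw [hb, Real.log_mul hρ0.ne' (Real.exp_pos _).ne', Real.log_exp]
  suffices h : Real.log (ϱ Y) ≤ Real.log ρ + (Y - ρ) / ρ by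
    have h2 : Real.log (ϱ Y) ≤ Real.log (ρ * Real.exp ((Y - ρ) / ρ)) := by
      rw [Real.log_mul hρ0.ne' (Real.exp_pos _).ne', Real.log_exp]
      exact h
    exact (Real.log_le_log_iff hposY hRpos).1 h2
  rcases hρ.eq_or_lt with hρeq | hρ3
  · -- degenerate case `ρ = 1/3`: a limiting argument
    subst hρeq
    have hb' : ϱ (1 / 3) = 1 / 3 := by rw [hb]; simp
    set η := 1 / 3 - Y with hη
    have hηpos : 0 < η := by rw [hη]; linarith
    have hgoal : Real.log (1 / 3) + (Y - 1 / 3) / (1 / 3) = Real.log (1 / 3) - 3 * η := by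
      rw [hη]; ring
    rw [hgoal]
    refine le_of_forall_pos_le_add (fun ε hε => ?_)
    -- choose `δ`
    set δ := ε / (9 * η) with hδ
    have hδpos : 0 < δ := by positivity
    set Y' := (1 / 3 : ℝ) + δ with hY'
    have hY'pos : 0 < ϱ Y' := by
      have := H.line Y'
      have : Y' ≤ ϱ Y' := by linarith
      have : 0 < Y' := by rw [hY']; positivity
      linarith
    have hY'ge : Y' ≤ ϱ Y' := by
      have := H.line Y'
      linarith
    have hsum : 0 < η + δ := by positivity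
    set θ := η / (η + δ) with hθ
    have hθ0 : 0 ≤ θ := by positivity
    have hθ1 : θ ≤ 1 := by
      rw [hθ, div_le_one hsum]
      linarith
    have h1θ : 1 - θ = δ / (η + δ) := by
      rw [hθ]; field_simp; ring
    have hcomb : (1 - θ) * Y + θ * Y' = 1 / 3 := by
      rw [h1θ, hθ, hY']
      have hYe : Y = 1 / 3 - η := by rw [hη]; ring
      rw [hYe]
      field_simp
      ring
    have hlog := H.log_ge hposY hY'pos hθ0 hθ1
    rw [hcomb, hb'] at hlog
    have hlogY' : Real.log (1 / 3) + 3 * δ / (1 + 3 * δ) ≤ Real.log (ϱ Y') := by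
      have h3 : (0 : ℝ) < 1 / 3 := by norm_num
      have hY'e : Y' = (1 / 3) * (1 + 3 * δ) := by rw [hY']; ring
      have h4 : Real.log Y' = Real.log (1 / 3) + Real.log (1 + 3 * δ) := by
        rw [hY'e, Real.log_mul (by norm_num) (by positivity)]
      have h5 : 3 * δ / (1 + 3 * δ) ≤ Real.log (1 + 3 * δ) := by
        have := Real.one_sub_inv_le_log_of_pos (show 0 < 1 + 3 * δ by positivity)
        have e : 1 - (1 + 3 * δ)⁻¹ = 3 * δ / (1 + 3 * δ) := by
          field_simp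
          ring
        rwa [e] at this
      have h6 : Real.log Y' ≤ Real.log (ϱ Y') :=
        Real.log_le_log (by rw [hY']; positivity) hY'ge
      linarith
    -- from concavity
    have h7 : δ * Real.log (ϱ Y) + η * Real.log (ϱ Y') ≤ (η + δ) * Real.log (1 / 3) := by
      have e1 : (η + δ) * ((1 - θ) * Real.log (ϱ Y) + θ * Real.log (ϱ Y')) =
          δ * Real.log (ϱ Y) + η * Real.log (ϱ Y') := by
        rw [h1θ, hθ]
        field_simp
      rw [← e1]
      exact mul_le_mul_of_nonneg_left hlog hsum.le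
    have h8 : δ * Real.log (ϱ Y) ≤
        δ * Real.log (1 / 3) - η * (3 * δ / (1 + 3 * δ)) := by
      have := mul_le_mul_of_nonneg_left hlogY' hηpos.le
      nlinarith
    have h9 : Real.log (ϱ Y) ≤ Real.log (1 / 3) - η * (3 / (1 + 3 * δ)) := by
      have e2 : δ * Real.log (1 / 3) - η * (3 * δ / (1 + 3 * δ)) =
          δ * (Real.log (1 / 3) - η * (3 / (1 + 3 * δ))) := by
        field_simp
      rw [e2] at h8
      exact le_of_mul_le_mul_left h8 hδpos
    have h10 : 3 * η - η * (3 / (1 + 3 * δ)) ≤ ε := by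
      have e3 : 3 * η - η * (3 / (1 + 3 * δ)) = 9 * η * δ / (1 + 3 * δ) := by
        field_simp
        ring
      rw [e3]
      have e4 : 9 * η * δ = ε := by
        rw [hδ]; field_simp
      rw [e4]
      exact div_le_self hε.le (by nlinarith)
    linarith
  · have hd : 0 < ρ - Y := by linarith
    set θ := (1 / 3 - Y) / (ρ - Y) with hθ
    have hθ0 : 0 ≤ θ := div_nonneg (by linarith) hd.le
    have hθ1 : θ ≤ 1 := by
      rw [hθ, div_le_one hd]
      linarith
    have hθm : θ * (ρ - Y) = 1 / 3 - Y := by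
      rw [hθ]
      exact div_mul_cancel₀ _ hd.ne'
    have h1θm : (1 - θ) * (ρ - Y) = ρ - 1 / 3 := by linear_combination -hθm
    have h1θpos : 0 < 1 - θ := by
      have h9 : θ < 1 := by
        rw [hθ, div_lt_one hd]
        linarith
      linarith
    have hposρ : ρ ≤ ϱ ρ := by
      have := H.line ρ
      linarith
    have hposρ' : 0 < ϱ ρ := by linarith
    have hcomb : (1 - θ) * Y + θ * ρ = 1 / 3 := by
      linear_combination hθm
    have hlog := H.log_ge hposY hposρ' hθ0 hθ1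
    rw [hcomb, h1] at hlog
    have h2 : Real.log ρ ≤ Real.log (ϱ ρ) := Real.log_le_log hρ0 hposρ
    have h3 : (1 - θ) * Real.log (ϱ Y) ≤ (1 - θ) * (Real.log ρ + (Y - ρ) / ρ) := by
      have e1 : (1 - θ) * ((Y - ρ) / ρ) = (1 / 3 - ρ) / ρ := by
        have e1' : (1 - θ) * (Y - ρ) = 1 / 3 - ρ := by linear_combination -h1θm
        rw [← e1']
        ring
      have e2 : (1 - θ) * (Real.log ρ + (Y - ρ) / ρ) =
          (1 - θ) * Real.log ρ + (1 / 3 - ρ) / ρ := by
        rw [mul_add, e1]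
      rw [e2]
      nlinarith
    exact le_of_mul_le_mul_left h3 h1θpos

/-- Calculus: the value of the comparison family. -/
lemma J_le {ρ : ℝ} (hρ : 1 / 3 ≤ ρ) :
    T ρ truncExpWeight (4 / 3 - ρ) ≤ 1 - 4 / 9 * Real.exp (-(1 / 3)) := by
  have hρ0 : 0 < ρ := by linarith
  have hb : 0 < 1 + ρ := by linarith
  rcases le_or_gt ρ (4 / 3) with hle | hgt
  · -- `4/3 - ρ ≥ 0`
    rw [T_g_nonneg hρ0 (by linarith)]
    set t := 4 / 3 - ρ with ht
    have ht0 : 0 ≤ t := by rw [ht]; linarith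
    have ht1 : t ≤ 1 := by rw [ht]; linarith
    have hρe : ρ = 4 / 3 - t := by rw [ht]; ring
    -- a bound for `exp (-(1/3))`
    have h1 : Real.exp (-(1 / 3)) ≤ 18 / 25 := by
      have h2 : (25 / 18 : ℝ) ≤ Real.exp (1 / 3) := by
        have := Real.quadratic_le_exp_of_nonneg (show (0 : ℝ) ≤ 1 / 3 by norm_num)
        norm_num at this ⊢
        linarith
      rw [Real.exp_neg]
      rw [inv_le_comm₀ (Real.exp_pos _) (by norm_num)]
      norm_num at h2 ⊢
      linarith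
    have h3 : (17 / 25 : ℝ) ≤ 1 - 4 / 9 * Real.exp (-(1 / 3)) := by linarith
    refine le_trans ?_ h3
    have h4 : 1 + t + t ^ 2 / 2 ≤ Real.exp t := Real.quadratic_le_exp_of_nonneg ht0
    have h5 : Real.exp (-t) ≤ (1 + t + t ^ 2 / 2)⁻¹ := by
      rw [Real.exp_neg]
      exact inv_anti₀ (by positivity) h4
    have hval : 0 ≤ (1 + t) / (1 + ρ) + ρ / (1 + ρ) ^ 2 := by positivity
    refine (mul_le_mul_of_nonneg_right h5 hval).trans ?_
    have e : (1 + t) / (1 + ρ) + ρ / (1 + ρ) ^ 2 = ((1 + t) * (1 + ρ) + ρ) / (1 + ρ) ^ 2 := by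
      field_simp
    rw [e, inv_mul_eq_div, div_div, div_le_iff₀ (by positivity), hρe]
    nlinarith [mul_nonneg ht0 (sub_nonneg.2 ht1), mul_nonneg (mul_nonneg ht0 ht0) (sub_nonneg.2 ht1),
      mul_nonneg (mul_nonneg ht0 ht0) ht0, mul_nonneg (mul_nonneg (mul_nonneg ht0 ht0) ht0) ht0]
  · -- `4/3 - ρ ≤ 0`
    rw [T_g_nonpos hρ0 (by linarith)]
    set u := 3 / 2 * (ρ / (1 + ρ)) with hu
    have hupos : 0 < u := by positivity
    have h1 : u⁻¹ ≤ Real.exp (u⁻¹ - 1) := by
      have := Real.add_one_le_exp (u⁻¹ - 1)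
      linarith
    have hinvpos : 0 < u⁻¹ := inv_pos.2 hupos
    have h2 : (u⁻¹) ^ 2 ≤ Real.exp (u⁻¹ - 1) ^ 2 := by
      gcongr
    have h3 : Real.exp (u⁻¹ - 1) ^ 2 = Real.exp ((4 / 3 - ρ) / ρ + 1 / 3) := by
      rw [← Real.exp_nat_mul]
      congr 1
      rw [hu]
      push_cast
      field_simp
      ring
    rw [h3] at h2
    have h4 : 1 ≤ u ^ 2 * Real.exp ((4 / 3 - ρ) / ρ + 1 / 3) := by
      have : u ^ 2 * (u⁻¹) ^ 2 = 1 := by
        field_simp
      calc (1 : ℝ) = u ^ 2 * (u⁻¹) ^ 2 := this.symm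
        _ ≤ _ := mul_le_mul_of_nonneg_left h2 (by positivity)
    have h5 : Real.exp ((4 / 3 - ρ) / ρ + 1 / 3) =
        Real.exp ((4 / 3 - ρ) / ρ) * Real.exp (1 / 3) := Real.exp_add _ _
    have h6 : Real.exp (-(1 / 3)) * Real.exp (1 / 3) = 1 := by
      rw [← Real.exp_add]; simp
    have h7 : Real.exp (-(1 / 3)) ≤ u ^ 2 * Real.exp ((4 / 3 - ρ) / ρ) := by
      rw [h5] at h4
      have hE := Real.exp_pos (-(1 / 3))
      have := mul_le_mul_of_nonneg_left h4 hE.le
      rw [mul_one] at this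
      calc Real.exp (-(1 / 3)) ≤ _ := this
        _ = (Real.exp (-(1 / 3)) * Real.exp (1 / 3)) *
            (u ^ 2 * Real.exp ((4 / 3 - ρ) / ρ)) := by ring
        _ = _ := by rw [h6, one_mul]
    have h8 : u ^ 2 = 9 / 4 * (ρ / (1 + ρ)) ^ 2 := by
      rw [hu]; ring
    rw [h8] at h7
    nlinarith

/-- The main inequality at the level of stop-loss transforms. -/
lemma main_bound {h ϱ : ℝ → ℝ} (H : Adm ϱ 0) (R : Rep h ϱ) :
    h (4 / 3) ≤ 1 - 4 / 9 * Real.exp (-(1 / 3)) := by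
  have hb : 1 / 3 ≤ ϱ (1 / 3) := by
    have := H.line (1 / 3)
    linarith
  obtain ⟨ρ, hρ, hval⟩ := exists_rho hb
  have hρ0 : 0 < ρ := by linarith
  have R2 := rep_g.T r_cont r_growth ρ
  have hTc : Continuous (T ρ r) := T_continuous r_cont r_growth ρ
  have hTg : LinGrowth (T ρ r) := T_linGrowth r_cont r_growth ρ
  refine le_trans ?_ (J_le hρ)
  rw [R (4 / 3), R2 (4 / 3 - ρ)]
  have key : ∫ x in Ioi (0 : ℝ), w x * ϱ (4 / 3 - x) ≤
      ∫ x in Ioi (0 : ℝ), w x * T ρ r (4 / 3 - ρ - x) := by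
    refine setIntegral_mono_on (w_integrable H.cont H.growth _) (w_integrable hTc hTg _)
      measurableSet_Ioi ?_
    intro x _
    have e : 4 / 3 - ρ - x = (4 / 3 - x) - ρ := by ring
    rw [e]
    rcases le_total x 1 with hx | hx
    · have hw : w x ≤ 0 := by
        unfold w
        exact mul_nonpos_of_nonpos_of_nonneg (by linarith) (Real.exp_pos _).le
      exact mul_le_mul_of_nonpos_left (cross_right H hρ hval.symm (by linarith)) hw
    · have hw : 0 ≤ w x := by
        unfold w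
        exact mul_nonneg (by linarith) (Real.exp_pos _).le
      exact mul_le_mul_of_nonneg_left (cross_left H hρ hval.symm (by linarith)) hw
  linarith

/-- Iteration of the averaging operators along a list of weights. -/
noncomputable def iter : List ℝ → (ℝ → ℝ) → ℝ → ℝ
  | [], h => h
  | a :: l, h => iter l (T a h)

lemma iter_adm (l : List ℝ) {ϱ : ℝ → ℝ} {m : ℝ} (H : Adm ϱ m) :
    Adm (iter l ϱ) (m + l.sum) := by
  induction l generalizing ϱ m with
  | nil => simpa [iter] using H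
  | cons a l ih =>
    have := ih (H.T a)
    simp only [iter, List.sum_cons]
    have e : m + (a + l.sum) = m + a + l.sum := by ring
    rw [e]
    exact this

lemma iter_rep (l : List ℝ) {h ϱ : ℝ → ℝ} {m : ℝ} (H : Adm ϱ m) (R : Rep h ϱ) :
    Rep (iter l h) (iter l ϱ) := by
  induction l generalizing h ϱ m with
  | nil => simpa [iter] using R
  | cons a l ih =>
    simp only [iter]
    exact ih (H.T a) (R.T H.cont H.growth a)

/-- The upper bound in terms of iterated averages. -/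
lemma iter_bound (l : List ℝ) (hl : l.sum = 0) :
    iter l truncExpWeight (4 / 3) ≤ 1 - 4 / 9 * Real.exp (-(1 / 3)) := by
  have H := iter_adm l adm_r
  rw [hl, add_zero] at H
  exact main_bound H (iter_rep l adm_r rep_g)

end Crest.Agent.Lib.TruncExp
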