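import Crest.Agent.Lib.TruncExpE

/-!
Auxiliary analysis for statement S0423 (part F): from integrals over the orthant to iterated
averages, and the approximation from below.
-/

open MeasureTheory Set Filter Topology

namespace Crest.Agent.Lib.TruncExp

open Crest.AlgGeometry (truncExpWeight)

/-- Product of half-line Lebesgue measures. -/
noncomputable abbrev M (N : ℕ) : Measure (Fin N → ℝ) :=
  Measure.pi (fun _ : Fin N => (volume : Measure ℝ).restrict (Ioi (0 : ℝ)))

lemma restrict_orthant (N : ℕ) :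
    (volume : Measure (Fin N → ℝ)).restrict (Set.pi Set.univ (fun _ : Fin N => Ioi (0 : ℝ)))
      = M N := by
  rw [volume_pi, Measure.restrict_pi_pi]

lemma orthant_integrable (N : ℕ) :
    Integrable (fun x : Fin N → ℝ => Real.exp (-∑ i, x i)) (M N) := by
  have h := Integrable.fintype_prod (𝕜 := ℝ) (ι := Fin N)
    (f := fun _ s => Real.exp (-s))
    (μ := fun _ => (volume : Measure ℝ).restrict (Ioi (0 : ℝ)))
    (fun _ => integrableOn_exp_neg)
  refine h.congr (ae_of_all _ fun x => ?_)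
  simp only
  rw [← Real.exp_sum, Finset.sum_neg_distrib]

lemma bridge_M (N : ℕ) (a : Fin N → ℝ) (h : ℝ → ℝ) (hc : Continuous h) (B : ℝ)
    (hB : ∀ y, |h y| ≤ B) (y : ℝ) :
    ∫ x, h (y + ∑ i, a i * x i) * Real.exp (-∑ i, x i) ∂(M N) = iter (List.ofFn a) h y := by
  induction N generalizing h y B with
  | zero =>
    have hM : M 0 = Measure.dirac (default : Fin 0 → ℝ) := Measure.pi_of_empty _ _
    rw [hM, integral_dirac]
    simp [iter]
  | succ N ih =>
    have hB0 : 0 ≤ B := (abs_nonneg _).trans (hB 0)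
    set μ : Measure ℝ := (volume : Measure ℝ).restrict (Ioi (0 : ℝ)) with hμ
    set F : (Fin (N + 1) → ℝ) → ℝ :=
      fun x => h (y + ∑ i, a i * x i) * Real.exp (-∑ i, x i) with hF
    have mp := measurePreserving_piFinSuccAbove (fun _ : Fin (N + 1) => μ) 0
    set e := MeasurableEquiv.piFinSuccAbove (fun _ : Fin (N + 1) => ℝ) 0 with he
    have h1 : ∫ x, F x ∂(M (N + 1)) = ∫ p, F (e.symm p) ∂(μ.prod (M N)) := by
      have := mp.integral_comp' (g := fun p => F (e.symm p))
      simp only [MeasurableEquiv.symm_apply_apply] at this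
      exact this
    have hG : ∀ p : ℝ × (Fin N → ℝ), F (e.symm p) =
        h (y + a 0 * p.1 + ∑ j, a j.succ * p.2 j) *
          (Real.exp (-p.1) * Real.exp (-∑ j, p.2 j)) := by
      rintro ⟨s, x⟩
      simp only [hF, he, MeasurableEquiv.piFinSuccAbove_symm_apply, Fin.sum_univ_succ,
        Fin.insertNthEquiv_apply, Fin.insertNth_zero', Fin.cons_zero, Fin.cons_succ]
      rw [← Real.exp_add, ← add_assoc]
      congr 2
      ring
    have hGint : Integrable (fun p => F (e.symm p)) (μ.prod (M N)) := by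
      have hmajor : Integrable (fun p : ℝ × (Fin N → ℝ) =>
          (B * Real.exp (-p.1)) * Real.exp (-∑ j, p.2 j)) (μ.prod (M N)) :=
        Integrable.mul_prod (integrableOn_exp_neg.const_mul B) (orthant_integrable N)
      refine Integrable.mono' hmajor ?_ (ae_of_all _ fun p => ?_)
      · simp_rw [hG]
        have : Continuous (fun p : ℝ × (Fin N → ℝ) =>
            h (y + a 0 * p.1 + ∑ j, a j.succ * p.2 j) *
              (Real.exp (-p.1) * Real.exp (-∑ j, p.2 j))) := by
          fun_prop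
        exact this.aestronglyMeasurable
      · rw [hG, Real.norm_eq_abs, abs_mul, abs_mul, abs_of_pos (Real.exp_pos _),
          abs_of_pos (Real.exp_pos _)]
        have h2 := hB (y + a 0 * p.1 + ∑ j, a j.succ * p.2 j)
        have h3 : 0 ≤ Real.exp (-p.1) * Real.exp (-∑ j, p.2 j) := by positivity
        calc _ ≤ B * (Real.exp (-p.1) * Real.exp (-∑ j, p.2 j)) :=
              mul_le_mul_of_nonneg_right h2 h3
          _ = _ := by ring
    have h2 : ∫ p, F (e.symm p) ∂(μ.prod (M N)) =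
        ∫ x, ∫ s, F (e.symm (s, x)) ∂μ ∂(M N) := integral_prod_symm _ hGint
    have h3 : ∀ x : Fin N → ℝ, ∫ s, F (e.symm (s, x)) ∂μ =
        T (a 0) h (y + ∑ j, a j.succ * x j) * Real.exp (-∑ j, x j) := by
      intro x
      simp only [hG, T]
      rw [hμ, ← integral_mul_const]
      refine integral_congr_ae (ae_of_all _ fun s => ?_)
      simp only
      have e1 : y + a 0 * s + ∑ j, a j.succ * x j = y + ∑ j, a j.succ * x j + a 0 * s := by ring
      rw [e1]
      ring
    have hTc : Continuous (T (a 0) h) := T_continuous hc (LinGrowth.of_bounded hB) _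
    have h4 := ih (fun j => a j.succ) (T (a 0) h) hTc B (T_abs_le hB _) y
    rw [show (∫ x, h (y + ∑ i, a i * x i) * Real.exp (-∑ i, x i) ∂(M (N + 1))) =
      ∫ x, F x ∂(M (N + 1)) from rfl, h1, h2]
    simp_rw [h3]
    rw [h4, List.ofFn_succ]
    rfl

/-- The integral in the statement, in terms of iterated averages. -/
lemma bridge (N : ℕ) (a : Fin N → ℝ) :
    ∫ x in Set.pi Set.univ (fun _ : Fin N => Ioi (0 : ℝ)),
        truncExpWeight (4 / 3 + ∑ i, a i * x i) * Real.exp (-∑ i, x i)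
      = iter (List.ofFn a) truncExpWeight (4 / 3) := by
  rw [restrict_orthant]
  exact bridge_M N a _ g_cont 1 g_abs_le _

/-- The upper bound for the integrals. -/
lemma upper (N : ℕ) (a : Fin N → ℝ) (ha : ∑ i, a i = 0) :
    ∫ x in Set.pi Set.univ (fun _ : Fin N => Ioi (0 : ℝ)),
        truncExpWeight (4 / 3 + ∑ i, a i * x i) * Real.exp (-∑ i, x i)
      ≤ 1 - 4 / 9 * Real.exp (-(1 / 3)) := by
  rw [bridge]
  refine iter_bound _ ?_
  rw [List.sum_ofFn]
  exact ha

/-! ### The lower bound -/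

/-- Quadratic minorants along the iteration. -/
noncomputable def Qf (τ β K b v z : ℝ) : ℝ := τ + β * (z - b) - K * ((z - b) ^ 2 + v)

lemma integrableOn_sq_exp : IntegrableOn (fun s : ℝ => s ^ 2 * Real.exp (-s)) (Ioi 0) :=
  integrableOn_sq_mul_exp_neg

lemma integral_sq_exp : ∫ s in Ioi (0 : ℝ), s ^ 2 * Real.exp (-s) = 2 := by
  have h := Real.integral_rpow_mul_exp_neg_mul_Ioi (a := 3) (r := 1) (by norm_num) one_pos
  simp only [one_mul] at h
  have h2 : ∀ s ∈ Ioi (0 : ℝ), s ^ 2 * Real.exp (-s) = s ^ ((3 : ℝ) - 1) * Real.exp (-s) := by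
    intro s hs
    congr 1
    rw [show (3 : ℝ) - 1 = ((2 : ℕ) : ℝ) by norm_num, Real.rpow_natCast]
  rw [setIntegral_congr_fun measurableSet_Ioi h2, h]
  have : Real.Gamma 3 = 2 := by
    have := Real.Gamma_nat_eq_factorial 2
    norm_num at this
    simpa using this
  rw [this]
  norm_num

lemma T_Qf (τ β K b v q z : ℝ) :
    ∫ s in Ioi (0 : ℝ), Real.exp (-s) * Qf τ β K b v (z + -q * s) =
      Qf τ β K (b + q) (v + q ^ 2) z := by
  have h1 : ∀ s : ℝ, Real.exp (-s) * Qf τ β K b v (z + -q * s) =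
      (τ + β * (z - b) - K * ((z - b) ^ 2 + v)) * Real.exp (-s) +
      (-β * q + 2 * K * (z - b) * q) * (s * Real.exp (-s)) +
      (-K * q ^ 2) * (s ^ 2 * Real.exp (-s)) := by
    intro s
    simp only [Qf]
    ring
  simp_rw [h1]
  have hA : IntegrableOn (fun s : ℝ => (τ + β * (z - b) - K * ((z - b) ^ 2 + v)) * Real.exp (-s) +
      (-β * q + 2 * K * (z - b) * q) * (s * Real.exp (-s))) (Ioi 0) :=
    (integrableOn_exp_neg.const_mul _).add (integrableOn_id_mul_exp_neg.const_mul _)
  rw [integral_add hA (integrableOn_sq_exp.const_mul _),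
    integral_add (integrableOn_exp_neg.const_mul _) (integrableOn_id_mul_exp_neg.const_mul _),
    integral_const_mul, integral_const_mul, integral_const_mul,
    integral_exp_neg, integral_id_mul_exp_neg, integral_sq_exp]
  simp only [Qf]
  ring

lemma Qf_step {τ β K b v q : ℝ} {h : ℝ → ℝ} (hc : Continuous h) {B : ℝ} (hB : ∀ y, |h y| ≤ B)
    (hQ : ∀ z, Qf τ β K b v z ≤ h z) (z : ℝ) :
    Qf τ β K (b + q) (v + q ^ 2) z ≤ T (-q) h z := by
  rw [← T_Qf]
  have h1 : IntegrableOn (fun s : ℝ => Real.exp (-s) * Qf τ β K b v (z + -q * s)) (Ioi 0) := by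
    have h2 : ∀ s : ℝ, Real.exp (-s) * Qf τ β K b v (z + -q * s) =
        (τ + β * (z - b) - K * ((z - b) ^ 2 + v)) * Real.exp (-s) +
        (-β * q + 2 * K * (z - b) * q) * (s * Real.exp (-s)) +
        (-K * q ^ 2) * (s ^ 2 * Real.exp (-s)) := by
      intro s
      simp only [Qf]
      ring
    simp_rw [h2]
    exact ((integrableOn_exp_neg.const_mul _).add
      (integrableOn_id_mul_exp_neg.const_mul _)).add (integrableOn_sq_exp.const_mul _)
  refine setIntegral_mono h1 (T_integrable hc (LinGrowth.of_bounded hB) _ _) (fun s => ?_)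
  exact mul_le_mul_of_nonneg_left (hQ _) (Real.exp_pos _).le

lemma Qf_iter (k : ℕ) {τ β K q : ℝ} : ∀ {b v : ℝ} {h : ℝ → ℝ}, Continuous h → ∀ {B : ℝ},
    (∀ y, |h y| ≤ B) → (∀ z, Qf τ β K b v z ≤ h z) → ∀ z,
    Qf τ β K (b + k * q) (v + k * q ^ 2) z ≤ iter (List.replicate k (-q)) h z := by
  induction k with
  | zero =>
    intro b v h _ B _ hQ z
    simpa [iter] using hQ z
  | succ k ih =>
    intro b v h hc B hB hQ z
    have hTc : Continuous (T (-q) h) := T_continuous hc (LinGrowth.of_bounded hB) _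
    have := ih (b := b + q) (v := v + q ^ 2) hTc (T_abs_le hB _) (Qf_step hc hB hQ) z
    rw [List.replicate_succ]
    simp only [iter]
    have e1 : b + q + k * q = b + ((k + 1 : ℕ) : ℝ) * q := by push_cast; ring
    have e2 : v + q ^ 2 + k * q ^ 2 = v + ((k + 1 : ℕ) : ℝ) * q ^ 2 := by push_cast; ring
    rw [e1, e2] at this
    exact this

/-- The minorant of `T 2 g`. -/
lemma T2_minorant (z : ℝ) :
    Qf (1 - 4 / 9 * Real.exp (-(1 / 3))) (-(2 / 9 * Real.exp (-(1 / 3)))) 2 (-(2 / 3)) 0 z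
      ≤ T 2 truncExpWeight z := by
  have hE : 0 < Real.exp (-(1 / 3)) := Real.exp_pos _
  have hE1 : Real.exp (-(1 / 3)) ≤ 1 := Real.exp_le_one_iff.2 (by norm_num)
  rcases le_or_gt z 0 with hz | hz
  · rw [T_g_nonpos (by norm_num) hz]
    set t := (z + 2 / 3) / 2 with ht
    have ht1 : t ≤ 1 := by rw [ht]; linarith
    have hzt : z = 2 * t - 2 / 3 := by rw [ht]; ring
    have hexp : Real.exp (z / 2) = Real.exp (-(1 / 3)) * Real.exp t := by
      rw [← Real.exp_add]
      congr 1
      rw [ht]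
      ring
    have hbound : Real.exp t - 1 - t ≤ t ^ 2 := by
      by_cases h1 : |t| ≤ 1
      · have := Real.abs_exp_sub_one_sub_id_le h1
        exact (le_abs_self _).trans this
      · have h2 : t < -1 := by
          rw [abs_le, not_and_or] at h1
          rcases h1 with h1 | h1
          · linarith
          · linarith
        have h3 : Real.exp t ≤ 1 := Real.exp_le_one_iff.2 (by linarith)
        nlinarith
    simp only [Qf]
    rw [hexp]
    have e0 : ((2 : ℝ) / (1 + 2)) ^ 2 = 4 / 9 := by norm_num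
    rw [e0]
    have e1 : z - -(2 / 3) = 2 * t := by rw [hzt]; ring
    rw [e1]
    nlinarith [mul_nonneg hE.le (sq_nonneg t), mul_le_mul_of_nonneg_left hbound hE.le]
  · rw [T_g_nonneg (by norm_num) hz.le]
    have hpos : 0 ≤ Real.exp (-z) * ((1 + z) / (1 + 2) + 2 / (1 + 2) ^ 2) := by positivity
    refine le_trans ?_ hpos
    simp only [Qf]
    have h1 : (2 / 3 : ℝ) ≤ z - -(2 / 3) := by linarith
    have h2 : (2 / 3 : ℝ) ^ 2 ≤ (z - -(2 / 3)) ^ 2 := by gcongr
    have h3 : 0 ≤ 2 / 9 * Real.exp (-(1 / 3)) * (z - -(2 / 3)) := by positivity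
    have h4 : (2 / 3 : ℝ) ≤ Real.exp (-(1 / 3)) := by
      have := Real.add_one_le_exp (-(1 / 3) : ℝ)
      linarith
    nlinarith

/-- The lower bound for a specific choice of weights. -/
lemma lower (n : ℕ) (hn : 0 < n) :
    1 - 4 / 9 * Real.exp (-(1 / 3)) - 8 / n ≤
    ∫ x in Set.pi Set.univ (fun _ : Fin (n + 1) => Ioi (0 : ℝ)),
        truncExpWeight (4 / 3 + ∑ i, (Fin.cons 2 (fun _ => -(2 / n)) : Fin (n + 1) → ℝ) i * x i)
          * Real.exp (-∑ i, x i) := by
  rw [bridge, List.ofFn_succ]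
  simp only [Fin.cons_zero, Fin.cons_succ, List.ofFn_const, iter]
  have hn' : (n : ℝ) ≠ 0 := by positivity
  have hTc : Continuous (T 2 truncExpWeight) := T_continuous g_cont g_growth _
  have := Qf_iter n (τ := 1 - 4 / 9 * Real.exp (-(1 / 3)))
    (β := -(2 / 9 * Real.exp (-(1 / 3)))) (K := 2) (q := 2 / n)
    (b := -(2 / 3)) (v := 0) hTc (T_abs_le g_abs_le _) T2_minorant (4 / 3)
  refine le_trans (le_of_eq ?_) this
  simp only [Qf]
  have e1 : (4 : ℝ) / 3 - (-(2 / 3) + n * (2 / n)) = 0 := by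
    field_simp
    ring
  rw [e1]
  have e2 : (n : ℝ) * (2 / n) ^ 2 = 4 / n := by
    field_simp
    ring
  rw [e2]
  ring

lemma sum_cons_zero (n : ℕ) (hn : 0 < n) :
    ∑ i, (Fin.cons 2 (fun _ => -(2 / n)) : Fin (n + 1) → ℝ) i = 0 := by
  have hn' : (n : ℝ) ≠ 0 := by positivity
  rw [Fin.sum_univ_succ]
  simp only [Fin.cons_zero, Fin.cons_succ, Finset.sum_const, Finset.card_univ, Fintype.card_fin,
    nsmul_eq_mul]
  field_simp
  ring

end Crest.Agent.Lib.TruncExp
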